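import Vale.Agent.P096.Pol

/-! Moving an amenable group of unitaries into a nearby algebra by a small similarity. -/

open Finset Vale.Agent.P104 Vale.Agent.P085 Filter Topology
open scoped InnerProductSpace

set_option linter.unusedSectionVars false

namespace Vale.Agent.P096

variable {K : Type*} [NormedAddCommGroup K] [InnerProductSpace ℂ K] [CompleteSpace K]

section wt
variable {ι : Type*} {l : Filter ι} {x x' : ι → Op K} {y y' : Op K}

lemma wt_sub (h : WT l x y) (h' : WT l x' y') : WT l (fun i => x i - x' i) (y - y') :=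
  fun ξ => WV.sub (h ξ) (h' ξ)
lemma wt_add (h : WT l x y) (h' : WT l x' y') : WT l (fun i => x i + x' i) (y + y') :=
  fun ξ => WV.add (h ξ) (h' ξ)
lemma wt_const (y : Op K) : WT l (fun _ => y) y := fun _ => WV.const _
lemma wt_norm [l.NeBot] (h : WT l x y) {b : ℝ} (h' : ∀ᶠ i in l, ‖x i‖ ≤ b) : ‖y‖ ≤ b :=
  y.opNorm_le_bound ((norm_nonneg _).trans h'.exists.choose_spec) fun ξ =>
    WV.le (h ξ) (h'.mono fun i hi => (x i).le_of_opNorm_le hi ξ)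
lemma wt_comm [l.NeBot] (h : WT l x y) {f : Op K} (h' : ∀ᶠ i in l, f * x i = x i * f) :
    f * y = y * f := by
  have := wt_norm (wt_sub (h.mul f 1) (h.mul 1 f)) (b := 0) (h'.mono fun i hi => by simp [hi])
  simpa [sub_eq_zero] using this

end wt

/-- the algebra `S⁻¹ N S` -/
def cj (S : (Op K)ˣ) (N : VonNeumannAlgebra K) : Subalgebra ℂ (Op K) where
  carrier := {x | S * x * ↑S⁻¹ ∈ N}
  mul_mem' {a b} ha hb := by
    simpa [mul_assoc] using mul_mem (show S * a * ↑S⁻¹ ∈ N from ha) (show S * b * ↑S⁻¹ ∈ N from hb)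
  add_mem' {a b} ha hb := by simpa [mul_add, add_mul] using add_mem ha hb
  algebraMap_mem' c := by simpa [Algebra.algebraMap_eq_smul_one] using smulM c (one_mem N)

variable {S W : (Op K)ˣ} {M N : VonNeumannAlgebra K} {x y : Op K} {δ r : ℝ}

lemma mem_cj : x ∈ cj S N ↔ S * x * ↑S⁻¹ ∈ N := Iff.rfl

lemma cj_of (h : x ∈ N) : ↑S⁻¹ * x * S ∈ cj S N := by simpa [mem_cj, mul_assoc] using h

lemma cj_comm (hx : x ∈ cj S N) (hy : y ∈ cj S N.commutant) : x * y = y * x := by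
  simpa [mul_assoc] using congr(↑S⁻¹ * $(commM hx hy) * S)

lemma cj_mem (h : ∀ y ∈ cj S N.commutant, y * x = x * y) : x ∈ cj S N := memM fun y hy => by
  simpa [mul_assoc] using congr(S * $(h _ (cj_of hy)) * ↑S⁻¹)

lemma cj_mul : x ∈ cj (S * W) N ↔ W * x * ↑W⁻¹ ∈ cj S N := by simp [mem_cj, mul_assoc]

lemma cj_fix (h : x ∈ cj S N) (h' : x * W = W * x) : x ∈ cj (S * W) N := by
  rwa [cj_mul, ← h', W.mul_inv_cancel_right]

/-- near inclusion -/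
def Nr {σ τ : Type*} [SetLike σ (Op K)] [SetLike τ (Op K)] (X : σ) (Y : τ) (δ : ℝ) : Prop :=
  ∀ x ∈ X, ∃ y ∈ Y, ‖x - y‖ ≤ δ * ‖x‖

lemma Nr.mono {σ τ : Type*} [SetLike σ (Op K)] [SetLike τ (Op K)] {X : σ} {Y : τ} {δ' : ℝ}
    (h : Nr X Y δ) (h' : δ ≤ δ') : Nr X Y δ' := fun x hx =>
  let ⟨y, a, b⟩ := h x hx; ⟨y, a, b.trans (by gcongr)⟩

lemma Nr.cj1 (h : Nr M N r) (hS : ‖(S : Op K) - 1‖ ≤ r) (hr : r ≤ 1 / 2) :
    Nr M (cj S N) (9 * r) := fun x hx => by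
  obtain ⟨y, a, b⟩ := h x hx
  have r0 := (norm_nonneg _).trans hS
  have c := norm_sub_le_of_le b (conj_un hS hr y).2
  have d := nle' (norm_sub_rev x y ▸ b) (le_refl ‖x‖)
  rw [sub_sub, add_sub_cancel] at c
  refine ⟨_, cj_of a, c.trans ?_⟩
  have : r * ‖y‖ ≤ r * (2 * ‖x‖) := by gcongr; nlinarith [norm_nonneg x]
  linarith

lemma Nr.cj2 (h : Nr N M r) (hS : ‖(S : Op K) - 1‖ ≤ r) (hr : r ≤ 1 / 2) :
    Nr (cj S N) M (9 * r) := fun x hx => by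
  obtain ⟨y, a, b⟩ := h _ hx
  have r0 := (norm_nonneg _).trans hS
  have c := (conj_un hS hr x).1
  have d := nle' c (le_refl ‖x‖)
  have e := norm_sub_le_of_le b c
  rw [sub_sub_sub_cancel_left] at e
  refine ⟨_, a, e.trans ?_⟩
  have : r * ‖S * x * ↑S⁻¹‖ ≤ r * (3 * ‖x‖) := by gcongr; nlinarith [norm_nonneg x]
  nlinarith [mul_nonneg r0 (norm_nonneg x)]

variable {U : Type*} [Group U]

lemma ex_comm' {σ : Pr U} {F : U → Op K} (h : σ.All fun g => y * F g = F g * y) :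
    y * σ.ex F = σ.ex F * y := by
  rw [Pr.mul_ex, Pr.ex_mul', Pr.ex_congr h]

lemma am_step {m : ℕ → Pr U} {G : U → Prop} (G1 : ∀ k, (m k).All G)
    (G2 : ∀ g, G g → ∀ᶠ k in atTop, (m k).Iv g) (G3 : ∀ g h, G g → G h → G (g * h))
    (α : U →* Op K) (hα : ∀ g, ‖α g‖ ≤ 1) {t : ℝ} (t0 : 0 < t) (t1 : t ≤ 1 / 32)
    (h : ∀ g, G g → ∃ n ∈ cj S N, ‖n - α g‖ ≤ t) :
    ∃ W : (Op K)ˣ, ‖(W : Op K) - 1‖ ≤ t ∧
      (∀ f ∈ cj S N.commutant, (∀ g, G g → f * α g⁻¹ = α g⁻¹ * f) → f * W = W * f) ∧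
      ∀ g, G g → ∃ n ∈ cj (S * W) N, ‖n - α g‖ ≤ t / 2 := by
  choose! n n1 n2 using h
  have i1 : ∀ g, α g * α g⁻¹ = 1 := fun g => by rw [← map_mul, mul_inv_cancel, map_one]
  have i2 : ∀ g, α g⁻¹ * α g = 1 := fun g => by rw [← map_mul, inv_mul_cancel, map_one]
  have w1 : ∀ g, G g → ‖n g * α g⁻¹ - 1‖ ≤ t := fun g hg => by
    simpa [sub_mul, i1] using nle (n2 g hg) (hα g⁻¹)
  have U1 := Nat.hyperfilter_le_atTop
  obtain ⟨Z, z1, z2⟩ := wlim (hyperfilter ℕ) (fun k => (m k).ex fun g => n g * α g⁻¹ - 1) t0.le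
    fun k => Pr.norm_ex ((G1 k).mono w1)
  obtain ⟨W, hW⟩ := exists_un (W := Z + 1) (by rw [add_sub_cancel_right]; linarith)
  have z3 : ‖(W : Op K) - 1‖ ≤ t := by rwa [hW, add_sub_cancel_right]
  refine ⟨W, z3, fun f f1 f2 => ?_, fun γ hγ => ?_⟩
  · rw [hW, mul_add, add_mul, mul_one, one_mul, wt_comm z2 (.of_forall fun k => ex_comm'
      ((G1 k).mono fun g hg => by
        rw [mul_sub, sub_mul, ← mul_assoc, ← cj_comm (n1 g hg) f1, mul_assoc, f2 g hg, mul_assoc,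
          mul_one, one_mul]))]
  have : ∀ g, G g → ∃ A ∈ cj S N, ‖A - α γ‖ ≤ 4 * t ∧ A * n g = n (γ * g) := fun g hg => by
    obtain ⟨V, hV⟩ := exists_un ((w1 g hg).trans (by linarith))
    have v1 := inv_near (hV ▸ w1 g hg) (by linarith)
    have v2 : n g = V * α g := by rw [hV, mul_assoc, i2, mul_one]
    have v3 : α g⁻¹ * ↑V⁻¹ * n g = 1 := by rw [v2, mul_assoc, V.inv_mul_cancel_left, i2]
    have v4 : n g * (α g⁻¹ * ↑V⁻¹) = 1 := by rw [← mul_assoc, ← hV, V.mul_inv]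
    refine ⟨n (γ * g) * (α g⁻¹ * ↑V⁻¹), mul_mem (n1 _ (G3 _ _ hγ hg)) (cj_mem fun y hy => ?_), ?_,
      by rw [mul_assoc, v3, mul_one]⟩
    · rw [← one_mul (y * _), ← v3, mul_assoc, ← mul_assoc (n g), cj_comm (n1 g hg) hy,
        mul_assoc y, v4, mul_one]
    · have := norm_add_le_of_le (nle (n2 _ (G3 _ _ hγ hg)) (nle (hα g⁻¹) (nle' v1 P096.n1)))
        (nle (hα γ) v1)
      refine le_of_eq_of_le (congrArg _ ?_) (this.trans (by nlinarith))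
      rw [map_mul, sub_mul, mul_assoc, ← mul_assoc (α g), i1, one_mul, mul_sub, mul_one]; abel
  choose! A a1 a2 a3 using this
  obtain ⟨D, d1, d2⟩ := wlim (hyperfilter ℕ) (fun k => (m k).ex fun g => A g - α γ) (by positivity)
    fun k => Pr.norm_ex ((G1 k).mono a2)
  have d3 : D + α γ ∈ cj S N := cj_mem fun y hy => wt_comm (wt_add d2 (wt_const _))
    (.of_forall fun k => by
      simp only [Pr.ex_sub, Pr.ex_const, sub_add_cancel]
      exact ex_comm' ((G1 k).mono fun g hg => (cj_comm (a1 g hg) hy).symm))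
  have d4 := wt_norm (wt_sub (wt_sub (z2.mul 1 (α γ)) d2) (z2.mul (α γ) 1)) (b := 4 * t * t)
    (U1 ((G2 γ hγ).mono fun k hk => by
      rw [← hk.l fun g => n g * α g⁻¹ - 1]
      conv_lhs => enter [1, 2]; rw [hk.l fun g => n g * α g⁻¹ - 1]
      simp only [one_mul, mul_one, Pr.mul_ex, Pr.ex_mul', ← Pr.ex_sub]
      refine Pr.norm_ex ((G1 k).mono fun g hg => le_of_eq_of_le (congrArg _ ?_)
        (nle (a2 g hg) (w1 g hg)))
      rw [← a3 g hg, mul_inv_rev, map_mul, sub_mul, mul_assoc, mul_assoc, mul_assoc, i2]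
      noncomm_ring))
  refine ⟨↑W⁻¹ * (D + α γ) * W, by simpa [cj_mul, mul_assoc] using d3, ?_⟩
  have := nle (nle' (inv_near z3 (by linarith)) P096.n1) (norm_sub_le_of_le (nle d1 z1) d4)
  refine le_of_eq_of_le (congrArg _ ?_) (this.trans (by
    nlinarith [mul_pos t0 t0, mul_nonneg (mul_pos t0 t0).le (sub_nonneg.2 t1)]))
  nth_rewrite 2 [← W.inv_mul_cancel_left (α γ)]
  rw [mul_assoc, ← mul_sub, hW]
  noncomm_ring

theorem am {m : ℕ → Pr U} {G : U → Prop} (G1 : ∀ k, (m k).All G)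
    (G2 : ∀ g, G g → ∀ᶠ k in atTop, (m k).Iv g) (G3 : ∀ g h, G g → G h → G (g * h))
    (α : U →* Op K) (hα : ∀ g, ‖α g‖ ≤ 1) {t r : ℝ} (t0 : 0 < t) (t1 : t ≤ 1 / 32)
    (hS : ‖(S : Op K) - 1‖ ≤ r) (hr : r ≤ 1 / 4) (F : Set (Op K))
    (hF : ∀ f ∈ F, ∀ g, f * α g = α g * f) (hF' : ∀ f ∈ F, f ∈ cj S N.commutant)
    (h : ∀ g, G g → ∃ n ∈ cj S N, ‖n - α g‖ ≤ t) :
    ∃ T : (Op K)ˣ, ‖(T : Op K) - 1‖ ≤ r + 4 * t ∧ (∀ f ∈ F, f ∈ cj T N.commutant) ∧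
      ∀ g, G g → α g ∈ cj T N := by
  obtain ⟨T, R, h1, h2, h3⟩ := newton (fun S t => (∀ f ∈ F, f ∈ cj S N.commutant) ∧
    ∀ g, G g → ∃ n ∈ cj S N, ‖n - α g‖ ≤ t) (C := 2) (r := r + 4 * t) (by norm_num) t0
    (by linarith) (fun S s s0 s1 s2 ⟨s3, s4⟩ => by
      obtain ⟨W, w1, w2, w3⟩ := am_step G1 G2 G3 α hα s0 (s1.trans t1) s4
      refine ⟨S * W, ?_, fun f hf => cj_fix (s3 f hf) (w2 f (s3 f hf) fun g _ => hF f hf _), w3⟩
      have := nle (nle' s2 n1) w1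
      rw [mul_sub, mul_one] at this
      exact this.trans (by gcongr; linarith)) hS (by linarith) ⟨hF', h⟩
  refine ⟨T, h1, fun f hf => (vn_cl N.commutant).mem_of_tendsto (h2 _ f tendsto_const_nhds).1
    (.of_forall fun n => (h3 n).1 f hf), fun g hg => ?_⟩
  choose n n1 n2 using fun k => (h3 k).2 g hg
  refine (vn_cl N).mem_of_tendsto (h2 n _ ?_).1 (.of_forall n1)
  rw [tendsto_iff_norm_sub_tendsto_zero]
  refine squeeze_zero (fun _ => norm_nonneg _) n2 ?_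
  simpa using (tendsto_pow_atTop_nhds_zero_of_lt_one (r := (1 / 2 : ℝ)) (by norm_num)
    (by norm_num)).const_mul t

end Vale.Agent.P096
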