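import Vale.Agent.P096.Vec

/-! Amplification, induction and reduction to the standard form. -/

open Finset Vale.Agent.P104 Vale.Agent.P085 Filter Topology ContinuousLinearMap
open scoped InnerProductSpace InnerProduct

set_option linter.unusedSectionVars false

namespace Vale.Agent.P096

universe u
variable {H : Type u} [NormedAddCommGroup H] [InnerProductSpace ℂ H] [CompleteSpace H]
  {G : Type*} [NormedAddCommGroup G] [InnerProductSpace ℂ G] [CompleteSpace G]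
  {K : Type*} [NormedAddCommGroup K] [InnerProductSpace ℂ K] [CompleteSpace K]
  {M N : VonNeumannAlgebra H}

/-- amplification as a star homomorphism -/
noncomputable def ampH {I : Type*} [Fintype I] [DecidableEq I] {J : I → H →L[ℂ] G}
    (hJ : Fam J 1) : Op H →⋆ₐ[ℂ] Op G where
  toFun := amp J
  map_one' := hJ.amp_one
  map_mul' a b := hJ.amp_mul (by simp)
  map_zero' := by simp [amp]
  map_add' a b := by ext; simp [amp_apply, sum_add_distrib]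
  commutes' c := by
    ext ψ
    simp [amp_apply, Algebra.algebraMap_eq_smul_one, ← smul_sum, hJ.sum]
  map_star' a := (amp_star J a).symm

lemma exists_cmp {A : Type*} [CStarAlgebra A] (ρ : A →⋆ₐ[ℂ] Op G) (V : K →L[ℂ] G)
    (h1 : ∀ ζ, (V†) (V ζ) = ζ) (h2 : ∀ x ζ, V ((V†) (ρ x (V ζ))) = ρ x (V ζ)) :
    ∃ π : A →⋆ₐ[ℂ] Op K, ∀ x ζ, π x ζ = (V†) (ρ x (V ζ)) :=
  ⟨{ toFun := fun x => V† ∘L ρ x ∘L V
     map_one' := by ext; simp [h1]
     map_mul' := fun a b => by ext; simp [h2]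
     map_zero' := by simp
     map_add' := fun a b => by ext; simp
     commutes' := fun c => by ext; simp [Algebra.algebraMap_eq_smul_one, h1]
     map_star' := fun a => by
       simp only [map_star, star_eq_adjoint, adjoint_comp, adjoint_adjoint, comp_assoc] },
    fun _ _ => rfl⟩

lemma ind (π : MA M →⋆ₐ[ℂ] Op K) {ι : Type*} (A : ι → K →L[ℂ] H)
    (hA : ∀ i x ζ, A i (π x ζ) = x.1 (A i ζ)) (sep : ∀ ζ, (∀ i, A i ζ = 0) → ζ = 0) :
    ∃ P : VonNeumannAlgebra K, ∀ T, T ∈ P ↔ ∃ x, π x = T := by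
  refine ⟨(vnOf (Set.range π)).commutant, fun T => ⟨fun hT => ?_, fun h => mem_vnOf_comm h⟩⟩
  suffices h : ∀ T, T ∈ Submodule.span ℂ (SetLike.coe (unitary (MA (vnOf (Set.range π)).commutant))) →
      ∃ x, π x = T.1 from h ⟨T, hT⟩ (by rw [CStarAlgebra.span_unitary]; trivial)
  intro T hT
  induction hT using Submodule.span_induction with
  | zero => exact ⟨0, map_zero _⟩
  | add a b _ _ ha hb =>
    obtain ⟨x, hx⟩ := ha
    obtain ⟨y, hy⟩ := hb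
    exact ⟨x + y, by simp [hx, hy]⟩
  | smul c a _ ha =>
    obtain ⟨x, hx⟩ := ha
    exact ⟨c • x, by simp [hx]⟩
  | mem T hT =>
  let S : Set (H × H) := {z | ∃ B : K →L[ℂ] H, (∀ x ζ, B (π x ζ) = x.1 (B ζ)) ∧
    ∃ ζ, z = (B ζ, B (T.1 ζ))}
  have k : ∀ z ∈ Submodule.span ℂ S, ∀ w ∈ Submodule.span ℂ S, ⟪z.1, w.1⟫_ℂ = ⟪z.2, w.2⟫_ℂ :=
    fun z hz w hw => by
      refine Submodule.span_induction₂ (p := fun z w _ _ => ⟪z.1, w.1⟫_ℂ = ⟪z.2, w.2⟫_ℂ) ?_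
        (by simp) (by simp) (fun _ _ _ _ _ _ a b => by simp [inner_add_left, a, b])
        (fun _ _ _ _ _ _ a b => by simp [inner_add_right, a, b])
        (fun _ _ _ _ _ a => by simp [inner_smul_left, a])
        (fun _ _ _ _ _ a => by simp [inner_smul_right, a]) hz hw
      rintro _ _ ⟨B, hB, ζ, rfl⟩ ⟨B', hB', ζ', rfl⟩
      have c : ∀ x, π x * (B† ∘L B') = (B† ∘L B') * π x := fun x => by
        ext v
        refine ext_inner_left ℂ fun w => ?_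
        simp only [mul_apply_eq_comp, comp_apply, adjoint_inner_right, hB']
        rw [← inner_star_l, adjoint_inner_right, ← map_star, hB]
        exact inner_star_l _ _ _
      have c2 : (B†) (B' (T.1 ζ')) = T.1 ((B†) (B' ζ')) := congr($(commM (x := B† ∘L B')
        (mem_vnOf.2 (by rintro _ ⟨x, rfl⟩; exact ⟨c x, map_star π x ▸ c _⟩)) T.2) ζ')
      have c3 : ∀ v, star T.1 (T.1 v) = v := fun v => congr($(congrArg Subtype.val hT.1) v)
      simp only [← adjoint_inner_right B, c2]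
      rw [← inner_star_r, c3]
  obtain ⟨s, -, s1, -, -, -, s2⟩ := exists_pi (Submodule.span ℂ S) fun z hz => by
    rw [← sq_eq_sq₀ (norm_nonneg _) (norm_nonneg _), ← qf_one, ← qf_one]
    exact congrArg Complex.re (k z hz z hz)
  have k2 : ∀ y ∈ M.commutant, ∀ z ∈ Submodule.span ℂ S, (y z.1, y z.2) ∈ Submodule.span ℂ S :=
    fun y hy z hz => Submodule.span_le (p := (Submodule.span ℂ S).comap
      (y.toLinearMap.prodMap y.toLinearMap)) |>.2 (by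
        rintro _ ⟨B, hB, ζ, rfl⟩
        exact Submodule.subset_span ⟨y ∘L B, fun x ζ => by
          rw [comp_apply, hB]; exact congr($(commM x.2 hy) (B ζ)).symm, ζ, rfl⟩) hz
  refine ⟨⟨s, memM fun y hy => s2 y (k2 y hy) (k2 _ (star_mem hy))⟩, ?_⟩
  ext ζ
  refine sub_eq_zero.1 (sep _ fun i => ?_)
  rw [map_sub, hA, sub_eq_zero]
  exact (s1 _ (Submodule.subset_span ⟨A i, hA i, ζ, rfl⟩)).1

lemma proj_near {p b : Op G} (hp : IsStarProjection p) {κ : ℝ} (h : ‖p - b‖ ≤ κ) (κ1 : κ ≤ 1 / 100) :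
    ∃ u ∈ unitary (Op G), ‖u - 1‖ ≤ 64 * κ ∧ ∀ y, y * b = b * y → star y * b = b * star y →
      y * (u * p * star u) = u * p * star u * y := by
  obtain ⟨s, hs⟩ : ∃ s, s = 1 - (p + p) := ⟨_, rfl⟩
  have s1 : star s = s := by simp [hs, P104.pstar hp]
  have s2 : s * s = 1 := by
    simp only [hs, mul_sub, sub_mul, mul_add, add_mul, pidem hp, mul_one, one_mul]; abel
  have s3 : ‖s‖ ≤ 1 := unit_le1 ⟨by rwa [s1], by rwa [s1]⟩
  obtain ⟨c, hc⟩ : ∃ c, c = 1 - (b + star b) := ⟨_, rfl⟩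
  have c1 : star c = c := by simp [hc, add_comm]
  have c2 : ‖c - s‖ ≤ κ + κ := by
    have := norm_add_le_of_le h (show ‖star (p - b)‖ ≤ κ by rwa [norm_star])
    rwa [star_sub, P104.pstar hp, show p - b + (p - star b) = c - s by rw [hc, hs]; abel] at this
  obtain ⟨v, v1, q, v2, v3, v4, v5, -, v6⟩ := polar_near (W := s * c) (ε := 2 * κ) (by
    have := nle s3 c2
    rw [mul_sub, s2] at this; linarith) (by linarith)
  rw [star_mul, c1, s1, mul_assoc, ← mul_assoc s, s2, one_mul] at v5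
  obtain ⟨t, ht⟩ : ∃ t, t = c * ↑q⁻¹ := ⟨_, rfl⟩
  have t0 : t = s * v := by rw [ht, ← one_mul c, ← s2, mul_assoc s s, v2]; simp [mul_assoc]
  have t1 : star t = t := by
    rw [ht, star_mul, c1, inv_sa v3]
    exact (v5 c ((Commute.refl c).mul_left (Commute.refl c))).units_inv_left.eq
  have t2 : t * t = 1 := by
    nth_rewrite 1 [← t1]
    rw [t0, star_mul, s1, mul_assoc, ← mul_assoc s, s2, one_mul, v1.1]
  have w1 : (2 : ℂ)⁻¹ • (1 + t * s) * s = t * (2 : ℂ)⁻¹ • (1 + t * s) := by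
    simp [add_mul, mul_add, mul_assoc, s2, ← mul_assoc t t, t2, add_comm]
  obtain ⟨u, u1, r, u2, u3, -, u5, -, u6⟩ := polar_near (W := (2 : ℂ)⁻¹ • (1 + t * s)) (ε := 8 * κ)
    (by
      have := nle (nle s3 v6) s3
      rw [mul_sub, sub_mul, mul_one, s2, ← t0] at this
      rw [show (2 : ℂ)⁻¹ • (1 + t * s) - 1 = (2 : ℂ)⁻¹ • (t * s - 1) by module, norm_smul]
      simp; linarith) (by linarith)
  have w2 := u5 s (by
    have := congrArg star w1
    rw [star_mul, star_mul, s1, t1] at this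
    rw [Commute, SemiconjBy, mul_assoc, w1, ← mul_assoc, ← this, mul_assoc])
  have w3 : u * s * star u = t := by
    rw [u2, mul_assoc, w2.eq, ← mul_assoc, ← mul_assoc, r.mul_left_inj] at w1
    rw [w1, mul_assoc, u1.2, mul_one]
  refine ⟨u, u1, u6.trans_eq (by ring), fun y y1 y2 => ?_⟩
  have y3 : Commute c y := by
    have := congrArg star y2
    rw [star_mul, star_mul, star_star] at this
    rw [hc, Commute, SemiconjBy, mul_sub, sub_mul, mul_add, add_mul, y1, this, mul_one, one_mul]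
  have y4 : Commute t y := ht ▸ y3.mul_left (v5 y (y3.mul_left y3)).units_inv_left
  rw [← w3, hs, mul_sub, sub_mul, mul_one, u1.2, mul_add, add_mul, ← two_smul ℂ] at y4
  have := ((Commute.one_left y).sub_left y4).smul_left (2 : ℂ)⁻¹
  simpa [smul_smul] using this.eq.symm

theorem reduce [TrAlg (MA M)] (hfac : ∀ z ∈ M, (∀ x ∈ M, x * z = z * x) → ∃ c : ℂ, z = c • 1)
    {δ : ℝ} (n2' : Nr N M δ) (δ0 : 0 < δ) (δ1 : kk * δ ≤ 1 / 10 ^ 3) :
    ∃ (K : Type u) (_ : NormedAddCommGroup K) (_ : InnerProductSpace ℂ K) (_ : CompleteSpace K)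
      (π : MA M →⋆ₐ[ℂ] Op K) (σ : MA N →⋆ₐ[ℂ] Op K) (P Q : VonNeumannAlgebra K) (η : K),
      (∀ T, T ∈ P ↔ ∃ x, π x = T) ∧ (∀ T, T ∈ Q ↔ ∃ x, σ x = T) ∧ (∀ x, ‖π x η‖ = n2 x) ∧
      (DenseRange fun x => π x η) ∧
      ∀ x y, ‖π x - σ y‖ ≤ ‖x.1 - y.1‖ + 390 * (kk * δ) * ‖y‖ := by
  classical
  have : Nontrivial H := by
    by_contra h
    have := not_nontrivial_iff_subsingleton.1 h
    exact not_subsingleton_iff_nontrivial.2 (nontriv (MA M)) inferInstance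
  have k1 := kk1
  have k2 : δ ≤ kk * δ := by nlinarith
  obtain ⟨ι, _, ξ, hξ⟩ := exists_vecs hfac
  obtain ⟨G, _, _, _, J, hJ⟩ := exists_fam (IsStarProjection.one (Op H)) ι
  have o : ∀ x y ξ, ((J x)†) (J y ξ) = if x = y then ξ else 0 := hJ.orth
  obtain ⟨a, ha⟩ : ∃ a, a = ampH hJ := ⟨_, rfl⟩
  have a1 : ∀ T i ψ, ((J i)†) (a T ψ) = T (((J i)†) ψ) := fun T i ψ => ha ▸ hJ.adj_amp T i ψ
  have a2 : ∀ T, ‖a T‖ ≤ ‖T‖ := NonUnitalStarAlgHom.norm_apply_le a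
  obtain ⟨Ξ, hΞ⟩ : ∃ Ξ, Ξ = ∑ i, J i (ξ i) := ⟨_, rfl⟩
  have a3 : ∀ x : MA M, tr x = ⟪Ξ, a x.1 Ξ⟫_ℂ := fun x => by
    rw [← mul_one x, hξ, mul_one]
    nth_rewrite 1 [hΞ]
    simp only [sum_inner, ← adjoint_inner_right (J _), a1]
    simp [hΞ, o]
  obtain ⟨V, _, v1, v2, v3⟩ := cyc_proj (a.comp M.toStarSubalgebra.subtype) Ξ
  obtain ⟨b, b1, b2⟩ := comm_near (a.comp N.toStarSubalgebra.subtype).toAlgHom
    (fun x => (a2 _).trans (le_mul_of_one_le_left (norm_nonneg _) one_le_two)) V.starProjection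
    (ε := 2 * δ) (by positivity) fun x => by
      obtain ⟨y, y1, y2⟩ := n2' x.1 x.2
      refine le_of_eq_of_le (congrArg _ ?_) ((cle ((a2 _).trans y2)
        (proj_le1 (P := V.starProjection) isStarProjection_starProjection)).trans_eq (by change _ = _ * ‖x.1‖; ring))
      rw [map_sub, sub_mul, mul_sub, show a y * _ = _ * a y from v3 ⟨y, y1⟩,
        sub_sub_sub_cancel_right]; rfl
  obtain ⟨u, u1, u2, u3⟩ := proj_near isStarProjection_starProjection b2 (by linarith)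
  have q1 : ∀ ζ, (V.subtypeL†) (V.subtypeL ζ) = ζ := by simp [Submodule.adjoint_subtypeL]
  have q2 : ∀ ζ, V.subtypeL ((V.subtypeL†) ζ) = V.starProjection ζ := fun ζ => by
    rw [Submodule.adjoint_subtypeL]; rfl
  have q3 : ∀ ζ, V.starProjection (V.subtypeL ζ) = V.subtypeL ζ := fun ζ => by rw [← q2, q1]
  have q4 : ∀ ζ, star u (u ζ) = ζ := fun ζ => congr($(u1.1) ζ)
  have q5 : ∀ ζ, ((u ∘L V.subtypeL)†) ζ = (V.subtypeL†) (star u ζ) := fun ζ => by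
    rw [adjoint_comp]; rfl
  have p0 : ∀ x ζ, V.subtypeL ((V.subtypeL†) ((a.comp M.toStarSubalgebra.subtype) x
      (V.subtypeL ζ))) = (a.comp M.toStarSubalgebra.subtype) x (V.subtypeL ζ) := fun x ζ => by
    rw [q2, ← mul_apply_eq_comp, ← v3, mul_apply_eq_comp, q3]
  have s0 : ∀ x ζ, (u ∘L V.subtypeL) (((u ∘L V.subtypeL)†) ((a.comp N.toStarSubalgebra.subtype) x
      ((u ∘L V.subtypeL) ζ))) = (a.comp N.toStarSubalgebra.subtype) x ((u ∘L V.subtypeL) ζ) :=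
    fun x ζ => by
      have := congr($(u3 (a x.1) (b1 x) (by rw [← map_star]; exact b1 (star x))) (u (V.subtypeL ζ)))
      simp only [mul_apply_eq_comp, q4, q3] at this
      rw [q5, comp_apply, q2]; exact this.symm
  obtain ⟨π, p1⟩ := exists_cmp _ _ q1 p0
  obtain ⟨σ, s1⟩ := exists_cmp _ _ (fun ζ => by rw [q5, comp_apply, q4, q1]) s0
  obtain ⟨P, hP⟩ := ind π (fun i => (J i)† ∘L V.subtypeL) (fun i x ζ => by
    rw [comp_apply, p1, p0]; exact a1 _ _ _) fun ζ h => by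
      rw [← q1 ζ, ← hJ.sum (V.subtypeL ζ)]; simp [show ∀ i, ((J i)†) (ζ : G) = 0 from h]
  obtain ⟨Q, hQ⟩ := ind σ (fun i => (J i)† ∘L u ∘L V.subtypeL) (fun i x ζ => by
    rw [comp_apply, s1, s0]; exact a1 _ _ _) fun ζ h => by
      rw [← q1 ζ, ← q4 (V.subtypeL ζ), ← hJ.sum (u (V.subtypeL ζ))]
      simp [show ∀ i, ((J i)†) (u ζ) = 0 from h]
  obtain ⟨η, hη⟩ : ∃ η : V, (η : G) = Ξ := ⟨⟨Ξ, by simpa using v1 1⟩, rfl⟩
  have p2 : ∀ x, (π x η : G) = a x.1 Ξ := fun x => by rw [← hη, p1]; exact p0 x η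
  have p3 : ∀ x, ‖π x η‖ = n2 x := fun x => by
    rw [← sq_eq_sq₀ (norm_nonneg _) (n2_nonneg _), n2_sq, a3, Submodule.coe_norm, p2, normsq_eq,
      ← map_star, ← map_mul]; rfl
  have p6 : DenseRange fun x => π x η := fun v => by
    rw [Topology.IsInducing.subtypeVal.closure_eq_preimage_closure_image, ← Set.range_comp]
    exact v2 (· ∈ closure (Set.range (Subtype.val ∘ fun x => π x η))) isClosed_closure
      (fun x => subset_closure ⟨x, p2 x⟩) _ v.2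
  have E : ∀ x y, ‖π x - σ y‖ ≤ ‖x.1 - y.1‖ + 390 * (kk * δ) * ‖y‖ := fun x y => by
    have e1 := norm_sub_le_of_le (a2 (x.1 - y.1)) ((conj_near (a := star u) (r := 64 * (kk * (2 * δ)))
      (by rwa [← norm_star, star_sub, star_star, star_one]) u2 (a y.1)).trans
      (mul_le_mul (show _ ≤ 390 * (kk * δ) by nlinarith) (a2 _) (norm_nonneg _) (by positivity)))
    refine opNorm_le_bound _ ((norm_nonneg _).trans e1) fun ζ => ?_
    rw [sub_apply, p1, s1, q5, ← map_sub, Submodule.adjoint_subtypeL]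
    refine (V.norm_orthogonalProjectionOnto_apply_le _).trans (le_of_eq_of_le (congrArg _ ?_)
      (ale e1 (le_refl ‖V.subtypeL ζ‖)))
    simp
  exact ⟨V, _, _, inferInstance, π, σ, P, Q, η, hP, hQ, p3, p6, E⟩

theorem pull {π : MA M →⋆ₐ[ℂ] Op K} {σ : MA N →⋆ₐ[ℂ] Op K} {P Q : VonNeumannAlgebra K}
    (hP : ∀ T, T ∈ P ↔ ∃ x, π x = T) (hQ : ∀ T, T ∈ Q ↔ ∃ x, σ x = T)
    (s2 : Function.Injective σ) {ε : ℝ} (ε0 : 0 < ε) (ε1 : kk * ε ≤ 1 / 10 ^ 3)
    (E1 : ∀ x : MA M, ∃ y : MA N, ‖x.1 - y.1‖ ≤ ε * ‖x‖ ∧ ‖π x - σ y‖ ≤ ε * ‖x‖) {T : (Op K)ˣ}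
    (t1 : ‖(T : Op K) - 1‖ ≤ ε) (t2 : ∀ x, x ∈ P ↔ T * x * ↑T⁻¹ ∈ Q) :
    ∃ u ∈ unitary (Op H), ‖u - 1‖ ≤ 48 * (kk * ε) ∧ ∀ x, x ∈ M ↔ u * x * star u ∈ N := by
  have s3 := NonUnitalStarAlgHom.norm_map σ s2
  have k2 : ε ≤ kk * ε := by nlinarith [kk1]
  choose θ hθ using fun x => (hQ _).1 ((t2 _).1 ((hP _).2 ⟨x, rfl⟩))
  let Θ : MA M →ₐ[ℂ] MA N :=
    { toFun := θ
      map_one' := s2 (by simp [hθ])
      map_mul' := fun x y => s2 (by simp [hθ, mul_assoc])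
      map_zero' := s2 (by simp [hθ])
      map_add' := fun x y => s2 (by simp [hθ, mul_add, add_mul])
      commutes' := fun c => s2 (by simp [hθ, Algebra.algebraMap_eq_smul_one]) }
  have θ1 : ∀ x, ‖(θ x).1 - x.1‖ ≤ 6 * ε * ‖x‖ := fun x => by
    obtain ⟨y, y1, y2⟩ := E1 x
    have e1 := norm_add_le_of_le (conj_un t1 (by linarith) (π x)).1 y2
    rw [sub_add_sub_cancel, ← hθ, ← map_sub, s3] at e1
    have e2 := norm_sub_le_of_le (show ‖(θ x).1 - y.1‖ ≤ _ from e1) y1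
    rw [sub_sub_sub_cancel_right] at e2
    nlinarith [mul_le_mul_of_nonneg_left (NonUnitalStarAlgHom.norm_apply_le π x) ε0.le]
  obtain ⟨R, r1, r2⟩ := der (N.toStarSubalgebra.subtype.toAlgHom.comp Θ)
    M.toStarSubalgebra.subtype.toAlgHom (fun x => (nle' (θ1 x) (le_refl ‖x‖)).trans (by
      nlinarith [norm_nonneg x])) (fun x => le_mul_of_one_le_left (norm_nonneg _) one_le_two)
    ((N.toStarSubalgebra.subtype.toAlgHom.comp Θ).toLinearMap -
      M.toStarSubalgebra.subtype.toAlgHom.toLinearMap) (fun x y => by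
      simp [mul_sub, sub_mul]) (by positivity) θ1
  have r3 : ‖1 - R - 1‖ ≤ 6 * (kk * ε) := by
    rw [sub_sub_cancel_left, norm_neg]; exact r1.trans_eq (by ring)
  obtain ⟨W, hW⟩ := exists_un (r3.trans (by linarith))
  have r4 : ∀ x, W * x.1 * ↑W⁻¹ = (θ x).1 := fun x => by
    have : (θ x).1 - x.1 = (θ x).1 * R - R * x.1 := r2 x
    rw [W.mul_inv_eq_iff_eq_mul, hW, mul_sub, sub_mul, mul_one, one_mul,
      sub_eq_sub_iff_sub_eq_sub, ← neg_inj, neg_sub, neg_sub, this]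
  obtain ⟨w, w1, w2, w3⟩ := gardner (M := M) (N := N) (hW ▸ r3) (by linarith) fun x =>
    ⟨fun hx => r4 ⟨x, hx⟩ ▸ (θ _).2, fun hx => by
      obtain ⟨z, hz⟩ := (hP _).1 ((t2 (↑T⁻¹ * σ ⟨_, hx⟩ * T)).2 ((hQ _).2
        ⟨⟨_, hx⟩, by simp [mul_assoc]⟩))
      have : θ z = ⟨_, hx⟩ := s2 (by simp [hθ, hz, mul_assoc])
      have := (r4 z).trans (congrArg Subtype.val this)
      rw [Units.mul_left_inj, Units.mul_right_inj] at this
      exact this ▸ z.2⟩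
  exact ⟨w, w1, by linarith, w3⟩

theorem kk_main [TrAlg (MA M)] (hfac : ∀ z ∈ M, (∀ x ∈ M, x * z = z * x) → ∃ c : ℂ, z = c • 1)
    (hinf : ¬ FiniteDimensional ℂ (MA M))
    (hsep : ∃ D : Set (MA M), D.Countable ∧ ∀ x, ∀ ε > 0, ∃ d ∈ D, n2 (x - d) < ε) {δ : ℝ}
    (n1 : Nr M N δ) (n2' : Nr N M δ) (δ0 : 0 < δ) (δ1 : kk ^ 3 * δ ≤ 1 / 10 ^ 50) :
    ∃ u ∈ unitary (Op H), ‖u - 1‖ ≤ 2 * 10 ^ 11 * (kk ^ 3 * δ) ∧
      ∀ x, x ∈ M ↔ u * x * star u ∈ N := by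
  have k1 := kk1
  have k2 : δ ≤ kk * δ := by nlinarith
  have k3 : kk * δ ≤ kk * (kk * δ) := by nlinarith
  have k5 : kk ^ 3 * δ = kk * (kk * (kk * δ)) := by ring
  have k4 : kk * (kk * δ) ≤ kk ^ 3 * δ := by nlinarith
  obtain ⟨V, _, _, _, π, σ, P, Q, η, hP, hQ, p3, p6, E⟩ := reduce hfac n2' δ0 (by linarith)
  have p4 : Function.Injective π := (injective_iff_map_eq_zero _).2 fun x hx =>
    n2_eq_zero (by rw [← p3, hx]; simp)
  have p5 := NonUnitalStarAlgHom.norm_map π p4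
  have s2 : Function.Injective σ := (injective_iff_map_eq_zero _).2 fun y hy => by
    obtain ⟨x, x1, x2⟩ := n2' y.1 y.2
    have e1 := E ⟨x, x1⟩ y
    rw [hy, sub_zero, p5, norm_sub_rev] at e1
    have e2 : ‖y‖ ≤ δ * ‖y‖ + ‖x‖ := nle' x2 le_rfl
    have e3 : ‖x‖ ≤ δ * ‖y‖ + 390 * (kk * δ) * ‖y‖ := e1.trans (add_le_add_left x2 _)
    exact norm_le_zero_iff.1 (by nlinarith [norm_nonneg y])
  have s3 := NonUnitalStarAlgHom.norm_map σ s2
  have E1 : ∀ x : MA M, ∃ y : MA N, ‖x.1 - y.1‖ ≤ δ * ‖x‖ ∧ ‖π x - σ y‖ ≤ 800 * (kk * δ) * ‖x‖ :=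
    fun x => by
      obtain ⟨y, y1, y2⟩ := n1 x.1 x.2
      refine ⟨⟨y, y1⟩, y2, (E _ _).trans ?_⟩
      have e2 : ‖y‖ ≤ δ * ‖x‖ + ‖x‖ := nle' (norm_sub_rev x.1 y ▸ y2) le_rfl
      have e3 : kk * δ * ‖y‖ ≤ kk * δ * (2 * ‖x‖) := by gcongr; nlinarith [norm_nonneg x]
      have e4 : δ * ‖x‖ ≤ kk * δ * ‖x‖ := by gcongr
      have e5 : ‖x.1 - y‖ ≤ δ * ‖x‖ := y2
      have e6 : 0 ≤ kk * δ * ‖x‖ := by positivity
      change ‖x.1 - y‖ + _ * ‖y‖ ≤ _
      linarith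
  obtain ⟨D, d1, d2⟩ := hsep
  have : TopologicalSpace.SeparableSpace V := ⟨(fun x => π x η) '' D, d1.image _,
    Metric.dense_iff.2 fun v ε ε0 => by
      obtain ⟨x, hx⟩ := p6.exists_dist_lt v (half_pos ε0)
      obtain ⟨d, e1, e2⟩ := d2 x _ (half_pos ε0)
      rw [← p3, map_sub, sub_apply, ← dist_eq_norm] at e2
      exact ⟨_, Metric.mem_ball'.2 (by linarith [dist_triangle v (π x η) (π d η)]), d, e1, rfl⟩⟩
  obtain ⟨T, t1, t2⟩ := std_kk (M := P) (N := Q) (ξ := η) (δ := 800 * (kk * δ)) ⟨fun x hx => by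
      obtain ⟨x, rfl⟩ := (hP x).1 hx
      rw [← map_star, p3, p3, n2_star], p6.mono (by
        rintro _ ⟨x, rfl⟩; exact ⟨⟨π x, (hP _).2 ⟨x, rfl⟩⟩, rfl⟩)⟩
    (by simpa using p3 1) (fun z hz h => by
      obtain ⟨z, rfl⟩ := (hP z).1 hz
      obtain ⟨c, hc⟩ := hfac z.1 z.2 fun x hx => congrArg Subtype.val (p4 (a₁ := ⟨x, hx⟩ * z)
        (a₂ := z * ⟨x, hx⟩) (by rw [map_mul, map_mul, h _ ((hP _).2 ⟨_, rfl⟩)]))
      exact ⟨c, by rw [show z = c • 1 from Subtype.ext hc]; simp⟩)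
    (fun h => hinf (FiniteDimensional.of_injective (π.toLinearMap.codRestrict
      P.toStarSubalgebra.toSubalgebra.toSubmodule fun x => (hP _).2 ⟨x, rfl⟩)
      fun x y h => p4 (congrArg Subtype.val h)))
    (fun x hx => by
      obtain ⟨x, rfl⟩ := (hP x).1 hx
      obtain ⟨y, -, h⟩ := E1 x
      exact ⟨_, (hQ _).2 ⟨y, rfl⟩, by rwa [p5]⟩)
    (fun y hy => by
      obtain ⟨y, rfl⟩ := (hQ y).1 hy
      obtain ⟨x, x1, x2⟩ := n2' y.1 y.2
      refine ⟨_, (hP _).2 ⟨⟨x, x1⟩, rfl⟩, ?_⟩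
      have := E ⟨x, x1⟩ y
      rw [norm_sub_rev, norm_sub_rev x] at this
      have e5 : ‖y.1 - x‖ ≤ δ * ‖y‖ := x2
      rw [s3]
      nlinarith [norm_nonneg y]) (by positivity) (by linarith)
  obtain ⟨w, w1, w2, w3⟩ := pull hP hQ s2 (ε := 4 * 10 ^ 6 * (kk * (800 * (kk * δ))))
    (by positivity) (by linarith) (fun x => by
      obtain ⟨y, y1, y2⟩ := E1 x
      exact ⟨y, y1.trans (mul_le_mul_of_nonneg_right (by linarith) (norm_nonneg _)),
        y2.trans (mul_le_mul_of_nonneg_right (by linarith) (norm_nonneg _))⟩) t1 t2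
  exact ⟨w, w1, by linarith, w3⟩

lemma nr_of {δ : ℝ} (h : Metric.hausdorffDist ((M : Set (Op H)) ∩ Metric.closedBall 0 1)
    ((N : Set (Op H)) ∩ Metric.closedBall 0 1) < δ) : Nr M N δ := fun x hx => by
  rcases eq_or_ne x 0 with rfl | x0
  · exact ⟨0, zero_mem _, by simp⟩
  have x1 := norm_pos_iff.2 x0
  obtain ⟨y, ⟨y1, -⟩, y2⟩ := Metric.exists_dist_lt_of_hausdorffDist_lt
    (x := ((‖x‖⁻¹ : ℝ) : ℂ) • x) (Set.mem_inter (smulM _ hx) (by simp [norm_smul, x0])) h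
    (Metric.hausdorffEDist_ne_top_of_nonempty_of_bounded ⟨0, zero_mem _, by simp⟩
      ⟨0, zero_mem _, by simp⟩ (Metric.isBounded_closedBall.subset Set.inter_subset_right)
      (Metric.isBounded_closedBall.subset Set.inter_subset_right))
  refine ⟨((‖x‖ : ℝ) : ℂ) • y, smulM _ y1, ?_⟩
  have : x = ((‖x‖ : ℝ) : ℂ) • ((‖x‖⁻¹ : ℝ) : ℂ) • x := by
    rw [smul_smul, ← Complex.ofReal_mul, mul_inv_cancel₀ x1.ne']; simp
  nth_rewrite 1 [this]
  rw [← smul_sub, norm_smul, Complex.norm_real, norm_norm, mul_comm, ← dist_eq_norm]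
  gcongr

lemma image_eq {u : Op H} (hu : u ∈ unitary (Op H)) (h : ∀ x, x ∈ M ↔ u * x * star u ∈ N) :
    (fun x => u * x * star u) '' (M : Set (Op H)) = N := by
  ext y
  refine ⟨by rintro ⟨x, hx, rfl⟩; exact (h x).1 hx, fun hy => ?_⟩
  have : u * (star u * y * u) * star u = y := by
    rw [← mul_assoc, ← mul_assoc, hu.2, one_mul, mul_assoc, hu.2, mul_one]
  exact ⟨_, (h _).2 (this.symm ▸ hy), this⟩

end Vale.Agent.P096
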