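import Mathlib

/-! Classical analysis: the strip integral, uniqueness and Plancherel for the Fourier transform,
Gaussian kernels. -/

open Filter Topology MeasureTheory Complex FourierTransform
open scoped Real ContDiff

set_option linter.unusedSectionVars false

namespace Vale.Agent.P096.Ana

lemma abs_le_sinh (x : ℝ) : |x| ≤ |Real.sinh x| := by
  rw [Real.abs_sinh]; exact Real.self_le_sinh_iff.2 (abs_nonneg x)

lemma sech : Integrable fun t : ℝ => (Real.cosh (π * t))⁻¹ := by
  refine integrable_inv_one_add_sq.mono' (by fun_prop) (.of_forall fun t => ?_)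
  rw [Real.norm_of_nonneg (inv_pos.2 (Real.cosh_pos _)).le]
  refine inv_anti₀ (by positivity) ?_
  have h1 := Real.cosh_two_mul (π * t / 2)
  have h2 := Real.cosh_sq (π * t / 2)
  have h3 := sq_le_sq.2 (abs_le_sinh (π * t / 2))
  rw [show 2 * (π * t / 2) = π * t by ring] at h1
  have h4 : 2 * 2 ≤ π * π := mul_self_le_mul_self zero_le_two Real.two_le_pi
  nlinarith [sq_nonneg t, mul_le_mul_of_nonneg_right h4 (sq_nonneg t)]

lemma uniq (φ : ℝ → ℂ) (h1 : Continuous φ) (h2 : Integrable φ)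
    (h : ∀ σ : ℝ, ∫ t : ℝ, cexp (I * σ * t) * φ t = 0) (t : ℝ) : φ t = 0 := by
  have e : 𝓕 φ = 0 := funext fun w => by
    rw [Real.fourier_real_eq_integral_exp_smul, Pi.zero_apply, ← h (-2 * π * w)]
    congr 1; funext v; rw [smul_eq_mul]; congr 2; push_cast; ring
  have := h1.fourierInv_fourier_eq h2 (e ▸ integrable_zero _ _ _)
  rw [← this, e, Real.fourierInv_eq]; simp

lemma shift {h : ℂ → ℂ} {C : ℝ} (hd : ∀ z : ℂ, |z.im| ≤ 1 / 2 → DifferentiableAt ℂ h z)
    (h1 : Integrable fun t : ℝ => h (t - I / 2)) (h2 : Integrable fun t : ℝ => h (t + I / 2))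
    (hb : ∀ z : ℂ, |z.im| ≤ 1 / 2 → 1 ≤ |z.re| → ‖h z‖ ≤ C / |z.re|) :
    ∫ t : ℝ, h (t - I / 2) = ∫ t : ℝ, h (t + I / 2) := by
  have a1 := intervalIntegral_tendsto_integral h1 tendsto_neg_atTop_atBot tendsto_id
  have a2 := intervalIntegral_tendsto_integral h2 tendsto_neg_atTop_atBot tendsto_id
  have v : ∀ s : ℝ, |s| = 1 →
      Tendsto (fun R : ℝ => ∫ y : ℝ in (-(1 / 2))..(1 / 2), h ((s * R : ℝ) + y * I)) atTop (𝓝 0) :=
    fun s hs => squeeze_zero_norm' (a := fun R => C / R * |1 / 2 - -(1 / 2 : ℝ)|)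
      ((eventually_ge_atTop 1).mono fun R hR => by
        refine intervalIntegral.norm_integral_le_of_norm_le_const fun y hy => ?_
        rw [Set.uIoc_of_le (by norm_num)] at hy
        have e : |((s * R : ℝ) + y * I : ℂ).re| = R := by
          simp [abs_mul, hs, abs_of_pos (one_pos.trans_le hR)]
        have := hb ((s * R : ℝ) + y * I) (by simpa using abs_le.2 ⟨hy.1.le, hy.2⟩) (e.symm ▸ hR)
        rwa [e] at this)
      (by simpa using (((tendsto_const_nhds (x := C)).div_atTop tendsto_id).mul_const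
        |1 / 2 - -(1 / 2 : ℝ)|))
  have := ((a1.sub a2).add ((v 1 abs_one).const_smul I)).sub ((v (-1) (by simp)).const_smul I)
  rw [smul_zero, add_zero, sub_zero] at this
  refine sub_eq_zero.1 (tendsto_nhds_unique this (tendsto_const_nhds.congr fun R => ?_))
  have := integral_boundary_rect_eq_zero_of_differentiableOn h (-R - I / 2) (R + I / 2)
    fun z hz => (hd z (by
      have := hz.2
      simp only [Set.mem_preimage, sub_im, neg_im, ofReal_im, div_ofNat_im, I_im, add_im] at this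
      rw [Set.uIcc_of_le (by norm_num)] at this
      exact abs_le.2 ⟨by linarith [this.1], by linarith [this.2]⟩)).differentiableWithinAt
  simp only [sub_im, neg_im, ofReal_im, div_ofNat_im, I_im, add_im, sub_re, neg_re, ofReal_re,
    div_ofNat_re, I_re, add_re, zero_div, sub_zero, add_zero, neg_zero, zero_sub, zero_add] at this
  rw [← this]
  simp only [id, one_mul, neg_mul]
  congr 4 <;> funext x <;> congr 1 <;> push_cast <;> ring

lemma sinh_le (z : ℂ) : |Real.sinh z.re| ≤ ‖sinh z‖ := by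
  have := abs_norm_sub_norm_le (cexp z) (cexp (-z))
  rw [norm_exp, norm_exp, neg_re] at this
  rw [Real.sinh_eq, Complex.sinh, abs_div, norm_div]
  simpa using div_le_div_of_nonneg_right this zero_le_two

lemma strip : ∃ c : ℝ, 0 < c ∧ ∀ (σ B : ℝ) (f : ℂ → ℂ), Differentiable ℂ f →
    (∀ z : ℂ, |z.im| ≤ 1 / 2 → ‖f z‖ ≤ B) →
    ∫ t : ℝ, cexp (I * σ * t) * ((Real.cosh (π * t))⁻¹ : ℝ) *
      (cexp (σ / 2) * f (t - I / 2) + cexp (-(σ / 2)) * f (t + I / 2)) = c * f 0 := by
  refine ⟨2 * ∫ t : ℝ, (Real.cosh (π * t))⁻¹, mul_pos two_pos (integral_pos_of_integrable_nonneg_nonzero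
    (x := 0) (Continuous.inv₀ (by fun_prop) fun _ => (Real.cosh_pos _).ne') sech
    (fun _ => (inv_pos.2 (Real.cosh_pos _)).le) (by simp)), fun σ B f hf hB => ?_⟩
  obtain ⟨g, hg⟩ : ∃ g : ℂ → ℂ, g = fun z => cexp (I * σ * z) * f z := ⟨_, rfl⟩
  obtain ⟨S, hS⟩ : ∃ S : ℂ → ℂ, S = fun z => sinh (π * z) := ⟨_, rfl⟩
  have gd : Differentiable ℂ g := by rw [hg]; fun_prop
  have Sd : Differentiable ℂ S := by rw [hS]; fun_prop
  have gc := gd.continuous
  have dd : ∀ {u : ℂ → ℂ}, Differentiable ℂ u → Differentiable ℂ (dslope u 0) := fun hu =>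
    differentiableOn_univ.1 ((differentiableOn_dslope univ_mem).2 hu.differentiableOn)
  have gb : ∀ z : ℂ, |z.im| ≤ 1 / 2 → ‖g z - g 0‖ ≤ Real.exp |σ| * B + ‖g 0‖ := fun z hz => by
    refine norm_sub_le_of_le ?_ le_rfl
    rw [hg, norm_mul, norm_exp]
    refine mul_le_mul (Real.exp_le_exp.2 ?_) (hB z hz) (norm_nonneg _) (Real.exp_pos _).le
    have := neg_le_abs (σ * z.im)
    rw [abs_mul] at this
    simp only [mul_re, I_re, ofReal_re, zero_mul, I_im, ofReal_im, mul_zero, sub_self, mul_im,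
      one_mul, zero_add, zero_sub]
    nlinarith [abs_nonneg σ]
  have S0 : ∀ z : ℂ, |z.im| ≤ 1 / 2 → z ≠ 0 → S z ≠ 0 := fun z hz z0 e => by
    rw [hS] at e
    have := sin_mul_I (π * z)
    rw [show sinh (π * z) = 0 from e, zero_mul, Complex.sin_eq_zero_iff] at this
    obtain ⟨k, hk⟩ := this
    have e2 : z = -k * I := mul_left_cancel₀ (ofReal_ne_zero.2 Real.pi_ne_zero) (by
      linear_combination (-I) * hk + π * z * I_mul_I)
    rw [e2] at hz z0
    have : |(k : ℝ)| < 1 := by simp at hz; linarith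
    have : k = 0 := Int.abs_lt_one_iff.1 (by exact_mod_cast this)
    simp [this] at z0
  have e : ∀ z ≠ 0, dslope g 0 z / dslope S 0 z = (g z - g 0) / S z := fun z hz => by
    rw [dslope_of_ne _ hz, dslope_of_ne _ hz, slope_def_field, slope_def_field, sub_zero z,
      div_div_div_cancel_right₀ hz, show S 0 = 0 by simp [hS], sub_zero]
  have c0 : ∀ t : ℝ, (Real.cosh (π * t) : ℂ) ≠ 0 := fun t => ofReal_ne_zero.2 (Real.cosh_pos _).ne'
  have n1 : ∀ t : ℝ, (t : ℂ) - I / 2 ≠ 0 := fun t h => by simpa using congrArg im h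
  have n2 : ∀ t : ℝ, (t : ℂ) + I / 2 ≠ 0 := fun t h => by simpa using congrArg im h
  have e1 : ∀ t : ℝ, dslope g 0 (t - I / 2) / dslope S 0 (t - I / 2) =
      I * ((g (t - I / 2) - g 0) * ((Real.cosh (π * t))⁻¹ : ℝ)) := fun t => by
    have : S (t - I / 2) = -I * Real.cosh (π * t) := by
      rw [hS]
      simp only
      rw [show π * (t - I / 2) = π * t - π / 2 * I by ring, sinh_sub, sinh_mul_I, cosh_mul_I]
      simp [mul_comm]
    rw [e _ (n1 t), this, ofReal_inv]
    have := c0 t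
    field_simp
    simp
  have e2 : ∀ t : ℝ, dslope g 0 (t + I / 2) / dslope S 0 (t + I / 2) =
      -I * ((g (t + I / 2) - g 0) * ((Real.cosh (π * t))⁻¹ : ℝ)) := fun t => by
    have : S (t + I / 2) = I * Real.cosh (π * t) := by
      rw [hS]
      simp only
      rw [show π * (t + I / 2) = π * t + π / 2 * I by ring, sinh_add, sinh_mul_I, cosh_mul_I]
      simp [mul_comm]
    rw [e _ (n2 t), this, ofReal_inv]
    have := c0 t
    field_simp
    simp
  have i1 : Integrable fun t : ℝ => (g (t - I / 2) - g 0) * ((Real.cosh (π * t))⁻¹ : ℝ) :=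
    sech.ofReal.bdd_mul (Continuous.aestronglyMeasurable (by fun_prop))
      (.of_forall fun t => gb _ (by simp [abs_of_pos]))
  have i2 : Integrable fun t : ℝ => (g (t + I / 2) - g 0) * ((Real.cosh (π * t))⁻¹ : ℝ) :=
    sech.ofReal.bdd_mul (Continuous.aestronglyMeasurable (by fun_prop))
      (.of_forall fun t => gb _ (by simp [abs_of_pos]))
  have k := shift (h := fun z => dslope g 0 z / dslope S 0 z) (C := Real.exp |σ| * B + ‖g 0‖)
    (fun z hz => (dd gd z).div (dd Sd z) (by
      rcases eq_or_ne z 0 with rfl | z0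
      · have : HasDerivAt S (cosh (π * 0) * (π * 1)) 0 := by
          rw [hS]; exact ((hasDerivAt_id (0 : ℂ)).const_mul (π : ℂ)).csinh
        rw [dslope_same, this.deriv]; simp
      · rw [dslope_of_ne _ z0, slope_def_field, show S 0 = 0 by simp [hS], sub_zero, sub_zero]
        exact div_ne_zero (S0 z hz z0) z0))
    (by simpa only [e1] using i1.const_mul I) (by simpa only [e2] using i2.const_mul (-I))
    fun z hz h1 => by
      have z0 : z ≠ 0 := by rintro rfl; norm_num at h1
      have := (abs_le_sinh _).trans (sinh_le (π * z))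
      rw [re_ofReal_mul, abs_mul, abs_of_pos Real.pi_pos] at this
      rw [e z z0, norm_div]
      refine div_le_div₀ ((norm_nonneg _).trans (gb z hz)) (gb z hz) (one_pos.trans_le h1) ?_
      rw [hS]
      nlinarith [Real.two_le_pi]
  simp only [e1, e2, integral_const_mul] at k
  have k2 : (∫ t : ℝ, (g (t - I / 2) - g 0) * ((Real.cosh (π * t))⁻¹ : ℝ)) +
      ∫ t : ℝ, (g (t + I / 2) - g 0) * ((Real.cosh (π * t))⁻¹ : ℝ) = 0 := by
    linear_combination (-I) * k + ((∫ t : ℝ, (g (t - I / 2) - g 0) * ((Real.cosh (π * t))⁻¹ : ℝ)) +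
      ∫ t : ℝ, (g (t + I / 2) - g 0) * ((Real.cosh (π * t))⁻¹ : ℝ)) * I_mul_I
  have k3 := integral_add (i1.add i2) ((sech.ofReal.mul_const (f 0)).const_mul ((2 : ℝ) : ℂ))
  rw [integral_add' i1 i2, k2, zero_add] at k3
  rw [ofReal_mul, ← integral_complex_ofReal, mul_assoc, ← integral_mul_const, ← integral_const_mul]
  refine (integral_congr_ae (.of_forall fun t => ?_)).trans k3
  have a1 : cexp (I * σ * (t - I / 2)) = cexp (I * σ * t) * cexp (σ / 2) := by
    rw [← exp_add]; congr 1; linear_combination (-(σ : ℂ) / 2) * I_mul_I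
  have a2 : cexp (I * σ * (t + I / 2)) = cexp (I * σ * t) * cexp (-(σ / 2)) := by
    rw [← exp_add]; congr 1; linear_combination ((σ : ℂ) / 2) * I_mul_I
  simp only [hg, a1, a2, mul_zero, exp_zero, Pi.add_apply, coe_algebraMap, ofReal_ofNat]
  ring

variable {H : Type*} [NormedAddCommGroup H] [InnerProductSpace ℂ H] [CompleteSpace H]

lemma l2sq {G : ℝ → H} (f : Lp H 2 (volume : Measure ℝ)) (h : f =ᵐ[volume] G) :
    Integrable (fun s => ‖G s‖ ^ 2) ∧ ∫ s, ‖G s‖ ^ 2 = ‖f‖ ^ 2 := by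
  have e : (fun s => ‖f s‖ ^ 2) =ᵐ[volume] fun s => ‖G s‖ ^ 2 := h.mono fun s hs => by simp [hs]
  refine ⟨((memLp_two_iff_integrable_sq_norm (Lp.aestronglyMeasurable f)).1
    (Lp.memLp f)).congr e, ?_⟩
  rw [← integral_congr_ae e, ← inner_self_eq_norm_sq (𝕜 := ℂ), L2.inner_def, ← integral_re
    (L2.integrable_inner f f)]
  simp only [inner_self_eq_norm_sq]

lemma planch (F : ℝ → H) (h1 : Continuous F) (h2 : Integrable F)
    (h3 : Integrable (fun s => ‖F s‖ ^ 2)) :
    Integrable (fun m : ℝ => ‖∫ s : ℝ, cexp (-(I * m * s)) • F s‖ ^ 2) ∧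
      ∫ m : ℝ, ‖∫ s : ℝ, cexp (-(I * m * s)) • F s‖ ^ 2 = 2 * π * ∫ s, ‖F s‖ ^ 2 := by
  have m := (memLp_two_iff_integrable_sq_norm h1.aestronglyMeasurable).2 h3
  have c : Continuous (𝓕 F) := VectorFourier.fourierIntegral_continuous
    Real.continuous_fourierChar (innerSL ℝ).continuous₂ h2
  have a : (𝓕 (m.toLp F) : Lp H 2 (volume : Measure ℝ)) =ᵐ[volume] 𝓕 F :=
    ae_eq_of_integral_contDiff_smul_eq ((Lp.memLp _).locallyIntegrable one_le_two)
      c.locallyIntegrable fun g g1 g2 => by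
        have k1 : HasCompactSupport (ofRealCLM ∘ g) := g2.comp_left rfl
        have k2 : ContDiff ℝ ∞ (ofRealCLM ∘ g) := by fun_prop
        have e := congr($(Lp.fourier_toTemperedDistribution_eq (m.toLp F)) (k1.toSchwartzMap k2))
        rw [TemperedDistribution.fourier_apply, Lp.toTemperedDistribution_apply,
          Lp.toTemperedDistribution_apply] at e
        have e2 := VectorFourier.integral_fourierIntegral_smul_eq_flip (L := innerₗ ℝ)
          Real.continuous_fourierChar continuous_inner ((k1.toSchwartzMap k2).integrable (μ := volume)) h2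
        rw [flip_innerₗ] at e2
        refine e.symm.trans (Eq.trans (integral_congr_ae ?_) e2)
        filter_upwards [m.coeFn_toLp] with x hx
        rw [hx]; rfl
  obtain ⟨b1, b2⟩ := l2sq _ a
  rw [Lp.norm_fourier_eq, ← (l2sq _ m.coeFn_toLp).2] at b2
  have p : (2 * π)⁻¹ ≠ 0 := by positivity
  have e : ∀ x : ℝ, ∫ s : ℝ, cexp (-(I * x * s)) • F s = 𝓕 F ((2 * π)⁻¹ * x) := fun x => by
    rw [Real.fourier_real_eq_integral_exp_smul]
    congr 1; funext v; congr 2
    have : (π : ℂ) ≠ 0 := ofReal_ne_zero.2 Real.pi_ne_zero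
    push_cast; field_simp
  simp only [e]
  refine ⟨b1.comp_mul_left' p, ?_⟩
  rw [Measure.integral_comp_inv_mul_left (fun w => ‖𝓕 F w‖ ^ 2), b2, abs_of_pos (by positivity),
    smul_eq_mul]

lemma gint {a : ℝ} (ha : 0 < a) (m : ℝ) (z : ℂ) :
    Integrable fun s : ℝ => cexp (-(a * (s - z) ^ 2) - I * m * (s - z)) := by
  refine (integrable_cexp_quadratic (b := a) (by simpa) (2 * a * z - I * m)
    (I * m * z - a * z ^ 2)).congr (.of_forall fun s => ?_)
  simp only; congr 1; ring

lemma rint {a : ℝ} (ha : 0 < a) (K : ℝ) :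
    Integrable fun s : ℝ => Real.exp (-a * s ^ 2 + K * |s|) := by
  have i : ∀ K : ℝ, Integrable fun s : ℝ => Real.exp (-a * s ^ 2 + K * s) := fun K =>
    (integrable_cexp_quadratic (b := a) (by simpa) K 0).norm.congr (.of_forall fun s => by
      simp only [norm_exp]; congr 1; norm_cast; simp)
  refine ((i K).add (i (-K))).mono' (by fun_prop) (.of_forall fun s => ?_)
  rw [Real.norm_of_nonneg (Real.exp_pos _).le, Pi.add_apply]
  rcases abs_cases s with h | h <;> rw [h.1]
  · exact le_add_of_nonneg_right (Real.exp_pos _).le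
  · rw [mul_neg, ← neg_mul]; exact le_add_of_nonneg_left (Real.exp_pos _).le

lemma gdiff {F : ℝ → H} {C a : ℝ} (m : ℝ) (h1 : Continuous F) (h2 : ∀ s, ‖F s‖ ≤ C) (ha : 0 < a) :
    Differentiable ℂ fun z : ℂ => ∫ s : ℝ, cexp (-(a * (s - z) ^ 2) - I * m * (s - z)) • F s := by
  have e : ∀ z : ℂ, ∫ s : ℝ, cexp (-(a * (s - z) ^ 2) - I * m * (s - z)) • F s =
      cexp (I * m * z - a * z ^ 2) • ∫ s : ℝ, cexp (2 * a * s * z - (a * s ^ 2 + I * m * s)) • F s :=
    fun z => by
      rw [← integral_smul]; congr 1; funext s; rw [smul_smul, ← exp_add]; congr 2; ring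
  simp only [e]
  refine Differentiable.smul (by fun_prop) fun z₀ => ?_
  have b : ∀ (s : ℝ) (z : ℂ), ‖z‖ ≤ ‖z₀‖ + 1 → ‖cexp (2 * a * s * z - (a * s ^ 2 + I * m * s))‖ ≤
      Real.exp (-a * s ^ 2 + 2 * a * (‖z₀‖ + 1) * |s|) := fun s z hz => by
    rw [norm_exp, Real.exp_le_exp, show 2 * a * s * z - (a * s ^ 2 + I * m * s) =
      (2 * a * s : ℝ) * z - ((a * s ^ 2 : ℝ) + (m * s : ℝ) * I) by push_cast; ring]
    have := (le_abs_self (s * z.re)).trans_eq (abs_mul _ _)
    have := mul_le_mul_of_nonneg_left ((abs_re_le_norm z).trans hz) (abs_nonneg s)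
    simp only [sub_re, add_re, re_ofReal_mul, ofReal_re, I_re]
    nlinarith
  refine (hasDerivAt_integral_of_dominated_loc_of_deriv_le (Metric.ball_mem_nhds z₀ one_pos)
    (F' := fun z (s : ℝ) => (cexp (2 * a * s * z - (a * s ^ 2 + I * m * s)) * (2 * a * s)) • F s)
    (bound := fun s => Real.exp (-a * s ^ 2 + (2 * a * (‖z₀‖ + 1) + 1) * |s|) * (2 * a * C))
    (.of_forall fun z => Continuous.aestronglyMeasurable (by fun_prop))
    (((rint ha (2 * a * (‖z₀‖ + 1))).mul_const C).mono'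
      (Continuous.aestronglyMeasurable (by fun_prop)) (.of_forall fun s => ?_))
    (Continuous.aestronglyMeasurable (by fun_prop)) (.of_forall fun s z hz => ?_)
    ((rint ha _).mul_const _) (.of_forall fun s z _ => ?_)).2.differentiableAt
  · rw [norm_smul]
    exact mul_le_mul (b s z₀ (by linarith)) (h2 s) (norm_nonneg _) (Real.exp_pos _).le
  · have hz : ‖z‖ ≤ ‖z₀‖ + 1 := by
      linarith [norm_le_insert' z z₀, mem_ball_iff_norm.1 hz]
    have e : ‖(2 * a * s : ℂ)‖ ≤ 2 * a * Real.exp |s| := by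
      rw [norm_mul, norm_mul, norm_real, norm_real, Real.norm_of_nonneg ha.le, Real.norm_eq_abs]
      have := Real.add_one_le_exp |s|
      simp only [Complex.norm_ofNat]; gcongr; linarith
    rw [norm_smul, norm_mul, add_mul _ 1, ← add_assoc, Real.exp_add, one_mul]
    refine (mul_le_mul (mul_le_mul (b s z hz) e (norm_nonneg _) (Real.exp_pos _).le) (h2 s)
      (norm_nonneg _) (by positivity)).trans_eq (by ring)
  · simpa using ((((hasDerivAt_id z).const_mul (2 * a * s : ℂ)).sub_const _).cexp).smul_const (F s)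

lemma gapx {F : ℝ → H} {C : ℝ} (h1 : Continuous F) (h2 : ∀ s, ‖F s‖ ≤ C) :
    Tendsto (fun n : ℕ => ∫ s : ℝ, ((√((n + 1) / π) : ℝ) * cexp (-((n + 1) * s ^ 2))) • F s)
      atTop (𝓝 (F 0)) := by
  have i : Integrable fun u : ℝ => (√π)⁻¹ * Real.exp (-1 * u ^ 2) :=
    (integrable_exp_neg_mul_sq one_pos).const_mul _
  have t : Tendsto (fun n : ℕ => (√((n : ℝ) + 1))⁻¹) atTop (𝓝 0) :=
    (Real.tendsto_sqrt_atTop.comp (tendsto_atTop_add_const_right _ 1
      tendsto_natCast_atTop_atTop)).inv_tendsto_atTop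
  have := tendsto_integral_of_dominated_convergence
    (F := fun (n : ℕ) (u : ℝ) => ((√π)⁻¹ * Real.exp (-1 * u ^ 2)) • F ((√((n : ℝ) + 1))⁻¹ * u))
    (f := fun u => ((√π)⁻¹ * Real.exp (-1 * u ^ 2)) • F 0) _
    (fun n => Continuous.aestronglyMeasurable (by fun_prop)) (i.mul_const C)
    (fun n => .of_forall fun u => by
      rw [norm_smul, Real.norm_of_nonneg (by positivity)]; gcongr; exact h2 _)
    (.of_forall fun u => ((h1.tendsto 0).comp (by simpa using t.mul_const u)).const_smul _)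
  rw [integral_smul_const, integral_const_mul, integral_gaussian, div_one,
    inv_mul_cancel₀ (by positivity), one_smul] at this
  refine this.congr fun n => ?_
  have p : 0 < √((n : ℝ) + 1) := by positivity
  have := Measure.integral_comp_inv_mul_left
    (fun s : ℝ => ((√π)⁻¹ * Real.exp (-1 * (√((n : ℝ) + 1) * s) ^ 2)) • F s) (√((n : ℝ) + 1))
  simp only [mul_inv_cancel_left₀ p.ne'] at this
  rw [this, ← integral_smul, abs_of_pos p]
  congr 1; funext s
  rw [smul_smul, ← coe_smul, mul_pow, Real.sq_sqrt (by positivity), Real.sqrt_div (by positivity)]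
  congr 1; push_cast; ring_nf

end Vale.Agent.P096.Ana
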