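import Vale.Agent.P096.Spec
import Vale.Agent.P096.Ana1

/-! Module B. -/

namespace Vale.Agent.P096

universe u

theorem stripStmt : StripStmt := Ana.strip

theorem sechStmt : SechStmt := Ana.sech

theorem uniqStmt : UniqStmt := Ana.uniq

theorem planch : PlanchStmt.{u} := fun _ _ _ _ => Ana.planch

theorem gauss : GaussStmt.{u} := fun _ _ _ _ _ _ _ m h1 h2 ha =>
  ⟨Ana.gint ha m, Ana.gdiff m h1 h2 ha, Ana.gapx h1 h2⟩

end Vale.Agent.P096
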