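import Vale.Agent.P096.Spec

/-! Small lemmas shared by the modules. -/

open Finset Vale.Agent.P104 Vale.Agent.P085 Filter Topology MeasureTheory Complex
open scoped InnerProductSpace InnerProduct

set_option linter.unusedSectionVars false

namespace Vale.Agent.P096

universe u

section near
variable {H : Type u} [NormedAddCommGroup H] [InnerProductSpace ℂ H] [CompleteSpace H]
  {M N : VonNeumannAlgebra H} {a u : Op H} {ε δ : ℝ}

lemma near_comm (ε0 : 0 < ε) (h : ∀ n ∈ N, ‖n * a - a * n‖ ≤ ε * ‖n‖) :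
    ∃ b ∈ N.commutant, ‖a - b‖ ≤ kk * ε := by
  obtain ⟨b, b1, b2⟩ := comm_near (A := MA N) N.toStarSubalgebra.subtype.toAlgHom
    (fun x => le_mul_of_one_le_left (norm_nonneg _) one_le_two) a ε0 fun x => h x.1 x.2
  exact ⟨b, VonNeumannAlgebra.mem_commutant_iff.2 fun x hx => b1 ⟨x, hx⟩, b2⟩

lemma near_comm' (ε0 : 0 < ε) (h : ∀ n ∈ N.commutant, ‖n * a - a * n‖ ≤ ε * ‖n‖) :
    ∃ b ∈ N, ‖a - b‖ ≤ kk * ε := by
  simpa only [VonNeumannAlgebra.commutant_commutant] using near_comm ε0 h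

lemma Cl.of (h1 : Nr M N δ) (h2 : Nr N M δ) (δ0 : 0 < δ) : Cl M N (2 * kk * δ) :=
  have i : δ ≤ 2 * kk * δ := by nlinarith [kk1]
  ⟨h1.mono i, h2.mono i, h2.comm δ0, h1.comm δ0⟩

lemma Cl.symm (h : Cl M N δ) : Cl N M δ := ⟨h.nm, h.mn, h.nm', h.mn'⟩

lemma Cl.comm (h : Cl M N δ) : Cl M.commutant N.commutant δ :=
  ⟨h.mn', h.nm', by simpa only [VonNeumannAlgebra.commutant_commutant] using h.mn,
    by simpa only [VonNeumannAlgebra.commutant_commutant] using h.nm⟩

lemma Cl.mono (h : Cl M N δ) (h' : δ ≤ ε) : Cl M N ε :=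
  ⟨h.mn.mono h', h.nm.mono h', h.mn'.mono h', h.nm'.mono h'⟩

lemma Cp.comm {p : Op H} (h : Cp M p) : Cp M.commutant p :=
  ⟨h.1, h.2.2, by simpa only [VonNeumannAlgebra.commutant_commutant] using h.2.1⟩

lemma conj_comm (hu : u ∈ unitary (Op H)) {x y : Op H} :
    y * (star u * x * u) = star u * x * u * y ↔ u * y * star u * x = x * (u * y * star u) := by
  have e1 : ∀ v, star u * (u * v) = v := fun v => by rw [← mul_assoc, hu.1, one_mul]
  have e2 : ∀ v, u * (star u * v) = v := fun v => by rw [← mul_assoc, hu.2, one_mul]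
  constructor <;> intro h
  · simpa [mul_assoc, e1, e2, hu.2] using congr(u * $h * star u)
  · simpa [mul_assoc, e1, e2, hu.1] using congr(star u * $h * u)

/-- the algebra `u M u*` -/
lemma exists_conj (M : VonNeumannAlgebra H) (hu : u ∈ unitary (Op H)) :
    ∃ M₁ : VonNeumannAlgebra H, (∀ x, x ∈ M₁ ↔ star u * x * u ∈ M) ∧
      ∀ x, x ∈ M₁.commutant ↔ star u * x * u ∈ M.commutant := by
  have e1 : ∀ v, star u * (u * v) = v := fun v => by rw [← mul_assoc, hu.1, one_mul]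
  have e2 : ∀ v, u * (star u * v) = v := fun v => by rw [← mul_assoc, hu.2, one_mul]
  have k : ∀ x, x ∈ vnOf {g | ∃ y ∈ M.commutant, g = u * y * star u} ↔ star u * x * u ∈ M :=
    fun x => ⟨fun h => memM fun y hy => (conj_comm hu).2 (mem_vnOf.1 h _ ⟨y, hy, rfl⟩).1,
      fun h => mem_vnOf.2 (by
        rintro _ ⟨y, hy, rfl⟩
        refine ⟨(conj_comm hu).1 (commM h hy).symm, ?_⟩
        simpa [mul_assoc] using (conj_comm hu).1 (commM h (star_mem hy)).symm)⟩
  refine ⟨_, k, fun x => ?_⟩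
  rw [VonNeumannAlgebra.mem_commutant_iff, VonNeumannAlgebra.mem_commutant_iff]
  refine ⟨fun h y hy => (conj_comm hu).2 (h _ ((k (u * y * star u)).2
    (by simpa [mul_assoc, e1, hu.1]))),
    fun h g hg => ?_⟩
  simpa [mul_assoc, e2, hu.2] using (conj_comm hu).1 (h _ ((k g).1 hg))

end near

variable {H K : Type*} [NormedAddCommGroup H] [InnerProductSpace ℂ H] [CompleteSpace H]
  [NormedAddCommGroup K] [InnerProductSpace ℂ K] [CompleteSpace K]

section wint

/-- bounded and strongly continuous -/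
structure SC (F : ℝ → Op H) (C : ℝ) : Prop where
  cont : ∀ v, Continuous fun s => F s v
  bd : ∀ s, ‖F s‖ ≤ C

open Classical in
/-- the strong integral `∫ k s • F s` -/
noncomputable def wint (k : ℝ → ℂ) (F : ℝ → Op H) : Op H :=
  if h : ∃ T : Op H, ∀ v, T v = ∫ s, k s • F s v then h.choose else 0

variable {F F' : ℝ → Op H} {C C' : ℝ} {k k' : ℝ → ℂ}

lemma SC.int (h : SC F C) (hk : Integrable k) (v : H) : Integrable fun s => k s • F s v :=
  (hk.norm.mul_const (C * ‖v‖)).mono' (hk.1.smul (h.cont v).aestronglyMeasurable)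
    (.of_forall fun s => by rw [norm_smul]; gcongr; exact (F s).le_of_opNorm_le (h.bd s) v)

lemma SC.int_le (h : SC F C) (hk : Integrable k) (v : H) :
    ‖∫ s, k s • F s v‖ ≤ C * (∫ s, ‖k s‖) * ‖v‖ := by
  refine (norm_integral_le_of_norm_le (hk.norm.mul_const (C * ‖v‖)) (.of_forall fun s => by
    rw [norm_smul]; gcongr; exact (F s).le_of_opNorm_le (h.bd s) v)).trans_eq ?_
  rw [integral_mul_const]; ring

lemma SC.apply (h : SC F C) (hk : Integrable k) (v : H) : wint k F v = ∫ s, k s • F s v := by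
  have : ∃ T : Op H, ∀ v, T v = ∫ s, k s • F s v :=
    ⟨LinearMap.mkContinuous
      { toFun := fun v => ∫ s, k s • F s v
        map_add' := fun v w => by
          simp only [map_add, smul_add]; exact integral_add (h.int hk v) (h.int hk w)
        map_smul' := fun c v => by
          simp only [map_smul, RingHom.id_apply, smul_comm _ c, integral_smul] } _ (h.int_le hk),
      fun _ => rfl⟩
  rw [wint, dif_pos this]; exact this.choose_spec v

lemma SC.norm (h : SC F C) (hk : Integrable k) : ‖wint k F‖ ≤ C * ∫ s, ‖k s‖ :=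
  ContinuousLinearMap.opNorm_le_bound _ (mul_nonneg ((norm_nonneg _).trans (h.bd 0))
    (integral_nonneg fun _ => norm_nonneg _)) fun v => (h.apply hk v).symm ▸ h.int_le hk v

lemma SC.inner (h : SC F C) (hk : Integrable k) (w v : H) :
    ⟪w, wint k F v⟫_ℂ = ∫ s, k s * ⟪w, F s v⟫_ℂ := by
  rw [h.apply hk, ← integral_inner (h.int hk v)]; simp only [inner_smul_right]

lemma SC.mul (h : SC F C) (a b : Op H) : SC (fun s => a * F s * b) (‖a‖ * C * ‖b‖) :=
  ⟨fun v => a.continuous.comp (h.cont (b v)), fun s => nle (nle le_rfl (h.bd s)) le_rfl⟩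

lemma SC.wint_mul (h : SC F C) (hk : Integrable k) (a b : Op H) :
    wint k (fun s => a * F s * b) = a * wint k F * b := by
  ext v
  rw [(h.mul a b).apply hk, mul_apply_eq_comp, mul_apply_eq_comp, h.apply hk,
    ← a.integral_comp_comm (h.int hk _)]
  simp

lemma SC.comm (h : SC F C) (hk : Integrable k) {y : Op H} (hy : ∀ s, y * F s = F s * y) :
    y * wint k F = wint k F * y := by
  have a := h.wint_mul hk y 1
  have b := h.wint_mul hk 1 y
  simp only [mul_one, one_mul] at a b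
  rw [← a, ← b]; simp only [hy]

lemma SC.mem (h : SC F C) (hk : Integrable k) {M : VonNeumannAlgebra H} (hM : ∀ s, F s ∈ M) :
    wint k F ∈ M := memM fun _ hy => h.comm hk fun s => (commM (hM s) hy).symm

lemma SC.star (h : SC F C) (h' : SC (fun s => star (F s)) C') (hk : Integrable k) :
    star (wint k F) = wint (fun s => (starRingEnd ℂ) (k s)) fun s => star (F s) := by
  ext v
  refine ext_inner_left ℂ fun w => ?_
  rw [inner_star_r, ← inner_conj_symm, h.inner hk, 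
    h'.inner (k := fun s => (starRingEnd ℂ) (k s))
      ((RCLike.conjCLE (K := ℂ)).integrable_comp_iff.2 hk), ← integral_conj]
  simp only [map_mul, inner_conj_symm, inner_star_r]

lemma SC.sub (h : SC F C) (hk : Integrable k) (hk' : Integrable k') :
    wint (fun s => k s - k' s) F = wint k F - wint k' F := by
  ext v
  rw [h.apply (k := fun s => k s - k' s) (hk.sub hk'), sub_apply, h.apply hk, h.apply hk',
    ← integral_sub (h.int hk v) (h.int hk' v)]
  simp only [sub_smul]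

end wint

section lin
variable {b x a u : Op H} {r s κ : ℝ}

lemma lin_conj (hu : u ∈ unitary (Op H)) (h1 : ‖u - 1‖ ≤ r) (hb : ‖b‖ ≤ s)
    (h : ‖lin b x (star u * a * u)‖ ≤ κ) :
    ‖lin (b + (u - 1)) x a‖ ≤ κ + (8 * r * s + 4 * r ^ 2 * (1 + 2 * s)) * ‖x‖ * ‖a‖ := by
  obtain ⟨g, rfl⟩ : ∃ g, u = 1 + g := ⟨u - 1, by abel⟩
  rw [add_sub_cancel_left] at h1 ⊢
  have g1 : ‖star g‖ ≤ r := by rwa [norm_star]
  obtain ⟨y, hy⟩ : ∃ y, y = x + (b * x - x * b) := ⟨_, rfl⟩
  have y1 : ‖y‖ ≤ (1 + 2 * s) * ‖x‖ :=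
    hy ▸ (norm_add_le_of_le le_rfl (cle hb (le_refl ‖x‖))).trans_eq (by ring)
  have e1 : star g = -g - g * star g := by
    have := hu.2
    rw [star_add, star_one] at this
    rw [← sub_eq_zero, ← sub_eq_zero.2 this]; noncomm_ring
  have e2 := nle (nle (unit_le1 hu) h) (unit_le1 (Unitary.star_mem hu))
  have e3 : (1 + g) * lin b x (star (1 + g) * a * (1 + g)) * star (1 + g) =
      (1 + g) * y * star (1 + g) * a - a * ((1 + g) * y * star (1 + g)) := by
    have : lin b x (star (1 + g) * a * (1 + g)) =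
      y * (star (1 + g) * a * (1 + g)) - star (1 + g) * a * (1 + g) * y := by
      rw [hy, lin]; noncomm_ring
    rw [this, mul_sub, sub_mul]
    simp only [← mul_assoc, hu.2, one_mul]
    rw [mul_assoc _ (1 + g) (star _), hu.2, mul_one]
  have e4 := cle (norm_add_le_of_le (norm_sub_le_of_le (cle h1 (cle hb (le_refl ‖x‖)))
    (nle y1 (nle h1 g1))) (nle (nle h1 y1) g1)) (le_refl ‖a‖)
  refine le_of_eq_of_le (congrArg _ ?_) ((norm_sub_le_of_le e2 e4).trans_eq (by ring))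
  have e5 : y * star g = -(y * g) - y * (g * star g) := by
    nth_rewrite 1 [e1]; noncomm_ring
  have e6 : (1 + g) * y * star (1 + g) = y + g * y - y * g - y * (g * star g) + g * y * star g := by
    rw [star_add, star_one, mul_add, mul_one, add_mul, add_mul, one_mul, e5]; abel
  rw [e3, e6, hy, lin]
  noncomm_ring

variable {ι : Type*}

/-- strong convergence on the range of `V` -/
def SV (l : Filter ι) (V : H →L[ℂ] K) (T : ι → Op K) (t : Op H) : Prop :=
  ∀ v, Tendsto (fun i => T i (V v)) l (𝓝 (V (t v)))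

lemma SV.app {l : Filter ι} {V : H →L[ℂ] K} {T : ι → Op K} {t : Op H} (h : SV l V T t) {B : ℝ}
    (hB : ∀ᶠ i in l, ‖T i‖ ≤ B) {f : ι → K} {v : H} (hf : Tendsto f l (𝓝 (V v))) :
    Tendsto (fun i => T i (f i)) l (𝓝 (V (t v))) := by
  have : Tendsto (fun i => T i (f i - V v)) l (𝓝 0) := squeeze_zero_norm'
    (hB.mono fun i hi => (T i).le_of_opNorm_le hi _) (by
      simpa using (hf.sub_const (V v)).norm.const_mul B)
  simpa using this.add (h v)

lemma lin_lim (U : Ultrafilter ι) (V : H →L[ℂ] K) (hV : ∀ v, (V†) (V v) = v) (b : ι → Op K) {C : ℝ}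
    (hb : ∀ i, ‖b i‖ ≤ C) : ∃ b₀ : Op H, ‖b₀‖ ≤ C ∧ ∀ (x a : Op H) (X A q : ι → Op K) (κ B : ℝ),
      (∀ᶠ i in U, ‖X i‖ ≤ B ∧ ‖A i‖ ≤ B ∧ star (q i) = q i ∧
        ‖q i * lin (b i) (X i) (A i) * q i‖ ≤ κ) → SV U V q 1 →
      SV U V X x → SV U V (fun i => star (X i)) (star x) →
      SV U V A a → SV U V (fun i => star (A i)) (star a) → ‖lin b₀ x a‖ ≤ κ := by
  have C0 : 0 ≤ C := (norm_nonneg _).trans (hb U.neBot.nonempty.some)
  obtain ⟨c, c1, c2⟩ := wlim U b C0 hb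
  have vv : ∀ v w, ⟪V w, V v⟫_ℂ = ⟪w, v⟫_ℂ := fun v w => by
    rw [← ContinuousLinearMap.adjoint_inner_right, hV]
  have vn : ∀ v, ‖V v‖ = ‖v‖ := fun v => by
    rw [← sq_eq_sq₀ (norm_nonneg _) (norm_nonneg _), ← qf_one, ← qf_one]
    exact congrArg re (vv v v)
  have V1 : ‖V‖ ≤ 1 := V.opNorm_le_bound zero_le_one fun v => by rw [vn, one_mul]
  refine ⟨V† ∘L c ∘L V, (ContinuousLinearMap.opNorm_comp_le _ _).trans ((mul_le_of_le_one_left
    (norm_nonneg _) (by simpa using V1)).trans ((ContinuousLinearMap.opNorm_comp_le _ _).trans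
    ((mul_le_of_le_one_right (norm_nonneg _) V1).trans c1))), ?_⟩
  intro x a X A q κ B h hq x1 x2 a1 a2
  have κ0 : 0 ≤ κ := (norm_nonneg _).trans h.exists.choose_spec.2.2.2
  have k : ∀ {f g : ι → K} {v w : H}, Tendsto f U (𝓝 (V v)) → Tendsto g U (𝓝 (V w)) →
      Tendsto (fun i => ⟪g i, b i (f i)⟫_ℂ) U (𝓝 ⟪w, (V† ∘L c ∘L V) v⟫_ℂ) := by
    intro f g v w hf hg
    have t1 : Tendsto (fun i => b i (f i - V v)) U (𝓝 0) := squeeze_zero_norm
      (fun i => (b i).le_of_opNorm_le (hb i) _) (by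
        simpa using (hf.sub_const (V v)).norm.const_mul C)
    have t2 : Tendsto (fun i => ⟪g i - V w, b i (V v)⟫_ℂ) U (𝓝 0) := squeeze_zero_norm
      (fun i => (norm_inner_le_norm _ _).trans (mul_le_mul_of_nonneg_left
        ((b i).le_of_opNorm_le (hb i) _) (norm_nonneg _))) (by
        simpa using (hg.sub_const (V w)).norm.mul_const (C * ‖V v‖))
    simpa [inner_sub_left, inner_sub_right, ContinuousLinearMap.adjoint_inner_right] using
      ((hg.inner (𝕜 := ℂ) t1).add t2).add (c2 (V v) (V w))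
  have bx := h.mono fun _ h => h.1
  have ba := h.mono fun _ h => h.2.1
  have bx' : ∀ᶠ i in U, ‖star (X i)‖ ≤ B := by simpa using bx
  have ba' : ∀ᶠ i in U, ‖star (A i)‖ ≤ B := by simpa using ba
  refine ContinuousLinearMap.opNorm_le_bound _ κ0 fun v => ?_
  obtain ⟨w, hw⟩ : ∃ w, w = lin (V† ∘L c ∘L V) x a v := ⟨_, rfl⟩
  have f := hq v
  have g := hq w
  have t := (((g.inner (𝕜 := ℂ) (x1.app bx (a1.app ba f))).sub (g.inner (a1.app ba (x1.app bx f)))).add
    (((k (x1.app bx (a1.app ba f)) g).sub (k (a1.app ba f) (x2.app bx' g))).sub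
    ((k (x1.app bx f) (a2.app ba' g)).sub (k f (x2.app bx' (a2.app ba' g)))))).norm
  have := le_of_tendsto t (b := ‖w‖ * (κ * ‖v‖)) (h.mono fun i ⟨_, _, h3, h4⟩ => by
    have := (norm_inner_le_norm (𝕜 := ℂ) (V w) _).trans (mul_le_mul_of_nonneg_left
      ((q i * lin (b i) (X i) (A i) * q i).le_of_opNorm_le h4 (V v)) (norm_nonneg _))
    rw [vn, vn] at this
    refine le_of_eq_of_le (congrArg _ ?_) this
    rw [mul_apply_eq_comp, mul_apply_eq_comp, ← inner_star_l (q i), h3]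
    simp [lin, inner_star_l, inner_sub_right, inner_add_right])
  have e : ⟪w, w⟫_ℂ = ⟪w, lin (V† ∘L c ∘L V) x a v⟫_ℂ := by rw [← hw]
  rw [vv, vv] at this
  simp only [inner_star_l, one_apply_eq_self] at this
  have e2 : ‖⟪w, w⟫_ℂ‖ ≤ ‖w‖ * (κ * ‖v‖) := by
    rw [e]
    refine le_of_eq_of_le (congrArg _ ?_) this
    simp [lin, inner_sub_right, inner_add_right]
  rw [inner_self_eq_norm_sq_to_K, norm_pow, RCLike.norm_ofReal, abs_norm] at e2
  rw [← hw]
  nlinarith [norm_nonneg w, mul_nonneg κ0 (norm_nonneg v)]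

end lin

section mod
variable {M : VonNeumannAlgebra H} {ξ : H} {U : ℝ → Op H} {J : H → H}

namespace Mod0
variable (h : Mod0 M ξ U J)
include h

lemma Jnorm (v : H) : ‖J v‖ = ‖v‖ := by
  rw [← sq_eq_sq₀ (norm_nonneg _) (norm_nonneg _), ← qf_one, ← qf_one]
  exact congrArg re (h.Jinner v v)

/-- `J` as a continuous antilinear map -/
noncomputable def JL : H →L⋆[ℂ] H :=
  LinearMap.mkContinuous ⟨⟨J, h.Jadd⟩, h.Jsmul⟩ 1 fun v => by simp [h.Jnorm]

lemma JL_apply (v : H) : h.JL v = J v := rfl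
lemma J0 : J 0 = 0 := map_zero h.JL
lemma Jsub (v w : H) : J (v - w) = J v - J w := map_sub h.JL v w
lemma Jcont : Continuous J := h.JL.continuous
lemma Jinner' (v w : H) : ⟪J v, w⟫_ℂ = ⟪J w, v⟫_ℂ := by rw [← h.Jinner v, h.JJ]

lemma Jdiff {α : ℂ → H} (hα : Differentiable ℂ α) :
    Differentiable ℂ fun z => J (α ((starRingEnd ℂ) z)) := fun z => by
  simpa [Function.comp_def, JL_apply] using
    DifferentiableAt.comp_semilinear₁ (σ' := starRingEnd ℂ) h.JL (hα ((starRingEnd ℂ) z))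

/-- the operator `J a J` -/
noncomputable def jj (a : Op H) : Op H :=
  LinearMap.mkContinuous ⟨⟨fun v => J (a (J v)), fun v w => by simp [h.Jadd]⟩,
    fun c v => by simp [h.Jsmul]⟩ ‖a‖ fun v => by
      simpa [h.Jnorm] using a.le_opNorm (J v)

lemma jj_apply (a : Op H) (v : H) : h.jj a v = J (a (J v)) := rfl
lemma jj_jj (a : Op H) : h.jj (h.jj a) = a := by ext; simp [jj_apply, h.JJ]
lemma jj_mul (a b : Op H) : h.jj (a * b) = h.jj a * h.jj b := by ext; simp [jj_apply, h.JJ]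
lemma jj_add (a b : Op H) : h.jj (a + b) = h.jj a + h.jj b := by ext; simp [jj_apply, h.Jadd]
lemma jj_sub (a b : Op H) : h.jj (a - b) = h.jj a - h.jj b := by ext; simp [jj_apply, h.Jsub]
lemma jj_one : h.jj 1 = 1 := by ext; simp [jj_apply, h.JJ]
lemma jj_smul (c : ℂ) (a : Op H) : h.jj (c • a) = (starRingEnd ℂ) c • h.jj a := by
  ext; simp [jj_apply, h.Jsmul]
lemma jj_star (a : Op H) : h.jj (star a) = star (h.jj a) := by
  ext v
  refine ext_inner_left ℂ fun w => ?_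
  rw [inner_star_r, jj_apply, jj_apply, h.Jinner', ← inner_conj_symm, h.Jinner', inner_star_r,
    inner_conj_symm]
lemma jj_le (a : Op H) : ‖h.jj a‖ ≤ ‖a‖ := LinearMap.mkContinuous_norm_le _ (norm_nonneg _) _
lemma jj_norm (a : Op H) : ‖h.jj a‖ = ‖a‖ :=
  (h.jj_le a).antisymm (by simpa [jj_jj] using h.jj_le (h.jj a))
lemma jj_ξ (a : Op H) : h.jj a ξ = J (a ξ) := by rw [jj_apply, h.Jξ]
lemma jj_U (t : ℝ) : h.jj (U t) = U t := by ext; simp [jj_apply, h.JU, h.JJ]

lemma Uneg (t : ℝ) : U t * U (-t) = 1 := by rw [← h.Uadd, add_neg_cancel, h.U0]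
lemma Uneg' (t : ℝ) : U (-t) * U t = 1 := by rw [← h.Uadd, neg_add_cancel, h.U0]
lemma Uu (t : ℝ) : U t ∈ unitary (Op H) := ⟨h.Ustar t ▸ h.Uneg' t, h.Ustar t ▸ h.Uneg t⟩
lemma Unorm (t : ℝ) (v : H) : ‖U t v‖ = ‖v‖ := ContinuousLinearMap.norm_map_of_mem_unitary (h.Uu t) v
lemma Ule (t : ℝ) : ‖U t‖ ≤ 1 := unit_le1 (h.Uu t)

/-- `ξ` is separating for `M` -/
lemma sep {x y : Op H} (hx : x ∈ M) (hy : y ∈ M) (e : x ξ = y ξ) : x = y :=
  cyc_ext' h.cyc' (by rwa [M.commutant_commutant]) (by rwa [M.commutant_commutant]) e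

lemma sep' {x y : Op H} (hx : x ∈ M.commutant) (hy : y ∈ M.commutant) (e : x ξ = y ξ) : x = y :=
  cyc_ext' h.cyc hx hy e

/-- `s ↦ σ_s x` is strongly continuous -/
lemma sc (x : Op H) : SC (fun s => U s * x * U (-s)) ‖x‖ := by
  refine ⟨fun v => continuous_iff_continuousAt.2 fun t => ?_, fun s => by
    simpa using nle (nle (h.Ule s) (le_refl ‖x‖)) (h.Ule (-s))⟩
  have := SV.app (l := 𝓝 t) (V := 1) (T := U) (t := U t) (fun v => (h.Ucont v).tendsto t)
    (.of_forall h.Ule) (f := fun s => x (U (-s) v)) (v := x (U (-t) v))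
    ((x.continuous.comp ((h.Ucont v).comp continuous_neg)).tendsto t)
  exact this

end Mod0

namespace Mod
variable (h : Mod M ξ U J)
include h

lemma jj_mem {x : Op H} (hx : x ∈ M) : h.toMod0.jj x ∈ M.commutant := by
  obtain ⟨y, a, b⟩ := h.JM x hx
  rwa [show h.toMod0.jj x = y from ContinuousLinearMap.ext fun v => (b v).symm]

lemma jj_mem' {x : Op H} (hx : x ∈ M.commutant) : h.toMod0.jj x ∈ M := by
  obtain ⟨y, a, b⟩ := h.JM' x hx
  rwa [show h.toMod0.jj x = y from ContinuousLinearMap.ext fun v => (b v).symm]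

lemma UM' (t : ℝ) {y : Op H} (hy : y ∈ M.commutant) : U t * y * U (-t) ∈ M.commutant :=
  VonNeumannAlgebra.mem_commutant_iff.2 fun x hx => by
    have := (conj_comm (h.Uu t) (x := x) (y := y)).1 (by
      simpa only [h.Ustar, neg_neg] using (commM (h.UM (-t) x hx) hy).symm)
    rw [h.Ustar] at this; exact this.symm

theorem symm : Mod M.commutant ξ (fun t => U (-t)) J where
  cyc := h.cyc'
  cyc' := by rw [M.commutant_commutant]; exact h.cyc
  U0 := by simp [h.U0]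
  Uadd s t := by rw [neg_add, h.Uadd]
  Ustar t := h.Ustar _
  Ucont v := (h.Ucont v).comp continuous_neg
  Uξ t := h.Uξ _
  Jadd := h.Jadd
  Jsmul := h.Jsmul
  Jinner := h.Jinner
  JJ := h.JJ
  JU t := h.JU _
  Jξ := h.Jξ
  kms α h1 h2 y hy h3 := by
    have := h.kms (fun z => J (α (-(starRingEnd ℂ) z))) (h.toMod0.Jdiff (α := fun z => α (-z))
      (h1.comp differentiable_neg)) (fun t z => by
        have := h2 (-t) (-(starRingEnd ℂ) z)
        rw [neg_neg] at this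
        rw [← h.JU, this]; congr 2; simp; ring) _ (h.jj_mem' hy) (by simp [h3, h.jj_ξ])
    rw [← h.jj_star, h.jj_ξ, h.JJ] at this
    rw [← this, h.JJ]; congr 1; simp [neg_div, conj_ofNat]
  pos y hy := by
    have := h.pos _ (star_mem (h.jj_mem' hy))
    rwa [star_star, ← h.jj_star, h.jj_ξ, h.jj_ξ, h.Jinner, ← h.Jinner, h.JJ, ← inner_conj_symm,
      conj_re] at this
  lip y hy m t := by
    have := h.lip _ (h.jj_mem' hy) m (-t)
    rw [← h.jj_star, h.jj_ξ, h.jj_ξ, h.JJ, abs_neg, ← h.Jnorm, ← h.Jnorm (_ - _ : H), h.Jsub, h.Jsub,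
      h.Jsmul, h.Jsmul, h.JU, h.JJ, ← exp_conj, ← exp_conj] at this
    simpa [conj_ofNat] using this
  UM t y hy := h.UM' _ hy
  JM y hy := by rw [M.commutant_commutant]; exact h.JM' y hy
  JM' x hx := h.JM x (by rwa [M.commutant_commutant] at hx)

variable {n n' : Op H} {η η' : H} {m a : ℝ}

lemma pw0 (hn : n ∈ M) (hn' : n' ∈ M.commutant) (h1 : ‖η - n ξ‖ ≤ a)
    (h2 : ‖η' - cexp (-(m / 2)) • star n ξ‖ ≤ a) (h3 : ‖η - n' ξ‖ ≤ a)
    (h4 : ‖η' - cexp (m / 2) • star n' ξ‖ ≤ a) :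
    ‖cexp (-(m / 2)) • J (star n ξ) - n ξ‖ ≤ 5 * a := by
  have c : (starRingEnd ℂ) (cexp (m / 2)) = cexp (m / 2) := by rw [← exp_conj]; simp [conj_ofNat]
  have c' : (starRingEnd ℂ) (cexp (-(m / 2))) = cexp (-(m / 2)) := by
    rw [← exp_conj]; simp [conj_ofNat]
  obtain ⟨d, hd⟩ : ∃ d, d = cexp (-(m / 2)) • J (star n ξ) - n ξ := ⟨_, rfl⟩
  have e1 := norm_sub_le_of_le h3 h1
  have e2 := norm_sub_le_of_le h4 h2
  rw [← h.Jnorm, sub_sub_sub_cancel_left, h.Jsub, h.Jsmul, h.Jsmul, c, c'] at e2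
  rw [sub_sub_sub_cancel_left] at e1
  have p := h.pos _ (sub_mem hn (smulM (cexp (m / 2)) (h.jj_mem' (star_mem hn'))))
  have q : J (star (n - cexp (m / 2) • h.toMod0.jj (star n')) ξ) =
      cexp (m / 2) • (d + (n ξ - n' ξ)) := by
    rw [star_sub, star_smul, ← h.jj_star, star_star, sub_apply,
      smul_apply, h.jj_ξ, h.Jsub, h.Jsmul, h.JJ, RCLike.star_def, c, c, hd,
      sub_add_sub_cancel, smul_sub, smul_smul, ← exp_add, add_neg_cancel, exp_zero, one_smul]
  rw [q, inner_smul_left, c, sub_apply, smul_apply, h.jj_ξ] at p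
  rw [show cexp (m / 2) = Real.exp (m / 2) by simp] at p e2
  rw [re_ofReal_mul, mul_nonneg_iff_of_pos_left (Real.exp_pos _)] at p
  obtain ⟨f, hf⟩ : ∃ f, f = n ξ - n' ξ := ⟨_, rfl⟩
  obtain ⟨g, hg⟩ : ∃ g, g = cexp (-(m / 2)) • J (star n ξ) -
    ((Real.exp (m / 2) : ℝ) : ℂ) • J (star n' ξ) := ⟨_, rfl⟩
  rw [← hf, show n ξ - ((Real.exp (m / 2) : ℝ) : ℂ) • J (star n' ξ) = g - d by rw [hg, hd]; abel,
    inner_add_left, inner_sub_right, inner_sub_right, inner_self_eq_norm_sq_to_K] at p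
  rw [← hf] at e1
  rw [← hg] at e2
  rw [← hd]
  have b : ∀ v w : H, |(⟪v, w⟫_ℂ).re| ≤ ‖v‖ * ‖w‖ := fun v w =>
    (abs_re_le_norm _).trans (norm_inner_le_norm _ _)
  have b1 := abs_le.1 ((b d g).trans (mul_le_mul_of_nonneg_left e2 (norm_nonneg _)))
  have b2 := abs_le.1 ((b f d).trans (mul_le_mul_of_nonneg_right e1 (norm_nonneg _)))
  have b3 := abs_le.1 ((b f g).trans (mul_le_mul e1 e2 (norm_nonneg _) ((norm_nonneg _).trans e1)))
  have a0 := (norm_nonneg _).trans h1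
  simp only [add_re, sub_re, coe_algebraMap, ← ofReal_pow, ofReal_re] at p
  by_contra hc
  nlinarith [norm_nonneg d]

lemma pw (hn : n ∈ M) (hn' : n' ∈ M.commutant) (h1 : ‖η - n ξ‖ ≤ a)
    (h2 : ‖η' - cexp (-(m / 2)) • star n ξ‖ ≤ a) (h3 : ‖η - n' ξ‖ ≤ a)
    (h4 : ‖η' - cexp (m / 2) • star n' ξ‖ ≤ a) (t : ℝ) :
    ‖U t η - cexp (I * t * m) • η‖ ≤ (20 * |t| + 22) * a := by
  have a1 := (h.lip n hn m t).trans (mul_le_mul_of_nonneg_left (h.pw0 hn hn' h1 h2 h3 h4)
    (by positivity))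
  have a2 : ‖cexp (I * t * m) • (η - n ξ)‖ ≤ a := by
    rwa [norm_smul, show I * t * m = (t * m : ℝ) * I by push_cast; ring, norm_exp_ofReal_mul_I,
      one_mul]
  have := norm_sub_le_of_le (norm_add_le_of_le ((h.Unorm t _).trans_le h1) a1) a2
  refine le_of_eq_of_le (congrArg _ ?_) (this.trans_eq (by ring))
  rw [map_sub, smul_sub]; abel

lemma cen {z : Op H} (hz : z ∈ M) (hz' : z ∈ M.commutant) (t : ℝ) : U t * z = z * U t := by
  have := h.pw (η := z ξ) (η' := star z ξ) (m := 0) (a := 0) hz hz' (by simp) (by simp) (by simp)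
    (by simp) t
  have e : U t * z * U (-t) = z := h.sep (h.UM t z hz) hz (by simpa [h.Uξ, sub_eq_zero] using this)
  nth_rewrite 2 [← e]
  rw [mul_assoc, h.Uneg', mul_one]

lemma Jcen {z : Op H} (hz : z ∈ M) (hz' : z ∈ M.commutant) : h.toMod0.jj (star z) = z := by
  have := h.pw0 (η := z ξ) (η' := star z ξ) (m := 0) (a := 0) hz hz' (by simp) (by simp) (by simp)
    (by simp)
  exact h.sep' (h.jj_mem (star_mem hz)) hz' (by simpa [h.jj_ξ, sub_eq_zero] using this)

end Mod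

end mod

end Vale.Agent.P096
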