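import Vale.Agent.P096.Pr
import Vale.Agent.P104.Basic

/-! Approximate two-cocycles with values in a Hilbert bimodule; harmonic normalisation. -/

open Finset Vale.Agent.P104
open scoped InnerProductSpace

set_option linter.unusedSectionVars false

namespace Vale.Agent.P096

structure Bim (A K : Type*) [CStarAlgebra A] [NormedAddCommGroup K] [InnerProductSpace ℂ K]
    [CompleteSpace K] where
  L : A →⋆ₐ[ℂ] Op K
  R : A →ₗ[ℂ] Op K
  R_mul : ∀ z w, R (z * w) = R w * R z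
  R_one : R 1 = 1
  R_star : ∀ z, R (star z) = star (R z)
  R_le : ∀ z, ‖R z‖ ≤ ‖z‖
  comm : ∀ x z, L x * R z = R z * L x

variable {A K : Type*} [CStarAlgebra A] [NormedAddCommGroup K] [InnerProductSpace ℂ K]
  [CompleteSpace K]

lemma bu (u : unitary A) : ‖(u : A)‖ ≤ 1 := by
  rcases subsingleton_or_nontrivial A with h | h
  · rw [Subsingleton.elim (u : A) 0]; simp
  · exact (CStarRing.norm_of_mem_unitary u.2).le

lemma b1 : ‖(1 : A)‖ ≤ 1 := bu (1 : unitary A)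

lemma bm {x y : A} (hx : ‖x‖ ≤ 1) (hy : ‖y‖ ≤ 1) : ‖x * y‖ ≤ 1 :=
  (norm_mul_le _ _).trans (mul_le_one₀ hx (norm_nonneg _) hy)

lemma coe_inv (u : unitary A) : ((u⁻¹ : unitary A) : A) = star (u : A) := rfl

lemma uu (u : unitary A) : (u : A) * (u⁻¹ : unitary A) = 1 := u.2.2
lemma uu' (u : unitary A) : ((u⁻¹ : unitary A) : A) * u = 1 := u.2.1

namespace Bim
variable (D : Bim A K)

lemma L_mul (x y : A) (v : K) : D.L (x * y) v = D.L x (D.L y v) := by rw [map_mul]; rfl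
lemma R_mul' (x y : A) (v : K) : D.R (x * y) v = D.R y (D.R x v) := by rw [D.R_mul]; rfl
lemma LR (x y : A) (v : K) : D.L x (D.R y v) = D.R y (D.L x v) := congr($(D.comm x y) v)
lemma L_one (v : K) : D.L 1 v = v := by rw [map_one]; rfl
lemma R_one' (v : K) : D.R 1 v = v := by rw [D.R_one]; rfl
lemma L1 (u : unitary A) (v : K) : D.L u (D.L (u⁻¹ : unitary A) v) = v := by
  rw [← L_mul, uu, L_one]
lemma L2 (u : unitary A) (v : K) : D.L (u⁻¹ : unitary A) (D.L u v) = v := by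
  rw [← L_mul, uu', L_one]
lemma R1 (u : unitary A) (v : K) : D.R u (D.R (u⁻¹ : unitary A) v) = v := by
  rw [← R_mul', uu', R_one']
lemma R2 (u : unitary A) (v : K) : D.R (u⁻¹ : unitary A) (D.R u v) = v := by
  rw [← R_mul', uu, R_one']

lemma L_le {x : A} (hx : ‖x‖ ≤ 1) {v : K} {r : ℝ} (h : ‖v‖ ≤ r) : ‖D.L x v‖ ≤ r :=
  (app_le ((NonUnitalStarAlgHom.norm_apply_le D.L x).trans hx) v).trans h
lemma R_le' {x : A} (hx : ‖x‖ ≤ 1) {v : K} {r : ℝ} (h : ‖v‖ ≤ r) : ‖D.R x v‖ ≤ r :=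
  (app_le ((D.R_le x).trans hx) v).trans h

lemma L_norm (u : unitary A) (v : K) : ‖D.L u v‖ = ‖v‖ :=
  le_antisymm (D.L_le (bu u) le_rfl) (by
    conv_lhs => rw [← D.L2 u v]
    exact D.L_le (bu _) le_rfl)
lemma R_norm (u : unitary A) (v : K) : ‖D.R u v‖ = ‖v‖ :=
  le_antisymm (D.R_le' (bu u) le_rfl) (by
    conv_lhs => rw [← D.R2 u v]
    exact D.R_le' (bu _) le_rfl)

lemma L_inner (u : unitary A) (v w : K) : ⟪D.L (u⁻¹ : unitary A) v, w⟫_ℂ = ⟪v, D.L u w⟫_ℂ := by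
  rw [coe_inv, map_star, inner_star_l]
lemma R_inner (u : unitary A) (v w : K) : ⟪D.R (u⁻¹ : unitary A) v, w⟫_ℂ = ⟪v, D.R u w⟫_ℂ := by
  rw [coe_inv, D.R_star, inner_star_l]

noncomputable def dl (ψ : A → K) (y z : A) : K :=
  D.R z (ψ y) - D.R z (D.L y (ψ 1)) - ψ (y * z) + D.L y (ψ z)

lemma dl_add (ψ φ : A → K) (y z : A) :
    D.dl (fun x => ψ x + φ x) y z = D.dl ψ y z + D.dl φ y z := by
  simp only [dl, map_add]; abel

lemma dl_le {ψ : A → K} {b : ℝ} (h : ∀ x, ‖x‖ ≤ 1 → ‖ψ x‖ ≤ b) {y z : A} (hy : ‖y‖ ≤ 1)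
    (hz : ‖z‖ ≤ 1) : ‖D.dl ψ y z‖ ≤ 4 * b := by
  have := norm_add_le_of_le (norm_sub_le_of_le (norm_sub_le_of_le (D.R_le' hz (h y hy))
    (D.R_le' hz (D.L_le hy (h 1 b1)))) (h _ (bm hy hz))) (D.L_le hy (h z hz))
  rw [dl]; linarith

end Bim

structure BL (b : ℝ) (ψ : A → K) : Prop where
  lin : IsLinearMap ℂ ψ
  bd : ∀ x, ‖x‖ ≤ 1 → ‖ψ x‖ ≤ b

structure AC (D : Bim A K) (θ β : ℝ) (c r : A → A → K) : Prop where
  lin : ∀ z, IsLinearMap ℂ fun x => c x z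
  lin' : ∀ x, IsLinearMap ℂ (r x)
  lr : ∀ x z, ‖x‖ ≤ 1 → ‖z‖ ≤ 1 → ‖c x z - r x z‖ ≤ θ
  bd : ∀ x z, ‖x‖ ≤ 1 → ‖z‖ ≤ 1 → ‖c x z‖ ≤ β
  coc : ∀ x y z, ‖x‖ ≤ 1 → ‖y‖ ≤ 1 → ‖z‖ ≤ 1 →
    ‖c (x * y) z - D.L x (c y z) - c x (y * z) + D.R z (c x y)‖ ≤ θ
  one : ∀ z, c 1 z = 0
  one' : ∀ x, r x 1 = 0

variable {D : Bim A K} {θ β b : ℝ} {c r : A → A → K} {ψ : A → K}

lemma AC.θ0 (h : AC D θ β c r) : 0 ≤ θ := (norm_nonneg _).trans (h.lr 1 1 b1 b1)
lemma AC.β0 (h : AC D θ β c r) : 0 ≤ β := (norm_nonneg _).trans (h.bd 1 1 b1 b1)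

lemma AC.sub (h : AC D θ β c r) (hψ : BL b ψ) :
    AC D θ (β + 4 * b) (fun x z => c x z - D.dl ψ x z) fun x z => r x z - D.dl ψ x z where
  lin z := ⟨fun x y => by
      simp only [Bim.dl, (h.lin z).map_add, add_mul, hψ.lin.map_add, map_add, add_apply]; abel,
    fun a x => by
      simp only [Bim.dl, (h.lin z).map_smul, smul_mul_assoc, hψ.lin.map_smul, map_smul, smul_apply,
        smul_sub, smul_add]⟩
  lin' z := ⟨fun x y => by
      simp only [Bim.dl, (h.lin' z).map_add, mul_add, hψ.lin.map_add, map_add, add_apply]; abel,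
    fun a x => by
      simp only [Bim.dl, (h.lin' z).map_smul, mul_smul_comm, hψ.lin.map_smul, map_smul, smul_apply,
        smul_sub, smul_add]⟩
  lr x z hx hz := by simpa using h.lr x z hx hz
  bd x z hx hz := norm_sub_le_of_le (h.bd x z hx hz) (D.dl_le hψ.bd hx hz)
  coc x y z hx hy hz := by
    refine le_of_eq_of_le ?_ (h.coc x y z hx hy hz)
    congr 1
    simp only [Bim.dl, map_sub, map_add, D.L_mul, D.R_mul', D.LR, mul_assoc]; abel
  one z := by simp [Bim.dl, h.one, D.L_one]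
  one' z := by simp [Bim.dl, h.one', D.R_one']

lemma ex_csmul {α : Type*} (σ : Pr α) (a : ℂ) (F : α → K) :
    (σ.ex fun w => a • F w) = a • σ.ex F :=
  (σ.ex_map F (a • ·) (smul_add a) fun _ _ => smul_comm _ _ _).symm

/-- two sided harmonicity with respect to `σ` -/
def Har (D : Bim A K) (ω : ℝ) (c : A → A → K) (σ : Pr (unitary A)) : Prop :=
  ∀ x : A, ‖x‖ ≤ 1 → ‖σ.ex fun s => D.R (s⁻¹ : unitary A) (c x s)‖ ≤ ω ∧
    ‖σ.ex fun s => D.L (s⁻¹ : unitary A) (c s x)‖ ≤ ω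

lemma AC.harm (h : AC D θ 1 c r) (θ1 : θ ≤ 1) (ν : Pr (unitary A)) :
    ∃ ψ, BL 7 ψ ∧ ∀ σ, Pr.AI K ν σ (θ / 5) → Har D (7 * θ) (fun x z => c x z - D.dl ψ x z) σ := by
  have θ0 := h.θ0
  obtain ⟨g, hg⟩ : ∃ g : A → K, g = fun x => ν.ex fun w => D.R (w⁻¹ : unitary A) (c x w) :=
    ⟨_, rfl⟩
  have g1 : BL 1 g := ⟨⟨fun x y => by simp only [hg, (h.lin _).map_add, map_add, Pr.ex_add],
    fun a x => by simp only [hg, (h.lin _).map_smul, map_smul, ex_csmul]⟩,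
    fun x hx => by rw [hg]; exact ν.norm_ex' fun w => D.R_le' (bu _) (h.bd _ _ hx (bu _))⟩
  have g0 : g 1 = 0 := by simp [hg, h.one]
  have h1 := h.sub g1
  generalize hc1 : (fun x z => c x z - D.dl g x z) = c1 at h1
  generalize hr1 : (fun x z => r x z - D.dl g x z) = r1 at h1
  have a1 : ∀ σ, Pr.AI K ν σ (θ / 5) → ∀ x, ‖x‖ ≤ 1 →
      ‖σ.ex fun s => D.R (s⁻¹ : unitary A) (c1 x s)‖ ≤ θ + θ / 5 := fun σ hσ x hx => by
    have e1 := (hσ (fun w => D.R (w⁻¹ : unitary A) (c x w)) 1 fun w =>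
      D.R_le' (bu _) (h.bd _ _ hx (bu _))).1
    have e2 := σ.norm_ex' fun s => D.R_le' (bu s⁻¹) (ν.norm_ex' fun w => D.R_le' (bu w⁻¹)
      (h.coc x s w hx (bu _) (bu _)))
    refine le_of_eq_of_le ?_ ((norm_add_le_of_le e2 e1).trans (by linarith))
    congr 1
    simp only [← hc1, hg, Bim.dl, map_sub, map_add, Pr.ex_sub, Pr.ex_add, D.R2, Pr.ex_const,
      Pr.clm_ex, D.LR, mul_inv_rev, Submonoid.coe_mul, D.R_mul', h.one, map_zero]
    abel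
  obtain ⟨k, hk⟩ : ∃ k : A → K, k = fun y => ν.ex fun w => D.L (w⁻¹ : unitary A) (r1 w y) :=
    ⟨_, rfl⟩
  obtain ⟨k', hk'⟩ : ∃ k : A → K, k = fun y => ν.ex fun w => D.L (w⁻¹ : unitary A) (c1 w y) :=
    ⟨_, rfl⟩
  have kk : ∀ y, ‖y‖ ≤ 1 → ‖k' y - k y‖ ≤ θ := fun y hy => by
    simp only [hk, hk', ← Pr.ex_sub, ← map_sub]
    exact ν.norm_ex' fun w => D.L_le (bu _) (h1.lr _ _ (bu _) hy)
  have k1 : BL 6 k := ⟨⟨fun x y => by simp only [hk, (h1.lin' _).map_add, map_add, Pr.ex_add],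
    fun a x => by simp only [hk, (h1.lin' _).map_smul, map_smul, ex_csmul]⟩, fun x hx => by
      rw [hk]; refine ν.norm_ex' fun w => D.L_le (bu _) ?_
      have := norm_sub_le_of_le (h1.bd _ _ (bu w) hx) (h1.lr _ _ (bu w) hx)
      rw [sub_sub_cancel] at this; linarith⟩
  have k0 : k 1 = 0 := by simp [hk, h1.one']
  have a2 : ∀ x y, ‖x‖ ≤ 1 → ‖y‖ ≤ 1 → ‖c1 x y - D.dl k x y -
      ((ν.ex fun w => D.L (w⁻¹ : unitary A) (c1 (w * x) y)) - D.L x (k' y))‖ ≤ 4 * θ :=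
    fun x y hx hy => by
      have e1 := ν.norm_ex' fun w => D.L_le (bu w⁻¹) (h1.coc w x y (bu _) hx hy)
      have e2 := norm_add_le_of_le (norm_sub_le_of_le (norm_sub_le_of_le (D.R_le' hy (kk x hx))
        (kk _ (bm hx hy))) e1) (D.L_le hx (kk y hy))
      refine le_of_eq_of_le ?_ (e2.trans (by linarith))
      congr 1
      simp only [hk', Bim.dl, map_sub, map_add, Pr.ex_sub, Pr.ex_add, D.L2, Pr.ex_const,
        Pr.clm_ex, D.LR, k0, map_zero]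
      abel
  refine ⟨fun x => g x + k x, ⟨⟨fun x y => by rw [g1.lin.map_add, k1.lin.map_add]; abel,
    fun a x => by rw [g1.lin.map_smul, k1.lin.map_smul, smul_add]⟩, fun x hx =>
    (norm_add_le_of_le (g1.bd x hx) (k1.bd x hx)).trans (by norm_num)⟩, fun σ hσ x hx => ?_⟩
  have e0 : ∀ x z, c x z - D.dl (fun x => g x + k x) x z = c1 x z - D.dl k x z := fun x z => by
    rw [D.dl_add, ← hc1, sub_sub]
  simp only [e0]
  constructor
  · have e1 := σ.norm_ex' fun s => D.R_le' (bu s⁻¹) (a2 x s hx (bu _))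
    have e2 := norm_sub_le_of_le (ν.norm_ex' fun w => D.L_le (bu w⁻¹) (a1 σ hσ _ (bm (bu w) hx)))
      (D.L_le hx (ν.norm_ex' fun w => D.L_le (bu w⁻¹) (a1 σ hσ _ (bu w))))
    refine le_of_eq_of_le ?_ ((norm_add_le_of_le e1 e2).trans (by linarith))
    congr 1
    simp only [hk', map_sub, Pr.ex_sub, Pr.clm_ex, D.LR]
    rw [ν.ex_comm σ, ν.ex_comm σ]
    abel
  · have e1 := σ.norm_ex' fun s => D.L_le (bu s⁻¹) (a2 s x (bu _) hx)
    have e2 := (hσ (fun w => D.L (w⁻¹ : unitary A) (c1 w x)) _ fun w =>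
      D.L_le (bu _) (h1.bd _ _ (bu _) hx)).2
    refine le_of_eq_of_le ?_ ((norm_add_le_of_le e1 e2).trans (by linarith))
    congr 1
    simp only [hk', map_sub, Pr.ex_sub, Pr.clm_ex, D.L2, mul_inv_rev, Submonoid.coe_mul, D.L_mul,
      Pr.ex_const]
    abel

end Vale.Agent.P096
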