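import Vale.Agent.P096.Core2

/-! The linearised problem in standard position, through a corner of the core. -/

open Finset Vale.Agent.P104 Vale.Agent.P085 Filter Topology Complex ContinuousLinearMap
open scoped InnerProductSpace InnerProduct

namespace Vale.Agent.P096

universe u

open Co in
theorem stdLin (h1 : TomStmt.{u}) (h2 : KazStmt.{u}) (h3 : FinStmt.{u}) (h4 : FmStmt.{u})
    (h5 : MeanStmt.{u}) : StdLinStmt.{u} := by
  obtain ⟨C1, c1, h2⟩ := h2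
  obtain ⟨C2, c2, h3⟩ := h3
  have k1 := kk1
  obtain ⟨L, hL⟩ : ∃ L, L = 2 * kk + 6 * C1 := ⟨_, rfl⟩
  have L1 : 1 ≤ L := by linarith
  have L2 : C2 * L ≤ C2 * L ^ 2 := by gcongr; nlinarith
  have L3 : L ≤ C2 * L := by nlinarith
  refine ⟨C2 * L ^ 2, by linarith, fun H _ _ _ _ M N ξ δ m1 m2 n1 n2 cl δ0 δ1 cp => ?_⟩
  have L4 : C2 * (L * δ) ≤ C2 * L ^ 2 * δ := by rw [← mul_assoc]; gcongr
  have L5 : L * δ ≤ 1 := by nlinarith
  have L6 : L * δ = 2 * kk * δ + 6 * (C1 * δ) := by rw [hL]; ring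
  have L7 : 0 < kk * δ := by positivity
  have L8 : 0 < C1 * δ := by positivity
  obtain ⟨U, J, m⟩ := h1 H M ξ m1 m2
  obtain ⟨U', J', m'⟩ := h1 H N ξ n1 n2
  obtain ⟨g, g1, g2, g3, g4⟩ := h2 H M N ξ U U' J J' δ m m' cl δ0 (by linarith) cp
  obtain ⟨G, _, _, _, ι, hι, hs⟩ := h4 H ℤ
  have := hs inferInstance
  obtain ⟨μ, hμ⟩ := h5 G ℝ
  obtain ⟨π, hπ⟩ := hι.amp
  have πl : ∀ T, ‖π T‖ ≤ ‖T‖ := NonUnitalStarAlgHom.norm_apply_le π
  obtain ⟨S, -, s1⟩ := hι.op (· + 1) (fun _ => 1) 1 (add_left_injective 1) fun _ => P096.n1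
  obtain ⟨S', -, s2⟩ := hι.op (· - 1) (fun _ => 1) 1 sub_left_injective fun _ => P096.n1
  have s3 : star S = S' := hι.ext _ _ fun j v => sub_eq_zero.1 (hι.tot _ fun i =>
    ext_inner_left ℂ fun w => by
      rw [map_sub, inner_sub_right, adjoint_inner_right, inner_star_r, s1, s2,
        ← adjoint_inner_right, hι.orth, hι.orth]
      simp [eq_sub_iff_add_eq])
  have s4 : S ∈ unitary (Op G) := by
    constructor <;> rw [s3] <;> exact hι.ext _ _ fun j v => by simp [s1, s2]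
  obtain ⟨E, e1, e2, e3⟩ := exists_grp s4
  have A : ∀ n : ℕ, Am ι π (fun z => E ((n + 1 : ℝ) * z)) (1 / (n + 1)) := fun n =>
    ⟨hι, hπ, e1.scale _, fun j v => by
      rw [← ofReal_mul, mul_one_div_cancel (by positivity), ofReal_one, e2, s1]; rfl,
      fun T z => e3 _ (hι.ext _ _ fun j v => by simp [s1, hπ]) _⟩
  have u1 : ∀ (n : ℕ) s, ∀ a ∈ π '' M.commutant, star (π (U s) * E ((n + 1 : ℝ) * s)) * a *
      (π (U s) * E ((n + 1 : ℝ) * s)) ∈ π '' M.commutant := by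
    rintro n s _ ⟨y, hy, rfl⟩
    have := m.UM' (-s) hy
    rw [neg_neg, ← m.Ustar] at this
    exact ⟨_, this, ((A n).cj (U s) y s).symm⟩
  have u2 : ∀ (n : ℕ) (s t : ℝ), π (U s) * E ((n + 1 : ℝ) * s) * (π (U t) * E ((n + 1 : ℝ) * t)) *
      star (π (U (s + t)) * E ((n + 1 : ℝ) * (s + t : ℝ))) ∈ π '' M.commutant := fun n s t =>
    ⟨_, by rw [← m.Uadd, (m.Uu _).2]; exact one_mem _, ((A n).co _ _ _ s t).symm⟩
  have u3 : ∀ (n : ℕ) (s : ℝ), ∃ u ∈ unitary (Op H), u ∈ N.commutant ∧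
      ‖π (U s) * E ((n + 1 : ℝ) * s) * π 1 - π (g s) * E ((n + 1 : ℝ) * s) * π u‖ ≤ C1 * δ :=
    fun n s => by
      obtain ⟨u, a1, a2, a3⟩ := g4 s
      refine ⟨u, a1, a2, ?_⟩
      rw [map_one, mul_one, mul_assoc, (A n).cm, ← mul_assoc, ← map_mul, ← sub_mul, ← map_sub]
      simpa using nle ((πl _).trans a3) (unit_le1 ((A n).grp.un s))
  have F := fun n : ℕ => h3 G
    (vnOf (π '' M.commutant ∪ Set.range fun t : ℝ => π (U t) * E ((n + 1 : ℝ) * t)))
    (vnOf (π '' N.commutant ∪ Set.range fun t : ℝ => π (g t) * E ((n + 1 : ℝ) * t)))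
    (E ((n + 1 : ℝ) * -(I / 2)) (ι 0 ξ)) (L * δ) (fun X hX => (A n).trace m hX)
    (L6 ▸ close hμ π δ0 (by linarith) cl.nm' (fun s => (A n).un (m.Uu s) s)
      (fun s => (A n).un (g1 s) s)
      (by
        rintro s _ ⟨y, hy, rfl⟩
        exact ⟨_, VonNeumannAlgebra.mem_commutant_iff.2 fun x hx => (conj_comm (g1 s)).2
          (commM (g2 s x hx) hy), ((A n).cj (g s) y s).symm⟩)
      (fun s t => ⟨_, g3 s t, ((A n).co _ _ _ s t).symm⟩) fun s =>
        let ⟨u, a1, a2, a3⟩ := u3 n s; ⟨1, one_mem _, u, a1, one_mem _, a2, a3⟩)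
    (L6 ▸ close hμ π δ0 (by linarith) cl.mn' (fun s => (A n).un (g1 s) s)
      (fun s => (A n).un (m.Uu s) s) (u1 n) (u2 n) fun s =>
        let ⟨u, a1, a2, a3⟩ := u3 n s; ⟨u, a1, 1, one_mem _, a2, one_mem _, by rwa [norm_sub_rev]⟩)
    (by positivity) (L4.trans δ1)
  choose q b q1 q2 q3 q4 using F
  have X : ∀ x ∈ M, ∃ X : ℕ → Op G, (∀ n : ℕ, ‖X n‖ ≤ ‖x‖ ∧ X n ∈
      vnOf (π '' M.commutant ∪ Set.range fun t : ℝ => π (U t) * E ((n + 1 : ℝ) * t))) ∧
      SV atTop (ι 0) X x ∧ SV atTop (ι 0) (fun n => star (X n)) (star x) := fun x hx => by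
    choose D d1 d2 using fun n : ℕ => hι.op id
      (fun j => U (j * (1 / (n + 1))) * x * U (-(j * (1 / (n + 1))))) ‖x‖ Function.injective_id
      fun j => (m.sc x).bd _
    simp only [max_eq_left (norm_nonneg x), id] at d1 d2
    have w := fun (n : ℕ) (s : ℝ) => (A n).un (m.Uu s) s
    refine ⟨_, fun n => ⟨hμ.norm _ _ fun s => (conj_le (w n s) _).trans (d1 n), Co.avg hμ
      (by rintro _ ⟨x, hx, rfl⟩; exact ⟨_, star_mem hx, map_star π x⟩) (w n) (u1 n) (u2 n) ?_⟩,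
      conv A e1.diff.continuous m hμ d1 d2, ?_⟩
    · rintro _ ⟨y, hy, rfl⟩
      refine hι.ext _ _ fun j v => ?_
      rw [mul_apply_eq_comp, mul_apply_eq_comp, d2, hπ, hπ, d2, ← mul_apply_eq_comp,
        ← commM (m.UM _ x hx) hy, mul_apply_eq_comp]
    · have := conv A e1.diff.continuous m hμ (x := star x) (D := fun n => star (D n))
        (fun n => (norm_star _).trans_le (d1 n)) fun n j v => by
          rw [diag_star hι (d2 n)]; simp [m.Ustar, mul_assoc]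
      refine fun v => (this v).congr fun n => ?_
      dsimp only
      rw [← hμ.star _ ⟨_, fun s => conj_le (w n s) _⟩]
      simp only [star_mul, star_star, mul_assoc]
  have Q : SV atTop (ι 0) q 1 := fun v => m.cyc.induction_on v
    (cl_lim (T := fun n => q n ∘L ι 0) (t := ι 0) (C := 1 * ‖ι 0‖) fun n =>
      (opNorm_comp_le _ _).trans (by gcongr; exact proj_le1 (q1 n))) fun x => by
      obtain ⟨X, x1, x2, -⟩ := X x.1 x.2
      have a : ∀ n, q n (X n (ι 0 ξ)) = X n (ι 0 ξ) := fun n => by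
        have := q2 n _ (mul_mem (x1 n).2 ((A n).Vmem m (I / 2)))
        simpa only [← mul_apply_eq_comp, mul_assoc, ← e1.add, mul_neg, add_neg_cancel, e1.zero,
          mul_one] using this
      have t : Tendsto (fun n => q n (ι 0 (x.1 ξ) - X n (ι 0 ξ))) atTop (𝓝 0) :=
        squeeze_zero_norm (fun n => app_le (proj_le1 (q1 n)) _) (by
          simpa using ((x2 ξ).const_sub (ι 0 (x.1 ξ))).norm)
      simpa [a] using t.add (x2 ξ)
  obtain ⟨b₀, b1, b2⟩ := lin_lim (hyperfilter ℕ) (ι 0) (fun v => by simp [hι.orth]) b q3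
  have hy := Nat.hyperfilter_le_atTop
  refine ⟨b₀, b1.trans L4, fun x hx a ha => ?_⟩
  obtain ⟨X, x1, x2, x3⟩ := X x hx
  refine b2 x a X (fun _ => π a) q _ (‖x‖ + ‖a‖) (.of_forall fun n => ⟨?_, ?_, P104.pstar (q1 n),
    (q4 n _ (x1 n).2 _ (mem_vnOf_comm (Or.inl ⟨a, ha, rfl⟩))).trans ?_⟩) (fun v => (Q v).mono_left hy)
    (fun v => (x2 v).mono_left hy) (fun v => (x3 v).mono_left hy) (fun v => by simp [hπ])
    fun v => by simp [← map_star, hπ]
  · linarith [(x1 n).1, norm_nonneg a]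
  · linarith [πl a, norm_nonneg x]
  · rw [mul_pow, ← mul_assoc]
    gcongr
    exacts [(x1 n).1, πl a]

end Vale.Agent.P096
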