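import Vale.Agent.P096.Base

/-! Logarithm of a unitary, averaging over a one parameter family, closeness of fixed points. -/

open Finset Vale.Agent.P104 Vale.Agent.P085 Filter Topology Complex
open scoped InnerProductSpace InnerProduct

set_option linter.unusedSectionVars false

namespace Vale.Agent.P096.Co

universe u

variable {H G : Type u} [NormedAddCommGroup H] [InnerProductSpace ℂ H] [CompleteSpace H]
  [NormedAddCommGroup G] [InnerProductSpace ℂ G] [CompleteSpace G]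

lemma ucomm {S y : Op G} (hS : S ∈ unitary (Op G)) (h : S * y = y * S) :
    star S * y = y * star S := by
  rw [← mul_one (star S * y), ← hS.2, ← mul_assoc, mul_assoc _ y, ← h, ← mul_assoc, hS.1, one_mul]

lemma exp_arc {z : ℂ} (hz : ‖z‖ = 1) (σ : ℝ) (hσ : σ = 1 ∨ σ = -1) :
    cexp (σ * I * (Real.arccos z.re : ℝ)) = z + 2 * σ * I * (max (-σ * z.im) 0 : ℝ) := by
  have h1 : z.re ^ 2 + z.im ^ 2 = 1 := by
    have := Complex.sq_norm z
    rw [hz, Complex.normSq_apply] at this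
    linarith
  have h2 : |z.re| ≤ 1 := hz ▸ abs_re_le_norm z
  have h3 := Real.cos_arccos (abs_le.1 h2).1 (abs_le.1 h2).2
  have h4 : Real.sin (Real.arccos z.re) = |z.im| := by
    rw [Real.sin_arccos, ← Real.sqrt_sq_eq_abs]; congr 1; linarith
  rw [show σ * I * (Real.arccos z.re : ℝ) = (σ * Real.arccos z.re : ℝ) * I by push_cast; ring]
  rcases hσ with rfl | rfl <;> refine Complex.ext ?_ ?_ <;>
    simp only [exp_ofReal_mul_I_re, exp_ofReal_mul_I_im, one_mul, neg_mul, Real.cos_neg,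
      Real.sin_neg, h3, h4] <;> simp <;> rcases le_total z.im 0 with h | h <;>
    simp [h, abs_of_nonneg, abs_of_nonpos] <;> ring

lemma exists_rho {S : Op G} (hS : S ∈ unitary (Op G)) : ∃ ρ : Op G, star ρ = ρ ∧
    NormedSpace.exp (I • ρ) = S ∧ ∀ y, S * y = y * S → ρ * y = y * ρ := by
  let _ : NormedAlgebra ℚ (Op G) := .restrictScalars ℚ ℂ _
  have hn : IsStarNormal S := ⟨hS.1.trans hS.2.symm⟩
  obtain ⟨α, hα⟩ : ∃ α, α = cfc (fun z : ℂ => ((Real.arccos z.re : ℝ) : ℂ)) S := ⟨_, rfl⟩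
  obtain ⟨p, hp⟩ : ∃ p : ℝ → Op G,
    ∀ σ, p σ = cfc (fun z : ℂ => ((max (-σ * z.im) 0 : ℝ) : ℂ)) S := ⟨_, fun _ => rfl⟩
  have c0 : ∀ (f : ℂ → ℂ) y, S * y = y * S → cfc f S * y = y * cfc f S := fun f y h =>
    Commute.cfc h (ucomm hS h) f
  have s0 : ∀ f : ℂ → ℝ, star (cfc (fun z => (f z : ℂ)) S) = cfc (fun z => (f z : ℂ)) S :=
    fun f => by rw [← cfc_star]; simp
  have ca : Continuous fun z : ℂ => ((Real.arccos z.re : ℝ) : ℂ) := by
    have := Real.continuous_arccos; fun_prop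
  have e1 : ∀ σ : ℝ, σ = 1 ∨ σ = -1 → NormedSpace.exp ((σ * I) • α) = S + (2 * σ * I) • p σ := by
    intro σ hσ
    rw [hα, hp, ← cfc_const_mul _ _ _ ca.continuousOn, ← CFC.complex_exp_eq_normedSpace_exp
      (p := IsStarNormal), ← cfc_comp' cexp _ S (by fun_prop) (by fun_prop),
      ← cfc_const_mul _ _ S (by fun_prop)]
    nth_rewrite 2 [← cfc_id' ℂ S]
    rw [← cfc_add S _ _ (by fun_prop) (by fun_prop)]
    exact cfc_congr fun z hz => exp_arc (spectrum.norm_eq_one_of_unitary hS hz) σ hσ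
  have e2 : p 1 * p (-1) = 0 := by
    rw [hp, hp, ← cfc_mul _ _ S (by fun_prop) (by fun_prop), ← cfc_zero ℂ S]
    refine cfc_congr fun z _ => ?_
    rcases le_total z.im 0 with h | h <;> simp [h]
  obtain ⟨e, he, a1, a2, a3⟩ := exists_rp {p (-1)}
  have a4 : p 1 * e = 0 := a2 _ (by simpa using e2)
  have a5 : p (-1) * e = p (-1) := by
    have := congrArg star (a1 _ rfl)
    rwa [star_mul, P104.pstar he, hp, s0, ← hp] at this
  have a6 : ∀ y, S * y = y * S → e * y = y * e := fun y h => (a3 y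
    (by rintro _ rfl; exact ⟨_, rfl, y, by rw [hp, c0 _ y h]⟩)
    (by
      rintro _ rfl
      refine ⟨_, rfl, star y, by rw [hp, c0]; simpa using (congrArg star (ucomm hS h)).symm⟩)).symm
  have a7 : e * α = α * e := a6 _ (by rw [hα, c0 _ S rfl])
  have a8 := pidem he
  refine ⟨e * α + e * α - α, by
    rw [star_sub, star_add, star_mul, P104.pstar he, hα, s0, ← hα, a7], ?_, fun y h => by
    rw [sub_mul, add_mul, mul_sub, mul_add, mul_assoc, hα, c0 _ y h, ← mul_assoc, a6 y h,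
      mul_assoc]⟩
  have b1 : SemiconjBy e (I • (e * α + e * α - α)) (((1 : ℝ) * I) • α) := by
    simp [SemiconjBy, mul_sub, mul_add, ← mul_assoc, a8, ← a7]
  have b2 : SemiconjBy (1 - e) (I • (e * α + e * α - α)) (((-1 : ℝ) * I) • α) := by
    simp [SemiconjBy, mul_sub, mul_add, sub_mul, ← mul_assoc, a8, ← a7, smul_sub, neg_add_eq_sub]
  have b3 := b1.exp_right.eq
  have b4 := b2.exp_right.eq
  rw [e1 _ (Or.inl rfl), add_mul, smul_mul_assoc, a4, smul_zero, add_zero] at b3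
  rw [e1 _ (Or.inr rfl), add_mul, smul_mul_assoc, mul_sub (p _), mul_one, a5, sub_self, smul_zero,
    add_zero, sub_mul, one_mul, b3, mul_sub, mul_one, sub_left_inj] at b4
  exact b4

/-- an entire one parameter group, unitary on the real line -/
structure Grp (V : ℂ → Op G) : Prop where
  diff : Differentiable ℂ V
  zero : V 0 = 1
  add : ∀ z w, V (z + w) = V z * V w
  star : ∀ z, star (V z) = V (-(starRingEnd ℂ) z)

lemma exists_grp {S : Op G} (hS : S ∈ unitary (Op G)) : ∃ E : ℂ → Op G, Grp E ∧ E 1 = S ∧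
    ∀ y, S * y = y * S → ∀ z, E z * y = y * E z := by
  let _ : NormedAlgebra ℚ (Op G) := .restrictScalars ℚ ℂ _
  obtain ⟨ρ, h1, h2, h3⟩ := exists_rho hS
  refine ⟨fun z => NormedSpace.exp (z • I • ρ), ⟨differentiable_exp_smul_const ℂ _,
    by simp, fun z w => ?_, fun z => ?_⟩, by simpa using h2, fun y h z => ?_⟩
  · rw [add_smul, NormedSpace.exp_add_of_commute (((Commute.refl _).smul_left _).smul_right _)]
  · rw [NormedSpace.star_exp]; simp [h1]
  · exact (((show Commute ρ y from h3 y h).smul_left _).smul_left _).exp_left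

lemma Grp.un {V : ℂ → Op G} (h : Grp V) (t : ℝ) : V t ∈ unitary (Op G) := by
  constructor <;> rw [h.star, ← h.add, conj_ofReal] <;> simp [h.zero]

lemma Grp.scale {V : ℂ → Op G} (h : Grp V) (r : ℝ) : Grp fun z => V (r * z) :=
  ⟨h.diff.comp (by fun_prop), by simp [h.zero], fun z w => by rw [mul_add, h.add],
    fun z => by rw [h.star]; simp⟩

variable {μ : (ℝ → Op G) → Op G} (hμ : Mean μ)
include hμ

lemma mean_comm {F : ℝ → Op G} {C : ℝ} (hF : ∀ s, ‖F s‖ ≤ C) {a : Op G}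
    (h : ∀ s, a * F s = F s * a) : a * μ F = μ F * a := by
  have h1 := hμ.mul F a 1 ⟨C, hF⟩
  have h2 := hμ.mul F 1 a ⟨C, hF⟩
  simp only [mul_one, one_mul] at h1 h2
  rw [← h1, ← h2]; simp only [h]

lemma mean_near {F : ℝ → Op G} {X : Op G} {ε : ℝ} (h : ∀ s, ‖X - F s‖ ≤ ε) : ‖X - μ F‖ ≤ ε := by
  have h1 := hμ.add F (fun _ => -X) ⟨_, fun s => nle' (norm_sub_rev X _ ▸ h s) le_rfl⟩
    ⟨_, fun _ => le_rfl⟩
  rw [hμ.const, ← sub_eq_add_neg] at h1
  rw [norm_sub_rev, ← h1]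
  exact hμ.norm _ _ fun s => by rw [← sub_eq_add_neg, norm_sub_rev]; exact h s

omit hμ in
lemma conj_le {w : Op G} (hw : w ∈ unitary (Op G)) (Y : Op G) : ‖w * Y * star w‖ ≤ ‖Y‖ := by
  simpa using nle (nle (unit_le1 hw) (le_refl ‖Y‖)) (unit_le1 (Unitary.star_mem hw))

lemma avg {A : Set (Op G)} (hA : ∀ a ∈ A, star a ∈ A) {w : ℝ → Op G}
    (hw : ∀ s, w s ∈ unitary (Op G)) (h1 : ∀ s, ∀ a ∈ A, star (w s) * a * w s ∈ A)
    (h2 : ∀ s t, w s * w t * star (w (s + t)) ∈ A) {Y : Op G} (hY : ∀ a ∈ A, a * Y = Y * a) :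
    μ (fun s => w s * Y * star (w s)) ∈ vnOf (A ∪ Set.range w) := by
  have e1 : ∀ s v, star (w s) * (w s * v) = v := fun s v => by rw [← mul_assoc, (hw s).1, one_mul]
  have e2 : ∀ s v, w s * (star (w s) * v) = v := fun s v => by rw [← mul_assoc, (hw s).2, one_mul]
  have k1 : ∀ a ∈ A, ∀ s, a * (w s * Y * star (w s)) = w s * Y * star (w s) * a := fun a ha s => by
    simpa [mul_assoc, e2, (hw s).2] using congr(w s * $(hY _ (h1 s a ha)) * star (w s))
  have k2 := fun a ha => mean_comm hμ (fun s => conj_le (hw s) Y) (k1 a ha)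
  have k3 : ∀ t, w t * μ (fun s => w s * Y * star (w s)) =
      μ (fun s => w s * Y * star (w s)) * w t := fun t => by
    have a1 := hμ.mul (fun s => w s * Y * star (w s)) (w t) (star (w t))
      ⟨_, fun s => conj_le (hw s) Y⟩
    have a2 := hμ.inv (fun s => w s * Y * star (w s)) t ⟨_, fun s => conj_le (hw s) Y⟩
    have a3 : ∀ s, w t * (w s * Y * star (w s)) * star (w t) = w (t + s) * Y * star (w (t + s)) :=
      fun s => by
        simpa [mul_assoc, e1, e2, (hw s).2, (hw t).2] using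
          congr($(k1 _ (h2 t s) (t + s)) * (w (t + s) * star (w s) * star (w t)))
    simp only [a3] at a1
    rw [a2] at a1
    nth_rewrite 2 [a1]
    rw [mul_assoc _ (star _), (hw t).1, mul_one]
  refine mem_vnOf.2 fun g hg => ?_
  rcases hg with hg | ⟨t, rfl⟩
  exacts [⟨k2 g hg, k2 _ (hA g hg)⟩, ⟨k3 t, ucomm (hw t) (k3 t)⟩]

lemma close (π : Op H →⋆ₐ[ℂ] Op G) {P Q : VonNeumannAlgebra H} {δ ε : ℝ} (δ0 : 0 < δ)
    (δ1 : kk * δ ≤ 1) (hQ : Nr Q P δ) {w w' : ℝ → Op G} (hw : ∀ s, w s ∈ unitary (Op G))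
    (hw' : ∀ s, w' s ∈ unitary (Op G)) (h1 : ∀ s, ∀ a ∈ π '' Q, star (w' s) * a * w' s ∈ π '' Q)
    (h2 : ∀ s t, w' s * w' t * star (w' (s + t)) ∈ π '' Q)
    (h3 : ∀ s, ∃ p ∈ unitary (Op H), ∃ u ∈ unitary (Op H), p ∈ P ∧ u ∈ Q ∧
      ‖w s * π p - w' s * π u‖ ≤ ε) :
    Nr (vnOf (π '' P ∪ Set.range w)) (vnOf (π '' Q ∪ Set.range w')) (2 * kk * δ + 6 * ε) := by
  intro X hX
  rcases eq_or_ne X 0 with rfl | X0
  · exact ⟨0, zero_mem _, by simp⟩
  have X1 := norm_pos_iff.2 X0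
  have πl : ∀ T, ‖π T‖ ≤ ‖T‖ := NonUnitalStarAlgHom.norm_apply_le π
  have πu : ∀ {T}, T ∈ unitary (Op H) → π T ∈ unitary (Op G) := fun h =>
    ⟨by rw [← map_star, ← map_mul, h.1, map_one], by rw [← map_star, ← map_mul, h.2, map_one]⟩
  obtain ⟨Y, y1, y2⟩ := comm_near (π.comp Q.toStarSubalgebra.subtype).toAlgHom
    (fun x => (πl _).trans (le_mul_of_one_le_left (norm_nonneg _) one_le_two)) X
    (ε := 2 * δ * ‖X‖) (by positivity) fun x => by
      obtain ⟨y, y1, y2⟩ := hQ x.1 x.2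
      refine le_of_eq_of_le (congrArg _ ?_) ((cle ((πl _).trans y2) (le_refl ‖X‖)).trans_eq
        (by change _ = _ * ‖x.1‖; ring))
      rw [map_sub, sub_mul, mul_sub, (mem_vnOf.1 hX _ (Or.inl ⟨y, y1, rfl⟩)).1,
        sub_sub_sub_cancel_right]; rfl
  have y3 : ∀ a ∈ π '' Q, a * Y = Y * a := by rintro _ ⟨x, hx, rfl⟩; exact y1 ⟨x, hx⟩
  refine ⟨_, avg hμ (by rintro _ ⟨x, hx, rfl⟩; exact ⟨_, star_mem hx, map_star π x⟩) hw' h1 h2 y3,
    mean_near hμ fun s => ?_⟩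
  obtain ⟨p, p1, u, u1, p2, u2, h⟩ := h3 s
  have ε0 := (norm_nonneg _).trans h
  have a1 := mul_mem (hw s) (πu p1)
  have a2 := mul_mem (hw' s) (πu u1)
  have b1 : w s * π p * X * star (w s * π p) = X := by
    rw [mul_assoc (w s), (mem_vnOf.1 hX _ (Or.inl ⟨p, p2, rfl⟩)).1, ← mul_assoc,
      (mem_vnOf.1 hX _ (Or.inr ⟨s, rfl⟩)).1, mul_assoc, mul_assoc, ← mul_assoc (w s), a1.2, mul_one]
  have b2 : w' s * π u * Y * star (w' s * π u) = w' s * Y * star (w' s) := by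
    rw [mul_assoc (w' s), y3 _ ⟨u, u2, rfl⟩, star_mul, ← mul_assoc, ← mul_assoc,
      mul_assoc _ (π u), (πu u1).2, mul_one]
  rw [← b2]
  nth_rewrite 1 [← b1]
  generalize w s * π p = c at a1 h ⊢
  generalize w' s * π u = d at a2 h ⊢
  have y4 := nle' (norm_sub_rev X Y ▸ y2) (le_refl ‖X‖)
  have := norm_add_le_of_le (norm_add_le_of_le ((conj_le a1 _).trans y2)
    (nle (nle h y4) (unit_le1 (Unitary.star_mem a1))))
    (nle (nle (unit_le1 a2) y4) (show ‖star (c - d)‖ ≤ ε by rwa [norm_star]))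
  refine le_of_eq_of_le (congrArg _ (by rw [star_sub]; noncomm_ring)) (this.trans ?_)
  nlinarith [mul_nonneg (mul_nonneg ε0 X1.le) (sub_nonneg.2 δ1)]

end Vale.Agent.P096.Co
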