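import Vale.Agent.P096.Core1

/-! The trace vector of the corner of the core and the approximation of the algebra. -/

open Finset Vale.Agent.P104 Vale.Agent.P085 Filter Topology Complex ContinuousLinearMap
open scoped InnerProductSpace InnerProduct

set_option linter.unusedSectionVars false

namespace Vale.Agent.P096.Co

universe u

variable {H G : Type u} [NormedAddCommGroup H] [InnerProductSpace ℂ H] [CompleteSpace H]
  [NormedAddCommGroup G] [InnerProductSpace ℂ G] [CompleteSpace G]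

lemma cl_lim {κ : Type*} {l : Filter κ} {T : κ → H →L[ℂ] G} {t : H →L[ℂ] G} {C : ℝ}
    (hC : ∀ i, ‖T i‖ ≤ C) : IsClosed {v | Tendsto (fun i => T i v) l (𝓝 (t v))} :=
  (LipschitzWith.uniformEquicontinuous (fun i => T i) C.toNNReal fun i =>
    (T i).lipschitz.weaken (NNReal.coe_le_coe.1 ((hC i).trans (Real.le_coe_toNNReal C)))
      ).equicontinuous.isClosed_setOfPred_tendsto t.continuous

/-- the data of the amplification -/
structure Am (ι : ℤ → H →L[ℂ] G) (π : Op H →⋆ₐ[ℂ] Op G) (V : ℂ → Op G) (τ : ℝ) : Prop where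
  fm : Fm ι
  amp : ∀ T i v, π T (ι i v) = ι i (T v)
  grp : Grp V
  sh : ∀ j v, V τ (ι j v) = ι (j + 1) v
  cm : ∀ T z, V z * π T = π T * V z

lemma diag_star {ι : ℤ → H →L[ℂ] G} (h : Fm ι) {D : Op G} {T : ℤ → Op H}
    (hD : ∀ j v, D (ι j v) = ι j (T j v)) (j : ℤ) (v : H) :
    star D (ι j v) = ι j (star (T j) v) := by
  refine sub_eq_zero.1 (h.tot _ fun i => ext_inner_left ℂ fun w => ?_)
  rw [map_sub, inner_sub_right, adjoint_inner_right, inner_star_r, hD, ← adjoint_inner_right,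
    h.orth, h.orth]
  split_ifs with e
  · rw [e, inner_star_r, sub_self, inner_zero_right]
  · simp

lemma int_comm {W : ℝ → Op G} (hW : ∀ s, W s ∈ unitary (Op G)) (h0 : W 0 = 1)
    (ha : ∀ s t, W (s + t) = W s * W t) {τ : ℝ} {D : Op G} (h : W τ * D = D * W τ) (k : ℤ) :
    W (k * τ) * D = D * W (k * τ) := by
  induction k using Int.induction_on with
  | zero => simp [h0]
  | succ k ih =>
    push_cast at ih ⊢
    rw [add_mul, one_mul, ha, mul_assoc, h, ← mul_assoc, ih, mul_assoc]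
  | pred k ih =>
    push_cast at ih ⊢
    have e : W ((-k - 1) * τ) = W (-k * τ) * star (W τ) := by
      rw [show -k * τ = (-k - 1) * τ + τ by ring, ha, mul_assoc, (hW τ).2, mul_one]
    rw [e, mul_assoc, ucomm (hW τ) h, ← mul_assoc, ih, mul_assoc]

namespace Am

variable {ι : ℤ → H →L[ℂ] G} {π : Op H →⋆ₐ[ℂ] Op G} {V : ℂ → Op G} {τ : ℝ} (h : Am ι π V τ)
include h

lemma adj (T : Op H) (i : ℤ) (ψ : G) : ((ι i)†) (π T ψ) = T (((ι i)†) ψ) :=
  ext_inner_left ℂ fun w => by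
    rw [adjoint_inner_right, ← inner_star_l, ← map_star, h.amp, ← adjoint_inner_right, inner_star_l]

lemma Vj (j : ℤ) (v : H) : V (j * τ) (ι 0 v) = ι j v := by
  induction j using Int.induction_on with
  | zero => simp [h.grp.zero]
  | succ k ih =>
    push_cast at ih ⊢
    rw [add_mul, one_mul, add_comm, h.grp.add, mul_apply_eq_comp, ih, h.sh]
  | pred k ih =>
    have e := h.sh (-k - 1) v
    rw [sub_add_cancel, ← ih, show ((-(k : ℤ) : ℤ) : ℂ) * τ = τ + ((-(k : ℤ) - 1 : ℤ) : ℂ) * τ by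
      push_cast; ring, h.grp.add] at e
    have := congrArg (star (V τ) : Op G) e
    simp only [← mul_apply_eq_comp, ← mul_assoc, (h.grp.un τ).1, one_mul] at this
    exact this.symm

lemma Vj' (j : ℤ) (ψ : G) : ((ι j)†) ψ = ((ι 0)†) (V (-(j * τ)) ψ) :=
  ext_inner_left ℂ fun w => by
    rw [adjoint_inner_right, adjoint_inner_right, ← h.Vj, ← inner_star_r, h.grp.star]; simp

lemma πu {T : Op H} (hT : T ∈ unitary (Op H)) : π T ∈ unitary (Op G) :=
  ⟨by rw [← map_star, ← map_mul, hT.1, map_one], by rw [← map_star, ← map_mul, hT.2, map_one]⟩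

lemma un {g : Op H} (hg : g ∈ unitary (Op H)) (t : ℝ) : π g * V t ∈ unitary (Op G) :=
  mul_mem (h.πu hg) (h.grp.un t)

lemma cj (g n : Op H) (t : ℝ) : star (π g * V t) * π n * (π g * V t) = π (star g * n * g) := by
  rw [star_mul, ← map_star, mul_assoc, mul_assoc, ← mul_assoc (π n), ← mul_assoc (π _), ← map_mul,
    ← map_mul, ← h.cm, ← mul_assoc, (h.grp.un t).1, one_mul, mul_assoc]

lemma co (a b c : Op H) (s t : ℝ) :
    π a * V s * (π b * V t) * star (π c * V (s + t : ℝ)) = π (a * b * star c) := by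
  rw [star_mul, mul_assoc (π a), ← mul_assoc (V s), h.cm, mul_assoc (π b), ← h.grp.add,
    ← ofReal_add, mul_assoc, mul_assoc, ← mul_assoc (V _), (h.grp.un _).2, one_mul, map_mul,
    map_mul, map_star, mul_assoc]

variable {M : VonNeumannAlgebra H} {ξ : H} {U : ℝ → Op H} {J : H → H} (m : Mod M ξ U J)
include m

lemma Vmem (z : ℂ) : V z ∈ vnOf (π '' M.commutant ∪ Set.range fun t : ℝ => π (U t) * V t) := by
  have k : ∀ T w, π T * V w * V z = V z * (π T * V w) := fun T w => by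
    rw [← mul_assoc, h.cm, mul_assoc, mul_assoc, ← h.grp.add, ← h.grp.add, add_comm]
  refine mem_vnOf.2 ?_
  rintro _ (⟨y, -, rfl⟩ | ⟨t, rfl⟩)
  · exact ⟨(h.cm _ _).symm, by rw [← map_star, h.cm]⟩
  · exact ⟨k _ _, ucomm (h.un (m.Uu t) t) (k _ _)⟩

lemma trace {X : Op G}
    (hX : X ∈ vnOf (π '' M.commutant ∪ Set.range fun t : ℝ => π (U t) * V t)) :
    ‖star X (V (-(I / 2)) (ι 0 ξ))‖ ≤ ‖X (V (-(I / 2)) (ι 0 ξ))‖ := by
  obtain ⟨a, ha⟩ : ∃ a : ℂ → ℂ → Op H, ∀ w w', a w w' = (ι 0)† ∘L (V w * X * V w') ∘L ι 0 :=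
    ⟨_, fun _ _ => rfl⟩
  have a1 : ∀ w w', a w w' ∈ M := fun w w' => memM fun y hy => by
    have := (mem_vnOf.1 (mul_mem (mul_mem (h.Vmem m w) hX) (h.Vmem m w')) _
      (Or.inl ⟨y, hy, rfl⟩)).1
    ext v
    rw [ha, mul_apply_eq_comp, mul_apply_eq_comp, comp_apply, comp_apply, comp_apply, comp_apply,
      ← h.adj, ← h.amp, ← mul_apply_eq_comp, this, mul_apply_eq_comp]
  have a2 : ∀ (t : ℝ) w w', U t (a w w' ξ) = a (w - t) (w' + t) ξ := fun t w w' => by
    have e := (mem_vnOf.1 hX _ (Or.inr ⟨t, rfl⟩)).1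
    have e2 : π (U t) * (V w * X * V w') = V (w - t) * X * V (w' + t) * π (U t) := by
      rw [← sub_add_cancel w t, h.grp.add, add_sub_cancel_right, add_comm w', h.grp.add,
        mul_assoc _ (V t * _), mul_assoc (V t), h.cm, ← mul_assoc (V t), h.cm, ← mul_assoc (V _ * X),
        mul_assoc _ X (π _ * _), ← e]
      simp only [← mul_assoc]
      rw [h.cm]
    rw [ha, ha, comp_apply, comp_apply, comp_apply, comp_apply, ← h.adj, ← mul_apply_eq_comp, e2,
      mul_apply_eq_comp, h.amp, m.Uξ]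
  have a3 : ∀ w w', ‖star (a w w') ξ‖ = ‖a (w + I / 2) (w' - I / 2) ξ‖ := fun w w' => by
    have d := h.grp.diff
    rw [← m.Jnorm, ← m.kms (fun z => a (w - z) (w' + z) ξ) ?_ (fun t z => by
      rw [a2, sub_sub, add_assoc]) _ (a1 w w') (by simp), sub_neg_eq_add, ← sub_eq_add_neg]
    simp only [ha, comp_apply]
    exact ((ι 0)†).differentiable.comp ((((d.comp (by fun_prop)).mul_const X).mul
      (d.comp (by fun_prop))).clm_apply (differentiable_const _))
  have a4 : ∀ j : ℤ, ‖((ι j)†) (star X (V (-(I / 2)) (ι 0 ξ)))‖ =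
      ‖((ι (-j))†) (X (V (-(I / 2)) (ι 0 ξ)))‖ := fun j => by
    have e := a3 (-(I / 2)) (j * τ)
    rw [← m.Unorm (-(j * τ)) (a _ _ _), a2, ha, ha, star_eq_adjoint, adjoint_comp, adjoint_comp,
      adjoint_adjoint, ← star_eq_adjoint, star_mul, star_mul, h.grp.star, h.grp.star] at e
    rw [h.Vj', h.Vj' (-j)]
    simpa [conj_ofNat, neg_div, sub_add_eq_add_sub, zero_sub] using e
  have s1 := h.fm.pars (star X (V (-(I / 2)) (ι 0 ξ)))
  have s2 := (Equiv.neg ℤ).hasSum_iff.2 (h.fm.pars (X (V (-(I / 2)) (ι 0 ξ))))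
  simp only [a4] at s1
  exact (sq_eq_sq₀ (norm_nonneg _) (norm_nonneg _)).1 (s1.unique s2) |>.le

lemma wadd (s t : ℝ) : π (U (s + t)) * V (s + t : ℝ) = π (U s) * V s * (π (U t) * V t) := by
  rw [m.Uadd, map_mul, ofReal_add, h.grp.add, mul_assoc, mul_assoc, ← mul_assoc (V s), h.cm,
    mul_assoc]

lemma red {x : Op H} {D : Op G}
    (hD : ∀ (j : ℤ) v, D (ι j v) = ι j ((U (j * τ) * x * U (-(j * τ))) v)) (k : ℤ) (s : ℝ) :
    π (U (s + k * τ)) * V (s + k * τ : ℝ) * D * star (π (U (s + k * τ)) * V (s + k * τ : ℝ)) =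
      π (U s) * V s * D * star (π (U s) * V s) := by
  have e := int_comm (W := fun t : ℝ => π (U t) * V t) (fun t => h.un (m.Uu t) t)
    (by simp [m.U0, h.grp.zero]) (h.wadd m) (τ := τ) (D := D) (h.fm.ext _ _ fun j v => by
      simp only [mul_apply_eq_comp, hD, h.sh, h.amp]
      simp only [← mul_apply_eq_comp, ← mul_assoc, ← m.Uadd, mul_assoc _ (U _) (U _)]
      push_cast
      congr 5 <;> ring) k
  rw [h.wadd m, mul_assoc _ _ D, e, star_mul, ← mul_assoc _ D, mul_assoc (_ * D),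
    ← mul_assoc _ (star _) (star _), (h.un (m.Uu _) _).2, one_mul]

end Am

lemma conv {ι : ℤ → H →L[ℂ] G} {π : Op H →⋆ₐ[ℂ] Op G} {E : ℂ → Op G}
    (h : ∀ n : ℕ, Am ι π (fun z => E ((n + 1 : ℝ) * z)) (1 / (n + 1))) (hE : Continuous E)
    {M : VonNeumannAlgebra H} {ξ : H} {U : ℝ → Op H} {J : H → H} (m : Mod M ξ U J)
    {μ : (ℝ → Op G) → Op G} (hμ : Mean μ) {x : Op H} {D : ℕ → Op G} {C : ℝ} (hC : ∀ n, ‖D n‖ ≤ C)
    (hD : ∀ (n : ℕ) (j : ℤ) v, D n (ι j v) =
      ι j ((U (j * (1 / (n + 1))) * x * U (-(j * (1 / (n + 1))))) v)) :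
    SV atTop (ι 0) (fun n : ℕ => μ fun t => π (U t) * E ((n + 1 : ℝ) * t) * D n *
      star (π (U t) * E ((n + 1 : ℝ) * t))) x := by
  intro v
  have t0 := tendsto_one_div_add_atTop_nhds_zero_nat (𝕜 := ℝ)
  have c1 : ∀ ψ, Tendsto (fun n => D n ψ) atTop (𝓝 (π x ψ)) := fun ψ =>
    (cl_lim hC).mem_of_tendsto ((h 0).fm.hsum ψ) (.of_forall fun F => by
      simp only [Set.mem_setOf_eq, map_sum, hD, (h 0).amp]
      refine tendsto_finset_sum _ fun j _ => ((ι j).continuous.tendsto _).comp ?_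
      simpa [m.U0, Function.comp_def] using (((m.sc x).cont _).tendsto _).comp (t0.const_mul (j : ℝ)))
  have c2 : ∀ (θ : ℝ) w, Tendsto (fun p : ℕ × ℝ => E (-p.2) (ι 0 (U (-(p.2 * (1 / (p.1 + 1)))) w)))
      (atTop ×ˢ 𝓝 θ) (𝓝 (E (-θ) (ι 0 w))) := fun θ w => by
    have := m.Ucont w
    have c : Continuous fun p : ℝ × ℝ => E (-p.1) (ι 0 (U (-(p.1 * p.2)) w)) := by fun_prop
    simpa [m.U0, Function.comp_def] using
      (c.tendsto _).comp (tendsto_snd.prodMk_nhds (t0.comp tendsto_fst))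
  rw [Metric.tendsto_nhds]
  intro ε ε0
  have c3 := (isCompact_Icc (a := (0 : ℝ)) (b := 1)).mem_prod_nhdsSet_of_forall (l := atTop)
    (s := {p : ℕ × ℝ | ‖D p.1 (E (-p.2) (ι 0 (U (-(p.2 * (1 / (p.1 + 1)))) v))) -
      E (-p.2) (ι 0 (U (-(p.2 * (1 / (p.1 + 1)))) (x v)))‖ ≤ ε / 2}) fun θ _ => by
      have a := SV.app (V := 1) (T := fun p : ℕ × ℝ => D p.1) (t := π x)
        (fun ψ => (c1 ψ).comp tendsto_fst) (.of_forall fun p => hC p.1)
        (v := E (-θ) (ι 0 v)) (c2 θ v)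
      have b := (a.sub (c2 θ (x v))).norm
      have e := congr($((h 0).cm x (-θ)) (ι 0 v))
      simp only [mul_apply_eq_comp, (h 0).amp, Nat.cast_zero, zero_add, ofReal_one, one_mul] at e
      rw [one_apply_eq_self, ← e, sub_self, norm_zero] at b
      exact b.eventually_le_const (half_pos ε0)
  refine (Eventually.curry c3).mono fun n hn => ?_
  have u := fun t => (h n).un (m.Uu t) t
  rw [dist_eq_norm]
  refine (hμ.vec _ _ _ (ε / 2) ⟨_, fun t => conj_le (u t) _⟩ fun t => ?_).trans_lt (half_lt_self ε0)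
  have n0 : (n + 1 : ℝ) ≠ 0 := by positivity
  obtain ⟨θ, hθ⟩ : ∃ θ, θ = Int.fract ((n + 1) * t) := ⟨_, rfl⟩
  have e1 : t = θ * (1 / (n + 1)) + ⌊(n + 1) * t⌋ * (1 / (n + 1)) := by
    rw [← add_mul, hθ, Int.fract_add_floor]; field_simp
  have e2 := (h n).red m (hD n) ⌊(n + 1) * t⌋ (θ * (1 / (n + 1)))
  rw [← e1] at e2
  have e3 : ∀ w, star (π (U (θ * (1 / (n + 1)))) * E ((n + 1 : ℝ) * (θ * (1 / (n + 1)) : ℝ)))
      (ι 0 w) = E (-θ) (ι 0 (U (-(θ * (1 / (n + 1)))) w)) := fun w => by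
    rw [star_mul, ← map_star, mul_apply_eq_comp, (h n).amp, m.Ustar, (h n).grp.star, conj_ofReal,
      ← ofReal_neg, ← ofReal_mul, ← ofReal_neg]
    congr 3
    field_simp
  rw [e2, ← norm_map_of_mem_unitary (Unitary.star_mem (u (θ * (1 / (n + 1))))), map_sub,
    ← mul_apply_eq_comp, ← mul_assoc, ← mul_assoc, (u _).1, one_mul, mul_apply_eq_comp, e3, e3]
  exact hn.self_of_nhdsSet θ ⟨hθ ▸ Int.fract_nonneg _, hθ ▸ (Int.fract_lt_one _).le⟩

end Vale.Agent.P096.Co
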