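import Vale.Agent.P096.Base

/-! Passage to an `L²`-bounded primitive, centre-valued form. -/

open Finset Vale.Agent.P104 Vale.Agent.P085 Filter Topology
open scoped InnerProductSpace

set_option linter.unusedSectionVars false

namespace Vale.Agent.P096.NZ

section abs
variable {A K : Type*} [CStarAlgebra A] [NormedAddCommGroup K] [InnerProductSpace ℂ K]
  [CompleteSpace K] {D : Bim A K} {θ β κ : ℝ} {c r : A → A → K} {ψ : A → K}

lemma cE_le (σ : Pr (unitary A)) {x : A} (hx : ‖x‖ ≤ 1) : ‖cE σ x‖ ≤ 1 :=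
  σ.norm_ex' fun g => bm (bm (bu g) hx) (bu _)

lemma cE_comm {σ : Pr (unitary A)} {g : unitary A} (h : σ.Iv g) (x : A) :
    g * cE σ x = cE σ x * g := by
  conv_rhs => rw [cE, ← h.l]
  simp only [cE, Pr.mul_ex, Pr.ex_mul', mul_inv_rev, Submonoid.coe_mul, mul_assoc, uu', mul_one]

lemma gp_mul {m : ℕ → Pr (unitary A)} {g g' : unitary A} (h : Gp m g) (h' : Gp m g') :
    Gp m (g * g') := (h.and h').mono fun k hk => .mk'
  (fun F => by simp only [mul_assoc]; rw [hk.2.l fun a => F (g * a), hk.1.l])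
  fun F => by simp only [← mul_assoc]; rw [hk.1.r fun a => F (a * g'), hk.2.r]

lemma gp_inv {m : ℕ → Pr (unitary A)} {g : unitary A} (h : Gp m g) : Gp m g⁻¹ :=
  h.mono fun _ hk => hk.inv

lemma lz (h : AC D θ β c r) {G : unitary A → Prop} {k : ℕ → A} {z w f : Op K} {N : A → ℝ}
    {U : Ultrafilter ℕ} (k1 : ∀ n, ‖k n‖ ≤ 1) (k2 : ∀ v, WV U (fun n => D.L (k n) v) (z v))
    (k3 : ∀ v, WV U (fun n => D.R (k n) v) (z v)) (k4 : ∀ x, WV U (fun n => c (k n) x) 0)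
    (k5 : ∀ x, WV U (fun n => r x (k n)) 0) (k6 : ∀ g, G g → ∀ᶠ n in U, g * k n = k n * g)
    (k7 : ∀ n n' x, ‖ψ (k n * (x * k n'))‖ ≤ N x) (w1 : ‖w‖ ≤ 2) (w2 : ∀ v, w (z v) = f v)
    (w3 : ∀ v, z (w v) = f v) (w4 : ∀ v, w (f v) = w v) (f1 : ‖f‖ ≤ 1)
    (wL : ∀ x v, w (D.L x v) = D.L x (w v)) (wR : ∀ x v, w (D.R x v) = D.R x (w v))
    (fL : ∀ x v, f (D.L x v) = D.L x (f v)) (fR : ∀ x v, f (D.R x v) = D.R x (f v))
    (p1 : BL 7 ψ) (p2 : ∀ g, G g → Md D ψ g)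
    (p3 : ∀ x z, ‖x‖ ≤ 1 → ‖z‖ ≤ 1 → ‖c x z - D.dl ψ x z‖ ≤ κ) :
    ∃ φ : A → K, IsLinearMap ℂ φ ∧ (∀ x, ‖φ x‖ ≤ 4 * N x) ∧ (∀ g, G g → Md D φ g) ∧
      ∀ x z, ‖x‖ ≤ 1 → ‖z‖ ≤ 1 → ‖f (c x z) - D.dl φ x z‖ ≤ 81 * κ + 8 * θ := by
  have κ0 : 0 ≤ κ := (norm_nonneg _).trans (p3 1 1 b1 b1)
  have θ0 := h.θ0
  have bl : ∀ {b : ℝ} {ψ : A → K}, BL b ψ → ∀ n, BL b (fun x => ψ (k n * x)) ∧
      BL b fun x => ψ (x * k n) := fun {b ψ} h n =>
    ⟨⟨⟨fun _ _ => by rw [mul_add, h.lin.map_add], fun _ _ => by rw [mul_smul_comm, h.lin.map_smul]⟩,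
      fun x hx => h.bd _ (bm (k1 n) hx)⟩,
    ⟨⟨fun _ _ => by rw [add_mul, h.lin.map_add], fun _ _ => by rw [smul_mul_assoc, h.lin.map_smul]⟩,
      fun x hx => h.bd _ (bm hx (k1 n))⟩⟩
  have bw : ∀ {b : ℝ} {ψ : A → K}, BL b ψ → BL (2 * b) fun x => w (ψ x) := fun {b ψ} h =>
    ⟨⟨fun _ _ => by rw [h.lin.map_add, map_add], fun _ _ => by rw [h.lin.map_smul, map_smul]⟩,
      fun x hx => ale w1 (h.bd x hx)⟩
  obtain ⟨φ, q1, q2⟩ := wlim_BL U (fun n => (bl p1 n).1) (by norm_num)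
  obtain ⟨χ, r1, r2⟩ := wlim_BL U (fun n => (bl (bw q1) n).2) (by norm_num)
  have q3 : ∀ g, G g → Md D (fun x => w (φ x)) g := fun g hg x =>
    ⟨by rw [← wL]; exact congrArg w ((q2 _).eq (((q2 x).op _).congr ((k6 g hg).mono fun n hn => by
      rw [← (p2 g hg _).1, ← mul_assoc, hn, mul_assoc]))),
    by rw [← wR]; exact congrArg w ((q2 _).eq (((q2 x).op _).congr (.of_forall fun n => by
      rw [← (p2 g hg _).2, mul_assoc])))⟩
  have q4 : ∀ x y, ‖x‖ ≤ 1 → ‖y‖ ≤ 1 → ‖f (c x y) - D.dl (fun x => w (φ x)) x y‖ ≤ 9 * κ :=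
    fun x y hx hy => by
    have := norm_sub_le_of_le (ale f1 (p3 x y hx hy)) (gauge (D := D) (φ := fun x => w (φ x))
      (ψ := fun x => f (ψ x)) (ρ := 2 * κ) (w (φ 1) - f (ψ 1)) 0 (fun x hx => ?_) hx hy)
    · refine le_of_eq_of_le (congrArg _ ?_) (this.trans (by linarith))
      simp only [Bim.dl, map_sub, map_add, fL, fR]; abel
    have a1 := ale w1 (((k4 x).sub ((((((q2 1).op (D.R x))).sub ((k2 (ψ 1)).op (D.R x))).sub
      (q2 x)).add (k2 (ψ x)))).le (b := κ) (.of_forall fun n => by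
        simpa only [Bim.dl, mul_one] using p3 (k n) x (k1 n) hx))
    refine le_of_eq_of_le (congrArg _ ?_) a1
    simp only [map_sub, map_add, map_zero, wR, w2]; abel
  have q5 : ∀ x y, ‖x‖ ≤ 1 → ‖y‖ ≤ 1 → ‖f (r x y) - D.dl (fun x => w (φ x)) x y‖ ≤ 9 * κ + θ :=
    fun x y hx hy => by
    have := norm_sub_le_of_le (q4 x y hx hy) (ale f1 (h.lr x y hx hy))
    rw [map_sub, sub_sub_sub_cancel_left, one_mul, norm_sub_rev] at this
    rwa [norm_sub_rev]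
  refine ⟨fun x => w (χ x), (bw r1).lin, fun x => (ale w1 ((r2 x).le (.of_forall fun n' =>
    ale w1 ((q2 _).le (.of_forall fun n => k7 n n' x))))).trans_eq (by ring), fun g hg x => ⟨?_, ?_⟩,
    fun x y hx hy => ?_⟩
  · rw [← wL]
    exact congrArg w ((r2 _).eq (((r2 x).op _).congr (.of_forall fun n => by
      rw [mul_assoc]; exact (q3 g hg _).1.symm)))
  · rw [← wR]
    exact congrArg w ((r2 _).eq (((r2 x).op _).congr ((k6 g hg).mono fun n hn => by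
      rw [mul_assoc, hn, ← mul_assoc]; exact (q3 g hg _).2.symm)))
  have := norm_sub_le_of_le (q4 x y hx hy) (gauge (D := D) (φ := fun x => w (χ x))
    (ψ := fun x => w (φ x)) (ρ := 2 * (9 * κ + θ)) 0 (w (χ 1) - w (φ 1)) (fun x hx => ?_) hx hy)
  · exact le_of_eq_of_le (congrArg _ (by abel)) (this.trans (by linarith))
  have a1 := ale w1 ((((k5 x).op f).sub ((((k3 (w (φ x))).sub (k3 (D.L x (w (φ 1))))).sub (r2 x)).add
    ((r2 1).op (D.L x)))).le (b := 9 * κ + θ) (.of_forall fun n => by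
      simpa only [Bim.dl, one_mul] using q5 x (k n) hx (k1 n)))
  refine le_of_eq_of_le (congrArg _ ?_) a1
  simp only [map_sub, map_add, map_zero, ← wL, w3, w4]; abel

lemma prim (h : AC D θ 1 c r) (θ0 : 0 < θ) (θ1 : θ ≤ 1 / 10 ^ 36) {m : ℕ → Pr (unitary A)}
    (sy : ∀ k, (m k).Sy) (iv : ∀ k, (m k).All (m k).Iv) (gp : ∀ k, (m k).All (Gp m))
    (pp : ∃ s t : unitary A, PP (s : A) t ∧ Gp m s ∧ Gp m t) (hN : ∀ g, Gp m g → Nul θ c g) :
    ∃ ψ, BL 7 ψ ∧ (∀ g, Gp m g → Md D ψ g) ∧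
      ∀ x z, ‖x‖ ≤ 1 → ‖z‖ ≤ 1 → ‖c x z - D.dl ψ x z‖ ≤ 11 / 10 ^ 5 := by
  obtain ⟨ψ, p1, p2, p3⟩ := h.diag θ0 (θ1.trans (by norm_num)) sy iv
    (fun k => (gp k).mono hN) (n := 10 ^ 17) (e := 1 / 10 ^ 7) (by norm_num) (by norm_num)
    (by push_cast; linarith)
  obtain ⟨s, t, P, hs, ht⟩ := pp
  have nu : ∀ g, Gp m g → Nul θ (fun x z => c x z - D.dl ψ x z) g := fun g hg x hx => by
    have a1 := (p2 g hg 1).1
    have a2 := (p2 g hg 1).2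
    rw [mul_one] at a1
    rw [one_mul] at a2
    simp only [Bim.dl, (p2 g hg x).1, (p2 g hg x).2]
    rw [← a1, a2, D.LR]
    simpa using hN g hg x hx
  exact ⟨ψ, p1, p2, fun x z hx hz => ((h.sub p1).full P (nu s hs) (nu t ht) (nu _ (gp_mul hs ht))
    p3 hx hz).trans (by linarith)⟩

end abs

variable {K : Type*} [NormedAddCommGroup K] [InnerProductSpace ℂ K] [CompleteSpace K]
  {P : VonNeumannAlgebra K} {ξ ζ : K}

lemma cut {z : Op K} (z1 : z ∈ P) (z2 : z ∈ P.commutant) (z3 : star z = z) (z4 : ‖z‖ ≤ 1)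
    (ζ1 : ‖ζ‖ = 1) (z5 : 3 / 4 ≤ qf z ζ) : ∃ f w : Op K, Cp P f ∧ w ∈ P ∧ w ∈ P.commutant ∧
      ‖w‖ ≤ 2 ∧ w * z = f ∧ w * f = w ∧ 1 / 2 ≤ ‖f ζ‖ ^ 2 := by
  obtain ⟨a, ha⟩ : ∃ a, a = z - (2 : ℂ)⁻¹ • 1 := ⟨_, rfl⟩
  obtain ⟨e, e1, e2, e3, e4⟩ := exists_spec (a := a) (by simp [IsSelfAdjoint, ha, z3])
  have e5 : ∀ y, z * y = y * z → e * y = y * e := fun y hy => e2 y (by
    simp [ha, sub_mul, mul_sub, hy])
  obtain ⟨q, hq⟩ : ∃ q, q = (2 : ℂ) • (a * e) + 1 := ⟨_, rfl⟩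
  have qq : ∀ v, qf q v = 2 * qf (a * e) v + ‖v‖ ^ 2 := fun v => by
    rw [← qf_one]; simp [hq, qf]
  obtain ⟨s, s1, s2, s3⟩ := exists_inv (q := q) (by
    rw [hq, two_smul]; exact add_nonneg (add_nonneg e3 e3) zero_le_one) fun v => by
    linarith [qq v, qf_nonneg e3 v]
  have s4 : ∀ y, z * y = y * z → y * ((2 : ℂ) • (s * e)) = (2 : ℂ) • (s * e) * y := fun y hy => by
    have : y * q = q * y := by
      simp [hq, ha, mul_add, add_mul, sub_mul, mul_sub, mul_assoc, e5 y hy, ← mul_assoc y, ← hy]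
    have : y * s = s * y := by
      rw [← one_mul (y * s), ← s1, mul_assoc, ← mul_assoc q, ← this, mul_assoc y, s2, mul_one]
    rw [mul_smul_comm, smul_mul_assoc, ← mul_assoc, this, mul_assoc, mul_assoc, e5 y hy]
  have i := pidem e1
  refine ⟨e, (2 : ℂ) • (s * e), ⟨e1, memM fun y hy => (e5 y (commM z1 hy)).symm,
    VonNeumannAlgebra.mem_commutant_iff.2 fun y hy => (e5 y (commM hy z2).symm).symm⟩,
    memM fun y hy => s4 y (commM z1 hy),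
    VonNeumannAlgebra.mem_commutant_iff.2 fun y hy => s4 y (commM hy z2).symm, ?_, ?_, ?_, ?_⟩
  · rw [norm_smul]
    simpa using mul_le1 s3 (proj_le1 e1)
  · have : q * e = (2 : ℂ) • (e * z) := by
      simp [hq, ha, add_mul, mul_assoc, i, sub_mul, smul_sub, smul_smul, e5 z rfl]
    rw [smul_mul_assoc, mul_assoc, ← mul_smul_comm, ← this, ← mul_assoc, s1, one_mul]
  · rw [smul_mul_assoc, mul_assoc, i]
  · have a1 := qf_nonneg e4 ζ
    have a2 : qf (a * e) ζ = qf z (e ζ) - 1 / 2 * ‖e ζ‖ ^ 2 := by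
      rw [← qf_one, qf_conj, qf_conj, P104.pstar e1, mul_one, i, e5 z rfl, mul_assoc, i]
      simp [qf, ha, sub_mul]
    have a3 : qf (-(a * (1 - e))) ζ = qf (a * e) ζ - qf z ζ + 1 / 2 * qf 1 ζ := by
      simp [qf, ha, mul_sub]; ring
    have a4 := qf_le z (e ζ)
    rw [qf_one, ζ1] at a3
    nlinarith [sq_nonneg ‖e ζ‖]

lemma etz {ψ : MA P → K} (p1 : BL 7 ψ) (ζ1 : ‖ζ‖ = 1) (ζ2 : ∀ x y : MA P, ‖y‖ ≤ 1 →
    ‖(x * y).1 ζ‖ ≤ ‖x.1 ζ‖) (ζ3 : ∀ x ∈ P, ‖star x ζ‖ ≤ ‖x ζ‖) : ∃ e : MA P, star e = e ∧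
      ‖e‖ ≤ 1 ∧ 3 / 4 ≤ qf e.1 ζ ∧ ∀ y, ‖ψ (e * y * e)‖ ≤ 40 * ‖y.1 ζ‖ := by
  obtain ⟨F, F1, F2, F3⟩ := groth p1
  have F0 : ∀ x : MA P, 0 ≤ x.1 → 0 ≤ (F x).re := fun x hx => by
    obtain ⟨s, h1, h2⟩ := exists_sqrt hx
    rw [← h2]; nth_rewrite 1 [← h1]; exact F2 s
  obtain ⟨s, t, s1, t1, st, s0, h1, h2⟩ := etrick (P := P) (fun x => (F x).re)
    (fun x => 392 * qf x.1 ζ) (fun x y => by simp [F1.lin.map_add]) (fun x y => by
      simp [qf, mul_add]) F0 (fun x hx => mul_nonneg (by positivity) (qf_nonneg hx _))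
    fun a z ha hz => ((Complex.continuous_re.tendsto _).comp (hz ζ ζ)).const_mul _
  have t2 : ‖t‖ ≤ 1 := cs_le t1 s1 (by rwa [add_comm])
  have s2 : ‖s‖ ≤ 1 := cs_le s1 t1 st
  have e3 : ∀ y, (F (star (y * s) * (y * s))).re ≤ 392 * ‖(y * s).1 ζ‖ ^ 2 := fun y => by
    rw [normsq_eq]
    refine scale (f := fun y : MA P => (F (star (y * s) * (y * s))).re)
      (g := fun y => 392 * qf (star (y * s) * (y * s)).1 ζ) 2 (fun t x ht => ?_) (fun t x ht => ?_)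
      h2 y
    · simp only [smul_mul_assoc, star_smul, mul_smul_comm, F1.lin.map_smul]
      simp; ring
    · simp [qf, smul_smul]; ring
  refine ⟨s, s1, s2, ?_, fun y => ?_⟩
  · have a1 := h1.trans ((Complex.re_le_norm _).trans (F1.bd _ (bm t2 t2)))
    have a2 : qf (s * s).1 ζ + qf (t * t).1 ζ = qf 1 ζ := by
      rw [← show (s * s).1 + (t * t).1 = 1 from congrArg Subtype.val st]; simp [qf]
    have a3 := qf_nonneg (show 0 ≤ s.1 - s.1 * s.1 by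
      rw [← mul_one_sub]
      exact Commute.mul_nonneg s0 (sub_nonneg.2 ((CStarAlgebra.norm_le_one_iff_of_nonneg _ s0).1 s2))
        ((Commute.one_right _).sub_right (Commute.refl _))) ζ
    have a4 : qf (s.1 - s.1 * s.1) ζ = qf s.1 ζ - qf (s * s).1 ζ := by simp [qf]
    rw [qf_one, ζ1] at a2
    linarith
  · have a1 := F3 (s * y * s)
    have a2 := e3 (s * y)
    have a3 := e3 (s * star y)
    rw [show star (s * star y * s) * (s * star y * s) = s * y * s * star (s * y * s) by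
      simp [s1, mul_assoc]] at a3
    have a4 := pow_le_pow_left₀ (norm_nonneg _) ((ζ2 (s * y) s s2).trans
      (app_le (Y := s.1) s2 (y.1 ζ))) 2
    have a5 := pow_le_pow_left₀ (norm_nonneg _) ((ζ2 (s * star y) s s2).trans
      ((app_le (Y := s.1) s2 _).trans (ζ3 y.1 y.2))) 2
    refine le_of_sq_le_sq ?_ (by positivity)
    nlinarith [sq_nonneg ‖y.1 ζ‖]

end Vale.Agent.P096.NZ
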