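import Vale.Agent.P096.Cv1

/-! The local Newton step. -/

open Finset Vale.Agent.P104 Vale.Agent.P085 Filter Topology
open scoped InnerProductSpace

set_option linter.unusedSectionVars false

namespace Vale.Agent.P096.NZ

variable {K : Type*} [NormedAddCommGroup K] [InnerProductSpace ℂ K] [CompleteSpace K]
  {M N P : VonNeumannAlgebra K} {ξ ζ : K} {S W : (Op K)ˣ} {δ η : ℝ}

structure SG (M : VonNeumannAlgebra K) (ξ : K) (D : Bim (MA M) K) : Prop where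
  L : ∀ x, D.L x = x.1
  Rm : ∀ z, D.R z ∈ M.commutant
  Rv : ∀ z, D.R z ξ = z.1 ξ
  onto : ∀ a ∈ M.commutant, ∃ z, D.R z = a ∧ ‖z‖ ≤ ‖a‖
  std : Std M ξ

theorem exists_SG (h : Std M ξ) : ∃ D : Bim (MA M) K, SG M ξ D := by
  have h' := h.comm
  choose R r1 r2 r3 using fun z : MA M => h.right z.2
  have e := fun {T T'} => cyc_ext' (T := T) (T' := T') h.cyc
  refine ⟨⟨M.toStarSubalgebra.subtype, ⟨⟨R, fun x y => e (r1 _) (add_mem (r1 _) (r1 _))
    (by simp [r3])⟩, fun c x => e (r1 _) (smulM _ (r1 _)) (by simp [r3])⟩, fun z w => e (r1 _)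
    (mul_mem (r1 _) (r1 _)) ?_, e (r1 _) (one_mem _) (r3 _), fun z => e (r1 _) (star_mem (r1 _)) ?_,
    r2, fun x z => commM x.2 (r1 _)⟩, fun _ => rfl, r1, r3, fun a ha => ?_, h⟩
  · change R _ ξ = R w (R z ξ)
    rw [r3, r3, ← mul_apply_eq_comp (R w), ← commM z.2 (r1 w), mul_apply_eq_comp, r3]; rfl
  · change R _ ξ = star (R z) ξ
    refine ext_inner_right ℂ fun v => h.cyc.induction_on v (isClosed_eq (by fun_prop) (by fun_prop))
      fun x => ?_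
    rw [r3, ev_apply, inner_star_l, ← mul_apply_eq_comp (R z), ← commM x.2 (r1 z),
      mul_apply_eq_comp, r3, ← h.trc z.2 x.2]
    exact inner_star_l _ _ _
  · obtain ⟨z, z1, z2, z3⟩ := h'.right ha
    rw [M.commutant_commutant] at z1
    exact ⟨⟨z, z1⟩, e (r1 _) ha ((r3 _).trans z3), z2⟩

lemma fl_ball {Q : Subalgebra ℂ (Op K)}
    (k : ∀ a ∈ Q, ‖a‖ ≤ 1 → ∀ x ∈ P, ‖x‖ ≤ 1 → ‖(a * x - x * a) ξ‖ ≤ η) : Fl Q P ξ η := by
  intro a ha x hx
  rcases eq_or_ne a 0 with rfl | a0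
  · simp
  rcases eq_or_ne x 0 with rfl | x0
  · simp
  have a1 := norm_pos_iff.2 a0
  have x1 := norm_pos_iff.2 x0
  have := k (((‖a‖⁻¹ : ℝ) : ℂ) • a) (Subalgebra.smul_mem _ ha _) (by simp [norm_smul, a0])
    (((‖x‖⁻¹ : ℝ) : ℂ) • x) (smulM _ hx) (by simp [norm_smul, x0])
  simp only [smul_mul_smul_comm, mul_comm ((‖x‖⁻¹ : ℝ) : ℂ), ← smul_sub, smul_apply, norm_smul,
    norm_mul, Complex.norm_real] at this
  rw [Real.norm_of_nonneg (by positivity), Real.norm_of_nonneg (by positivity), ← mul_inv,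
    inv_mul_le_iff₀ (by positivity)] at this
  linarith

lemma upd {b : Op K} (hW : (W : Op K) = 1 - b) (hb : ‖b‖ ≤ 320 * η) (h1 : Nr (cj S N) M δ)
    (h2 : Fl (cj S N) P ξ η) (δ0 : 0 ≤ δ) (δ1 : δ ≤ 1 / 10 ^ 6) (η0 : 0 < η) (η1 : η ≤ 1 / 10 ^ 8)
    (ξ1 : ‖ξ‖ ≤ 1) (key : ∀ p ∈ M, ‖p‖ ≤ 1 → ∀ x ∈ P, ‖x‖ ≤ 1 → ∃ a ∈ cj S N, ‖a - p‖ ≤ 4 * δ ∧
      ‖(a * x - x * a) ξ + ((b * p - p * b) * x - x * (b * p - p * b)) ξ‖ ≤ η / 25) :
    Fl (cj (S * W) N) P ξ (η / 5) := by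
  have w1 : ‖(W : Op K) - 1‖ ≤ 320 * η := by rwa [hW, sub_sub_cancel_left, norm_neg]
  have w2 := inv_near w1 (by linarith)
  have k : ∀ a ∈ cj (S * W) N, ‖a‖ ≤ 1 / 2 → ∀ x ∈ P, ‖x‖ ≤ 1 → ‖(a * x - x * a) ξ‖ ≤ η / 10 := by
    intro a₁ ha a1 x hx x1
    obtain ⟨a, a2⟩ : ∃ a, a = W * a₁ * ↑W⁻¹ := ⟨_, rfl⟩
    have a3 : a ∈ cj S N := a2 ▸ cj_mul.1 ha
    have a4 : ‖a‖ ≤ 3 / 4 := by
      have := nle' (conj_un w1 (by linarith) a₁).1 a1
      rw [a2]; nlinarith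
    obtain ⟨p, p1, p2⟩ := h1 a a3
    have p3 : ‖a - p‖ ≤ δ := p2.trans (mul_le_of_le_one_right δ0 (by linarith))
    obtain ⟨c, c1, c2, c3⟩ := key p p1 ((nle' (norm_sub_rev a p ▸ p3) a4).trans (by linarith)) x hx x1
    have e1 := h2.le η0.le (sub_mem a3 c1) hx (r := 5 * δ) (by
      have := norm_sub_le_of_le p3 c2
      rw [sub_sub_sub_cancel_right] at this; linarith) x1
    have e2 := ale (cle (cle hb p3) x1) ξ1
    have e3 := ale (cle (norm_sub_le_of_le (nle (nle hb w2) a4) (nle (nle w2 a4) hb)) x1) ξ1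
    have e4 : (↑W⁻¹ : Op K) = 1 + b * ↑W⁻¹ := by
      rw [← W.mul_inv, hW]; noncomm_ring
    have e5 : a₁ = a + (b * a - a * b) + (b * (↑W⁻¹ - 1) * a - (↑W⁻¹ - 1) * a * b) := by
      have : a₁ = ↑W⁻¹ * a * W := by simp [a2, mul_assoc]
      rw [this, hW]
      nth_rewrite 1 [mul_sub, mul_one, e4]
      noncomm_ring
    refine le_of_eq_of_le (congrArg _ ?_) ((norm_add_le_of_le (norm_add_le_of_le
      (norm_add_le_of_le e1 c3) e2) e3).trans (by nlinarith))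
    simp only [← add_apply]
    rw [e5]; congr 1; noncomm_ring
  refine fl_ball fun a ha a1 x hx x1 => ?_
  have := k ((2 : ℂ)⁻¹ • a) (Subalgebra.smul_mem _ ha _) (by rw [norm_smul]; simp; linarith) x hx x1
  simp only [smul_mul_assoc, mul_smul_comm, ← smul_sub, smul_apply, norm_smul, norm_inv,
    Complex.norm_ofNat] at this
  linarith

variable {D : Bim (MA M) K} {m : ℕ → Pr (unitary (MA M))}

lemma SG.S12 (h : SG M ξ D) (hm : HZ M ξ m) {x : MA M} (hx : ‖x‖ ≤ 1) : ∃ z ∈ M, z ∈ M.commutant ∧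
    ∀ v, Tendsto (fun k => D.L (cE (m k) x) v) atTop (𝓝 (z v)) ∧
      Tendsto (fun k => D.R (cE (m k) x) v) atTop (𝓝 (z v)) := by
  obtain ⟨z, z1, z2, z3⟩ := hm.cv x
  refine ⟨z, z1, z2, fun v => ?_⟩
  have c : ∀ T : Op K, Tendsto (fun k => T ((cE (m k) x).1 ξ - z ξ)) atTop (𝓝 0) := fun T => by
    simpa only [map_zero, Function.comp_def] using
      (T.continuous.tendsto 0).comp (tendsto_sub_nhds_zero_iff.2 z3)
  have a1 := strong h.std.comm.cyc (l := atTop) (T := fun k => (cE (m k) x).1 - z)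
    (fun k => norm_sub_le_of_le (cE_le _ hx) (le_refl ‖z‖)) (fun y hy =>
    (c y).congr fun k => congr($(commM (sub_mem (cE (m k) x).2 z1) hy) ξ).symm) v
  have a2 := strong h.std.cyc (l := atTop) (T := fun k => D.R (cE (m k) x) - z)
    (fun k => norm_sub_le_of_le ((D.R_le _).trans (cE_le _ hx)) (le_refl ‖z‖)) (fun y hy =>
    (c y).congr fun k => by
      rw [← h.Rv]; exact congr($(commM hy (sub_mem (h.Rm _) z2)) ξ)) v
  constructor <;> rw [← tendsto_sub_nhds_zero_iff]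
  · simpa [h.L] using a1
  · simpa using a2

lemma SG.cen (h : SG M ξ D) (hm : HZ M ξ m) (g1 : ∀ g, Gp m g → D.L g ∈ cj S N)
    (g2 : ∀ g, Gp m g → D.R g ∈ cj S N.commutant) :
    (∀ a ∈ cj S N, ∀ z ∈ M, z ∈ M.commutant → a * z = z * a) ∧
      ∀ a ∈ cj S N.commutant, ∀ z ∈ M, z ∈ M.commutant → a * z = z * a :=
  ⟨fun a ha => hm.cen a fun g hg hc => by
    rw [← cyc_ext' h.std.cyc (h.Rm g) hc (h.Rv g)]; exact cj_comm ha (g2 g hg),
  fun a ha => hm.cen a fun g hg _ => by rw [← h.L]; exact (cj_comm (g1 g hg) ha).symm⟩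

/-- the centre-valued solution of the cohomological equation -/
lemma SG.solve (h : SG M ξ D) (hm : HZ M ξ m) {θ : ℝ} {c r : MA M → MA M → K} (ac : AC D θ 1 c r)
    (θ0 : 0 < θ) (θ1 : θ ≤ 1 / 10 ^ 36) (hN : ∀ g, Gp m g → Nul θ c g) (ζ1 : ‖ζ‖ = 1)
    (ζ2 : ∀ z, D.R z ζ = z.1 ζ) (ζ3 : ∀ x ∈ M, ‖star x ζ‖ ≤ ‖x ζ‖)
    (N1 : ∀ (k : ℕ → MA M) z, z ∈ M → z ∈ M.commutant → (∀ v, Tendsto (fun n => D.L (k n) v) atTop
      (𝓝 (z v)) ∧ Tendsto (fun n => D.R (k n) v) atTop (𝓝 (z v))) → ∀ x,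
      Tendsto (fun n => c (k n) x) atTop (𝓝 0) ∧ Tendsto (fun n => r x (k n)) atTop (𝓝 0)) :
    ∃ (f : Op K) (φ : MA M → K), Cp M f ∧ 1 / 2 ≤ ‖f ζ‖ ^ 2 ∧ IsLinearMap ℂ φ ∧
      (∀ x, ‖φ x‖ ≤ 160 * ‖x.1 ζ‖) ∧ (∀ g, Gp m g → Md D φ g) ∧
      ∀ x z, ‖x‖ ≤ 1 → ‖z‖ ≤ 1 → ‖f (c x z) - D.dl φ x z‖ ≤ 1 / 100 := by
  obtain ⟨ψ, p1, p2, p3⟩ := prim ac θ0 θ1 hm.sy hm.iv hm.gp hm.pp hN
  have rx : ∀ x y : MA M, D.R y (x.1 ζ) = (x * y).1 ζ := fun x y =>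
    congr($(commM x.2 (h.Rm y)) ζ).symm.trans (congrArg x.1 (ζ2 y))
  obtain ⟨e, e1, e2, e3, e4⟩ := etz p1 ζ1 (fun x y hy => rx x y ▸ D.R_le' hy le_rfl) ζ3
  obtain ⟨z, z1, z2, z3⟩ := h.S12 hm e2
  have z4 : WT atTop (fun k => D.L (cE (m k) e)) z := fun v => WV.of (z3 v).1
  have z5 : star z = z := by
    ext v
    refine ext_inner_left ℂ fun w => ?_
    rw [inner_star_r, ← inner_conj_symm]
    refine tendsto_nhds_unique ((Complex.continuous_conj.tendsto _).comp (z4 w v))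
      ((z4 v w).congr fun k => ?_)
    have : star (cE (m k) e) = cE (m k) e := by
      rw [cE, Pr.ex_map _ _ star star_add fun r x => by simp]
      simp [e1, coe_inv, mul_assoc]
    simp only [Function.comp, inner_conj_symm]
    rw [← inner_star_l, ← map_star, this]
  have z6 : qf z ζ = qf e.1 ζ := congrArg Complex.re (tendsto_nhds_unique (z4 ζ ζ)
    (tendsto_const_nhds.congr fun k => by
      have : D.L (cE (m k) e) ζ = (m k).ex fun g => D.L g (D.R (g⁻¹ : unitary _) (e.1 ζ)) := by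
        rw [cE, Pr.ex_map _ _ (fun x => D.L x ζ) (by simp) fun r x => by
          rw [← Complex.coe_smul, map_smul, Complex.coe_smul]; rfl]
        simp only [rx, h.L, mul_assoc]; rfl
      rw [this, ← innerSL_apply_apply ℂ, ← innerSL_apply_apply ℂ, Pr.clm_ex, ← (m k).ex_const
        (innerSL ℂ ζ (e.1 ζ))]
      congr 1; ext g
      rw [innerSL_apply_apply, innerSL_apply_apply, ← D.L_inner, h.L,
        ← ζ2 (g⁻¹ : unitary _), D.R_inner, D.R1]))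
  obtain ⟨f, w, f1, w1, w2, w3, w4, w5, f2⟩ := cut z1 z2 z5 (wt_norm z4 (.of_forall fun k =>
    (NonUnitalStarAlgHom.norm_apply_le D.L _).trans (cE_le _ e2))) ζ1 (z6 ▸ e3)
  have U1 := Nat.hyperfilter_le_atTop
  have cl : ∀ {w}, w ∈ M.commutant → ∀ x v, w (D.L x v) = D.L x (w v) := fun hw x v => by
    rw [h.L]; exact congr($(commM x.2 hw) v).symm
  have cr : ∀ {w}, w ∈ M → ∀ x v, w (D.R x v) = D.R x (w v) := fun hw x v =>
    congr($(commM hw (h.Rm x)) v)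
  obtain ⟨φ, q1, q2, q3, q4⟩ := lz ac (G := Gp m) (U := hyperfilter ℕ) (k := fun n => cE (m n) e)
    (N := fun x => 40 * ‖x.1 ζ‖) (fun n => cE_le _ e2) (fun v => .of ((z3 v).1.mono_left U1))
    (fun v => .of ((z3 v).2.mono_left U1)) (fun x => .of ((N1 _ z z1 z2 z3 x).1.mono_left U1))
    (fun x => .of ((N1 _ z z1 z2 z3 x).2.mono_left U1))
    (fun g hg => U1 (hg.mono fun n hn => cE_comm hn e)) (fun n n' x => by
      have mp : ∀ (σ : Pr (unitary (MA M))) (G : unitary (MA M) → MA M),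
          ψ (σ.ex G) = σ.ex fun a => ψ (G a) :=
        fun σ G => σ.ex_map G ψ p1.lin.map_add fun r x => by
          rw [← Complex.coe_smul, p1.lin.map_smul, Complex.coe_smul]
      simp only [cE, Pr.mul_ex, Pr.ex_mul', mp]
      refine Pr.norm_ex ((hm.gp _).mono fun g' hg' => Pr.norm_ex ((hm.gp _).mono fun g hg => ?_))
      have := e4 ((g⁻¹ : unitary _) * x * g')
      rw [← rx, D.R_norm, MulMemClass.coe_mul, mul_apply_eq_comp, ← h.L, D.L_norm, ← D.R_norm g'⁻¹,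
        ← D.L_norm g, ← (p2 _ (gp_inv hg') _).2, ← (p2 _ hg _).1] at this
      simpa only [mul_assoc] using this) w3 (fun v => congr($w4 v))
    (fun v => congr($((commM z1 w2).trans w4) v)) (fun v => congr($w5 v)) (proj_le1 f1.1) (cl w2)
    (cr w1) (cl f1.2.2) (cr f1.2.1) p1 p2 p3
  exact ⟨f, φ, f1, f2, q1, fun x => (q2 x).trans_eq (by ring), q3,
    fun x z hx hz => (q4 x z hx hz).trans (by linarith)⟩

lemma lstep (h : SG M ξ D) (hm : HZ M ξ m) (n1 : Nr M (cj S N) δ) (n2 : Nr (cj S N) M δ)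
    (n3 : Nr M.commutant (cj S N.commutant) δ) (n4 : Nr (cj S N.commutant) M.commutant δ)
    (δ0 : 0 < δ) (δ1 : δ ≤ 1 / 10 ^ 38) (η0 : 0 < η) (η1 : η ≤ 1 / 10 ^ 8)
    (g1 : ∀ g, Gp m g → D.L g ∈ cj S N) (g2 : ∀ g, Gp m g → D.R g ∈ cj S N.commutant)
    (ξ1 : ‖ζ‖ = 1) (ζ2 : ∀ z, D.R z ζ = z.1 ζ) (ζ3 : ∀ x ∈ M, ‖star x ζ‖ ≤ ‖x ζ‖)
    (f1 : Fl (cj S N.commutant) M ζ η) (f2 : Fl (cj S N) M.commutant ζ η) :
    ∃ (f b : Op K) (W : (Op K)ˣ), Cp M f ∧ 1 / 2 ≤ ‖f ζ‖ ^ 2 ∧ (W : Op K) = 1 - b ∧ ‖b‖ ≤ 320 * η ∧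
      (∀ g, Gp m g → D.L g * b = b * D.L g ∧ D.R g * b = b * D.R g) ∧
      Fl (cj (S * W) N.commutant) M (f ζ) (η / 5) ∧
      Fl (cj (S * W) N) M.commutant (f ζ) (η / 5) := by
  choose a a1 a2 a3 using fun z => two n3 f1 δ0.le (by linarith) η0 ξ1.le (h.Rm z)
  choose n b1 b2 b3 using fun z : MA M => two (P := M.commutant) (p := z.1)
    (by rwa [M.commutant_commutant]) f2 δ0.le (by linarith) η0 ξ1.le (by
      rw [M.commutant_commutant]; exact z.2)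
  have r1 : ∀ z, ‖z‖ ≤ 1 → ‖D.R z‖ ≤ 1 := fun z hz => (D.R_le z).trans hz
  have a4 : ∀ z, ‖z‖ ≤ 1 → ‖a z - D.R z‖ ≤ 4 * δ := fun z hz =>
    (a2 z).trans (mul_le_of_le_one_right (by positivity) (r1 z hz))
  have a5 : ∀ z, ‖z‖ ≤ 1 → ‖(a z - D.R z) ζ‖ ≤ 17 * η := fun z hz =>
    (a3 z).trans (mul_le_of_le_one_right (by positivity) (r1 z hz))
  have a6 : ∀ z, ‖z‖ ≤ 1 → ‖a z‖ ≤ 2 := fun z hz => (nle' (a4 z hz) (r1 z hz)).trans (by linarith)
  have b4 : ∀ z, ‖z‖ ≤ 1 → ‖n z - z.1‖ ≤ 4 * δ := fun z hz =>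
    (b2 z).trans (mul_le_of_le_one_right (by positivity) hz)
  have b5 : ∀ z, ‖z‖ ≤ 1 → ‖(n z - z.1) ζ‖ ≤ 17 * η := fun z hz =>
    (b3 z).trans (mul_le_of_le_one_right (by positivity) hz)
  have cm : ∀ (x z : MA M), x.1 * D.R z = D.R z * x.1 := fun x z => commM x.2 (h.Rm z)
  obtain ⟨t, ht⟩ : ∃ t : ℂ, t = ((2 * η : ℝ) : ℂ) := ⟨_, rfl⟩
  have t0 : t ≠ 0 := by rw [ht]; exact_mod_cast (by positivity : 2 * η ≠ 0)
  have t1 : ∀ v : K, ‖t • v‖ = 2 * η * ‖v‖ := fun v => by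
    rw [norm_smul, ht, Complex.norm_real, Real.norm_of_nonneg (by positivity)]
  have t2 : ∀ (v : K) (s : ℝ), ‖v‖ ≤ 2 * η * s → ‖t⁻¹ • v‖ ≤ s := fun v s hv => by
    rw [← smul_inv_smul₀ t0 v, t1] at hv
    exact le_of_mul_le_mul_left hv (by positivity)
  have lr : ∀ x z : MA M, ‖x‖ ≤ 1 → ‖z‖ ≤ 1 →
      ‖(a z * x.1 - x.1 * a z) ζ - (n x * D.R z - D.R z * n x) ζ‖ ≤ 2 * η * (80 * δ) :=
    fun x z hx hz => by
      have := norm_sub_le_of_le (ale (b4 x hx) (a5 z hz)) (ale (a4 z hz) (b5 x hx))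
      refine le_of_eq_of_le (congrArg _ ?_) (this.trans (by nlinarith))
      simp only [← mul_apply_eq_comp, ← sub_apply, mul_sub, sub_mul, cm, cj_comm (b1 x) (a1 z)]
      congr 1; abel
  have ac : AC D (80 * δ) 1 (fun x z => t⁻¹ • (a z * x.1 - x.1 * a z) ζ)
      fun x z => t⁻¹ • (n x * D.R z - D.R z * n x) ζ :=
    { lin := fun z => ⟨fun x y => by simp [smul_sub]; abel, fun c x => by
        simp [smul_sub, smul_comm c]⟩
      lin' := fun z => ⟨fun x y => by simp [smul_sub]; abel, fun c x => by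
        simp [smul_sub, smul_comm c]⟩
      lr := fun x z hx hz => by rw [← smul_sub]; exact t2 _ _ (lr x z hx hz)
      bd := fun x z hx hz => t2 _ _ ((f1.le η0.le (a1 z) x.2 (a6 z hz) hx).trans_eq (by ring))
      coc := fun x y z hx hy hz => by
        simp only [map_smul, ← smul_sub, ← smul_add]
        refine t2 _ _ ?_
        have e1 := ale (cle (a4 z hz) (show ‖x.1‖ ≤ 1 from hx)) (a5 y hy)
        have e2 := ale (a4 z hz) (f1.le η0.le (a1 y) x.2 (a6 y hy) hx)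
        have e3 := f1.le η0.le (sub_mem (mul_mem (a1 z) (a1 y)) (a1 (y * z))) x.2 (r := 16 * δ) (by
          have := norm_sub_le_of_le (norm_add_le_of_le (nle (a4 z hz) (a6 y hy))
            (nle (r1 z hz) (a4 y hy))) (a4 _ (bm hy hz))
          refine le_of_eq_of_le (congrArg _ ?_) (this.trans (by linarith))
          rw [D.R_mul]; noncomm_ring) hx
        refine le_of_eq_of_le (congrArg _ ?_) ((norm_sub_le_of_le (norm_sub_le_of_le e3 e1) e2).trans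
          (by nlinarith))
        have q : ∀ v, x.1 (D.R z v) = D.R z (x.1 v) := fun v => congr($(cm x z) v)
        simp only [h.L, sub_apply, mul_apply_eq_comp, map_sub, MulMemClass.coe_mul, ζ2, q]
        abel
      one := fun z => by simp
      one' := fun z => by simp [D.R_one] }
  obtain ⟨c1, c2⟩ := h.cen hm g1 g2
  obtain ⟨f, φ, p5, p6, p1, p2, p3, p4⟩ := h.solve hm ac (by positivity) (by linarith)
    (fun g hg x hx => ⟨by
      have := cj_comm (g1 g hg) (a1 x)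
      rw [h.L] at this
      simp only [this, sub_self, zero_apply, smul_zero, norm_zero]; positivity, by
      simpa only [cj_comm (b1 x) (g2 g hg), sub_self, zero_apply, smul_zero, sub_zero] using
        ac.lr x g hx (bu g)⟩) ξ1 ζ2 ζ3 fun k z z1 z2 z3 x => ⟨by
      have e : a x (z ζ) = z (a x ζ) := congr($(c2 _ (a1 x) z z1 z2) ζ)
      simpa [h.L, e] using ((((a x).continuous.tendsto _).comp (z3 ζ).1).sub
        (z3 (a x ζ)).1).const_smul t⁻¹, by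
      have e : n x (z ζ) = z (n x ζ) := congr($(c1 _ (b1 x) z z1 z2) ζ)
      simpa [e] using ((((n x).continuous.tendsto _).comp (z3 ζ).2).sub
        (z3 (n x ζ)).2).const_smul t⁻¹⟩
  obtain ⟨b, q1, q2, q3⟩ := ext_op (ev M ζ) (t • p1.mk' φ) (C := 320 * η) (by positivity) fun x => by
    have := p2 x
    rw [LinearMap.smul_apply, t1, IsLinearMap.mk'_apply, ev_apply]; nlinarith
  obtain ⟨W, hW⟩ := exists_un (W := 1 - b) (by rw [sub_sub_cancel_left, norm_neg]; linarith)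
  have q4 : ∀ x : MA M, b (x.1 ζ) = t • φ x := q2
  have rx : ∀ x y : MA M, D.R y (x.1 ζ) = (x * y).1 ζ := fun x y =>
    congr($(cm x y) ζ).symm.trans (congrArg x.1 (ζ2 y))
  have q6 : ∀ g, Gp m g → D.L g * b = b * D.L g ∧ D.R g * b = b * D.R g := fun g hg =>
    ⟨q3 _ (fun x => ⟨g * x, by rw [h.L]; rfl, by simp [(p3 g hg x).1]⟩)
      fun x => ⟨star g.1 * x, by rw [h.L]; rfl⟩, q3 _ (fun x => ⟨x * g, rx _ _, by
      simp [(p3 g hg x).2]⟩) fun x => ⟨x * star g.1, by rw [← D.R_star]; exact rx _ _⟩⟩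
  have fc : ∀ {y : Op K}, y * f = f * y → ∀ v, y (f v) = f (y v) := fun hy v => congr($hy v)
  have fb := fc (hm.cen b (fun g hg _ => by rw [← h.L]; exact (q6 g hg).1.symm) f p5.2.1 p5.2.2)
  have ff : ∀ v, f (f v) = f v := fun v => congr($(pidem p5.1) v)
  have fx : ∀ x : MA M, ∀ v, x.1 (f v) = f (x.1 v) := fun x => fc (commM x.2 p5.2.2)
  have fr : ∀ x : MA M, ∀ v, D.R x (f v) = f (D.R x v) := fun x => fc (commM p5.2.1 (h.Rm x)).symm
  have fa := fun x => fc (c2 _ (a1 x) f p5.2.1 p5.2.2)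
  have fn := fun x => fc (c1 _ (b1 x) f p5.2.1 p5.2.2)
  have f3 := proj_le1 p5.1
  have q5 : ∀ x z : MA M, ‖x‖ ≤ 1 → ‖z‖ ≤ 1 → ‖(a z * x.1 - x.1 * a z) (f ζ) +
      ((b * D.R z - D.R z * b) * x.1 - x.1 * (b * D.R z - D.R z * b)) (f ζ)‖ ≤ η / 50 :=
    fun x z hx hz => by
      have := mul_le_mul_of_nonneg_left ((app_le f3 _).trans (p4 x z hx hz))
        (by positivity : 0 ≤ 2 * η)
      rw [← t1] at this
      refine le_of_eq_of_le (congrArg _ ?_) (this.trans_eq (by ring))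
      have q : ∀ v, x.1 (D.R z v) = D.R z (x.1 v) := fun v => congr($(cm x z) v)
      simp only [smul_sub, smul_add, smul_inv_smul₀ t0, Bim.dl, ← map_smul, ← q4, h.L, sub_apply,
        mul_apply_eq_comp, map_sub, map_add, MulMemClass.coe_mul, ← ζ2 z, q, OneMemClass.coe_one,
        one_apply_eq_self, ff, fa, fb, fx, fr]
      abel
  have fl : ∀ {Q : Subalgebra ℂ (Op K)} {P : VonNeumannAlgebra K}, Fl Q P ζ η →
      (∀ a ∈ Q, a * f = f * a) → (∀ a ∈ P, a * f = f * a) → Fl Q P (f ζ) η :=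
    fun hQ h1 h2 a ha x hx => by
      have := (app_le f3 _).trans (hQ a ha x hx)
      simpa only [sub_apply, mul_apply_eq_comp, map_sub, fc (h1 a ha), fc (h2 x hx)] using this
  have ζ4 := (app_le f3 ζ).trans ξ1.le
  refine ⟨f, b, W, p5, p6, hW, q1, q6,
    upd hW q1 n4 (fl f1 (fun a ha => c2 a ha f p5.2.1 p5.2.2) fun a ha => commM ha p5.2.2) δ0.le
      (by linarith) η0 η1 ζ4 fun p p1 p2 x x1 x2 => ?_,
    upd hW q1 n2 (fl f2 (fun a ha => c1 a ha f p5.2.1 p5.2.2) fun a ha => (commM p5.2.1 ha).symm)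
      δ0.le (by linarith) η0 η1 ζ4 fun x x1 x2 p p1 p2 => ?_⟩
  · obtain ⟨z, rfl, z1⟩ := h.onto p p1
    exact ⟨a z, a1 z, a4 z (z1.trans p2), (q5 ⟨x, x1⟩ z x2 (z1.trans p2)).trans (by linarith)⟩
  · obtain ⟨z, rfl, z1⟩ := h.onto p p1
    refine ⟨n ⟨x, x1⟩, b1 _, b4 _ x2, ?_⟩
    have := norm_sub_le_of_le (q5 ⟨x, x1⟩ z x2 (z1.trans p2))
      ((app_le f3 _).trans (lr ⟨x, x1⟩ z x2 (z1.trans p2)))
    refine le_of_eq_of_le (congrArg _ ?_) (this.trans (by nlinarith))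
    have q : ∀ v, x (D.R z v) = D.R z (x v) := fun v => congr($(cm ⟨x, x1⟩ z) v)
    have q' := fx ⟨x, x1⟩
    simp only [sub_apply, mul_apply_eq_comp, map_sub, q, fa, fb, q', fr, fn]
    abel

end Vale.Agent.P096.NZ
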