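import Vale.Agent.P096.Base

/-! Double ergodicity, part 3: analytic elements and Lindblad pairs. -/

open Finset Vale.Agent.P104 Vale.Agent.P085 Filter Topology MeasureTheory Complex
open scoped InnerProductSpace InnerProduct

set_option linter.unusedSectionVars false

namespace Vale.Agent.P096.DE

universe u

variable {H : Type u} [NormedAddCommGroup H] [InnerProductSpace ℂ H] [CompleteSpace H]
  {M : VonNeumannAlgebra H} {ξ : H} {U : ℝ → Op H} {J : H → H} {a b : ℂ → Op H}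

/-- entire covariant functions with values in `M` -/
structure An (M : VonNeumannAlgebra H) (U : ℝ → Op H) (a : ℂ → Op H) : Prop where
  mem : ∀ z, a z ∈ M
  diff : ∀ v, Differentiable ℂ fun z => a z v
  cov : ∀ (t : ℝ) z, U t * a z * U (-t) = a (z + t)
  bdd : ∀ R : ℝ, ∃ B, ∀ z : ℂ, |z.im| ≤ R → ‖a z‖ ≤ B

lemma An.shift (h : An M U a) (c : ℂ) : An M U fun z => a (z + c) where
  mem z := h.mem _
  diff v := (h.diff v).comp (differentiable_id.add_const c)
  cov t z := by rw [h.cov, add_right_comm]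
  bdd R := let ⟨B, hB⟩ := h.bdd (R + |c.im|); ⟨B, fun z hz => hB _ (by
    rw [add_im]; exact (abs_add_le _ _).trans (by linarith))⟩

lemma An.add (h : An M U a) (h' : An M U b) : An M U fun z => a z + b z where
  mem z := add_mem (h.mem _) (h'.mem _)
  diff v := (h.diff v).add (h'.diff v)
  cov t z := by rw [mul_add, add_mul, h.cov, h'.cov]
  bdd R := let ⟨B, hB⟩ := h.bdd R; let ⟨B', hB'⟩ := h'.bdd R
    ⟨B + B', fun z hz => norm_add_le_of_le (hB z hz) (hB' z hz)⟩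

lemma An.mul (m : Mod0 M ξ U J) (h : An M U a) (h' : An M U b) : An M U fun z => a z * b z where
  mem z := mul_mem (h.mem _) (h'.mem _)
  diff v z₀ := by
    obtain ⟨B, hB⟩ := h.bdd (|z₀.im| + 1)
    have e0 : ∀ᶠ z in 𝓝[≠] z₀, ‖a z‖ ≤ B := by
      have : ∀ᶠ z in 𝓝 z₀, |z.im| < |z₀.im| + 1 :=
        (continuous_im.abs.tendsto z₀).eventually (gt_mem_nhds (lt_add_one _))
      exact nhdsWithin_le_nhds (this.mono fun z hz => hB z hz.le)
    have e1 := (h'.diff v z₀).hasDerivAt.tendsto_slope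
    have e2 := (h.diff (b z₀ v) z₀).hasDerivAt.tendsto_slope
    have e3 := SV.app (l := 𝓝[≠] z₀) (V := 1) (T := a) (t := a z₀)
      (fun w => ((h.diff w).continuous.tendsto z₀).mono_left nhdsWithin_le_nhds) e0 e1
    refine (hasDerivAt_iff_tendsto_slope.2 ((e3.add e2).congr fun z => ?_)).differentiableAt
    simp [slope_def_module, smul_sub]
  cov t z := by
    rw [← h.cov, ← h'.cov]
    simp only [mul_assoc]
    rw [← mul_assoc (U (-t)) (U t), m.Uneg', one_mul]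
  bdd R := let ⟨B, hB⟩ := h.bdd R; let ⟨B', hB'⟩ := h'.bdd R
    ⟨B * B', fun z hz => nle (hB z hz) (hB' z hz)⟩

lemma An.kms (m : Mod0 M ξ U J) (h : An M U a) (w : ℂ) :
    J (star (a w) ξ) = a (w - I / 2) ξ := by
  have := m.kms (fun z => a (z + w) ξ) ((h.shift w).diff ξ) (fun t z => by
    rw [add_right_comm, ← h.cov, mul_apply_eq_comp, mul_apply_eq_comp, m.Uξ])
    _ (h.mem w) (by simp)
  rw [← this, neg_add_eq_sub]

/-- Gaussian kernel -/
noncomputable def gk (l : ℕ) (z : ℂ) : ℂ := (√((l + 1) / Real.pi) : ℝ) * cexp (-((l + 1) * z ^ 2))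

lemma gk_eq (l : ℕ) (z : ℂ) (s : ℝ) : gk l (s - z) = (√((l + 1) / Real.pi) : ℝ) *
    cexp (-(((l : ℝ) + 1 : ℝ) * (s - z) ^ 2) - I * (0 : ℝ) * (s - z)) := by
  simp [gk]

lemma gk_norm (l : ℕ) (z : ℂ) (s : ℝ) :
    ‖gk l (s - z)‖ = Real.exp ((l + 1) * z.im ^ 2) * ‖gk l ((s - z.re : ℝ) : ℂ)‖ := by
  simp only [gk, norm_mul, norm_exp]
  rw [mul_left_comm, ← Real.exp_add]
  congr 2
  simp [pow_two]
  ring

/-- Gaussian smoothing -/
noncomputable def sm (U : ℝ → Op H) (x : Op H) (l : ℕ) (z : ℂ) : Op H :=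
  wint (fun s => gk l (s - z)) fun s => U s * x * U (-s)

lemma gk_int (h3 : GaussStmt.{u}) (v : H) (l : ℕ) (z : ℂ) : Integrable fun s : ℝ => gk l (s - z) := by
  simp only [gk_eq]
  exact ((h3 H (fun _ => v) ‖v‖ (l + 1) 0 continuous_const (fun _ => le_rfl)
    (by positivity)).1 z).const_mul _

lemma sm_an (h3 : GaussStmt.{u}) (m : Mod M ξ U J) {x : Op H} (hx : x ∈ M) (l : ℕ) :
    An M U (sm U x l) where
  mem z := (m.sc x).mem (gk_int h3 ξ l z) fun s => m.UM s x hx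
  diff v := by
    have := ((h3 H (fun s => (U s * x * U (-s)) v) (‖x‖ * ‖v‖) (l + 1) 0 ((m.sc x).cont v)
      (fun s => ContinuousLinearMap.le_of_opNorm_le _ ((m.sc x).bd s) v) (by positivity)).2.1).const_smul
      ((√((l + 1) / Real.pi) : ℝ) : ℂ)
    refine (congrArg (Differentiable ℂ) (funext fun z => ?_)).mp this
    rw [sm, (m.sc x).apply (gk_int h3 ξ l z), Pi.smul_apply, ← integral_smul]
    simp only [gk_eq, mul_smul]
  cov t z := by
    ext v
    rw [sm, sm, ← (m.sc x).wint_mul (gk_int h3 ξ l z), ((m.sc x).mul _ _).apply (gk_int h3 ξ l z),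
      (m.sc x).apply (gk_int h3 ξ l _),
      ← integral_add_right_eq_self (fun s : ℝ => gk l (s - (z + t)) • (U s * x * U (-s)) v) t]
    refine integral_congr_ae (.of_forall fun s => ?_)
    simp only [add_comm s t, neg_add_rev, m.Uadd, mul_assoc]
    congr 2
    push_cast; ring
  bdd R := ⟨‖x‖ * (Real.exp ((l + 1) * R ^ 2) * ∫ s : ℝ, ‖gk l s‖), fun z hz => by
    refine ((m.sc x).norm (gk_int h3 ξ l z)).trans ?_
    simp only [gk_norm]
    rw [integral_const_mul, integral_sub_right_eq_self (fun s : ℝ => ‖gk l s‖) z.re]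
    have : 0 ≤ ∫ s : ℝ, ‖gk l s‖ := integral_nonneg fun _ => norm_nonneg _
    have := sq_le_sq' (abs_le.1 hz).1 (abs_le.1 hz).2
    gcongr⟩

lemma sm_star (h3 : GaussStmt.{u}) (m : Mod0 M ξ U J) (x : Op H) (l : ℕ) (z : ℂ) :
    star (sm U x l z) = sm U (star x) l (starRingEnd ℂ z) := by
  have e : (fun s => star (U s * x * U (-s))) = fun s => U s * star x * U (-s) := by
    funext s; simp [m.Ustar, mul_assoc]
  rw [sm, (m.sc x).star (C' := ‖star x‖) (by rw [e]; exact m.sc _) (gk_int h3 ξ l z), e, sm]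
  congr 1
  funext s
  simp [gk, ← exp_conj]

lemma sm_lim (h3 : GaussStmt.{u}) (m : Mod0 M ξ U J) (x : Op H) :
    Tendsto (fun l => sm U x l 0 ξ) atTop (𝓝 (x ξ)) := by
  have := (h3 H (fun s => (U s * x * U (-s)) ξ) (‖x‖ * ‖ξ‖) 1 0 ((m.sc x).cont ξ)
    (fun s => ContinuousLinearMap.le_of_opNorm_le _ ((m.sc x).bd s) ξ) one_pos).2.2
  simp only [neg_zero, m.U0, mul_one, one_mul] at this
  refine this.congr fun l => ?_
  rw [sm, (m.sc x).apply (gk_int h3 ξ l 0)]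
  simp only [gk, sub_zero]

lemma exists_G (h1 : StripStmt) (h2 : SechStmt) (m : Mod0 M ξ U J) {q : ℂ → Op H} (h : An M U q)
    (hq : ∀ z, star (q z) = q (starRingEnd ℂ z)) :
    ∃ G ∈ M, J (G ξ) = G ξ ∧ G + star G = -q 0 := by
  obtain ⟨c, c0, hc⟩ := h1
  obtain ⟨B, hB⟩ := h.bdd 1
  have sc : ∀ w : ℂ, |w.im| ≤ 1 → SC (fun t : ℝ => q (t / 2 + w)) B := fun w hw =>
    ⟨fun v => (h.diff v).continuous.comp (by fun_prop), fun t => hB _ (by simpa using hw)⟩
  have s1 := sc (-(I / 4)) (by simp; norm_num)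
  have s2 := sc (I / 4) (by simp; norm_num)
  let k : ℝ → ℂ := fun t => -(c : ℂ)⁻¹ * ((Real.cosh (Real.pi * t))⁻¹ : ℝ)
  have hk : Integrable k := h2.ofReal.const_mul _
  have kc : ∀ t, starRingEnd ℂ (k t) = k t := fun t => by
    simp only [k, map_mul, map_neg, map_inv₀, conj_ofReal]
  have e1 : (fun t : ℝ => star (q (t / 2 + -(I / 4)))) = fun t : ℝ => q (t / 2 + I / 4) := by
    funext t; rw [hq]; simp [conj_ofNat, neg_div]
  refine ⟨wint k fun t => q (t / 2 + -(I / 4)), s1.mem hk fun _ => h.mem _, ?_, ?_⟩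
  · refine ext_inner_left ℂ fun w => ?_
    rw [← inner_conj_symm, m.Jinner', s1.inner hk, s1.inner hk, ← integral_conj]
    refine integral_congr_ae (.of_forall fun t => ?_)
    have := h.kms m (t / 2 + I / 4)
    rw [hq, show (t : ℂ) / 2 + I / 4 - I / 2 = t / 2 + -(I / 4) by ring,
      show starRingEnd ℂ ((t : ℂ) / 2 + I / 4) = t / 2 + -(I / 4) by simp [conj_ofNat, neg_div]]
      at this
    simp only [map_mul, kc]
    rw [m.Jinner', this, inner_conj_symm]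
  · rw [s1.star (C' := B) (by rw [e1]; exact s2) hk, e1]
    simp only [kc]
    ext η
    refine ext_inner_left ℂ fun ζ => ?_
    have i1 : Integrable fun t : ℝ => k t * ⟪ζ, q (t / 2 + -(I / 4)) η⟫_ℂ := by
      simpa only [inner_smul_right] using (s1.int hk η).const_inner (𝕜 := ℂ) ζ
    have i2 : Integrable fun t : ℝ => k t * ⟪ζ, q (t / 2 + I / 4) η⟫_ℂ := by
      simpa only [inner_smul_right] using (s2.int hk η).const_inner (𝕜 := ℂ) ζ
    have := hc 0 (‖ζ‖ * (B * ‖η‖)) (fun z => ⟪ζ, q (z / 2) η⟫_ℂ)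
      ((innerSL ℂ ζ).differentiable.comp ((h.diff η).comp (by fun_prop))) fun z hz =>
        (norm_inner_le_norm _ _).trans (mul_le_mul_of_nonneg_left
          (ContinuousLinearMap.le_of_opNorm_le _ (hB _ (by
            rw [div_ofNat_im, abs_div]; norm_num; linarith)) η) (norm_nonneg _))
    have c1 : (c : ℂ) ≠ 0 := by exact_mod_cast c0.ne'
    rw [add_apply, inner_add_right, s1.inner hk, s2.inner hk, ← integral_add i1 i2, neg_apply,
      inner_neg_right]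
    have e2 := congrArg (fun z => -(c : ℂ)⁻¹ * z) this
    simp only [zero_div] at e2
    rw [← integral_const_mul, neg_mul, ← mul_assoc, inv_mul_cancel₀ c1, one_mul] at e2
    rw [← e2]
    refine integral_congr_ae (.of_forall fun t => ?_)
    simp only [k, ofReal_zero, mul_zero, zero_mul, exp_zero, zero_div, neg_zero, one_mul]
    rw [show ((t : ℂ) - I / 2) / 2 = t / 2 + -(I / 4) by ring,
      show ((t : ℂ) + I / 2) / 2 = t / 2 + I / 4 by ring]
    ring

/-- `a` is the first member of a Lindblad pair -/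
def Dt (M : VonNeumannAlgebra H) (ξ : H) (J : H → H) (a : Op H) : Prop :=
  a ∈ M ∧ ∃ b ∈ M, ∃ G ∈ M, J (b ξ) = a ξ ∧ J (G ξ) = G ξ ∧ G + star G = -(star a * a + star b * b)

lemma sm_dt (h1 : StripStmt) (h2 : SechStmt) (h3 : GaussStmt.{u}) (m : Mod M ξ U J) {x : Op H}
    (hx : x ∈ M) (l : ℕ) : Dt M ξ J (sm U x l 0) := by
  have a1 := sm_an h3 m hx l
  have a2 := sm_an h3 m (star_mem hx) l
  obtain ⟨G, G1, G2, G3⟩ := exists_G h1 h2 m.toMod0 ((a2.mul m.toMod0 a1).add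
    ((a1.shift (I / 2)).mul m.toMod0 (a2.shift (-(I / 2))))) fun z => by
      simp [sm_star h3 m.toMod0, conj_ofNat, neg_div]
  refine ⟨a1.mem _, star (sm U x l (I / 2)), star_mem (a1.mem _), G, G1, ?_, G2, ?_⟩
  · rw [a1.kms m.toMod0, sub_self]
  · rw [G3]; simp [sm_star h3 m.toMod0, conj_ofNat, neg_div]

lemma exists_seq_dt [TopologicalSpace.SeparableSpace H] (h1 : StripStmt) (h2 : SechStmt)
    (h3 : GaussStmt.{u}) (m : Mod M ξ U J) : ∃ a : ℕ → Op H, (∀ n, Dt M ξ J (a n)) ∧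
      ∀ x ∈ M, ∀ ε > 0, ∃ n, ‖a n ξ - x ξ‖ < ε ∧ ‖star (a n) ξ - star x ξ‖ < ε := by
  obtain ⟨t, t1, t2, t3⟩ := (TopologicalSpace.IsSeparable.of_separableSpace
    {p : H × H | ∃ a, Dt M ξ J a ∧ p = (a ξ, star a ξ)}).exists_countable_dense_subset
  have key : ∀ x ∈ M, (x ξ, star x ξ) ∈ closure t := fun x hx => by
    have := (sm_lim h3 m.toMod0 x).prodMk_nhds (sm_lim h3 m.toMod0 (star x))
    refine isClosed_closure.mem_of_tendsto this (.of_forall fun l => t3 ⟨_, sm_dt h1 h2 h3 m hx l, ?_⟩)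
    simp [sm_star h3 m.toMod0]
  obtain ⟨f, rfl⟩ := t2.exists_eq_range (Set.Nonempty.of_closure ⟨_, key 1 (one_mem _)⟩)
  choose a a1 a2 using fun n => t1 (Set.mem_range_self n)
  refine ⟨a, a1, fun x hx ε hε => ?_⟩
  obtain ⟨_, ⟨n, rfl⟩, hn⟩ := Metric.mem_closure_iff.1 (key x hx) ε hε
  rw [a2, Prod.dist_eq, max_lt_iff, dist_comm, dist_eq_norm, dist_comm, dist_eq_norm] at hn
  exact ⟨n, hn⟩

lemma gen_of {N : VonNeumannAlgebra H} (hc : ∀ a ∈ M, ∀ b ∈ N, a * b = b * a)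
    (hd : DenseRange (ev N ξ)) {a : ℕ → Op H} (ha : ∀ n, a n ∈ M) {x : Op H} (hx : x ∈ M)
    (h : ∀ ε > 0, ∃ n, ‖a n ξ - x ξ‖ < ε ∧ ‖star (a n) ξ - star x ξ‖ < ε) {T : Op H}
    (hT : ∀ n, T * a n = a n * T) : x * T = T * x := by
  refine cyc_ext hd fun y hy => hd.eq_of_inner_right ℂ fun y' => ?_
  rw [← sub_eq_zero, ← norm_le_zero_iff]
  refine le_of_forall_pos_le_add fun ε hε => ?_
  obtain ⟨C, hC⟩ : ∃ C, C = ‖y'.1‖ * ‖T (y ξ)‖ + ‖y'.1 ξ‖ * ‖T * y‖ + 1 := ⟨_, rfl⟩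
  have C0 : 0 < C := by rw [hC]; positivity
  obtain ⟨n, n1, n2⟩ := h (ε / C) (by positivity)
  have e1 : ⟪ev N ξ y', (x * T) (y ξ)⟫_ℂ - ⟪ev N ξ y', (T * x) (y ξ)⟫_ℂ =
      ⟪y'.1 ξ, (T * y) (a n ξ - x ξ)⟫_ℂ - ⟪y'.1 (star (a n) ξ - star x ξ), T (y ξ)⟫_ℂ := by
    have b1 : ∀ c ∈ M, y'.1 (star c ξ) = star c (y'.1 ξ) := fun c h =>
      congr($(hc _ (star_mem h) _ y'.2) ξ).symm
    have b2 : ∀ c ∈ M, y (c ξ) = c (y ξ) := fun c h => congr($(hc _ h _ hy) ξ).symm
    have b3 : T (a n (y ξ)) = a n (T (y ξ)) := congr($(hT n) (y ξ))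
    simp only [ev_apply, mul_apply_eq_comp, map_sub, b1 _ hx, b1 _ (ha n), b2 _ hx, b2 _ (ha n), b3,
      inner_sub_left, inner_sub_right, inner_star_l]
    ring
  rw [e1, zero_add]
  have e2 := norm_sub_le_of_le
    ((norm_inner_le_norm (𝕜 := ℂ) (y'.1 ξ) _).trans (mul_le_mul_of_nonneg_left
      (((T * y).le_opNorm _).trans (mul_le_mul_of_nonneg_left n1.le (norm_nonneg _))) (norm_nonneg _)))
    ((norm_inner_le_norm (𝕜 := ℂ) _ (T (y ξ))).trans (mul_le_mul_of_nonneg_right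
      ((y'.1.le_opNorm _).trans (mul_le_mul_of_nonneg_left n2.le (norm_nonneg _))) (norm_nonneg _)))
  refine e2.trans ?_
  calc _ = (C - 1) * (ε / C) := by rw [hC]; ring
    _ ≤ C * (ε / C) := by gcongr; linarith
    _ = ε := by field_simp

end Vale.Agent.P096.DE
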