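import Vale.Agent.P096.DE2
import Vale.Agent.P096.DE3

/-! Double ergodicity. -/

open Finset Vale.Agent.P104 Vale.Agent.P085 Filter Topology MeasureTheory Complex
open scoped InnerProductSpace InnerProduct

set_option linter.unusedSectionVars false

namespace Vale.Agent.P096

universe u

namespace DE

variable {H : Type u} [NormedAddCommGroup H] [InnerProductSpace ℂ H] [CompleteSpace H]

lemma sd_of {M : VonNeumannAlgebra H} {a b G : ℕ → Op H} {r : ℕ → ℝ} (ha : ∀ j, a j ∈ M)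
    (hb : ∀ j, b j ∈ M) (hG : ∀ j, G j ∈ M) (r0 : ∀ j, 0 ≤ r j) (r1 : ∀ j, r j ≤ 1)
    (na : ∀ j, r j * ‖a j‖ ≤ (1 / 2) ^ j) (nb : ∀ j, r j * ‖b j‖ ≤ (1 / 2) ^ j)
    (nG : ∀ j, r j * ‖G j‖ ≤ (1 / 2) ^ j)
    (h : ∀ j, G j + star (G j) = -(star (a j) * a j + star (b j) * b j)) :
    Sd M (fun j c => (r j : ℂ) • cond c (a j) (b j)) fun j => (r j : ℂ) ^ 2 • G j where
  vm j c := smulM _ (by cases c; exacts [hb j, ha j])
  Gm j := smulM _ (hG j)
  vn j c := by
    rw [norm_smul, norm_real, Real.norm_of_nonneg (r0 j)]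
    cases c; exacts [nb j, na j]
  Gn j := by
    rw [norm_smul, norm_pow, norm_real, Real.norm_of_nonneg (r0 j), sq, mul_assoc]
    exact (mul_le_of_le_one_left (mul_nonneg (r0 j) (norm_nonneg _)) (r1 j)).trans (nG j)
  lind j := by
    simp only [Fintype.sum_bool, cond_true, cond_false, star_smul, star_pow, star_def, conj_ofReal,
      smul_mul_assoc, mul_smul_comm, ← smul_add, h j]
    module

end DE

open DE in
theorem deStmt (h1 : StripStmt) (h2 : SechStmt) (h3 : GaussStmt.{u}) : DEStmt.{u} := by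
  intro H _ _ _ _ M ξ U J m
  obtain ⟨a, a1, a2⟩ := exists_seq_dt h1 h2 h3 m
  choose aM b bM G GM e1 e2 e3 using a1
  let r : ℕ → ℝ := fun j => (1 / 2) ^ j / (1 + ‖a j‖ + ‖b j‖ + ‖G j‖)
  have r0 : ∀ j, 0 < r j := fun j => by positivity
  have rb : ∀ j (s : ℝ), s ≤ 1 + ‖a j‖ + ‖b j‖ + ‖G j‖ → r j * s ≤ (1 / 2) ^ j := fun j s hs =>
    (mul_le_mul_of_nonneg_left hs (r0 j).le).trans (div_mul_cancel₀ _ (by positivity)).le
  have n1 := fun j => norm_nonneg (a j)
  have n2 := fun j => norm_nonneg (b j)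
  have n3 := fun j => norm_nonneg (G j)
  have r1 : ∀ j, r j ≤ 1 := fun j => by
    have := rb j 1 (by linarith [n1 j, n2 j, n3 j])
    rw [mul_one] at this
    exact this.trans (pow_le_one₀ (by norm_num) (by norm_num))
  have na := fun j => rb j ‖a j‖ (by linarith [n2 j, n3 j])
  have nb := fun j => rb j ‖b j‖ (by linarith [n1 j, n3 j])
  have nG := fun j => rb j ‖G j‖ (by linarith [n1 j, n2 j])
  have rc : ∀ j, r j ≠ 0 := fun j => (r0 j).ne'
  refine TS.main (v := fun j c => (r j : ℂ) • cond c (a j) (b j))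
    (w := fun j c => (r j : ℂ) • cond c (m.jj (b j)) (m.jj (a j)))
    (G := fun j => (r j : ℂ) ^ 2 • G j) (G' := fun j => (r j : ℂ) ^ 2 • m.jj (G j))
    ⟨fun _ hx _ hy => commM hx hy, sd_of aM bM GM (fun j => (r0 j).le) r1 na nb nG e3,
      sd_of (fun j => m.jj_mem (bM j)) (fun j => m.jj_mem (aM j)) (fun j => m.jj_mem (GM j))
        (fun j => (r0 j).le) r1 (by simpa only [m.jj_norm] using nb)
        (by simpa only [m.jj_norm] using na) (by simpa only [m.jj_norm] using nG) fun j => ?_,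
      fun j c => ?_, fun j => ?_, fun T hT => ?_, fun T hT => ?_, fun D hD => ?_⟩
  · rw [← m.jj_star, ← m.jj_star, ← m.jj_star, ← m.jj_add, ← m.jj_mul, ← m.jj_mul, ← m.jj_add, e3,
      add_comm, ← zero_sub, m.jj_sub, ← zero_sub]
    congr 1
    ext v; simp [m.jj_apply, m.J0]
  · cases c
    · simp [m.jj_ξ, ← e1, m.JJ]
    · simp [m.jj_ξ, e1]
  · simp [m.jj_ξ, e2]
  · refine VonNeumannAlgebra.mem_commutant_iff.2 fun x hx =>
      gen_of (fun _ hx _ hy => commM hx hy) m.cyc' aM hx (a2 x hx) fun n => ?_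
    simpa [smul_right_inj (rc n)] using hT n true
  · refine memM fun y hy => gen_of (fun _ hx _ hy => (commM hy hx).symm) m.cyc
      (fun n => m.jj_mem (aM n)) hy (fun ε hε => ?_) fun n => ?_
    · obtain ⟨n, b1, b2⟩ := a2 _ (m.jj_mem' hy) ε hε
      refine ⟨n, ?_, ?_⟩
      · rwa [← m.Jnorm, m.Jsub, m.jj_ξ, m.JJ, ← m.jj_ξ] at b1
      · rwa [← m.Jnorm, m.Jsub, ← m.jj_star, m.jj_ξ, m.JJ, ← m.jj_ξ, m.jj_star] at b2
    · simpa [smul_right_inj (rc n)] using hT n false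
  · refine cyc_ext m.cyc fun x hx => ?_
    rw [zero_apply, ← norm_le_zero_iff]
    refine le_of_forall_pos_le_add fun ε hε => ?_
    obtain ⟨n, b1, -⟩ := a2 x hx (ε / (‖D‖ + 1)) (by positivity)
    have b2 : D (a n ξ) = 0 := by simpa [rc] using hD n true
    have b3 := (D.le_opNorm _).trans (mul_le_mul_of_nonneg_left b1.le (norm_nonneg D))
    rw [map_sub, b2, zero_sub, norm_neg] at b3
    calc _ ≤ (‖D‖ + 1) * (ε / (‖D‖ + 1)) := b3.trans (by gcongr; linarith)
      _ = _ := by field_simp; ring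

end Vale.Agent.P096
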