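import Vale.Agent.P096.Spec

/-! Double ergodicity, part 1: Kraus pairs and the one-sided estimates. -/

open Finset Vale.Agent.P104 Vale.Agent.P085 Filter Topology
open scoped InnerProductSpace InnerProduct

set_option linter.unusedSectionVars false

namespace Vale.Agent.P096.DE

variable {H : Type*} [NormedAddCommGroup H] [InnerProductSpace ℂ H] [CompleteSpace H]

abbrev En (H : Type*) [NormedAddCommGroup H] [InnerProductSpace ℂ H] := Module.End ℂ (Op H)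

/-- `T ↦ x* T x` -/
noncomputable def cg (x : Op H) : En H := LinearMap.mulLeftRight ℂ (star x, x)

@[simp] lemma cg_apply (x T : Op H) : cg x T = star x * T * x := rfl

/-- a pair of Kraus maps agreeing at the vector `ξ` -/
def KP (M N : VonNeumannAlgebra H) (ξ : H) (Φ Ψ : En H) : Prop :=
  ∃ (ι : Type) (_ : Fintype ι) (x y : ι → Op H), (∀ i, x i ∈ M) ∧ (∀ i, y i ∈ N) ∧
    (∀ i, x i ξ = y i ξ) ∧ (∀ T, Φ T = ∑ i, star (x i) * T * x i) ∧
    ∀ T, Ψ T = ∑ i, star (y i) * T * y i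

/-- a Kraus map -/
def Kr (M : VonNeumannAlgebra H) (Φ : En H) : Prop := KP M M 0 Φ Φ

/-- commuting algebras -/
def Cm (M N : VonNeumannAlgebra H) : Prop := ∀ a ∈ M, ∀ b ∈ N, a * b = b * a

variable {M N : VonNeumannAlgebra H} {ξ : H} {Φ Ψ Φ' Ψ' : En H}

lemma Cm.symm (h : Cm M N) : Cm N M := fun a ha b hb => (h b hb a ha).symm

lemma KP.symm (h : KP M N ξ Φ Ψ) : KP N M ξ Ψ Φ :=
  let ⟨ι, i, x, y, a, b, c, d, e⟩ := h; ⟨ι, i, y, x, b, a, fun j => (c j).symm, e, d⟩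

lemma KP.kr (h : KP M N ξ Φ Ψ) : Kr M Φ :=
  let ⟨ι, i, x, _, a, _, _, d, _⟩ := h; ⟨ι, i, x, x, a, a, fun _ => rfl, d, d⟩

lemma KP.cg {x y : Op H} (hx : x ∈ M) (hy : y ∈ N) (h : x ξ = y ξ) : KP M N ξ (cg x) (cg y) :=
  ⟨Unit, inferInstance, fun _ => x, fun _ => y, fun _ => hx, fun _ => hy, fun _ => h,
    fun T => by simp, fun T => by simp⟩

lemma KP.one : KP M N ξ 1 1 :=
  ⟨Unit, inferInstance, fun _ => 1, fun _ => 1, fun _ => one_mem _, fun _ => one_mem _,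
    fun _ => rfl, fun T => by simp, fun T => by simp⟩

lemma KP.zero : KP M N ξ 0 0 :=
  ⟨Empty, inferInstance, fun _ => 1, fun _ => 1, fun _ => one_mem _, fun _ => one_mem _,
    fun _ => rfl, fun T => by simp, fun T => by simp⟩

lemma KP.add (h : KP M N ξ Φ Ψ) (h' : KP M N ξ Φ' Ψ') : KP M N ξ (Φ + Φ') (Ψ + Ψ') := by
  obtain ⟨ι, i, x, y, a, b, c, d, e⟩ := h
  obtain ⟨ι', i', x', y', a', b', c', d', e'⟩ := h'
  refine ⟨ι ⊕ ι', inferInstance, Sum.elim x x', Sum.elim y y', ?_, ?_, ?_, fun T => ?_, fun T => ?_⟩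
  · rintro (j | j); exacts [a j, a' j]
  · rintro (j | j); exacts [b j, b' j]
  · rintro (j | j); exacts [c j, c' j]
  · simp [d, d']
  · simp [e, e']

lemma KP.sum {κ : Type*} (s : Finset κ) {Φ Ψ : κ → En H} (h : ∀ k ∈ s, KP M N ξ (Φ k) (Ψ k)) :
    KP M N ξ (∑ k ∈ s, Φ k) (∑ k ∈ s, Ψ k) := by
  classical
  induction s using Finset.induction_on with
  | empty => simpa using KP.zero
  | insert a s ha ih =>
    rw [sum_insert ha, sum_insert ha]
    exact (h a (mem_insert_self _ _)).add (ih fun k hk => h k (mem_insert_of_mem hk))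

lemma KP.smul (h : KP M N ξ Φ Ψ) {r : ℝ} (hr : 0 ≤ r) : KP M N ξ ((r : ℂ) • Φ) ((r : ℂ) • Ψ) := by
  obtain ⟨ι, i, x, y, a, b, c, d, e⟩ := h
  have key : ∀ x T : Op H, star ((√r : ℂ) • x) * T * ((√r : ℂ) • x) = (r : ℂ) • (star x * T * x) := by
    intro x T
    rw [star_smul, smul_mul_assoc, smul_mul_assoc, mul_smul_comm, smul_smul]
    congr 1
    rw [Complex.star_def, Complex.conj_ofReal, ← Complex.ofReal_mul, Real.mul_self_sqrt hr]
  refine ⟨ι, i, fun j => (√r : ℂ) • x j, fun j => (√r : ℂ) • y j, fun j => smulM _ (a j),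
    fun j => smulM _ (b j), fun j => by simp [c], fun T => ?_, fun T => ?_⟩
  · simp only [key, LinearMap.smul_apply, d, smul_sum]
  · simp only [key, LinearMap.smul_apply, e, smul_sum]

lemma KP.mul (hc : Cm M N) (h : KP M N ξ Φ Ψ) (h' : KP M N ξ Φ' Ψ') :
    KP M N ξ (Φ * Φ') (Ψ' * Ψ) := by
  obtain ⟨ι, i, x, y, a, b, c, d, e⟩ := h
  obtain ⟨ι', i', x', y', a', b', c', d', e'⟩ := h'
  refine ⟨ι × ι', inferInstance, fun p => x' p.2 * x p.1, fun p => y p.1 * y' p.2,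
    fun p => mul_mem (a' _) (a _), fun p => mul_mem (b _) (b' _), fun p => ?_, fun T => ?_,
    fun T => ?_⟩
  · rw [mul_apply_eq_comp, c, ← mul_apply_eq_comp, hc _ (a' _) _ (b _), mul_apply_eq_comp, c',
      mul_apply_eq_comp]
  · simp only [Module.End.mul_apply, d, d', Fintype.sum_prod_type, mul_sum, sum_mul, star_mul,
      mul_assoc]
  · simp only [Module.End.mul_apply, e, e', Fintype.sum_prod_type_right, mul_sum, sum_mul, star_mul,
      mul_assoc]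

lemma KP.pow (hc : Cm M N) (h : KP M N ξ Φ Ψ) (n : ℕ) : KP M N ξ (Φ ^ n) (Ψ ^ n) := by
  induction n with
  | zero => simpa using KP.one
  | succ n ih => rw [pow_succ, pow_succ']; exact ih.mul hc h

lemma KP.om (h : KP M N ξ Φ Ψ) (T : Op H) : ⟪ξ, Φ T ξ⟫_ℂ = ⟪ξ, Ψ T ξ⟫_ℂ := by
  obtain ⟨ι, i, x, y, a, b, c, d, e⟩ := h
  simp only [d, e, _root_.sum_apply, inner_sum, mul_apply_eq_comp, inner_star_r, c]

lemma Kr.left (h : Kr M Φ) (hc : Cm M N) {a : Op H} (ha : a ∈ N) (T : Op H) :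
    Φ (a * T) = a * Φ T := by
  obtain ⟨ι, i, x, y, b, -, -, d, -⟩ := h
  simp only [d, mul_sum, ← mul_assoc, hc _ (star_mem (b _)) a ha]

lemma Kr.right (h : Kr M Φ) (hc : Cm M N) {a : Op H} (ha : a ∈ N) (T : Op H) :
    Φ (T * a) = Φ T * a := by
  obtain ⟨ι, i, x, y, b, -, -, d, -⟩ := h
  simp only [d, sum_mul, mul_assoc, hc _ (b _) a ha]

lemma Kr.pos (h : Kr M Φ) {T : Op H} (hT : 0 ≤ T) : 0 ≤ Φ T := by
  obtain ⟨ι, i, x, y, b, -, -, d, -⟩ := h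
  rw [d]
  exact sum_nonneg fun j _ => star_left_conjugate_nonneg hT _

lemma Kr.mono (h : Kr M Φ) {S T : Op H} (hT : S ≤ T) : Φ S ≤ Φ T := by
  rw [← sub_nonneg, ← map_sub]; exact h.pos (sub_nonneg.2 hT)

lemma qf_sub (S T : Op H) (v : H) : qf (S - T) v = qf S v - qf T v := by
  simp [qf]

lemma qf_add (S T : Op H) (v : H) : qf (S + T) v = qf S v + qf T v := by
  simp [qf]

lemma qf_mono {S T : Op H} (h : S ≤ T) (v : H) : qf S v ≤ qf T v := by
  have := qf_nonneg (sub_nonneg.2 h) v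
  rw [qf_sub] at this; linarith

/-- the Kadison-Schwarz inequality -/
lemma Kr.ks (h : Kr M Φ) (h1 : Φ 1 ≤ 1) (D : Op H) (η : H) :
    ‖Φ D η‖ ^ 2 ≤ qf (Φ (star D * D)) η ∧ qf (Φ (star D * D)) η ≤ ‖D‖ ^ 2 * ‖η‖ ^ 2 := by
  obtain ⟨ι, i, x, y, b, -, -, d, -⟩ := h
  have e0 : ∀ ζ, nn (fun j => x j ζ) ≤ ‖ζ‖ := fun ζ => by
    refine nn_le (norm_nonneg _) ?_
    have := qf_mono h1 ζ
    rw [qf_one, d, qf_sum] at this
    simpa only [mul_one, qf, normsq_eq] using this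
  have e1 : qf (Φ (star D * D)) η = nn (fun j => D (x j η)) ^ 2 := by
    rw [d, qf_sum, nn_sq]
    exact sum_congr rfl fun j _ => by rw [← qf_conj, normsq_eq]; rfl
  rw [e1]
  constructor
  · have e2 : ‖Φ D η‖ ^ 2 ≤ ‖Φ D η‖ * nn (fun j => D (x j η)) := by
      have := nn_inner (fun j => x j (Φ D η)) (fun j => D (x j η))
      have e3 : ∑ j, ⟪x j (Φ D η), D (x j η)⟫_ℂ = ⟪Φ D η, Φ D η⟫_ℂ := by
        conv_rhs => rw [d D, ← d D]; right; rw [d D]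
        simp only [_root_.sum_apply, inner_sum, mul_apply_eq_comp, inner_star_r]
      rw [e3, inner_self_eq_norm_sq_to_K, norm_pow, RCLike.norm_ofReal, abs_norm] at this
      exact this.trans (mul_le_mul_of_nonneg_right (e0 _) (nn_nonneg _))
    nlinarith [norm_nonneg (Φ D η), nn_nonneg fun j => D (x j η),
      sq_nonneg (‖Φ D η‖ - nn fun j => D (x j η))]
  · rw [← mul_pow]
    refine pow_le_pow_left₀ (nn_nonneg _) ((nn_mono (norm_nonneg D) fun j => D.le_opNorm _).trans ?_) 2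
    exact mul_le_mul_of_nonneg_left (e0 η) (norm_nonneg _)

lemma Kr.norm (h : Kr M Φ) (h1 : Φ 1 ≤ 1) (D : Op H) : ‖Φ D‖ ≤ ‖D‖ :=
  (Φ D).opNorm_le_bound (norm_nonneg _) fun η => by
    have := (h.ks h1 D η).1.trans (h.ks h1 D η).2
    rw [← mul_pow] at this
    exact (pow_le_pow_iff_left₀ (norm_nonneg _) (by positivity) two_ne_zero).1 this

/-! ### one side -/

/-- Lindblad data -/
structure Sd (M : VonNeumannAlgebra H) (v : ℕ → Bool → Op H) (G : ℕ → Op H) : Prop where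
  vm : ∀ j b, v j b ∈ M
  Gm : ∀ j, G j ∈ M
  vn : ∀ j b, ‖v j b‖ ≤ (1 / 2) ^ j
  Gn : ∀ j, ‖G j‖ ≤ (1 / 2) ^ j
  lind : ∀ j, G j + star (G j) = -∑ b, star (v j b) * v j b

noncomputable def ell (v : Bool → Op H) (G : Op H) : En H :=
  ∑ b, cg (v b) + LinearMap.mulLeft ℂ (star G) + LinearMap.mulRight ℂ G

lemma ell_apply (v : Bool → Op H) (G T : Op H) :
    ell v G T = ∑ b, star (v b) * T * v b + star G * T + T * G := by
  simp [ell]

noncomputable def L (v : ℕ → Bool → Op H) (G : ℕ → Op H) (k : ℕ) : En H :=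
  ∑ j ∈ range k, ell (v j) (G j)

noncomputable def Gs (G : ℕ → Op H) (k : ℕ) : Op H := ∑ j ∈ range k, G j

noncomputable def ep (k : ℕ) : ℝ := 1 / ((k : ℝ) + 1) ^ 2

noncomputable def Ph (v : ℕ → Bool → Op H) (G : ℕ → Op H) (k : ℕ) : En H :=
  (((1 + 4 * ep k ^ 2)⁻¹ : ℝ) : ℂ) •
    ((ep k : ℂ) • ∑ j ∈ range k, ∑ b, cg (v j b) + cg (1 + (ep k : ℂ) • Gs G k))

noncomputable def A (v : ℕ → Bool → Op H) (G : ℕ → Op H) (k : ℕ) : En H :=
  (((((k : ℝ) + 1) ^ 3)⁻¹ : ℝ) : ℂ) • ∑ n ∈ range ((k + 1) ^ 3), Ph v G k ^ n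

/-- harmonic operators -/
def Harm (v : ℕ → Bool → Op H) (G : ℕ → Op H) (S : Op H) : Prop :=
  ∃ C : ℝ, ∀ m, ‖L v G m S‖ ≤ C * (1 / 2) ^ m

variable {v w : ℕ → Bool → Op H} {G G' : ℕ → Op H}

lemma ep_pos (k : ℕ) : 0 < ep k := by unfold ep; positivity

lemma kp_Ph (h : Sd M v G) (h' : Sd N w G') (hv : ∀ j b, v j b ξ = w j b ξ)
    (hG : ∀ j, G j ξ = G' j ξ) (k : ℕ) : KP M N ξ (Ph v G k) (Ph w G' k) := by
  refine KP.smul (KP.add (KP.smul (KP.sum _ fun j _ => KP.sum _ fun b _ =>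
    KP.cg (h.vm j b) (h'.vm j b) (hv j b)) (ep_pos k).le) (KP.cg ?_ ?_ ?_)) (by positivity)
  · exact add_mem (one_mem _) (smulM _ (sum_mem fun j _ => h.Gm j))
  · exact add_mem (one_mem _) (smulM _ (sum_mem fun j _ => h'.Gm j))
  · simp [Gs, _root_.sum_apply, hG]

lemma kp_A (hc : Cm M N) (h : Sd M v G) (h' : Sd N w G') (hv : ∀ j b, v j b ξ = w j b ξ)
    (hG : ∀ j, G j ξ = G' j ξ) (k : ℕ) : KP M N ξ (A v G k) (A w G' k) :=
  KP.smul (KP.sum _ fun n _ => (kp_Ph h h' hv hG k).pow hc n) (by positivity)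

lemma Sd.kr (h : Sd M v G) (k : ℕ) : Kr M (Ph v G k) :=
  kp_Ph h h (fun _ _ => rfl) (fun _ => rfl) k

lemma geo (m k : ℕ) : ∑ j ∈ Ico m k, (1 / 2 : ℝ) ^ j ≤ 2 * (1 / 2) ^ m := by
  have := geom_sum_Ico_le_of_lt_one (x := (1 / 2 : ℝ)) (m := m) (n := k) (by norm_num) (by norm_num)
  refine this.trans (le_of_eq ?_)
  ring

lemma Sd.Gs_norm (h : Sd M v G) (k : ℕ) : ‖Gs G k‖ ≤ 2 := by
  refine (norm_sum_le _ _).trans ((sum_le_sum fun j _ => h.Gn j).trans ?_)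
  simpa using geo 0 k

lemma Sd.ell_norm (h : Sd M v G) (j : ℕ) (T : Op H) :
    ‖ell (v j) (G j) T‖ ≤ 4 * (1 / 2) ^ j * ‖T‖ := by
  have e1 : ∀ b, ‖star (v j b) * T * v j b‖ ≤ (1 / 2) ^ j * ‖T‖ := fun b => by
    have a1 := h.vn j b
    have a2 : ‖v j b‖ ≤ 1 := a1.trans (pow_le_one₀ (by norm_num) (by norm_num))
    calc _ ≤ ‖star (v j b)‖ * ‖T‖ * ‖v j b‖ := norm_mul₃_le
      _ ≤ (1 / 2) ^ j * ‖T‖ * 1 := by rw [norm_star]; gcongr
      _ = _ := mul_one _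
  have e2 : ‖star (G j) * T‖ ≤ (1 / 2) ^ j * ‖T‖ :=
    (norm_mul_le _ _).trans (by rw [norm_star]; gcongr; exact h.Gn j)
  have e3 : ‖T * G j‖ ≤ (1 / 2) ^ j * ‖T‖ :=
    (norm_mul_le _ _).trans (by rw [mul_comm]; gcongr; exact h.Gn j)
  rw [ell_apply, Fintype.sum_bool]
  refine norm_add₃_le.trans ?_
  linarith [norm_add_le (star (v j true) * T * v j true) (star (v j false) * T * v j false),
    e1 true, e1 false]

lemma Sd.L_sub (h : Sd M v G) {m k : ℕ} (hk : m ≤ k) (T : Op H) :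
    ‖L v G k T - L v G m T‖ ≤ 8 * (1 / 2) ^ m * ‖T‖ := by
  rw [← LinearMap.sub_apply, L, L, ← sum_Ico_eq_sub _ hk, LinearMap.sum_apply]
  refine (norm_sum_le _ _).trans ((sum_le_sum fun j _ => h.ell_norm j T).trans ?_)
  rw [← sum_mul, ← mul_sum]
  exact mul_le_mul_of_nonneg_right (by linarith [geo m k]) (norm_nonneg _)

lemma Sd.L_one (h : Sd M v G) (k : ℕ) : L v G k 1 = 0 := by
  rw [L, LinearMap.sum_apply]
  refine sum_eq_zero fun j _ => ?_
  have := h.lind j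
  simp only [ell_apply, mul_one, one_mul]
  rw [add_assoc, add_comm (star _), this, add_neg_cancel]

lemma L_apply (k : ℕ) (T : Op H) : L v G k T =
    ∑ j ∈ range k, ∑ b, star (v j b) * T * v j b + star (Gs G k) * T + T * Gs G k := by
  simp only [L, LinearMap.sum_apply, ell_apply, sum_add_distrib, Gs, star_sum, sum_mul, mul_sum]

lemma Ph_eq (k : ℕ) (T : Op H) : ((1 + 4 * ep k ^ 2 : ℝ) : ℂ) • Ph v G k T =
    T + (ep k : ℂ) • L v G k T + (ep k : ℂ) ^ 2 • (star (Gs G k) * T * Gs G k) := by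
  have : ((1 + 4 * ep k ^ 2 : ℝ) : ℂ) ≠ 0 := by exact_mod_cast (by positivity : _ ≠ (0 : ℝ))
  rw [Ph, LinearMap.smul_apply, smul_smul, Complex.ofReal_inv, mul_inv_cancel₀ this, one_smul,
    L_apply]
  simp only [LinearMap.add_apply, LinearMap.smul_apply, LinearMap.sum_apply, cg_apply, star_add,
    star_one, star_smul, Complex.star_def, Complex.conj_ofReal, add_mul, mul_add, one_mul, mul_one,
    smul_mul_assoc, mul_smul_comm]
  module

lemma Sd.Ph_one (h : Sd M v G) (k : ℕ) : Ph v G k 1 ≤ 1 := by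
  have e1 := Ph_eq (v := v) (G := G) k 1
  rw [h.L_one, smul_zero, add_zero, mul_one] at e1
  have e2 : ‖Ph v G k 1‖ ≤ 1 := by
    have e3 := congrArg norm e1
    rw [norm_smul, Complex.norm_real, Real.norm_of_nonneg (by positivity)] at e3
    have e4 : ‖(1 : Op H) + (ep k : ℂ) ^ 2 • (star (Gs G k) * Gs G k)‖ ≤ 1 + 4 * ep k ^ 2 := by
      refine norm_add_le_of_le ContinuousLinearMap.norm_id_le ?_
      rw [norm_smul, norm_pow, Complex.norm_real, Real.norm_of_nonneg (ep_pos k).le,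
        CStarRing.norm_star_mul_self, mul_comm]
      gcongr
      nlinarith [h.Gs_norm k, norm_nonneg (Gs G k)]
    rw [← e3] at e4
    have : 0 < 1 + 4 * ep k ^ 2 := by positivity
    nlinarith
  exact (CStarAlgebra.norm_le_one_iff_of_nonneg _ ((h.kr k).pos zero_le_one)).1 e2

lemma Sd.Ph_norm (h : Sd M v G) (k : ℕ) (T : Op H) : ‖Ph v G k T‖ ≤ ‖T‖ :=
  (h.kr k).norm (h.Ph_one k) T

lemma Sd.Ph_sub (h : Sd M v G) (k : ℕ) (T : Op H) :
    ‖Ph v G k T - T - (ep k : ℂ) • L v G k T‖ ≤ 8 * ep k ^ 2 * ‖T‖ := by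
  have e1 : Ph v G k T - T - (ep k : ℂ) • L v G k T =
      (ep k : ℂ) ^ 2 • (star (Gs G k) * T * Gs G k - (4 : ℂ) • Ph v G k T) := by
    have := Ph_eq (v := v) (G := G) k T
    push_cast at this
    linear_combination (norm := module) this
  rw [e1, norm_smul, norm_pow, Complex.norm_real, Real.norm_of_nonneg (ep_pos k).le]
  have e2 : ‖star (Gs G k) * T * Gs G k‖ ≤ 2 * ‖T‖ * 2 :=
    norm_mul₃_le.trans (by rw [norm_star]; gcongr <;> exact h.Gs_norm k)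
  have e3 : ‖(4 : ℂ) • Ph v G k T‖ ≤ 4 * ‖T‖ := by
    rw [norm_smul]; simpa using h.Ph_norm k T
  calc _ ≤ ep k ^ 2 * (2 * ‖T‖ * 2 + 4 * ‖T‖) := by gcongr; exact norm_sub_le_of_le e2 e3
    _ = _ := by ring

lemma Sd.pow_norm (h : Sd M v G) (k n : ℕ) (T : Op H) : ‖(Ph v G k ^ n) T‖ ≤ ‖T‖ := by
  induction n with
  | zero => simp
  | succ n ih => rw [pow_succ']; exact (h.Ph_norm k _).trans ih

lemma A_apply (k : ℕ) (T : Op H) : A v G k T =
    (((((k : ℝ) + 1) ^ 3)⁻¹ : ℝ) : ℂ) • ∑ n ∈ range ((k + 1) ^ 3), (Ph v G k ^ n) T := by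
  simp only [A, LinearMap.smul_apply, LinearMap.sum_apply]

lemma avg_le (k : ℕ) (f : ℕ → Op H) (c : ℝ) (h : ∀ n < (k + 1) ^ 3, ‖f n‖ ≤ c) :
    ‖(((((k : ℝ) + 1) ^ 3)⁻¹ : ℝ) : ℂ) • ∑ n ∈ range ((k + 1) ^ 3), f n‖ ≤ c := by
  rw [norm_smul, Complex.norm_real, Real.norm_of_nonneg (by positivity),
    inv_mul_le_iff₀ (by positivity)]
  refine (norm_sum_le _ _).trans ((sum_le_card_nsmul _ _ c fun n hn => h n (mem_range.1 hn)).trans ?_)
  simp

lemma Sd.A_norm (h : Sd M v G) (k : ℕ) (T : Op H) : ‖A v G k T‖ ≤ ‖T‖ := by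
  rw [A_apply]; exact avg_le k _ _ fun n _ => h.pow_norm k n T

lemma Sd.tele (h : Sd M v G) (k : ℕ) (T : Op H) :
    ‖Ph v G k (A v G k T) - A v G k T‖ ≤ 2 / ((k : ℝ) + 1) ^ 3 * ‖T‖ ∧
    A v G k (Ph v G k T - T) = Ph v G k (A v G k T) - A v G k T := by
  constructor
  · have : Ph v G k (A v G k T) - A v G k T =
        (((((k : ℝ) + 1) ^ 3)⁻¹ : ℝ) : ℂ) • ((Ph v G k ^ ((k + 1) ^ 3)) T - T) := by
      have e := congrArg (fun Φ : En H => Φ T) (mul_geom_sum (Ph v G k) ((k + 1) ^ 3))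
      simp only [Module.End.mul_apply, LinearMap.sub_apply, Module.End.one_apply] at e
      rw [← e, A, LinearMap.smul_apply, map_smul, smul_sub]
    rw [this, norm_smul, Complex.norm_real, Real.norm_of_nonneg (by positivity)]
    calc _ ≤ (((k : ℝ) + 1) ^ 3)⁻¹ * (‖T‖ + ‖T‖) := by
          gcongr; exact norm_sub_le_of_le (h.pow_norm _ _ _) le_rfl
      _ = _ := by ring
  · rw [map_sub]
    congr 1
    rw [A_apply, A_apply, map_smul, map_sum]
    simp only [← Module.End.mul_apply, ← pow_succ, ← pow_succ']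

lemma ep_bd (k : ℕ) {a b : ℝ} (hb : 0 ≤ b)
    (h : ep k * a ≤ 2 / ((k : ℝ) + 1) ^ 3 * b + 8 * ep k ^ 2 * b) : a ≤ 10 / ((k : ℝ) + 1) * b := by
  have hk : (1 : ℝ) ≤ k + 1 := by simp
  refine le_of_mul_le_mul_left (h.trans ?_) (ep_pos k)
  have e1 : 2 / ((k : ℝ) + 1) ^ 3 * b = ep k * (2 / (k + 1) * b) := by unfold ep; field_simp
  have e2 : ep k ≤ 1 / ((k : ℝ) + 1) := by
    unfold ep; gcongr; nlinarith
  have e3 : ep k * (ep k * b) ≤ ep k * (1 / ((k : ℝ) + 1) * b) := by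
    have := ep_pos k
    gcongr
  rw [e1]
  calc _ = ep k * (2 / (k + 1) * b) + 8 * (ep k * (ep k * b)) := by ring
    _ ≤ ep k * (2 / (k + 1) * b) + 8 * (ep k * (1 / ((k : ℝ) + 1) * b)) := by gcongr
    _ = _ := by ring

lemma Sd.LA (h : Sd M v G) (k : ℕ) (T : Op H) :
    ‖L v G k (A v G k T)‖ ≤ 10 / ((k : ℝ) + 1) * ‖T‖ := by
  refine ep_bd k (norm_nonneg _) ?_
  have e1 := norm_sub_le_of_le (h.tele k T).1 (h.Ph_sub k (A v G k T))
  rw [sub_sub_cancel, norm_smul, Complex.norm_real, Real.norm_of_nonneg (ep_pos k).le] at e1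
  refine e1.trans ?_
  gcongr
  exact h.A_norm k T

lemma Sd.AL (h : Sd M v G) (k : ℕ) (T : Op H) :
    ‖A v G k (L v G k T)‖ ≤ 10 / ((k : ℝ) + 1) * ‖T‖ := by
  refine ep_bd k (norm_nonneg _) ?_
  have e1 := norm_sub_le_of_le (h.tele k T).1 ((h.A_norm k _).trans (h.Ph_sub k T))
  rwa [← (h.tele k T).2, ← map_sub, sub_sub_cancel, map_smul, norm_smul, Complex.norm_real,
    Real.norm_of_nonneg (ep_pos k).le] at e1

lemma Sd.A_sub (h : Sd M v G) (k : ℕ) (S : Op H) :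
    ‖A v G k S - S‖ ≤ ((k : ℝ) + 1) * ‖L v G k S‖ + 8 / ((k : ℝ) + 1) * ‖S‖ := by
  have e1 : ‖Ph v G k S - S‖ ≤ ep k * ‖L v G k S‖ + 8 * ep k ^ 2 * ‖S‖ := by
    have := norm_add_le_of_le (le_refl ‖(ep k : ℂ) • L v G k S‖) (h.Ph_sub k S)
    rwa [add_sub_cancel, norm_smul, Complex.norm_real, Real.norm_of_nonneg (ep_pos k).le] at this
  have e2 : ∀ n : ℕ, ‖(Ph v G k ^ n) S - S‖ ≤ n * ‖Ph v G k S - S‖ := by
    intro n
    induction n with
    | zero => simp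
    | succ n ih =>
      have := norm_add_le_of_le (h.pow_norm k n (Ph v G k S - S)) ih
      rw [map_sub, sub_add_sub_cancel, ← Module.End.mul_apply, ← pow_succ] at this
      push_cast; linarith
  have e3 : A v G k S - S = (((((k : ℝ) + 1) ^ 3)⁻¹ : ℝ) : ℂ) •
      ∑ n ∈ range ((k + 1) ^ 3), ((Ph v G k ^ n) S - S) := by
    have : ((k : ℂ) + 1) ≠ 0 := by exact_mod_cast Nat.succ_ne_zero k
    rw [A_apply, sum_sub_distrib, smul_sub, sum_const, card_range, ← Nat.cast_smul_eq_nsmul ℂ,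
      smul_smul]
    push_cast
    rw [inv_mul_cancel₀ (pow_ne_zero _ this), one_smul]
  rw [e3]
  refine avg_le k _ _ fun n hn => (e2 n).trans ?_
  have e4 : (n : ℝ) ≤ ((k : ℝ) + 1) ^ 3 := by exact_mod_cast hn.le
  calc _ ≤ ((k : ℝ) + 1) ^ 3 * (ep k * ‖L v G k S‖ + 8 * ep k ^ 2 * ‖S‖) := by gcongr
    _ = _ := by unfold ep; field_simp

lemma tend_div (c : ℝ) : Tendsto (fun k : ℕ => c / ((k : ℝ) + 1)) atTop (𝓝 0) := by
  simpa [div_eq_mul_inv] using tendsto_one_div_add_atTop_nhds_zero_nat.const_mul c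

lemma tend_geo : Tendsto (fun k : ℕ => (1 / 2 : ℝ) ^ k) atTop (𝓝 0) :=
  tendsto_pow_atTop_nhds_zero_of_lt_one (by norm_num) (by norm_num)

lemma Sd.A_harm (h : Sd M v G) {S : Op H} (hS : Harm v G S) :
    Tendsto (fun k => A v G k S) atTop (𝓝 S) := by
  obtain ⟨C, hC⟩ := hS
  rw [tendsto_iff_norm_sub_tendsto_zero]
  have e1 : Tendsto (fun k : ℕ => ((k : ℝ) * (1 / 2) ^ k + (1 / 2) ^ k) * C + 8 / ((k : ℝ) + 1) * ‖S‖)
      atTop (𝓝 0) := by
    simpa using (((tendsto_self_mul_const_pow_of_lt_one (r := 1 / 2) (by norm_num)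
      (by norm_num)).add tend_geo).mul_const C).add ((tend_div 8).mul_const ‖S‖)
  refine squeeze_zero (fun _ => norm_nonneg _) (fun k => (h.A_sub k S).trans ?_) e1
  calc _ ≤ ((k : ℝ) + 1) * (C * (1 / 2) ^ k) + 8 / ((k : ℝ) + 1) * ‖S‖ := by gcongr; exact hC k
    _ = _ := by ring

end Vale.Agent.P096.DE
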