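import Vale.Agent.P096.DE1

/-! Double ergodicity, part 2: the abstract theorem for two-sided Lindblad data. -/

open Finset Vale.Agent.P104 Vale.Agent.P085 Filter Topology
open scoped InnerProductSpace InnerProduct

set_option linter.unusedSectionVars false

namespace Vale.Agent.P096.DE

variable {H : Type*} [NormedAddCommGroup H] [InnerProductSpace ℂ H] [CompleteSpace H]
  {M N : VonNeumannAlgebra H} {ξ : H} {v w : ℕ → Bool → Op H} {G G' : ℕ → Op H}

section wt
variable {ι : Type*} {l : Filter ι} {x : ι → Op H} {y y' : Op H}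

lemma wt_eq [l.NeBot] (h : WT l x y) (h' : WT l x y') : y = y' := by
  ext η; exact WV.eq (h η) (h' η)

lemma wt_of (h : Tendsto x l (𝓝 y)) : WT l x y := fun η =>
  WV.of (((ContinuousLinearMap.apply ℂ H η).continuous.tendsto y).comp h)

lemma wt_sum {κ : Type*} (s : Finset κ) {x : κ → ι → Op H} {y : κ → Op H}
    (h : ∀ k ∈ s, WT l (x k) (y k)) : WT l (fun i => ∑ k ∈ s, x k i) (∑ k ∈ s, y k) := fun η ζ => by
  simpa only [_root_.sum_apply, inner_sum] using tendsto_finsetSum s fun k hk => h k hk η ζ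

lemma wt_L (h : WT l x y) (m : ℕ) : WT l (fun i => L v G m (x i)) (L v G m y) := by
  simp only [L_apply]
  exact wt_add (wt_add (wt_sum _ fun j _ => wt_sum _ fun b _ => h.mul _ _)
    (by simpa using h.mul (star (Gs G m)) 1)) (by simpa using h.mul 1 (Gs G m))

lemma wt_qf (h : WT l x y) (η : H) : Tendsto (fun i => qf (x i) η) l (𝓝 (qf y η)) :=
  (Complex.continuous_re.tendsto _).comp (h η η)

end wt

lemma Sd.harm_lim (h : Sd M v G) {T : ℕ → Op H} {C : ℝ} (hT : ∀ k, ‖T k‖ ≤ C) {S : Op H}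
    (hS : WT (hyperfilter ℕ) (fun k => A v G k (T k)) S) : Harm v G S := by
  refine ⟨8 * C, fun m => le_of_forall_pos_le_add fun δ hδ => wt_norm (wt_L hS m) ?_⟩
  have e1 : ∀ᶠ k : ℕ in atTop, 10 / ((k : ℝ) + 1) * C < δ :=
    (by simpa using (tend_div 10).mul_const C : Tendsto _ _ (𝓝 (0 : ℝ))).eventually (gt_mem_nhds hδ)
  refine Nat.hyperfilter_le_atTop ((e1.and (eventually_ge_atTop m)).mono fun k hk => ?_)
  have e2 := norm_sub_le_of_le (h.LA k (T k)) (h.L_sub hk.2 (A v G k (T k)))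
  rw [sub_sub_cancel] at e2
  have e3 : 10 / ((k : ℝ) + 1) * ‖T k‖ ≤ 10 / ((k : ℝ) + 1) * C := by gcongr; exact hT k
  have e4 : 8 * (1 / 2) ^ m * ‖A v G k (T k)‖ ≤ 8 * (1 / 2) ^ m * C := by
    gcongr; exact (h.A_norm k _).trans (hT k)
  exact e2.trans (by linarith [hk.1])

lemma Sd.L_left (h : Sd M v G) (hc : Cm M N) {a : Op H} (ha : a ∈ N) (m : ℕ) (T : Op H) :
    L v G m (a * T) = a * L v G m T := by
  have e : Gs G m ∈ M := sum_mem fun j _ => h.Gm j
  simp only [L_apply, mul_add, mul_sum, ← mul_assoc, hc _ (star_mem (h.vm _ _)) a ha,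
    hc _ (star_mem e) a ha]

lemma Sd.L_right (h : Sd M v G) (hc : Cm M N) {a : Op H} (ha : a ∈ N) (m : ℕ) (T : Op H) :
    L v G m (T * a) = L v G m T * a := by
  have e : Gs G m ∈ M := sum_mem fun j _ => h.Gm j
  simp only [L_apply, add_mul, sum_mul, mul_assoc, hc _ (h.vm _ _) a ha, hc _ e a ha]

lemma Sd.L_prod (h : Sd M v G) (k : ℕ) (T : Op H) :
    L v G k (star T * T) - star (L v G k T) * T - star T * L v G k T =
      ∑ j ∈ range k, ∑ b, star (T * v j b - v j b * T) * (T * v j b - v j b * T) := by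
  simp only [L, LinearMap.sum_apply, star_sum, sum_mul, mul_sum, ← sum_sub_distrib]
  refine sum_congr rfl fun j _ => ?_
  have e : star (G j) = -∑ b, star (v j b) * v j b - G j := by rw [← h.lind j]; abel
  simp only [ell_apply, star_add, star_mul, star_star, star_sub, Fintype.sum_bool] at e ⊢
  rw [e]
  noncomm_ring

lemma Sd.krA (h : Sd M v G) (k : ℕ) {Φ : En H} (hk : Kr M Φ) (e : Φ = A v G k) : Φ 1 ≤ 1 := by
  refine (CStarAlgebra.norm_le_one_iff_of_nonneg _ (hk.pos zero_le_one)).1 ?_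
  rw [e]; exact (h.A_norm k 1).trans ContinuousLinearMap.norm_id_le

lemma pos_zero {S : Op H} (hS : 0 ≤ S) (h : qf S ξ ≤ 0) : S ξ = 0 := by
  have e1 := normsq_eq (CFC.sqrt S) ξ
  rw [(CFC.sqrt_nonneg S).isSelfAdjoint.star_eq, CFC.sqrt_mul_sqrt_self S] at e1
  have e2 : CFC.sqrt S ξ = 0 := by
    rw [← norm_eq_zero, ← pow_eq_zero_iff two_ne_zero]
    exact le_antisymm (e1.le.trans h) (sq_nonneg _)
  rw [← CFC.sqrt_mul_sqrt_self S, mul_apply_eq_comp, e2, map_zero]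

/-- two-sided Lindblad data -/
structure TS (M N : VonNeumannAlgebra H) (ξ : H) (v w : ℕ → Bool → Op H) (G G' : ℕ → Op H) :
    Prop where
  cm : Cm M N
  s1 : Sd M v G
  s2 : Sd N w G'
  hv : ∀ j b, v j b ξ = w j b ξ
  hG : ∀ j, G j ξ = G' j ξ
  gen : ∀ T : Op H, (∀ j b, T * v j b = v j b * T) → T ∈ N
  gen' : ∀ T : Op H, (∀ j b, T * w j b = w j b * T) → T ∈ M
  den : ∀ D : Op H, (∀ j b, D (v j b ξ) = 0) → D = 0

lemma TS.symm (h : TS M N ξ v w G G') : TS N M ξ w v G' G :=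
  ⟨h.cm.symm, h.s2, h.s1, fun j b => (h.hv j b).symm, fun j => (h.hG j).symm, h.gen', h.gen,
    fun D hD => h.den D fun j b => by rw [h.hv, hD]⟩

lemma TS.kp (h : TS M N ξ v w G G') (k : ℕ) : KP M N ξ (A v G k) (A w G' k) :=
  kp_A h.cm h.s1 h.s2 h.hv h.hG k

lemma TS.one (h : TS M N ξ v w G G') (k : ℕ) : A v G k 1 ≤ 1 := h.s1.krA k (h.kp k).kr rfl

lemma TS.core (h : TS M N ξ v w G G') {T : Op H} (h1 : Harm v G T) (h2 : Harm w G' T) : T ∈ N := by
  refine h.gen T fun j b => sub_eq_zero.1 ?_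
  set D := T * v j b - v j b * T with hD
  obtain ⟨C, hC⟩ := h1
  obtain ⟨C', hC'⟩ := h2
  have hDh : Harm w G' D := ⟨2 * ‖v j b‖ * C', fun m => by
    rw [hD, map_sub, h.s2.L_left h.cm.symm (h.s1.vm j b), h.s2.L_right h.cm.symm (h.s1.vm j b)]
    refine (norm_sub_le_of_le (norm_mul_le _ _) (norm_mul_le _ _)).trans ?_
    have := mul_le_mul_of_nonneg_left (hC' m) (norm_nonneg (v j b))
    linarith⟩
  obtain ⟨Γ, -, hΓ⟩ := wlim (hyperfilter ℕ) (fun k => A w G' k (star D * D)) (norm_nonneg _)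
    fun k => h.s2.A_norm k _
  have e1 : ∀ η, ‖D η‖ ^ 2 ≤ qf Γ η := fun η => by
    have := ((ContinuousLinearMap.apply ℂ H η).continuous.tendsto D).comp (h.s2.A_harm hDh)
    exact le_of_tendsto_of_tendsto' ((this.norm.pow 2).mono_left Nat.hyperfilter_le_atTop)
      (wt_qf hΓ η) fun k => ((h.symm.kp k).kr.ks (h.symm.one k) D η).1
  have e2 : 0 ≤ Γ := hΓ.nonneg (Eventually.of_forall fun k =>
    (h.symm.kp k).kr.pos (star_mul_self_nonneg D))
  have e3 : qf Γ ξ ≤ 0 := by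
    have t : Tendsto (fun k : ℕ => (10 / ((k : ℝ) + 1) * ‖star T * T‖ +
        2 * (C * (1 / 2) ^ k * ‖T‖)) * ‖ξ‖ ^ 2) atTop (𝓝 0) := by
      simpa using (((tend_div 10).mul_const ‖star T * T‖).add
        (((tend_geo.const_mul C).mul_const ‖T‖).const_mul 2)).mul_const (‖ξ‖ ^ 2)
    refine le_of_tendsto_of_tendsto (wt_qf hΓ ξ) (t.mono_left Nat.hyperfilter_le_atTop)
      (Nat.hyperfilter_le_atTop ((eventually_gt_atTop j).mono fun k hk => ?_))
    have a1 : star D * D ≤ L v G k (star T * T) - star (L v G k T) * T - star T * L v G k T := by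
      rw [h.s1.L_prod]
      exact (single_le_sum (f := fun b => star (T * v j b - v j b * T) * (T * v j b - v j b * T))
        (fun _ _ => star_mul_self_nonneg _) (mem_univ b)).trans
        (single_le_sum (f := fun j => ∑ b, star (T * v j b - v j b * T) * (T * v j b - v j b * T))
          (fun _ _ => sum_nonneg fun _ _ => star_mul_self_nonneg _) (mem_range.2 hk))
    refine (qf_mono ((h.symm.kp k).kr.mono a1) ξ).trans ?_
    rw [qf, ← (h.kp k).om]
    refine (qf_le _ _).trans (mul_le_mul_of_nonneg_right ?_ (sq_nonneg _))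
    rw [sub_sub, map_sub]
    refine norm_sub_le_of_le (h.s1.AL k _) ((h.s1.A_norm k _).trans ?_)
    refine (norm_add_le_of_le (norm_mul_le _ _) (norm_mul_le _ _)).trans ?_
    rw [norm_star, norm_star]
    have := mul_le_mul_of_nonneg_right (hC k) (norm_nonneg T)
    linarith
  have e4 := pos_zero e2 e3
  obtain ⟨C2, hC2⟩ := h.s2.harm_lim (T := fun _ => star D * D) (fun _ => le_rfl) hΓ
  refine h.den D fun i c => ?_
  rw [h.hv, ← norm_eq_zero, ← pow_eq_zero_iff two_ne_zero]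
  refine le_antisymm ((e1 _).trans ?_) (sq_nonneg _)
  have t : Tendsto (fun k : ℕ => C2 * (1 / 2) ^ k * ‖ξ‖ ^ 2) atTop (𝓝 0) := by
    simpa using (tend_geo.const_mul C2).mul_const (‖ξ‖ ^ 2)
  refine ge_of_tendsto t ((eventually_gt_atTop i).mono fun k hk => ?_)
  have a1 : qf (L w G' k Γ) ξ = ∑ j ∈ range k, ∑ b, qf Γ (w j b ξ) := by
    have b1 : qf (star (Gs G' k) * Γ) ξ = 0 := by simp [qf, e4]
    have b2 : qf (Γ * Gs G' k) ξ = 0 := by
      rw [qf, mul_apply_eq_comp, ← inner_star_l, e2.isSelfAdjoint.star_eq, e4]; simp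
    simp only [L_apply, qf_add, qf_sum, b1, b2, add_zero, ← qf_conj]
  calc qf Γ (w i c ξ) ≤ ∑ b, qf Γ (w i b ξ) :=
        single_le_sum (f := fun b => qf Γ (w i b ξ)) (fun _ _ => qf_nonneg e2 _) (mem_univ c)
    _ ≤ _ := single_le_sum (f := fun j => ∑ b, qf Γ (w j b ξ))
        (fun _ _ => sum_nonneg fun _ _ => qf_nonneg e2 _) (mem_range.2 hk)
    _ ≤ _ := by
        rw [← a1]
        exact (qf_le _ _).trans (mul_le_mul_of_nonneg_right (hC2 k) (sq_nonneg _))

lemma TS.AL (h : TS M N ξ v w G G') (k m : ℕ) (S : Op H) :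
    L w G' m (A v G k S) = A v G k (L w G' m S) := by
  have e : Gs G' m ∈ N := sum_mem fun j _ => h.s2.Gm j
  simp only [L_apply, map_add, map_sum, (h.kp k).kr.left h.cm (star_mem e),
    (h.kp k).kr.right h.cm e, (h.kp k).kr.right h.cm (h.s2.vm _ _),
    (h.kp k).kr.left h.cm (star_mem (h.s2.vm _ _))]

theorem TS.main (h : TS M M.commutant ξ v w G G') :
    ∃ (n : ℕ → ℕ) (x y : ∀ k, Fin (n k) → Op H) (E : Op H → Op H),
    (∀ k, Bal M ξ (x k) (y k)) ∧ Tendsto (fun k => ∑ i, star (y k i) * y k i) atTop (𝓝 1) ∧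
    (∀ S T, E (S - T) = E S - E T) ∧ (∀ T, ‖E T‖ ≤ ‖T‖) ∧ E 1 = 1 ∧
    (∀ a ∈ M.commutant, ∀ T, E (a * T) = a * E T ∧ E (T * a) = E T * a) ∧
    ∀ (T : ℕ → Op H) (S : Op H), (∀ k, ‖T k‖ ≤ 1) →
      WT (hyperfilter ℕ) (fun k => ∑ i, star (y k i) * T k * y k i) S →
      E S ∈ M ∧ E S ∈ M.commutant ∧ ∀ q, Cp M q → ⟪q ξ, E S (q ξ)⟫_ℂ = ⟪q ξ, S (q ξ)⟫_ℂ := by
  have key : ∀ k, ∃ (n : ℕ) (x y : Fin n → Op H), Bal M ξ x y ∧
      ∀ T, A w G' k T = ∑ i, star (y i) * T * y i := fun k => by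
    obtain ⟨ι, _, x, y, a, b, c, d, e⟩ := h.kp k
    let f := (Fintype.equivFin ι).symm
    refine ⟨_, x ∘ f, y ∘ f, ⟨fun i => a _, fun i => b _, fun i => c _, ?_, ?_⟩, fun T => ?_⟩
    · have := h.one k
      rw [d, ← f.sum_comp] at this
      simpa using this
    · have := h.symm.one k
      rw [e, ← f.sum_comp] at this
      simpa using this
    · rw [e, ← f.sum_comp]; rfl
  choose n x y hB hA using key
  choose E hE hE' using fun T : Op H => wlim (hyperfilter ℕ) (fun k => A v G k T) (norm_nonneg T)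
    fun k => h.s1.A_norm k T
  have o1 : Harm v G 1 := ⟨0, fun m => by simp [h.s1.L_one]⟩
  have o2 : Harm w G' 1 := ⟨0, fun m => by simp [h.s2.L_one]⟩
  refine ⟨n, x, y, E, hB, ?_, fun S T => wt_eq (hE' _) ?_, hE, wt_eq (hE' _) (wt_of
    ((h.s1.A_harm o1).mono_left Nat.hyperfilter_le_atTop)), fun a ha T =>
    ⟨wt_eq (hE' _) ?_, wt_eq (hE' _) ?_⟩, fun T S hT hS => ?_⟩
  · simpa only [hA, mul_one] using h.s2.A_harm o2
  · simpa only [map_sub] using wt_sub (hE' S) (hE' T)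
  · simpa only [fun k => (h.kp k).kr.left h.cm ha, mul_one] using (hE' T).mul a 1
  · simpa only [fun k => (h.kp k).kr.right h.cm ha, one_mul] using (hE' T).mul 1 a
  simp only [← hA] at hS
  have a1 := h.s2.harm_lim hT hS
  have a2 : Harm v G (E S) := h.s1.harm_lim (T := fun _ => S) (fun _ => le_rfl) (hE' S)
  have a3 : Harm w G' (E S) := by
    obtain ⟨C, hC⟩ := a1
    refine ⟨C, fun m => wt_norm (wt_L (hE' S) m) (Eventually.of_forall fun k => ?_)⟩
    rw [h.AL]; exact (h.s1.A_norm k _).trans (hC m)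
  refine ⟨h.symm.core a3 a2, h.core a2 a3, fun q hq => tendsto_nhds_unique (hE' S _ _) ?_⟩
  have a4 := wt_of ((h.s2.A_harm a1).mono_left Nat.hyperfilter_le_atTop) (q ξ) (q ξ)
  refine a4.congr fun k => ?_
  have := (h.kp k).om (q * S * q)
  rw [(h.kp k).kr.right h.cm hq.2.2, (h.kp k).kr.left h.cm hq.2.2,
    (h.symm.kp k).kr.right h.cm.symm hq.2.1, (h.symm.kp k).kr.left h.cm.symm hq.2.1] at this
  simpa only [mul_apply_eq_comp, ← proj_inner hq.1] using this.symm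

end Vale.Agent.P096.DE
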