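import Vale.Agent.P096.ETrick
import Vale.Agent.P104.Main

/-! Derivations are implemented by operators of comparable norm. -/

open Finset Vale.Agent.P104 Vale.Agent.P085 Filter Topology ContinuousLinearMap
open scoped InnerProductSpace InnerProduct

set_option linter.unusedSectionVars false

namespace Vale.Agent.P096

universe u
variable {A : Type*} [CStarAlgebra A]
  {H : Type u} [NormedAddCommGroup H] [InnerProductSpace ℂ H] [CompleteSpace H]

lemma exists_QQ {π : A →ₐ[ℂ] Op H} {Γ : ℝ} (hΓ : 1 ≤ Γ) (h : CB π Set.univ Γ) :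
    ∃ Q : Op H, (∀ ξ, ‖ξ‖ ^ 2 ≤ qf Q ξ) ∧ 0 ≤ Q ∧ ‖Q‖ ≤ Γ ∧
      ∀ a, star (π (star a)) * Q = Q * π a := by
  obtain ⟨Λ, h1, h2, h3⟩ := exists_lam hΓ h
  obtain ⟨Q, hQ⟩ := exists_Q Λ fun ξ => by
    rw [abs_of_nonneg ((sq_nonneg _).trans (h1 ξ))]; exact h2 ξ
  have e : ∀ ξ, ⟪ξ, Q ξ⟫_ℂ = (Λ (InnerProductSpace.rankOne ℂ ξ ξ) : ℝ) := fun ξ => by
    rw [← inner_conj_symm, hQ, Complex.conj_ofReal]
  have Q0 : 0 ≤ Q := pos_iff.2 fun ξ => by
    rw [e]; exact_mod_cast (sq_nonneg _).trans (h1 ξ)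
  refine ⟨Q, fun ξ => by rw [qf, e]; exact h1 ξ, Q0, ?_, fun a => ?_⟩
  · rw [CStarAlgebra.norm_le_iff_le_algebraMap _ (by linarith) Q0, ← sub_nonneg, pos_iff]
    intro ξ
    rw [sub_apply, inner_sub_right, e, Algebra.algebraMap_eq_smul_one, ← Complex.coe_smul,
      smul_apply, one_apply_eq_self, inner_smul_right, inner_self_eq_norm_sq_to_K]
    have := sub_nonneg.2 (h2 ξ)
    simp only [Complex.coe_algebraMap]
    exact_mod_cast this
  have ha : a ∈ Submodule.span ℂ (unitary A : Set A) := CStarAlgebra.span_unitary A ▸ trivial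
  induction ha using Submodule.span_induction with
  | mem u hu =>
    have : star (π (star u)) * Q * π (star u) = Q := by
      refine ContinuousLinearMap.coe_injective ((ext_inner_map _ _).1 fun ξ => ?_)
      simp only [ContinuousLinearMap.coe_coe, mul_apply_eq_comp, inner_star_l, hQ]
      rw [← h3 ξ _ (Unitary.star_mem hu)]
    conv_rhs => rw [← this, mul_assoc, ← map_mul, (Unitary.mem_iff.1 hu).1, map_one, mul_one]
  | zero => simp
  | add a b _ _ ha hb => simp [add_mul, mul_add, ha, hb]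
  | smul c a _ ha => simp [ha]

lemma exists_inv {q : Op H} (q0 : 0 ≤ q) (h : ∀ ξ, ‖ξ‖ ^ 2 ≤ qf q ξ) :
    ∃ r : Op H, r * q = 1 ∧ q * r = 1 ∧ ‖r‖ ≤ 1 := by
  have Q1 : 1 ≤ q := by
    rw [← sub_nonneg, pos_iff]
    intro ξ
    have a := Complex.nonneg_iff.1 (pos_iff.1 q0 ξ)
    rw [sub_apply, inner_sub_right, one_apply_eq_self, inner_self_eq_norm_sq_to_K,
      Complex.nonneg_iff]
    have := h ξ
    rw [qf] at this
    simp [← Complex.ofReal_pow, ← a.2, this]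
  obtain ⟨S, rfl⟩ := (isStrictlyPositive_one.of_le Q1).isUnit
  refine ⟨↑S⁻¹, S.inv_mul, S.mul_inv, opNorm_le_bound _ zero_le_one fun ξ => ?_⟩
  have a := h ((↑S⁻¹ : Op H) ξ)
  rw [qf, ← mul_apply_eq_comp (S : Op H), S.mul_inv, one_apply_eq_self] at a
  have b := a.trans ((Complex.re_le_norm _).trans (norm_inner_le_norm _ _))
  nlinarith [norm_nonneg ((↑S⁻¹ : Op H) ξ), norm_nonneg ξ]

/-- the universal constant of the derivation theorem -/
noncomputable def kk : ℝ := 28 * (32 * (4 * 5) ^ 7) ^ 8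

lemma kk1 : 1 ≤ kk := by rw [kk]; norm_num

theorem der (π ρ : A →ₐ[ℂ] Op H) (hπ : ∀ a, ‖π a‖ ≤ 2 * ‖a‖) (hρ : ∀ a, ‖ρ a‖ ≤ 2 * ‖a‖)
    (d : A →ₗ[ℂ] Op H) (hd : ∀ x y, d (x * y) = π x * d y + d x * ρ y) {ε : ℝ} (ε0 : 0 < ε)
    (hε : ∀ x, ‖d x‖ ≤ ε * ‖x‖) : ∃ T : Op H, ‖T‖ ≤ kk * ε ∧ ∀ x, d x = π x * T - T * ρ x := by
  obtain ⟨G, _, _, _, J, hJ⟩ := exists_fam (IsStarProjection.one (Op H)) Bool
  have o : ∀ x y ξ, ((J x)†) (J y ξ) = if x = y then ξ else 0 := hJ.orth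
  have J1 : ∀ i, ‖J i‖ ≤ 1 := fun i => opNorm_le_bound _ zero_le_one fun ξ => by
    rw [one_mul, ← sq_le_sq₀ (norm_nonneg _) (norm_nonneg _), hJ.normsq]
    cases i <;> simp [o]
  have J2 : ∀ i j (T : Op H), ‖J i ∘L T ∘L (J j)†‖ ≤ ‖T‖ := fun i j T =>
    (opNorm_comp_le _ _).trans ((mul_le_of_le_one_left (norm_nonneg _) (J1 i)).trans
      ((opNorm_comp_le _ _).trans (mul_le_of_le_one_right (norm_nonneg _) (by simpa using J1 j))))
  have d1 : d 1 = 0 := by simpa using hd 1 1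
  obtain ⟨c, hc⟩ : ∃ c : ℂ, c = (ε : ℂ)⁻¹ := ⟨_, rfl⟩
  let σ : A →ₐ[ℂ] Op G :=
    { toFun := fun a => J true ∘L π a ∘L (J true)† + J true ∘L (c • d a) ∘L (J false)† +
        J false ∘L ρ a ∘L (J false)†
      map_one' := by ext ψ; simpa [d1] using hJ.sum ψ
      map_mul' := fun a b => by ext ψ; simp [o, hd]; abel
      map_zero' := by simp
      map_add' := fun a b => by ext ψ; simp; abel
      commutes' := fun z => by
        ext ψ
        have := hJ.sum ψ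
        simp only [Fintype.sum_bool] at this
        simp [Algebra.algebraMap_eq_smul_one, d1, ← smul_add, this] }
  have hσ : ∀ a ψ, σ a ψ = J true (π a (((J true)†) ψ)) + J true (c • d a (((J false)†) ψ)) +
    J false (ρ a (((J false)†) ψ)) := fun _ _ => rfl
  obtain ⟨Q, q1, q2, q3, q4⟩ := exists_QQ (π := σ) kk1 (cb_all (γ := 5) (fun a => by
    have : ‖c • d a‖ ≤ ‖a‖ := by
      rw [norm_smul, hc, norm_inv, Complex.norm_real, Real.norm_of_nonneg ε0.le,
        inv_mul_le_iff₀ ε0]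
      exact hε a
    exact (norm_add_le_of_le (norm_add_le_of_le ((J2 _ _ _).trans (hπ a)) ((J2 _ _ _).trans this))
      ((J2 _ _ _).trans (hρ a))).trans (by linarith)) (by norm_num))
  obtain ⟨r, r1, r2, r3⟩ := exists_inv (q := (J true)† ∘L Q ∘L J true)
    ((nonneg_iff_isPositive _).2 (((nonneg_iff_isPositive _).1 q2).adjoint_conj (J true))) fun ξ => by
      have := q1 (J true ξ)
      rw [hJ.normsq] at this
      simpa [qf, adjoint_inner_right, o] using this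
  have k : ∀ a i ξ, ((J true)†) (Q (σ a (J i ξ))) =
      star (π (star a)) (((J true)†) (Q (J i ξ))) := fun a i ξ => by
    rw [← mul_apply_eq_comp Q, ← q4]
    refine ext_inner_left ℂ fun η => ?_
    rw [adjoint_inner_right, mul_apply_eq_comp, inner_star_r, inner_star_r, hσ,
      adjoint_inner_right]
    simp [o]
  have r4 : ∀ ξ, r (((J true)†) (Q (J true ξ))) = ξ := fun ξ => congr($r1 ξ)
  have r5 : ∀ ξ, ((J true)†) (Q (J true (r ξ))) = ξ := fun ξ => congr($r2 ξ)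
  have k1 : ∀ a ξ, r (star (π (star a)) ξ) = π a (r ξ) := fun a ξ => by
    have := congrArg r (k a true (r ξ))
    rw [r5, hσ] at this
    simpa [o, r4] using this.symm
  refine ⟨(ε : ℂ) • (r * ((J true)† ∘L Q ∘L J false)), ?_, fun a => ?_⟩
  · rw [norm_smul, Complex.norm_real, Real.norm_of_nonneg ε0.le, mul_comm]
    refine mul_le_mul_of_nonneg_right ((norm_mul_le _ _).trans ((mul_le_of_le_one_left
      (norm_nonneg _) r3).trans ((opNorm_comp_le _ _).trans ((mul_le_of_le_one_left (norm_nonneg _)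
      (by simpa using J1 true)).trans ((opNorm_comp_le _ _).trans ((mul_le_of_le_one_right
      (norm_nonneg _) (J1 _)).trans q3)))))) ε0.le
  · ext ξ
    have := congrArg r (k a false ξ)
    rw [hσ, k1] at this
    simp only [o, reduceCtorEq, if_false, if_true, map_zero, zero_add, map_add, r4] at this
    have e0 : (ε : ℂ) ≠ 0 := by exact_mod_cast ε0.ne'
    simp [← this, hc, smul_smul, e0, -Complex.coe_smul]

lemma comm_near (π : A →ₐ[ℂ] Op H) (hπ : ∀ a, ‖π a‖ ≤ 2 * ‖a‖) (a : Op H) {ε : ℝ} (ε0 : 0 < ε)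
    (hε : ∀ x, ‖π x * a - a * π x‖ ≤ ε * ‖x‖) :
    ∃ b : Op H, (∀ x, π x * b = b * π x) ∧ ‖a - b‖ ≤ kk * ε := by
  obtain ⟨T, h1, h2⟩ := der π π hπ hπ
    (LinearMap.mulRight ℂ a ∘ₗ π.toLinearMap - LinearMap.mulLeft ℂ a ∘ₗ π.toLinearMap)
    (fun x y => by simp [mul_sub, sub_mul, mul_assoc]) ε0 hε
  refine ⟨a - T, fun x => ?_, by simpa using h1⟩
  have : π x * a - a * π x = _ := h2 x
  rw [mul_sub, sub_mul, sub_eq_sub_iff_sub_eq_sub, this]

end Vale.Agent.P096
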