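import Vale.Agent.P096.Haar
import Vale.Agent.P085.Normal
import Vale.Agent.P104.Fam

/-! Extension of dominated maps and maximality arguments for positive functionals. -/

open Finset Vale.Agent.P104 Vale.Agent.P085 Filter Topology
open scoped InnerProductSpace

set_option linter.unusedSectionVars false

namespace Vale.Agent.P096

variable {K : Type*} [NormedAddCommGroup K] [InnerProductSpace ℂ K] [CompleteSpace K]

lemma ext_op {X : Type*} [AddCommGroup X] [Module ℂ X] (e f : X →ₗ[ℂ] K) {C : ℝ} (hC : 0 ≤ C)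
    (h : ∀ x, ‖f x‖ ≤ C * ‖e x‖) : ∃ T : Op K, ‖T‖ ≤ C ∧ (∀ x, T (e x) = f x) ∧
      ∀ y : Op K, (∀ x, ∃ x', y (e x) = e x' ∧ y (f x) = f x') → (∀ x, ∃ x', star y (e x) = e x') →
        y * T = T * y := by
  let e' : X × (LinearMap.range e)ᗮ →ₗ[ℂ] K := e.coprod (Submodule.subtype _)
  let f' : X × (LinearMap.range e)ᗮ →ₗ[ℂ] K := f.coprod 0
  have hd : DenseRange e' := by
    refine Submodule.dense_iff_topologicalClosure_eq_top (s := LinearMap.range e') |>.2 ?_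
    rw [Submodule.topologicalClosure_eq_top_iff, eq_bot_iff]
    intro v hv
    have h1 : v ∈ (LinearMap.range e)ᗮ := by
      rintro _ ⟨x, rfl⟩
      exact hv _ ⟨(x, 0), by simp [e']⟩
    exact inner_self_eq_zero.1 (hv _ ⟨(0, ⟨v, h1⟩), by simp [e']⟩)
  have hn : ∀ x, ‖f' x‖ ≤ C * ‖e' x‖ := fun ⟨x, v⟩ => by
    simp only [e', f', LinearMap.coprod_apply, LinearMap.zero_apply, add_zero,
      Submodule.subtype_apply]
    refine (h x).trans (mul_le_mul_of_nonneg_left (le_of_sq_le_sq ?_ (norm_nonneg _)) hC)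
    rw [norm_add_sq (𝕜 := ℂ), v.2 _ ⟨x, rfl⟩]
    simp
  have h1 := LinearMap.extendOfNorm_eq hd ⟨C, hn⟩
  have h2 : ∀ x, f'.extendOfNorm e' (e x) = f x := fun x => by simpa [e', f'] using h1 (x, 0)
  have h3 : ∀ v ∈ (LinearMap.range e)ᗮ, f'.extendOfNorm e' v = 0 := fun v hv => by
    simpa [e', f'] using h1 (0, ⟨v, hv⟩)
  refine ⟨_, LinearMap.opNorm_extendOfNorm_le hd hC hn, h2, fun y a1 a2 => ?_⟩
  refine DFunLike.coe_injective (hd.equalizer (by fun_prop) (by fun_prop) (funext fun ⟨x, v⟩ => ?_))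
  obtain ⟨x', b1, b2⟩ := a1 x
  have b3 : y v ∈ (LinearMap.range e)ᗮ := by
    rintro _ ⟨z, rfl⟩
    obtain ⟨z', hz⟩ := a2 z
    rw [← inner_star_l, hz]; exact v.2 _ ⟨z', rfl⟩
  simp [e', h2, h3 _ v.2, b1, b2, h3 _ b3]

variable {P : VonNeumannAlgebra K}

/-- evaluation at a vector -/
noncomputable def ev (P : VonNeumannAlgebra K) (ξ : K) : MA P →ₗ[ℂ] K :=
  (ContinuousLinearMap.apply ℂ K ξ).toLinearMap ∘ₗ P.toStarSubalgebra.subtype.toLinearMap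

@[simp] lemma ev_apply (ξ : K) (x : MA P) : ev P ξ x = x.1 ξ := rfl

lemma ext_comm {ξ ζ : K} {C : ℝ} (hC : 0 ≤ C) (h : ∀ x ∈ P, ‖x ζ‖ ≤ C * ‖x ξ‖) :
    ∃ m ∈ P.commutant, ‖m‖ ≤ C ∧ m ξ = ζ := by
  obtain ⟨T, h1, h2, h3⟩ := ext_op (ev P ξ) (ev P ζ) hC fun x => h x.1 x.2
  exact ⟨T, VonNeumannAlgebra.mem_commutant_iff.2 fun y hy => h3 y
    (fun x => ⟨⟨y, hy⟩ * x, rfl, rfl⟩) fun x => ⟨⟨star y, star_mem hy⟩ * x, rfl⟩, h1, h2 1⟩

lemma etrick (F G : MA P → ℝ) (Fa : ∀ x y, F (x + y) = F x + F y)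
    (Ga : ∀ x y, G (x + y) = G x + G y) (F0 : ∀ x, 0 ≤ x.1 → 0 ≤ F x) (G0 : ∀ x, 0 ≤ x.1 → 0 ≤ G x)
    (Gc : ∀ (a : ℕ → MA P) (z : MA P), (∀ n, ‖a n‖ ≤ 1) → WT (hyperfilter ℕ) (fun n => (a n).1) z.1 →
      Tendsto (fun n => G (a n)) (hyperfilter ℕ) (𝓝 (G z))) :
    ∃ s t : MA P, star s = s ∧ star t = t ∧ s * s + t * t = 1 ∧ 0 ≤ s.1 ∧ G (t * t) ≤ F (t * t) ∧
      ∀ x : MA P, ‖x‖ ≤ 1 → F (star (x * s) * (x * s)) ≤ G (star (x * s) * (x * s)) := by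
  have Fm : ∀ x y : MA P, x ≤ y → F x ≤ F y := fun x y h => by
    have := F0 (y - x) (sub_nonneg.2 (h : x.1 ≤ y.1))
    have h2 := Fa x (y - x)
    rw [add_sub_cancel] at h2; linarith
  have z0 : ∀ F : MA P → ℝ, (∀ x y, F (x + y) = F x + F y) → F 0 = 0 := fun F h => by
    simpa using h 0 0
  let X := {a : MA P // 0 ≤ a.1 ∧ a ≤ 1 ∧ G a ≤ F a}
  obtain ⟨⟨a, a0, a1, a2⟩, ha⟩ := brezis (X := X) (fun a b => a.1 ≤ b.1) (fun _ => le_rfl)
    (fun _ _ _ => le_trans) (fun a => F a.1) (fun a => Fm _ _ a.2.2.1) (fun _ _ => Fm _ _)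
    (fun x hx => by
      obtain ⟨z, h1, h2⟩ := exists_lub (fun n => (x n).1) hx (fun n => (x n).2.1) fun n => (x n).2.2.1
      refine ⟨⟨z, le_trans (x 0).2.1 (h1.1 ⟨0, rfl⟩), h1.2 (by rintro _ ⟨n, rfl⟩; exact (x n).2.2.1),
        ?_⟩, fun n => h1.1 ⟨n, rfl⟩⟩
      exact le_of_tendsto' (Gc _ z (fun n => (CStarAlgebra.norm_le_one_iff_of_nonneg _ (x n).2.1).2
        (x n).2.2.1) h2) fun n => (x n).2.2.2.trans (Fm _ _ (h1.1 ⟨n, rfl⟩)))
    ⟨0, le_rfl, (zero_le_one : (0 : Op K) ≤ 1), by rw [z0 F Fa, z0 G Ga]⟩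
  have b0 : 0 ≤ (1 - a).1 := sub_nonneg.2 (a1 : a.1 ≤ 1)
  have key : ∀ c : MA P, 0 ≤ c.1 → c.1 ≤ (1 - a).1 → F c ≤ G c := fun c c0 c1 => by
    by_contra hc
    have := ha ⟨a + c, add_nonneg a0 c0, (le_sub_iff_add_le'.1 c1 : a.1 + c.1 ≤ 1), by
      rw [Fa, Ga]; linarith⟩ (le_add_of_nonneg_right c0 : a.1 ≤ a.1 + c.1)
    simp only [Fa] at this
    linarith [G0 c c0]
  obtain ⟨t, t1, t2⟩ := exists_sqrt a0
  let s : MA P := ⟨CFC.sqrt (1 - a).1, by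
    rw [CFC.sqrt_eq_real_sqrt _ b0]; exact cfcₙ_mem (𝕜' := ℂ) _ (1 - a).2⟩
  have s1 : star s = s := Subtype.ext (CFC.sqrt_nonneg _).isSelfAdjoint.star_eq
  have s2 : s * s = 1 - a := Subtype.ext (CFC.sqrt_mul_sqrt_self _ b0)
  refine ⟨s, t, s1, t1, by rw [s2, t2, sub_add_cancel], CFC.sqrt_nonneg _, by rwa [t2],
    fun x hx => key _ (star_mul_self_nonneg (x * s).1) ?_⟩
  have e1 : star x.1 * x.1 ≤ 1 := (CStarAlgebra.norm_le_one_iff_of_nonneg _).1 (by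
    rw [CStarRing.norm_star_mul_self]; exact mul_le_one₀ hx (norm_nonneg _) hx)
  have e2 := star_left_conjugate_le_conjugate e1 s.1
  have e3 : star s.1 * s.1 = (1 - a).1 := by rw [← s2, ← StarMemClass.coe_star, s1]; rfl
  rw [mul_one, e3] at e2
  simpa [mul_assoc] using e2

lemma scale {E : Type*} [NormedAddCommGroup E] [NormedSpace ℂ E] {f g : E → ℝ} (n : ℕ)
    (hf : ∀ (t : ℝ) x, 0 ≤ t → f ((t : ℂ) • x) = t ^ n * f x)
    (hg : ∀ (t : ℝ) x, 0 ≤ t → g ((t : ℂ) • x) = t ^ n * g x) (h : ∀ x, ‖x‖ ≤ 1 → f x ≤ g x)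
    (x : E) : f x ≤ g x := by
  have e0 : (0 : ℝ) < (‖x‖ + 1)⁻¹ := by positivity
  have := h ((((‖x‖ + 1)⁻¹ : ℝ) : ℂ) • x) (by
    rw [norm_smul, Complex.norm_real, Real.norm_of_nonneg e0.le, inv_mul_le_iff₀ (by positivity)]
    simp)
  rw [hf _ _ e0.le, hg _ _ e0.le] at this
  exact le_of_mul_le_mul_left this (by positivity)

lemma cs_le {s t : MA P} (s1 : star s = s) (t1 : star t = t) (h : s * s + t * t = 1) :
    ‖s‖ ≤ 1 := by
  have : ‖s.1‖ ≤ 1 := s.1.opNorm_le_bound zero_le_one fun v => by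
    have a1 := normsq_eq s.1 v
    have a2 := normsq_eq t.1 v
    have a3 := qf_one v
    rw [← StarMemClass.coe_star, s1] at a1
    rw [← StarMemClass.coe_star, t1] at a2
    rw [qf, ← show s.1 * s.1 + t.1 * t.1 = 1 from congrArg Subtype.val h, add_apply,
      inner_add_right, Complex.add_re] at a3
    rw [one_mul]
    exact le_of_sq_le_sq (by nlinarith [sq_nonneg ‖t.1 v‖]) (norm_nonneg _)
  exact this

lemma lemE {ξ ζ : K} {C η : ℝ} (hC : 0 ≤ C) (h : ∀ x ∈ P, ‖x‖ ≤ 1 → ‖x ζ‖ ≤ C * ‖x ξ‖ + η) :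
    ∃ m ∈ P.commutant, ‖m‖ ≤ 2 * C ∧ ‖ζ - m ξ‖ ≤ 4 * η := by
  have q : ∀ (v : K) (x : MA P), qf (star x * x).1 v = ‖x.1 v‖ ^ 2 := fun v x =>
    (normsq_eq _ _).symm
  obtain ⟨s, t, s1, t1, st, -, h1, h2⟩ := etrick (P := P) (fun x => qf x.1 ζ)
    (fun x => (2 * C) ^ 2 * qf x.1 ξ) (fun x y => by simp [qf]) (fun x y => by simp [qf, mul_add])
    (fun x hx => qf_nonneg hx _) (fun x hx => mul_nonneg (sq_nonneg _) (qf_nonneg hx _))
    fun a z _ hz => ((Complex.continuous_re.tendsto _).comp (hz ξ ξ)).const_mul _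
  have t2 : ‖t‖ ≤ 1 := cs_le t1 s1 (by rwa [add_comm])
  simp only [q] at h2
  nth_rewrite 1 [← t1] at h1
  nth_rewrite 3 [← t1] at h1
  rw [q, q, ← mul_pow] at h1
  obtain ⟨m, m1, m2, m3⟩ := ext_comm (P := P) (ξ := s.1 ξ) (ζ := s.1 ζ) (C := 2 * C)
    (by positivity) fun x hx => le_of_sq_le_sq (by
      rw [mul_pow]
      exact scale (f := fun x : MA P => ‖x.1 (s.1 ζ)‖ ^ 2)
        (g := fun x => (2 * C) ^ 2 * ‖x.1 (s.1 ξ)‖ ^ 2) 2
        (fun t x ht => by simp [norm_smul, mul_pow]) (fun t x ht => by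
          simp [norm_smul, mul_pow]; ring) h2 ⟨x, hx⟩) (by positivity)
  refine ⟨m, m1, m2, ?_⟩
  have e : ∀ v, v = s.1 (s.1 v) + t.1 (t.1 v) := fun v =>
    congr($(show s.1 * s.1 + t.1 * t.1 = 1 from congrArg Subtype.val st) v).symm
  have e2 : m (s.1 (s.1 ξ)) = s.1 (s.1 ζ) := by
    rw [← m3]; exact congr($(commM s.2 m1) (s.1 ξ)).symm
  have a1 := le_of_sq_le_sq h1 (norm_nonneg _)
  have a2 := h t.1 t.2 t2
  have a3 := norm_sub_le_of_le (app_le (Y := t.1) t2 (t.1 ζ)) ((m.le_of_opNorm_le m2 _).trans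
    (mul_le_mul_of_nonneg_left (app_le (Y := t.1) t2 (t.1 ξ)) (by positivity)))
  rw [e ζ, e ξ, map_add, e2, add_sub_add_left_eq_sub]
  linarith

lemma NW.et [TrAlg (MA P)] (h : NW P) : ET (MA P) := fun F C hC F1 F2 => by
  have F0 : ∀ x : MA P, 0 ≤ x.1 → 0 ≤ (F x).re := fun x hx => by
    obtain ⟨s, h1, h2⟩ := exists_sqrt hx
    rw [← h2]; nth_rewrite 1 [← h1]; exact F2 s
  obtain ⟨s, t, s1, t1, st, s0, h1, h2⟩ := etrick (P := P) (fun x => (F x).re)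
    (fun x => 4 * C * rt x) (fun x y => by simp [F1.lin.map_add]) (fun x y => by rw [rt_add, mul_add])
    F0 (fun x hx => mul_nonneg (by positivity) (rt_nn hx))
    fun a z ha hz => ((Complex.continuous_re.tendsto _).comp (h.seq (.of_forall ha) hz)).const_mul _
  have t2 : ‖t‖ ≤ 1 := cs_le t1 s1 (by rwa [add_comm])
  have s2 : ‖s‖ ≤ 1 := cs_le s1 t1 st
  refine ⟨s, ⟨s1, s2⟩, ?_, fun y => ?_⟩
  · have a1 := h1.trans ((Complex.re_le_norm _).trans (F1.bd _ (bm t2 t2)))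
    have a2 := congrArg rt st
    rw [rt_add, show rt (1 : MA P) = 1 by simp [rt]] at a2
    have a3 : rt (s * s) ≤ rt s := rt_mono (show s.1 * s.1 ≤ s.1 by
      rw [← sub_nonneg, ← mul_one_sub]
      exact Commute.mul_nonneg s0 (sub_nonneg.2 ((CStarAlgebra.norm_le_one_iff_of_nonneg _ s0).1 s2))
        ((Commute.one_right _).sub_right (Commute.refl _)))
    nlinarith
  · rw [n2_sq]
    refine scale (f := fun y : MA P => (F (star (y * s) * (y * s))).re)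
      (g := fun y => 4 * C * rt (star (y * s) * (y * s))) 2 (fun t x ht => ?_) (fun t x ht => ?_) h2 y
    · simp only [smul_mul_assoc, star_smul, mul_smul_comm, F1.lin.map_smul]
      simp; ring
    · simp [rt, smul_smul]; ring

end Vale.Agent.P096
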