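import Vale.Agent.P096.FL1

/-! Module F: flatness. -/

open Finset Vale.Agent.P104 Vale.Agent.P085 Filter Topology MeasureTheory Complex
open scoped InnerProductSpace InnerProduct

set_option linter.unusedSectionVars false

namespace Vale.Agent.P096.FL

universe u

variable {H : Type u} [NormedAddCommGroup H] [InnerProductSpace ℂ H] [CompleteSpace H]
  {M N : VonNeumannAlgebra H} {ξ : H} {U V : ℝ → Op H} {J J' : H → H}

/-- Fourier coefficient of `h • σ x` -/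
noncomputable def W (U : ℝ → Op H) (h : ℝ → ℂ) (x : Op H) (m : ℝ) : Op H :=
  wint (fun s : ℝ => cexp (-(I * m * s)) * h s) fun s => U s * x * U (-s)

section W
variable (hM : Mod0 M ξ U J) {h : ℝ → ℂ} (hi : Integrable h) {x : Op H} {m : ℝ}
include hM hi

lemma W_apply (v : H) : W U h x m v = Fo h (fun s => U s (x (U (-s) v))) m := by
  rw [W, (hM.sc x).apply (int_e hi m)]; simp only [Fo, mul_smul, mul_apply_eq_comp]

lemma W_ξ : W U h x m ξ = Fo h (fun s => U s (x ξ)) m := by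
  simp only [W_apply hM hi, hM.Uξ]

lemma W_cont : Continuous (W U h x) := by
  refine continuous_iff_continuousAt.2 fun m₀ => tendsto_iff_norm_sub_tendsto_zero.2 ?_
  have c : Continuous fun m : ℝ =>
      ∫ s : ℝ, ‖cexp (-(I * m * s)) * h s - cexp (-(I * m₀ * s)) * h s‖ :=
    continuous_of_dominated (bound := fun s => ‖h s‖ + ‖h s‖)
      (fun m => ((int_e hi m).sub (int_e hi m₀)).norm.1)
      (fun m => .of_forall fun s => by
        rw [norm_norm]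
        exact norm_sub_le_of_le (by rw [norm_mul, en, one_mul]) (by rw [norm_mul, en, one_mul]))
      (hi.norm.add hi.norm) (.of_forall fun s => by fun_prop)
  refine squeeze_zero (fun _ => norm_nonneg _) (fun m => ?_)
    (by simpa using (c.tendsto m₀).const_mul ‖x‖)
  rw [W, W, ← (hM.sc x).sub (int_e hi m) (int_e hi m₀)]
  exact (hM.sc x).norm ((int_e hi m).sub (int_e hi m₀))

lemma W_q {q : Op H} (hq : ∀ t, U t * q = q * U t) (hx : x * q = x) :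
    W U h x m * q = W U h x m := by
  have := (hM.sc x).wint_mul (int_e hi m) 1 q
  simp only [one_mul, mul_assoc, hq] at this
  simp only [← mul_assoc x, hx] at this
  simpa only [W, mul_assoc] using this.symm

lemma W_col (hP : PlanchStmt.{u}) {a c R : ℝ} (a0 : 0 < a) (hc : Continuous h)
    (hb : ∀ s, ‖h s‖ ^ 2 ≤ c * Real.exp (-a * s ^ 2)) {n : ℕ} {x : Fin n → Op H}
    (hx : ∑ i, star (x i) * x i ≤ 1) (R0 : 0 ≤ R) (v : H) :
    ∫ m in -R..R, ∑ i, ‖W U h (x i) m v‖ ^ 2 ≤ 2 * Real.pi * (c * √(Real.pi / a)) * ‖v‖ ^ 2 := by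
  simp only [W_apply hM hi]
  refine pl_le hP a0 hc hi hb (fun i => (hM.sc (x i)).cont v) (fun s => ?_) R0
  have := qf_nonneg (sub_nonneg.2 hx) (U (-s) v)
  rw [← hM.Unorm (-s) v, ← qf_one]
  simp only [mul_apply_eq_comp, hM.Unorm]
  generalize U (-s) v = w at this ⊢
  simp only [normsq_eq]
  simpa [qf, inner_sub_right, inner_sum] using this

end W

lemma kms (hG : GaussStmt.{u}) (hM : Mod M ξ U J) {a : ℝ} (a0 : 0 < a) (η : H) (m : ℝ) :
    (∀ x ∈ M, x ξ = Fo (g a 0) (fun s => U s η) m →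
      cexp (-(m / 2)) • J (star x ξ) = Fo (g a (-(1 / 2))) (fun s => U s η) m) ∧
    ∀ y ∈ M.commutant, y ξ = Fo (g a 0) (fun s => U s η) m →
      cexp (m / 2) • J (star y ξ) = Fo (g a (1 / 2)) (fun s => U s η) m := by
  obtain ⟨g1, g2, -⟩ := hG H (fun s => U s η) ‖η‖ a m (hM.Ucont η) (fun s => (hM.Unorm s η).le) a0
  obtain ⟨α, hα⟩ : ∃ α : ℂ → H, α = fun z : ℂ =>
    ∫ s : ℝ, cexp (-(a * (s - z) ^ 2) - I * m * (s - z)) • U s η := ⟨_, rfl⟩
  rw [← hα] at g2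
  have cov : ∀ (t : ℝ) z, U t (α z) = α (z + t) := fun t z => by
    rw [hα]
    beta_reduce
    rw [← (U t).integral_comp_comm (int_smul (g1 z) (hM.Ucont η) fun s => (hM.Unorm s η).le),
      ← integral_add_right_eq_self (fun s : ℝ =>
        cexp (-(a * (s - (z + t)) ^ 2) - I * m * (s - (z + t))) • U s η) t]
    refine integral_congr_ae (.of_forall fun s => ?_)
    simp only [map_smul, add_comm s t, hM.Uadd, mul_apply_eq_comp]
    congr 2; push_cast; ring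
  have val : ∀ r : ℝ, cexp (m * r) • α (r * I) = Fo (g a r) (fun s => U s η) m := fun r => by
    rw [hα, Fo, ← integral_smul]
    refine integral_congr_ae (.of_forall fun s => ?_)
    simp only [smul_smul, g, ← exp_add]
    congr 2
    linear_combination ((m : ℂ) * r) * I_mul_I
  have v0 : α 0 = Fo (g a 0) (fun s => U s η) m := by simpa using val 0
  refine ⟨fun x hx e => ?_, fun y hy e => ?_⟩
  · rw [← hM.kms α g2 cov x hx (v0.trans e.symm), ← val]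
    congr 2 <;> push_cast <;> ring
  · rw [← hM.symm.kms (fun z => α (-z)) (g2.comp differentiable_neg)
      (fun t z => by rw [cov]; congr 1; push_cast; ring) y hy (by simpa using v0.trans e.symm), ← val]
    congr 2 <;> push_cast <;> ring

lemma cexp_sq (m : ℝ) : ‖cexp (m / 2)‖ ^ 2 = Real.exp m := by
  rw [norm_exp, ← Real.exp_nat_mul]; congr 1; simp; ring

lemma pw (hM : Mod M ξ U J) (hN : Mod N ξ V J') {q X Y : Op H} (qM : Cp M q) (qN : Cp N q)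
    (hX : X ∈ M) (hY : Y ∈ M.commutant) (Xq : X * q = X) (Yq : Y * q = Y) (e : X ξ = Y ξ)
    {t m D D' : ℝ} (ht : |t| ≤ 1)
    (h1 : ∀ ε > 0, ∃ n ∈ N, ‖(X - n) (q ξ)‖ ^ 2 +
      Real.exp (-m) * ‖star (X - n) (q ξ)‖ ^ 2 ≤ D + ε)
    (h2 : ∀ ε > 0, ∃ n ∈ N.commutant, ‖(Y - n) (q ξ)‖ ^ 2 +
      Real.exp m * ‖star (Y - n) (q ξ)‖ ^ 2 ≤ D' + ε) :
    ‖U t (X ξ) - V t (X ξ)‖ ^ 2 ≤ 15000 * (D + D' + ‖X ξ - cexp (-(m / 2)) • J (star X ξ)‖ ^ 2 +
      ‖X ξ - cexp (m / 2) • J (star Y ξ)‖ ^ 2) := by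
  refine le_of_forall_pos_le_add fun ε ε0 => ?_
  obtain ⟨n, n1, n2⟩ := h1 (ε / 30000) (by positivity)
  obtain ⟨n', n3, n4⟩ := h2 (ε / 30000) (by positivity)
  have qs := qM.1.isSelfAdjoint.star_eq
  have k : ∀ {Z n : Op H} {c : ℂ}, (starRingEnd ℂ) c = c → Z * q = Z → Z * q = q * Z →
      n * q = q * n → X ξ = Z ξ → ‖X ξ - (n * q) ξ‖ = ‖(Z - n) (q ξ)‖ ∧
      ‖J (X ξ) - c • star (n * q) ξ‖ ≤ ‖X ξ - c • J (star Z ξ)‖ + ‖c • star (Z - n) (q ξ)‖ := by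
    intro Z n c hc z1 z2 z3 z4
    refine ⟨by rw [z4, sub_apply, ← mul_apply_eq_comp Z, z1, mul_apply_eq_comp], ?_⟩
    have z5 : star Z (q ξ) = star Z ξ := by
      rw [← mul_apply_eq_comp, ← qs, ← star_mul, ← z2, z1]
    rw [← hM.Jnorm (X ξ - _), hM.Jsub, hM.Jsmul, hM.JJ, hc, z3, star_mul, qs, star_sub, sub_apply,
      z5, smul_sub, mul_apply_eq_comp]
    exact norm_sub_le_norm_sub_add_norm_sub _ _ _
  obtain ⟨k1, k2⟩ := k (c := cexp (-(m / 2))) (by rw [← exp_conj]; simp [conj_ofNat]) Xq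
    (commM hX qM.2.2) (commM n1 qN.2.2) rfl
  obtain ⟨k3, k4⟩ := k (c := cexp (m / 2)) (by rw [← exp_conj]; simp [conj_ofNat]) Yq
    (commM qM.2.1 hY).symm (commM qN.2.1 n3).symm e
  rw [← cexp_sq, ← mul_pow, ← norm_smul] at n2 n4
  rw [ofReal_neg, neg_div] at n2
  have l := hM.lip X hX m t
  rw [norm_sub_rev _ (X ξ)] at l
  have z1 := norm_nonneg (X ξ - cexp (-(m / 2)) • J (star X ξ))
  have z2 := norm_nonneg (X ξ - cexp (m / 2) • J (star Y ξ))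
  have z3 := norm_nonneg ((X - n) (q ξ))
  have z4 := norm_nonneg ((Y - n') (q ξ))
  have z5 := norm_nonneg (cexp (-(m / 2)) • star (X - n) (q ξ))
  have z6 := norm_nonneg (cexp (m / 2) • star (Y - n') (q ξ))
  generalize ‖X ξ - cexp (-(m / 2)) • J (star X ξ)‖ = p1, ‖X ξ - cexp (m / 2) • J (star Y ξ)‖ = p2,
    ‖(X - n) (q ξ)‖ = u1, ‖(Y - n') (q ξ)‖ = u2, ‖cexp (-(m / 2)) • star (X - n) (q ξ)‖ = u3,
    ‖cexp (m / 2) • star (Y - n') (q ξ)‖ = u4 at *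
  have b := hN.pw (η := X ξ) (η' := J (X ξ)) (m := m) (a := p1 + p2 + u1 + u2 + u3 + u4)
    (mul_mem n1 qN.2.1) (mul_mem n3 qN.2.2) (by linarith) (by linarith) (by linarith)
    (by linarith) t
  have c : ‖U t (X ξ) - V t (X ξ)‖ ≤ 50 * (p1 + p2 + u1 + u2 + u3 + u4) := by
    rw [norm_sub_rev] at b
    refine (norm_sub_le_norm_sub_add_norm_sub _ _ _).trans ((add_le_add l b).trans ?_)
    nlinarith
  refine (pow_le_pow_left₀ (norm_nonneg _) c 2).trans ?_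
  have d : (p1 + p2 + u1 + u2 + u3 + u4) ^ 2 ≤
      6 * (p1 ^ 2 + p2 ^ 2 + u1 ^ 2 + u2 ^ 2 + u3 ^ 2 + u4 ^ 2) := by
    simpa [Fin.sum_univ_six] using sq_sum_le_card_mul_sum_sq (s := univ) (f := ![p1, p2, u1, u2, u3, u4])
  rw [mul_pow]
  linarith

lemma gt {C : ℝ} (hC : ∀ (M N : VonNeumannAlgebra H) (θ : H) (δ : ℝ), 0 < δ →
    Nr N.commutant M.commutant δ → ∃ f : MA M →L[ℂ] ℂ, ‖f‖ ≤ C ∧ (∀ y, 0 ≤ (f (star y * y)).re) ∧
    ∀ (x : MA M) (μ : ℝ), 0 < μ → ∀ η > 0, ∃ n ∈ N,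
      ‖(x.1 - n) θ‖ ^ 2 + μ * ‖star (x.1 - n) θ‖ ^ 2 ≤
        δ ^ 2 * ‖θ‖ ^ 2 * ((f (star x * x)).re + μ * (f (x * star x)).re) + η)
    (M N : VonNeumannAlgebra H) (θ : H) {δ : ℝ} (δ0 : 0 < δ) (h : Nr N.commutant M.commutant δ) :
    ∃ f : Op H →L[ℂ] ℂ, ‖f‖ ≤ C ∧ ∀ x ∈ M, ∀ c : ℂ, c ≠ 0 → ∀ η > 0, ∃ n ∈ N,
      ‖(x - n) θ‖ ^ 2 + ‖c‖ ^ 2 * ‖star (x - n) θ‖ ^ 2 ≤ δ ^ 2 * ‖θ‖ ^ 2 *
        ((f (star x * x)).re + (f (star (c • star x) * (c • star x))).re) + η := by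
  obtain ⟨f, f1, -, f2⟩ := hC M N θ δ δ0 h
  obtain ⟨F, F1, F2⟩ := exists_extension_norm_eq M.toStarSubalgebra.toSubalgebra.toSubmodule f
  refine ⟨F, F2.trans_le f1, fun x hx c c0 η η0 => ?_⟩
  obtain ⟨n, n1, n2⟩ := f2 ⟨x, hx⟩ (‖c‖ ^ 2) (by positivity) η η0
  refine ⟨n, n1, n2.trans_eq ?_⟩
  rw [← F1, ← F1, star_smul, star_star, smul_mul_smul_comm, map_smul, RCLike.star_def, conj_mul',
    ← ofReal_pow, smul_eq_mul, re_ofReal_mul]
  rfl

lemma fin {e : ℝ → ℝ} {σ K : ℝ} (σ0 : 0 < σ) (ec : Continuous e) (e0 : ∀ s, 0 ≤ e s)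
    (ei : Integrable fun s => ‖g (σ ^ 2) 0 s‖ ^ 2 * e s)
    (h : ∫ s, ‖g (σ ^ 2) 0 s‖ ^ 2 * e s ≤ K * σ⁻¹) : ∃ τ ∈ Set.Icc 0 σ⁻¹, e τ ≤ 9 * K := by
  have s0 : 0 < σ⁻¹ := inv_pos.2 σ0
  obtain ⟨τ, t1, t2⟩ := (isCompact_Icc (a := 0) (b := σ⁻¹)).exists_isMinOn
    (Set.nonempty_Icc.2 s0.le) ec.continuousOn
  refine ⟨τ, t1, ?_⟩
  have a := (setIntegral_ge_of_const_le (c := e τ / 9) (s := Set.Icc 0 σ⁻¹) measurableSet_Icc (by simp)
    (fun s hs => ?_) ei.integrableOn).trans ((setIntegral_le_integral ei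
      (.of_forall fun s => mul_nonneg (sq_nonneg _) (e0 s))).trans h)
  · rw [Real.volume_real_Icc_of_le s0.le, sub_zero, smul_eq_mul] at a
    nlinarith
  · have b : 1 / 9 ≤ ‖g (σ ^ 2) 0 s‖ ^ 2 := by
      have s1 : σ * s ≤ 1 := by simpa [σ0.ne'] using mul_le_mul_of_nonneg_left hs.2 σ0.le
      have s2 := mul_nonneg σ0.le hs.1
      have s3 : Real.exp (-1) ≤ ‖g (σ ^ 2) 0 s‖ := by
        rw [g_norm]; simp only [ne_eq, two_ne_zero, not_false_eq_true, zero_pow, mul_zero,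
          Real.exp_zero, mul_one]
        exact Real.exp_le_exp.2 (by nlinarith)
      nlinarith [Real.exp_neg_one_gt_d9]
    have c : e τ ≤ e s := t2 hs
    nlinarith [e0 τ]

lemma comb {R c d : ℝ} (R0 : 0 ≤ R) {L F1 F2 F3 F4 P1 P2 : ℝ → ℝ} (l : Integrable L)
    (f1 : Continuous F1) (f2 : Continuous F2) (f3 : Continuous F3) (f4 : Continuous F4)
    (p1 : Integrable P1) (p2 : Integrable P2)
    (h : ∀ m, L m ≤ c * (d * (F1 m + F2 m) + d * (F3 m + F4 m) + P1 m + P2 m)) :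
    ∫ m in -R..R, L m ≤ c * (d * ((∫ m in -R..R, F1 m) + ∫ m in -R..R, F2 m) +
      d * ((∫ m in -R..R, F3 m) + ∫ m in -R..R, F4 m) + (∫ m in -R..R, P1 m) +
      ∫ m in -R..R, P2 m) := by
  have i1 := f1.intervalIntegrable (μ := volume) (-R) R
  have i2 := f2.intervalIntegrable (μ := volume) (-R) R
  have i3 := f3.intervalIntegrable (μ := volume) (-R) R
  have i4 := f4.intervalIntegrable (μ := volume) (-R) R
  have i5 := p1.intervalIntegrable (a := -R) (b := R)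
  have i6 := p2.intervalIntegrable (a := -R) (b := R)
  have j1 := (i1.add i2).const_mul d
  have j2 := (i3.add i4).const_mul d
  refine (intervalIntegral.integral_mono_on (by linarith) l.intervalIntegrable
    ((((j1.add j2).add i5).add i6).const_mul c) fun m _ => h m).trans_eq ?_
  rw [intervalIntegral.integral_const_mul, intervalIntegral.integral_add ((j1.add j2).add i5) i6,
    intervalIntegral.integral_add (j1.add j2) i5, intervalIntegral.integral_add j1 j2,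
    intervalIntegral.integral_const_mul, intervalIntegral.integral_const_mul,
    intervalIntegral.integral_add i1 i2, intervalIntegral.integral_add i3 i4]

end FL

universe u

open FL in
theorem flStmt (h1 : GTStmt.{u}) (h2 : PlanchStmt.{u}) (h3 : GaussStmt.{u}) : FLStmt.{u} := by
  obtain ⟨C, C1, hC⟩ := h1
  refine ⟨9 * (15000 * (12 * C * 2)), by linarith, ?_⟩
  intro H _ _ _ M N ξ U V J J' δ hM hN cl δ0 q qM qN t σ ht σ0 σ1 n x₀ y₀ hB
  by_cases θ0 : q ξ = 0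
  · exact ⟨0, ⟨le_rfl, by positivity⟩, by simp [θ0]⟩
  obtain ⟨f, f1, f2⟩ := gt (hC H) M N (q ξ) δ0 cl.nm'
  obtain ⟨f', f1', f2'⟩ := gt (hC H) M.commutant N.commutant (q ξ) δ0
    (by simpa only [VonNeumannAlgebra.commutant_commutant] using cl.nm)
  have qq : q * q = q := qM.1.isIdempotentElem.eq
  have qs := qM.1.isSelfAdjoint.star_eq
  have col : ∀ z : Fin n → Op H, ∑ i, star (z i) * z i ≤ 1 →
      ∑ i, star (z i * q) * (z i * q) ≤ 1 := fun z hz => by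
    have := star_left_conjugate_le_conjugate hz q
    rw [mul_one, qs, qq, mul_sum, sum_mul] at this
    simpa only [star_mul, qs, mul_assoc] using this.trans qM.1.le_one
  obtain ⟨x, hx⟩ : ∃ x : Fin n → Op H, x = fun i => x₀ i * q := ⟨_, rfl⟩
  obtain ⟨y, hy⟩ : ∃ y : Fin n → Op H, y = fun i => y₀ i * q := ⟨_, rfl⟩
  have xm : ∀ i, x i ∈ M := fun i => hx ▸ mul_mem (hB.xm i) qM.2.1
  have ym : ∀ i, y i ∈ M.commutant := fun i => hy ▸ mul_mem (hB.ym i) qM.2.2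
  have xq : ∀ i, x i * q = x i := fun i => by simp only [hx, mul_assoc, qq]
  have yq : ∀ i, y i * q = y i := fun i => by simp only [hy, mul_assoc, qq]
  have xs : ∑ i, star (x i) * x i ≤ 1 := hx ▸ col x₀ hB.xs
  have ys : ∑ i, star (y i) * y i ≤ 1 := hy ▸ col y₀ hB.ys
  have xy : ∀ i, y i ξ = x i ξ := fun i => by
    simp only [hx, hy, commM (hB.xm i) qM.2.2, ← commM qM.2.1 (hB.ym i), mul_apply_eq_comp, hB.xy]
  have x0 : ∀ i, x₀ i (q ξ) = x i ξ := fun i => by rw [hx]; rfl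
  simp only [x0]
  have xθ : ∑ i, ‖x i ξ‖ ^ 2 ≤ ‖q ξ‖ ^ 2 := by
    have := qf_nonneg (sub_nonneg.2 hB.xs) (q ξ)
    rw [← qf_one]
    simp only [← x0, normsq_eq]
    simpa [qf, inner_sub_right, inner_sum] using this
  have m0 := hM.toMod0
  have a0 : 0 < σ ^ 2 := by positivity
  have a1 : σ ^ 2 ≤ 1 := by nlinarith
  generalize ha : σ ^ 2 = a at a0 a1
  have gi := g_int a0
  have r0 : |(0 : ℝ)| ≤ 1 / 2 := by norm_num
  have r1 : |(1 / 2 : ℝ)| ≤ 1 / 2 := by norm_num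
  have r2 : |(-(1 / 2) : ℝ)| ≤ 1 / 2 := by norm_num
  have Uq := hM.cen qM.2.1 qM.2.2
  have Ub : ∀ i s, ‖U s (x i ξ)‖ ≤ ‖x i ξ‖ := fun i s => (hM.Unorm s _).le
  have Wx : ∀ r i m, W U (g a r) (x i) m ∈ M := fun r i m =>
    (hM.sc _).mem (int_e (gi r) m) fun s => hM.UM s _ (xm i)
  have Wy : ∀ r i m, W U (g a r) (y i) m ∈ M.commutant := fun r i m =>
    (hM.sc _).mem (int_e (gi r) m) fun s => hM.UM' s (ym i)
  have ex : ∀ r i m, W U (g a r) (x i) m ξ = Fo (g a r) (fun s => U s (x i ξ)) m :=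
    fun r i m => W_ξ m0 (gi r)
  have ey : ∀ r i m, W U (g a r) (y i) m ξ = Fo (g a r) (fun s => U s (x i ξ)) m :=
    fun r i m => by rw [W_ξ m0 (gi r), xy]
  have kx := fun i m => (kms h3 hM a0 (x i ξ) m).1 _ (Wx 0 i m) (ex 0 i m)
  have ky := fun i m => (kms h3 hM a0 (x i ξ) m).2 _ (Wy 0 i m) (ey 0 i m)
  have ox : ∀ i (m : ℝ), cexp (-(m / 2)) • star (W U (g a 0) (x i) m) =
      m0.jj (W U (g a (-(1 / 2))) (y i) m) := fun i m =>
    hM.sep (smulM _ (star_mem (Wx 0 i m))) (hM.jj_mem' (Wy _ i m)) (by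
      rw [m0.jj_ξ, ey, ← kx, hM.Jsmul, hM.JJ, ← exp_conj]; simp [conj_ofNat])
  have oy : ∀ i (m : ℝ), cexp (m / 2) • star (W U (g a 0) (y i) m) =
      m0.jj (W U (g a (1 / 2)) (x i) m) := fun i m =>
    hM.sep' (smulM _ (star_mem (Wy 0 i m))) (hM.jj_mem (Wx _ i m)) (by
      rw [m0.jj_ξ, ex, ← ky, hM.Jsmul, hM.JJ, ← exp_conj]; simp [conj_ofNat])
  obtain ⟨Γ, hΓ⟩ : ∃ Γ, Γ = √(Real.pi / a) := ⟨_, rfl⟩
  have Γ0 : 0 < Γ := hΓ ▸ Real.sqrt_pos.2 (div_pos Real.pi_pos a0)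
  have Γ1 : Γ ≤ 2 * σ⁻¹ := hΓ ▸ Real.sqrt_le_iff.2 ⟨by positivity, by
    rw [mul_pow, inv_pow, ha, div_eq_mul_inv]; gcongr; linarith [Real.pi_le_four]⟩
  have K0 : 0 < 2 * Real.pi * (3 * Γ) := by positivity
  have G1 : ∀ i, Continuous fun s => (U t - V t) (U s (x i ξ)) := fun i =>
    (U t - V t).continuous.comp (hM.Ucont _)
  obtain ⟨p1, p2, p3⟩ := pl h2 a0 (g_cont a 0) (gi 0) (g_le a0 a1 r0) G1
    (B := ∑ i, (‖U t - V t‖ * ‖x i ξ‖) ^ 2) fun s => sum_le_sum fun i _ => by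
      gcongr; exact (U t - V t).le_of_opNorm_le_of_le le_rfl (Ub i s)
  refine (fin (K := 15000 * (12 * C * 2) * (δ ^ 2 + a) * ‖q ξ‖ ^ 2) σ0 (by fun_prop)
    (fun s => by positivity) (ha ▸ p2) ?_).imp fun τ h => ⟨h.1, ?_⟩
  swap
  · simpa only [sub_apply, mul_assoc] using h.2
  rw [ha, ← mul_le_mul_iff_right₀ (show 0 < 2 * Real.pi by positivity), ← p3]
  refine le_of_tendsto (intervalIntegral_tendsto_integral p1 tendsto_neg_atTop_atBot tendsto_id)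
    ((eventually_ge_atTop 0).mono fun R R0 => ?_)
  have cx := fun i => W_cont m0 (gi 0) (x := x i)
  have cy := fun i => W_cont m0 (gi 0) (x := y i)
  have cx' : ∀ i, Continuous fun m : ℝ => cexp (-(m / 2)) • star (W U (g a 0) (x i) m) :=
    fun i => by fun_prop
  have cy' : ∀ i, Continuous fun m : ℝ => cexp (m / 2) • star (W U (g a 0) (y i) m) :=
    fun i => by fun_prop
  have wc := fun r hr z hz => hΓ ▸ W_col m0 (gi r) h2 a0 (g_cont a r) (g_le a0 a1 hr)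
    (x := z) (n := n) hz R0
  have i1 := il f cx R0 K0 (wc 0 r0 x xs)
  have i2 := il f cx' R0 K0 fun v => by
    simpa only [ox, m0.jj_apply, m0.Jnorm] using wc _ r2 y ys (J v)
  have i3 := il f' cy R0 K0 (wc 0 r0 y ys)
  have i4 := il f' cy' R0 K0 fun v => by
    simpa only [oy, m0.jj_apply, m0.Jnorm] using wc _ r1 x xs (J v)
  have j := fun r hr => pl h2 a0 ((g_cont a 0).sub (g_cont a r)) ((gi 0).sub (gi r))
    (g_sub a0 a1 hr) (fun i => hM.Ucont (x i ξ)) fun s => by simpa only [hM.Unorm] using xθ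
  have j' := fun r hr => hΓ ▸ pl_le h2 a0 ((g_cont a 0).sub (g_cont a r)) ((gi 0).sub (gi r))
    (g_sub a0 a1 hr) (fun i => hM.Ucont (x i ξ)) (fun s => by simpa only [hM.Unorm] using xθ) R0
  have fc : ∀ (f : Op H →L[ℂ] ℂ) (z : Fin n → ℝ → Op H), (∀ i, Continuous (z i)) →
      Continuous fun m => ∑ i, (f (star (z i m) * z i m)).re := fun f z hz => by fun_prop
  refine (comb (c := 15000) (d := δ ^ 2 * ‖q ξ‖ ^ 2) R0 p1 (fc f _ cx) (fc f _ cx') (fc f' _ cy)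
    (fc f' _ cy') (j _ r2).1 (j _ r1).1 fun m => ?_).trans ?_
  · simp only [← sum_add_distrib, mul_sum]
    refine sum_le_sum fun i _ => ?_
    have := pw hM hN qM qN (Wx 0 i m) (Wy 0 i m) (W_q m0 (gi 0) Uq (xq i))
      (W_q m0 (gi 0) Uq (yq i)) ((ex 0 i m).trans (ey 0 i m).symm) (m := m) ht
      (by simpa only [← cexp_sq, ofReal_neg, neg_div] using
        f2 _ (Wx 0 i m) (cexp (-(m / 2))) (exp_ne_zero _))
      (by simpa only [← cexp_sq] using f2' _ (Wy 0 i m) (cexp (m / 2)) (exp_ne_zero _))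
    rwa [kx, ky, ex, ← sub_apply, Fo_map (gi 0) (hM.Ucont _) (Ub i),
      Fo_sub (gi 0) (gi _) (hM.Ucont _) (Ub i), Fo_sub (gi 0) (gi _) (hM.Ucont _) (Ub i)] at this
  · have b := mul_le_mul_of_nonneg_right f1 K0.le
    have b' := mul_le_mul_of_nonneg_right f1' K0.le
    have d0 : 0 ≤ δ ^ 2 * ‖q ξ‖ ^ 2 := by positivity
    refine (mul_le_mul_of_nonneg_left (add_le_add (add_le_add (add_le_add
      (mul_le_mul_of_nonneg_left (add_le_add (i1.trans b) (i2.trans b)) d0)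
      (mul_le_mul_of_nonneg_left (add_le_add (i3.trans b') (i4.trans b')) d0)) (j' _ r2))
      (j' _ r1)) (by norm_num)).trans ?_
    calc _ = 2 * Real.pi * (15000 * (12 * C * δ ^ 2 + 6 * a) * ‖q ξ‖ ^ 2 * Γ) := by ring
      _ ≤ 2 * Real.pi * (15000 * (12 * C * δ ^ 2 + 12 * C * a) * ‖q ξ‖ ^ 2 * (2 * σ⁻¹)) := by
        gcongr; linarith
      _ = _ := by ring

end Vale.Agent.P096
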