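import Vale.Agent.P096.Base

/-! Module F, part 1: Gaussian kernels, Plancherel for columns, integration of functionals. -/

open Finset Vale.Agent.P104 Vale.Agent.P085 Filter Topology MeasureTheory Complex
open scoped InnerProductSpace InnerProduct

set_option linter.unusedSectionVars false

namespace Vale.Agent.P096.FL

universe u

variable {H : Type u} [NormedAddCommGroup H] [InnerProductSpace ℂ H] [CompleteSpace H]

/-- the Gaussian shifted by `r i` -/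
noncomputable def g (a r s : ℝ) : ℂ := cexp (-(a * (s - r * I) ^ 2))

lemma g_cont (a r : ℝ) : Continuous (g a r) := by unfold g; fun_prop

lemma g_eq (a r s : ℝ) :
    g a r s = (Real.exp (-(a * s ^ 2)) : ℝ) * ((Real.exp (a * r ^ 2) : ℝ) *
      cexp (I * (2 * a * s * r : ℝ))) := by
  rw [g, ofReal_exp, ofReal_exp, ← exp_add, ← exp_add]
  congr 1
  push_cast
  linear_combination (-(a : ℂ) * r ^ 2) * I_mul_I

lemma g_norm (a r s : ℝ) : ‖g a r s‖ = Real.exp (-(a * s ^ 2)) * Real.exp (a * r ^ 2) := by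
  rw [g_eq, norm_mul, norm_mul, norm_exp_I_mul_ofReal, mul_one, norm_real, norm_real,
    Real.norm_of_nonneg (Real.exp_pos _).le, Real.norm_of_nonneg (Real.exp_pos _).le]

lemma g_le {a r : ℝ} (a0 : 0 < a) (a1 : a ≤ 1) (hr : |r| ≤ 1 / 2) (s : ℝ) :
    ‖g a r s‖ ^ 2 ≤ 3 * Real.exp (-a * s ^ 2) := by
  have r2 : r ^ 2 ≤ 1 / 4 := by nlinarith [abs_le.1 hr]
  have e1 : Real.exp (-(a * s ^ 2)) ≤ 1 := Real.exp_le_one_iff.2 (by nlinarith [sq_nonneg s])
  have e2 : Real.exp (a * r ^ 2) ^ 2 ≤ 3 := by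
    rw [← Real.exp_nat_mul]
    refine (Real.exp_le_exp.2 ?_).trans (Real.exp_one_lt_d9.le.trans (by norm_num))
    push_cast; nlinarith [sq_nonneg r]
  rw [g_norm, mul_pow, neg_mul]
  have e0 := Real.exp_pos (-(a * s ^ 2))
  nlinarith [mul_le_mul_of_nonneg_left e2 (sq_nonneg (Real.exp (-(a * s ^ 2))))]

lemma g_sub {a r : ℝ} (a0 : 0 < a) (a1 : a ≤ 1) (hr : |r| ≤ 1 / 2) (s : ℝ) :
    ‖g a 0 s - g a r s‖ ^ 2 ≤ 3 * a * Real.exp (-a * s ^ 2) := by
  have r2 : r ^ 2 ≤ 1 / 4 := by nlinarith [abs_le.1 hr]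
  obtain ⟨E, hE⟩ : ∃ E, E = Real.exp (-(a * s ^ 2)) := ⟨_, rfl⟩
  have E0 : 0 < E := hE ▸ Real.exp_pos _
  have E1 : E ≤ 1 := hE ▸ Real.exp_le_one_iff.2 (by nlinarith [sq_nonneg s])
  have E2 : a * s ^ 2 * E ≤ 1 := by
    rw [hE, Real.exp_neg, ← div_eq_mul_inv, div_le_one (Real.exp_pos _)]
    linarith [Real.add_one_le_exp (a * s ^ 2)]
  have x0 : 0 ≤ a * r ^ 2 := by positivity
  have b1 : ‖((Real.exp (a * r ^ 2) : ℝ) : ℂ) - 1‖ ≤ a / 2 := by
    rw [← ofReal_one, ← ofReal_sub, norm_real, Real.norm_eq_abs]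
    refine (Real.abs_exp_sub_one_le (by rw [abs_of_nonneg x0]; nlinarith)).trans ?_
    rw [abs_of_nonneg x0]; nlinarith
  have b2 : ‖cexp (I * (2 * a * s * r : ℝ)) - 1‖ ≤ a * |s| := by
    refine Real.norm_exp_I_mul_ofReal_sub_one_le.trans ?_
    rw [Real.norm_eq_abs, abs_mul, abs_mul, abs_mul, abs_of_pos a0, abs_two]
    nlinarith [mul_nonneg a0.le (abs_nonneg s)]
  have e : g a 0 s - g a r s = -(E : ℂ) * ((cexp (I * (2 * a * s * r : ℝ)) - 1) +
      (((Real.exp (a * r ^ 2) : ℝ) : ℂ) - 1) * cexp (I * (2 * a * s * r : ℝ))) := by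
    rw [g_eq, g_eq, ← hE]; simp; ring
  have b3 : ‖g a 0 s - g a r s‖ ≤ E * (a * |s| + a / 2) := by
    rw [e, norm_mul, norm_neg, norm_real, Real.norm_of_nonneg E0.le]
    refine mul_le_mul_of_nonneg_left (norm_add_le_of_le b2 ?_) E0.le
    rwa [norm_mul, norm_exp_I_mul_ofReal, mul_one]
  rw [neg_mul, ← hE]
  refine (pow_le_pow_left₀ (norm_nonneg _) b3 2).trans ?_
  have b4 : (a * |s| + a / 2) ^ 2 ≤ 2 * a * (a * s ^ 2) + a / 2 := by
    rw [← sq_abs s]; nlinarith [sq_nonneg (a * |s| - a / 2), mul_pos a0 a0]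
  have b5 : E * (2 * a * (a * s ^ 2) + a / 2) ≤ 3 * a := by nlinarith
  calc (E * (a * |s| + a / 2)) ^ 2 = E * (E * (a * |s| + a / 2) ^ 2) := by ring
    _ ≤ E * (E * (2 * a * (a * s ^ 2) + a / 2)) := by gcongr
    _ ≤ E * (3 * a) := by gcongr
    _ = _ := by ring

lemma g_int {a : ℝ} (a0 : 0 < a) (r : ℝ) : Integrable (g a r) := by
  refine ((integrable_exp_neg_mul_sq a0).mul_const (Real.exp (a * r ^ 2))).mono'
    (g_cont a r).aestronglyMeasurable (.of_forall fun s => ?_)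
  rw [g_norm, neg_mul]

/-- Fourier transform of `h • G` -/
noncomputable def Fo (h : ℝ → ℂ) (G : ℝ → H) (m : ℝ) : H := ∫ s : ℝ, cexp (-(I * m * s)) • h s • G s

lemma en (m s : ℝ) : ‖cexp (-(I * m * s))‖ = 1 := by
  rw [show -(I * m * s) = I * (-(m * s) : ℝ) by push_cast; ring, norm_exp_I_mul_ofReal]

lemma int_smul {h : ℝ → ℂ} {G : ℝ → H} {B : ℝ} (hi : Integrable h) (hG : Continuous G)
    (hB : ∀ s, ‖G s‖ ≤ B) : Integrable fun s => h s • G s :=
  (hi.norm.mul_const B).mono' (hi.1.smul hG.aestronglyMeasurable)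
    (.of_forall fun s => by rw [norm_smul]; gcongr; exact hB s)

lemma int_e {h : ℝ → ℂ} (hi : Integrable h) (m : ℝ) :
    Integrable fun s : ℝ => cexp (-(I * m * s)) * h s :=
  hi.bdd_mul (c := 1) (by fun_prop) (.of_forall fun s => (en m s).le)

lemma int_Fo {h : ℝ → ℂ} {G : ℝ → H} {B : ℝ} (hi : Integrable h) (hG : Continuous G)
    (hB : ∀ s, ‖G s‖ ≤ B) (m : ℝ) : Integrable fun s : ℝ => cexp (-(I * m * s)) • h s • G s := by
  simpa only [mul_smul] using int_smul (int_e hi m) hG hB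

lemma Fo_map {h : ℝ → ℂ} {G : ℝ → H} {B : ℝ} (hi : Integrable h) (hG : Continuous G)
    (hB : ∀ s, ‖G s‖ ≤ B) (m : ℝ) (T : Op H) : T (Fo h G m) = Fo h (fun s => T (G s)) m := by
  rw [Fo, ← T.integral_comp_comm (int_Fo hi hG hB m)]; simp only [map_smul, Fo]

lemma Fo_sub {h h' : ℝ → ℂ} {G : ℝ → H} {B : ℝ} (hi : Integrable h) (hi' : Integrable h')
    (hG : Continuous G) (hB : ∀ s, ‖G s‖ ≤ B) (m : ℝ) :
    Fo h G m - Fo h' G m = Fo (fun s => h s - h' s) G m := by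
  rw [Fo, Fo, ← integral_sub (int_Fo hi hG hB m) (int_Fo hi' hG hB m)]
  simp only [Fo, sub_smul, smul_sub]

section PL
variable {n : ℕ} {h : ℝ → ℂ} {G : Fin n → ℝ → H} {a c B : ℝ}

lemma one_le {s : ℝ} (hB : ∑ i, ‖G i s‖ ^ 2 ≤ B) (i : Fin n) : ‖G i s‖ ^ 2 ≤ B :=
  (single_le_sum (f := fun i => ‖G i s‖ ^ 2) (fun _ _ => sq_nonneg _) (mem_univ i)).trans hB

lemma pl (hP : PlanchStmt.{u}) (a0 : 0 < a) (hc : Continuous h) (hi : Integrable h)
    (hb : ∀ s, ‖h s‖ ^ 2 ≤ c * Real.exp (-a * s ^ 2)) (hG : ∀ i, Continuous (G i))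
    (hB : ∀ s, ∑ i, ‖G i s‖ ^ 2 ≤ B) :
    Integrable (fun m => ∑ i, ‖Fo h (G i) m‖ ^ 2) ∧
      Integrable (fun s => ‖h s‖ ^ 2 * ∑ i, ‖G i s‖ ^ 2) ∧
      ∫ m, ∑ i, ‖Fo h (G i) m‖ ^ 2 = 2 * Real.pi * ∫ s, ‖h s‖ ^ 2 * ∑ i, ‖G i s‖ ^ 2 := by
  have i2 : ∀ i, Integrable fun s => ‖h s • G i s‖ ^ 2 := fun i =>
    (((integrable_exp_neg_mul_sq a0).const_mul c).mul_const B).mono'
      ((hc.smul (hG i)).norm.pow 2).aestronglyMeasurable (.of_forall fun s => by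
        rw [Real.norm_of_nonneg (sq_nonneg _), norm_smul, mul_pow]
        exact mul_le_mul (hb s) (one_le (hB s) i) (sq_nonneg _) ((sq_nonneg _).trans (hb s)))
  have k := fun i => hP H (fun s => h s • G i s) (hc.smul (hG i))
    (int_smul hi (hG i) (B := √B) fun s => Real.le_sqrt_of_sq_le (one_le (hB s) i)) (i2 i)
  have e : (fun s => ‖h s‖ ^ 2 * ∑ i, ‖G i s‖ ^ 2) = fun s => ∑ i, ‖h s • G i s‖ ^ 2 := by
    ext s; simp only [mul_sum, norm_smul, mul_pow]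
  refine ⟨integrable_finsetSum _ fun i _ => (k i).1, e ▸ integrable_finsetSum _ fun i _ => i2 i, ?_⟩
  rw [e, integral_finsetSum _ fun i _ => i2 i, mul_sum]
  exact (integral_finsetSum _ fun i _ => (k i).1).trans (sum_congr rfl fun i _ => (k i).2)

lemma pl_le (hP : PlanchStmt.{u}) (a0 : 0 < a) (hc : Continuous h) (hi : Integrable h)
    (hb : ∀ s, ‖h s‖ ^ 2 ≤ c * Real.exp (-a * s ^ 2)) (hG : ∀ i, Continuous (G i))
    (hB : ∀ s, ∑ i, ‖G i s‖ ^ 2 ≤ B) {R : ℝ} (R0 : 0 ≤ R) :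
    ∫ m in -R..R, ∑ i, ‖Fo h (G i) m‖ ^ 2 ≤ 2 * Real.pi * (c * √(Real.pi / a)) * B := by
  obtain ⟨p1, p2, p3⟩ := pl hP a0 hc hi hb hG hB
  rw [intervalIntegral.integral_of_le (by linarith)]
  refine (setIntegral_le_integral p1 (.of_forall fun m => by positivity)).trans ?_
  rw [p3, mul_assoc _ _ B, ← integral_gaussian, ← integral_const_mul c, ← integral_mul_const]
  refine mul_le_mul_of_nonneg_left (integral_mono p2
    (((integrable_exp_neg_mul_sq a0).const_mul c).mul_const B) fun s => ?_) (by positivity)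
  exact mul_le_mul (hb s) (hB s) (by positivity) ((sq_nonneg _).trans (hb s))

end PL

lemma il {n : ℕ} (f : Op H →L[ℂ] ℂ) {a : Fin n → ℝ → Op H} (ha : ∀ i, Continuous (a i)) {R K : ℝ}
    (R0 : 0 ≤ R) (K0 : 0 < K) (h : ∀ v, ∫ m in -R..R, ∑ i, ‖a i m v‖ ^ 2 ≤ K * ‖v‖ ^ 2) :
    ∫ m in -R..R, ∑ i, (f (star (a i m) * a i m)).re ≤ ‖f‖ * K := by
  have pc : Continuous fun m => ∑ i, star (a i m) * a i m := by fun_prop
  obtain ⟨P, hP⟩ : ∃ P, P = ∫ m in -R..R, ∑ i, star (a i m) * a i m := ⟨_, rfl⟩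
  have k : ∀ L : Op H →L[ℂ] ℂ,
      ∫ m in -R..R, ∑ i, (L (star (a i m) * a i m)).re = (L P).re := fun L => by
    have := (reCLM ∘L L.restrictScalars ℝ).intervalIntegral_comp_comm
      (pc.intervalIntegrable (μ := volume) (-R) R)
    simpa [hP] using this
  have ac : ∀ v, Continuous fun m => ∑ i, ‖a i m v‖ ^ 2 := fun v => by fun_prop
  have b : ∀ w v, 2 * (⟪w, P v⟫_ℂ).re ≤ K * ‖w‖ ^ 2 + K * ‖v‖ ^ 2 := fun w v => by
    have := k (innerSL ℂ w ∘L ContinuousLinearMap.apply ℂ H v)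
    simp only [ContinuousLinearMap.comp_apply, ContinuousLinearMap.apply_apply, innerSL_apply_apply,
      mul_apply_eq_comp, inner_star_r] at this
    rw [← this, ← intervalIntegral.integral_const_mul]
    refine le_trans ?_ (add_le_add (h w) (h v))
    rw [← intervalIntegral.integral_add ((ac w).intervalIntegrable _ _)
      ((ac v).intervalIntegrable _ _)]
    refine intervalIntegral.integral_mono_on (by linarith) (Continuous.intervalIntegrable
      (by fun_prop) _ _) (((ac w).add (ac v)).intervalIntegrable _ _) fun m _ => ?_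
    rw [mul_sum, ← sum_add_distrib]
    refine sum_le_sum fun i _ => ?_
    have := (re_le_norm _).trans (norm_inner_le_norm (𝕜 := ℂ) (a i m w) (a i m v))
    nlinarith [sq_nonneg (‖a i m w‖ - ‖a i m v‖)]
  have n1 : ‖P‖ ≤ K := P.opNorm_le_bound K0.le fun v => by
    have := b (P v) ((K : ℂ) • v)
    rw [map_smul, inner_smul_right, re_ofReal_mul, norm_smul, norm_real, Real.norm_of_nonneg K0.le,
      show (⟪P v, P v⟫_ℂ).re = ‖P v‖ ^ 2 from qf_one (P v)] at this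
    refine (pow_le_pow_iff_left₀ (norm_nonneg _) (by positivity) two_ne_zero).1 ?_
    nlinarith
  rw [k]
  exact (re_le_norm _).trans (f.le_of_opNorm_le_of_le le_rfl n1)

end Vale.Agent.P096.FL
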