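import Vale.Agent.P096.Fin1

/-! The linearised problem on the cyclic subspace of a trace vector. -/

open Finset Vale.Agent.P104 Vale.Agent.P085 Filter Topology Complex ContinuousLinearMap
open scoped InnerProductSpace InnerProduct

set_option linter.unusedSectionVars false

namespace Vale.Agent.P096

universe u

namespace N2

variable {H : Type u} [NormedAddCommGroup H] [InnerProductSpace ℂ H] [CompleteSpace H]
  {K : Type u} [NormedAddCommGroup K] [InnerProductSpace ℂ K] [CompleteSpace K]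

lemma lin_cj {b x a u : Op H} {r s : ℝ} (hu : u ∈ unitary (Op H)) (h1 : ‖u - 1‖ ≤ r)
    (hb : ‖b‖ ≤ s) : ‖u * lin b x (star u * a * u) * star u - lin (b + (u - 1)) x a‖ ≤
      (8 * r * s + 4 * r ^ 2 * (1 + 2 * s)) * ‖x‖ * ‖a‖ := by
  obtain ⟨g, rfl⟩ : ∃ g, u = 1 + g := ⟨u - 1, by abel⟩
  rw [add_sub_cancel_left] at h1 ⊢
  have g1 : ‖star g‖ ≤ r := by rwa [norm_star]
  obtain ⟨y, hy⟩ : ∃ y, y = x + (b * x - x * b) := ⟨_, rfl⟩
  have y1 : ‖y‖ ≤ (1 + 2 * s) * ‖x‖ :=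
    hy ▸ (norm_add_le_of_le le_rfl (cle hb (le_refl ‖x‖))).trans_eq (by ring)
  have e1 : star g = -g - g * star g := by
    have := hu.2
    rw [star_add, star_one] at this
    rw [← sub_eq_zero, ← sub_eq_zero.2 this]; noncomm_ring
  have e3 : (1 + g) * lin b x (star (1 + g) * a * (1 + g)) * star (1 + g) =
      (1 + g) * y * star (1 + g) * a - a * ((1 + g) * y * star (1 + g)) := by
    have : lin b x (star (1 + g) * a * (1 + g)) =
      y * (star (1 + g) * a * (1 + g)) - star (1 + g) * a * (1 + g) * y := by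
      rw [hy, lin]; noncomm_ring
    rw [this, mul_sub, sub_mul]
    simp only [← mul_assoc, hu.2, one_mul]
    rw [mul_assoc _ (1 + g) (star _), hu.2, mul_one]
  have e4 := cle (norm_add_le_of_le (norm_sub_le_of_le (cle h1 (cle hb (le_refl ‖x‖)))
    (nle y1 (nle h1 g1))) (nle (nle h1 y1) g1)) (le_refl ‖a‖)
  refine le_of_eq_of_le (congrArg _ ?_) (e4.trans_eq (by ring))
  have e5 : y * star g = -(y * g) - y * (g * star g) := by
    nth_rewrite 1 [e1]; noncomm_ring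
  have e6 : (1 + g) * y * star (1 + g) = y + g * y - y * g - y * (g * star g) + g * y * star g := by
    rw [star_add, star_one, mul_add, mul_one, add_mul, add_mul, one_mul, e5]; abel
  rw [e3, e6, hy, lin]
  noncomm_ring

lemma cmp_near {P Q : VonNeumannAlgebra H} {V : K →L[ℂ] H} (hV : ∀ v, (V†) (V v) = v)
    {π : MA P →⋆ₐ[ℂ] Op K} {σ : MA Q →⋆ₐ[ℂ] Op K} (hπ : ∀ x ζ, π x ζ = (V†) (x.1 (V ζ)))
    (hσ : ∀ x ζ, σ x ζ = (V†) (x.1 (V ζ))) {δ : ℝ} (δ0 : 0 < δ) (h : Nr Q P δ) :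
    Nr (vnOf (Set.range π)) (vnOf (Set.range σ)) (2 * kk * δ) := by
  intro X hX
  rcases eq_or_ne X 0 with rfl | X0
  · exact ⟨0, zero_mem _, by simp⟩
  have X1 := norm_pos_iff.2 X0
  obtain ⟨Y, y1, y2⟩ := comm_near σ.toAlgHom (fun x => (NonUnitalStarAlgHom.norm_apply_le σ x).trans
    (le_mul_of_one_le_left (norm_nonneg _) one_le_two)) X
    (ε := 2 * δ * ‖X‖) (by positivity) fun x => by
      obtain ⟨y, y1, y2⟩ := h x.1 x.2
      have e : V† ∘L (x.1 - y) ∘L V = σ x - π ⟨y, y1⟩ := by ext; simp [hπ, hσ]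
      refine le_of_eq_of_le (congrArg _ ?_) ((cle (((cmp_le hV).1 _).trans y2)
        (le_refl ‖X‖)).trans_eq (by change _ = _ * ‖x.1‖; ring))
      rw [e, sub_mul, mul_sub, (mem_vnOf.1 hX _ ⟨⟨y, y1⟩, rfl⟩).1, sub_sub_sub_cancel_right]; rfl
  refine ⟨Y, mem_vnOf.2 ?_, y2.trans_eq (by ring)⟩
  rintro _ ⟨x, rfl⟩
  exact ⟨y1 x, map_star σ x ▸ y1 (star x)⟩

lemma core (h1 : StdKKStmt.{u}) (h2 : FmStmt.{u}) (h3 : MeanStmt.{u}) : ∃ C : ℝ, 1 ≤ C ∧
    ∀ (H K : Type u) [NormedAddCommGroup H] [InnerProductSpace ℂ H] [CompleteSpace H]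
      [NormedAddCommGroup K] [InnerProductSpace ℂ K] [CompleteSpace K]
      [TopologicalSpace.SeparableSpace K] (P Q : VonNeumannAlgebra H) (V : K →L[ℂ] H) (η : K)
      (q : Op H) (δ : ℝ), (∀ v, (V†) (V v) = v) → (∀ v, V ((V†) v) = q v) →
      (∀ v, V v ∈ closure (Set.range fun x : MA P => x.1 (V η))) → q ∈ P.commutant →
      q ∈ Q.commutant → (∀ x ∈ P, ‖star x (V η)‖ ≤ ‖x (V η)‖) → Nr P Q δ → Nr Q P δ → 0 < δ →
      C * δ ≤ 1 / 2 → ∃ b : Op H, ‖b‖ ≤ C * δ ∧ ∀ x ∈ P, ∀ a ∈ Q.commutant,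
        ‖q * lin b x a * q‖ ≤ 8 * (C * δ) ^ 2 * ‖x‖ * ‖a‖ := by
  obtain ⟨C, c1, h1⟩ := anc h1 h2 h3
  have k1 := kk1
  refine ⟨C * (2 * kk), by nlinarith,
    fun H K _ _ _ _ _ _ _ P Q V η q δ q1 q2 q5 v3 v4 hs N1 N2 δ0 δ1 => ?_⟩
  have q3 : ∀ v, q (V v) = V v := fun v => by rw [← q2, q1]
  have p0 : ∀ x, x * q = q * x → ∀ v, V ((V†) (x (V v))) = x (V v) := fun x hx v => by
    rw [q2, ← mul_apply_eq_comp, ← hx, mul_apply_eq_comp, q3]
  obtain ⟨π, p1⟩ := exists_cmp P.toStarSubalgebra.subtype V q1 fun x => p0 _ (commM x.2 v3)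
  obtain ⟨σ, s1⟩ := exists_cmp Q.toStarSubalgebra.subtype V q1 fun x => p0 _ (commM x.2 v4)
  have p2 : ∀ x v, V (π x v) = x.1 (V v) := fun x v => by rw [p1]; exact p0 _ (commM x.2 v3) v
  have p3 : ∀ x v, π x ((V†) v) = (V†) (x.1 v) := fun x v => ext_inner_left ℂ fun w => by
    rw [← inner_star_l, ← map_star, adjoint_inner_right, p2, adjoint_inner_right]
    exact inner_star_l _ _ _
  have vn : ∀ v, ‖V v‖ = ‖v‖ := fun v => by
    rw [← sq_eq_sq₀ (norm_nonneg _) (norm_nonneg _), ← qf_one, ← qf_one, qf, qf,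
      one_apply_eq_self, ← adjoint_inner_right, q1, one_apply_eq_self]
  obtain ⟨P0, hP⟩ := ind π (fun _ : Unit => V) (fun _ => p2) fun v h => by
    rw [← q1 v, h (), map_zero]
  have hP' : P0.commutant = vnOf (Set.range π) := VonNeumannAlgebra.ext fun T => by
    rw [VonNeumannAlgebra.mem_commutant_iff, mem_vnOf]
    exact ⟨fun h g hg => ⟨h g ((hP g).2 hg), h _ (star_mem ((hP g).2 hg))⟩,
      fun h g hg => (h g ((hP g).1 hg)).1⟩
  rw [mul_assoc C] at δ1 ⊢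
  obtain ⟨b, d1, d2⟩ := h1 K P0 (vnOf (Set.range σ)) η _ ⟨fun T hT => by
      obtain ⟨x, rfl⟩ := (hP T).1 hT
      rw [← map_star, ← vn, ← vn, p2, p2]
      exact hs _ x.2, fun v => by
      rw [← q1 v]
      exact map_mem_closure (V†).continuous (q5 v) (by
        rintro _ ⟨x, rfl⟩; exact ⟨⟨π x, (hP _).2 ⟨x, rfl⟩⟩, p1 x η⟩)⟩
    (hP' ▸ cmp_near q1 p1 s1 δ0 N2) (hP' ▸ cmp_near q1 s1 p1 δ0 N1) (by positivity) δ1
  refine ⟨V ∘L b ∘L V†, ((cmp_le q1).2 b).trans d1, fun x hx a a1 => ?_⟩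
  have f1 : q * lin (V ∘L b ∘L V†) x a * q = V ∘L lin b (π ⟨x, hx⟩) (V† ∘L a ∘L V) ∘L V† := by
    have g1 : ∀ v, x (V v) = V (π ⟨x, hx⟩ v) := fun v => (p2 ⟨x, hx⟩ v).symm
    have g2 : ∀ v, (V†) (x v) = π ⟨x, hx⟩ ((V†) v) := fun v => (p3 ⟨x, hx⟩ v).symm
    generalize π ⟨x, hx⟩ = x' at g1 g2
    ext v; simp [lin, ← q2, g1, g2, q1]
  have g : ∀ y : MA Q, σ y * (V† ∘L a ∘L V) = (V† ∘L a ∘L V) * σ y := fun y => by
    ext1 v
    have g1 := p0 _ (commM y.2 v4) v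
    have g2 : ∀ v, y.1 (q v) = q (y.1 v) := fun v => congr($(commM y.2 v4) v)
    have g3 : ∀ v, y.1 (a v) = a (y.1 v) := fun v => congr($(commM y.2 a1) v)
    change σ y ((V†) (a (V v))) = (V†) (a (V (σ y v)))
    rw [s1, s1]
    change (V†) (y.1 _) = (V†) (a (V ((V†) (y.1 _))))
    rw [g1, q2, g2, ← q2, q1, g3]
  rw [f1]
  refine ((cmp_le q1).2 _).trans ((d2 _ ((hP _).2 ⟨⟨x, hx⟩, rfl⟩) _ (mem_vnOf.2 ?_)).trans ?_)
  · rintro _ ⟨y, rfl⟩
    exact ⟨g y, map_star σ y ▸ g _⟩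
  gcongr
  exacts [NonUnitalStarAlgHom.norm_apply_le π _, (cmp_le q1).1 _]

end N2

open N2 in
theorem finStmt (h1 : StdKKStmt.{u}) (h2 : FmStmt.{u}) (h3 : MeanStmt.{u}) : FinStmt.{u} := by
  obtain ⟨C, c1, h1⟩ := core h1 h2 h3
  have k1 := kk1
  obtain ⟨L, hL⟩ : ∃ L, L = 9 * (64 * (2 * kk)) := ⟨_, rfl⟩
  have L3 : L ≤ C * L := by nlinarith
  have L2 : C * L ≤ (C * L) ^ 2 := by nlinarith
  refine ⟨42 * (C * L) ^ 2, by linarith, fun H _ _ _ _ P Q ζ δ hs n1 n2 δ0 δ1 => ?_⟩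
  have L4 : C * (L * δ) ≤ (C * L) ^ 2 * δ := by rw [← mul_assoc]; gcongr
  have L5 : L * δ ≤ C * (L * δ) := by rw [← mul_assoc]; gcongr
  have L6 : L * δ = 9 * (64 * (2 * kk * δ)) := by rw [hL]; ring
  have L7 : δ ≤ kk * δ := by nlinarith
  obtain ⟨W, _, v1, v2, v3⟩ := cyc_proj P.toStarSubalgebra.subtype ζ
  have hq : IsStarProjection W.starProjection := isStarProjection_starProjection
  replace v3 := VonNeumannAlgebra.mem_commutant_iff.2 fun x hx => v3 ⟨x, hx⟩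
  obtain ⟨c, b1, b2⟩ := n2.comm δ0 _ v3
  obtain ⟨u, u1, u2, u3⟩ := proj_near hq
    (b2.trans (mul_le_of_le_one_right (by positivity) (proj_le1 hq))) (by linarith)
  obtain ⟨Q1, e1, e2⟩ := exists_conj Q (Unitary.star_mem u1)
  simp only [star_star] at e1 e2
  have b3 : ∀ y, u * (star u * y * u) * star u = y := fun y => by
    rw [← mul_assoc, ← mul_assoc, u1.2, one_mul, mul_assoc, u1.2, mul_one]
  have i : δ ≤ 64 * (2 * kk * δ) := by linarith
  have N1 : Nr P Q1 (L * δ) := fun x hx =>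
    ((n1.mono i).cj1 (S := Unitary.toUnits ⟨u, u1⟩) u2 (by linarith) x hx).imp
      fun y a => ⟨(e1 y).2 a.1, L6 ▸ a.2⟩
  have N2 : Nr Q1 P (L * δ) := fun y hy => L6 ▸
    (n2.mono i).cj2 (S := Unitary.toUnits ⟨u, u1⟩) u2 (by linarith) y ((e1 y).1 hy)
  obtain ⟨b, d3, d2⟩ := h1 H W P Q1 W.subtypeL ⟨ζ, by simpa using v1 1⟩ W.starProjection _
    (by simp [Submodule.adjoint_subtypeL]) (fun v => by rw [Submodule.adjoint_subtypeL]; rfl)
    (fun v => v2 (· ∈ closure (Set.range fun x : MA P => x.1 ζ)) isClosed_closure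
      (fun x => subset_closure ⟨x, rfl⟩) _ v.2) v3
    ((e2 _).2 (VonNeumannAlgebra.mem_commutant_iff.2 fun y hy =>
      u3 y (commM hy b1) (commM (star_mem hy) b1))) hs N1 N2 (by linarith) (by linarith)
  refine ⟨W.starProjection, b + (u - 1), hq, fun x hx => Submodule.starProjection_eq_self_iff.2
    (v1 ⟨x, hx⟩), (norm_add_le_of_le d3 u2).trans (by linarith), fun x hx a ha => ?_⟩
  generalize W.starProjection = q at hq d2
  obtain ⟨r, hr⟩ : ∃ r, r = C * (L * δ) := ⟨_, rfl⟩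
  rw [← hr] at d2 d3 L4 L5
  have u4 : ‖u - 1‖ ≤ r := by linarith
  have f0 := lin_cj (x := x) (a := a) u1 u4 d3
  have a1 : star u * a * u ∈ Q1.commutant := (e2 _).2 (by rwa [b3])
  have a2 : ‖star u * a * u‖ ≤ ‖a‖ := by simpa using Co.conj_le (Unitary.star_mem u1) a
  generalize star u * a * u = a' at a1 a2 f0
  have r0 : 0 ≤ r := by linarith
  have f2 := (d2 x hx a' a1).trans (mul_le_mul_of_nonneg_left a2 (by positivity))
  obtain ⟨y, y1, y2⟩ := N1 x hx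
  have f4 : ‖lin b x a'‖ ≤ 2 * (r * ‖x‖) * ‖a‖ + 2 * (2 * r * ‖x‖) * ‖a‖ := by
    refine norm_add_le_of_le (le_of_eq_of_le (congrArg _ ?_)
      (cle (y2.trans (by gcongr)) a2)) (cle (cle d3 le_rfl) a2)
    rw [sub_mul, mul_sub, commM y1 a1, sub_sub_sub_cancel_right]
  have f5 := (conj_near u4 (b := star u) (s := r) (by
    rwa [← norm_star, star_sub, star_star, star_one]) _).trans
      (mul_le_mul_of_nonneg_left f4 (by positivity))
  have f6 := norm_add_le_of_le f2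
    (nle (nle (proj_le1 hq) (norm_sub_le_of_le f5 f0)) (proj_le1 hq))
  refine le_of_eq_of_le (congrArg _ (by noncomm_ring)) (f6.trans ?_)
  have r1 : r ≤ 1 / 2 := by linarith
  have z := mul_nonneg (mul_nonneg (sq_nonneg r) (norm_nonneg x)) (norm_nonneg a)
  rw [show 42 * (C * L) ^ 2 * δ ^ 2 = 42 * r ^ 2 by rw [hr]; ring]
  nlinarith [mul_nonneg z (sub_nonneg.2 r1)]

end Vale.Agent.P096
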