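import Vale.Agent.P096.Red2

/-! An ancilla with an asymptotically central sequence of anticommuting pairs. -/

open Finset Vale.Agent.P104 Vale.Agent.P085 Filter Topology Complex ContinuousLinearMap
open scoped InnerProductSpace InnerProduct

set_option linter.unusedSectionVars false

namespace Vale.Agent.P096.N2

universe u

/-- a sign valued bicharacter -/
structure Sg {Γ : Type} [AddCommGroup Γ] (ε : Γ → Γ → ℂ) (a b : ℕ → Γ) : Prop where
  two : ∀ g : Γ, g + g = 0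
  l : ∀ g g' h, ε (g + g') h = ε g h * ε g' h
  r : ∀ g h h', ε g (h + h') = ε g h * ε g h'
  sq : ∀ g h, ε g h * ε g h = 1
  re : ∀ g h, (starRingEnd ℂ) (ε g h) = ε g h
  a1 : ∀ g k, ε (a k) g = 1
  b1 : ∀ g k, ε g (b k) = 1
  ba : ∀ k, ε (b k) (a k) = -1
  ba' : ∀ k m, m ≠ k → ε (b k) (a m) = 1
  ev : ∀ g, ∃ k, ∀ j ≥ k, ε g (a j) = 1 ∧ ε (b j) g = 1

lemma exists_Sg : ∃ (Γ : Type) (_ : AddCommGroup Γ) (_ : Countable Γ) (ε : Γ → Γ → ℂ)
    (a b : ℕ → Γ), Sg ε a b := by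
  obtain ⟨χ, c0, c1, c2, c3⟩ : ∃ χ : ZMod 2 → ℤ, χ 0 = 1 ∧ χ 1 = -1 ∧
      (∀ c d, χ (c + d) = χ c * χ d) ∧ ∀ c, χ c * χ c = 1 :=
    ⟨fun c => if c = 0 then 1 else -1, by decide, by decide, by decide, by decide⟩
  have t : ∀ f : ℕ →₀ ZMod 2, f + f = 0 := fun f => by
    ext k; exact CharTwo.add_self_eq_zero _
  have z : ∀ f : ℕ →₀ ZMod 2, ∀ᶠ j in atTop, f j = 0 := fun f =>
    (eventually_gt_atTop (f.support.sup id)).mono fun j hj => Finsupp.notMem_support_iff.1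
      fun h => (le_sup (f := id) h).not_gt hj
  refine ⟨(ℕ →₀ ZMod 2) × (ℕ →₀ ZMod 2), inferInstance, inferInstance,
    fun g h => χ (Finsupp.linearCombination (ZMod 2) h.2 g.1), fun k => (0, Finsupp.single k 1),
    fun k => (Finsupp.single k 1, 0), fun g => Prod.ext (t _) (t _), fun g g' h => by simp [c2],
    fun g h h' => ?_, fun g h => by exact_mod_cast c3 _, fun g h => by simp, fun g k => by simp [c0],
    fun g k => by simp [c0], fun k => by simp [c1], fun k m h => by simp [h, c0], fun g => ?_⟩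
  · simp [Finsupp.linearCombination_apply, mul_add, c2]
  · obtain ⟨k, hk⟩ := eventually_atTop.1 ((z g.1).and (z g.2))
    refine ⟨k, fun j hj => ⟨?_, by simp [(hk j hj).2, c0]⟩⟩
    simp [Finsupp.linearCombination_apply, Finsupp.single_apply, Finsupp.sum, (hk j hj).1, c0]

variable {H G : Type u} [NormedAddCommGroup H] [InnerProductSpace ℂ H] [CompleteSpace H]
  [NormedAddCommGroup G] [InnerProductSpace ℂ G] [CompleteSpace G]
  {Γ : Type} [AddCommGroup Γ] [DecidableEq Γ] {J : Γ → H →L[ℂ] G}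

lemma tw (hJ : Fm J) (two : ∀ g : Γ, g + g = 0) (g : Γ) (c : Γ → ℂ) (h1 : ∀ h, c h * c h = 1)
    (h2 : ∀ h, (starRingEnd ℂ) (c h) = c h) :
    ∃ D ∈ unitary (Op G), (∀ h v, D (J h v) = c h • J (g + h) v) ∧
      ∀ h v, star D (J h v) = c (g + h) • J (g + h) v := by
  obtain ⟨D, -, d1⟩ := hJ.op (g + ·) (fun h => c h • 1) 1 (add_right_injective g) fun h => by
    have := congrArg norm (h1 h)
    rw [norm_mul, norm_one] at this
    rw [norm_smul]
    nlinarith [n1 (K := H), norm_nonneg (c h), norm_nonneg (1 : Op H)]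
  simp only [smul_apply, one_apply_eq_self, map_smul] at d1
  have e : ∀ h, g + (g + h) = h := fun h => by rw [← add_assoc, two, zero_add]
  have d2 : ∀ h v, star D (J h v) = c (g + h) • J (g + h) v := fun h v =>
    sub_eq_zero.1 (hJ.tot _ fun i => ext_inner_left ℂ fun w => by
      rw [map_sub, inner_sub_right, adjoint_inner_right, inner_star_r, d1, inner_smul_left, h2,
        ← adjoint_inner_right, map_smul, hJ.orth, hJ.orth]
      by_cases hi : i = g + h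
      · simp [hi, e, inner_smul_right]
      · rw [if_neg hi, if_neg fun h' => hi (by rw [← h', e])]; simp)
  exact ⟨D, ⟨hJ.ext _ _ fun i v => by simp [d1, d2, e, smul_smul, h1],
    hJ.ext _ _ fun i v => by simp [d1, d2, e, smul_smul, h1]⟩, d1, d2⟩

lemma close {μ : (Γ → Op G) → Op G} (hμ : Mean μ) (π : Op H →⋆ₐ[ℂ] Op G) {r : Γ → Op G}
    (ru : ∀ g, r g ∈ unitary (Op G)) (rπ : ∀ g T, π T * r g = r g * π T)
    (rr : ∀ s t, ∃ c : ℂ, c * star c = 1 ∧ r t * r s = c • r (t + s))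
    {P Q : VonNeumannAlgebra H} {δ : ℝ} (δ0 : 0 < δ) (hQ : Nr Q P δ) :
    Nr (vnOf (π '' P ∪ Set.range r)) (vnOf (π '' Q ∪ Set.range r)) (2 * kk * δ) := by
  intro X hX
  obtain ⟨Y, y1, y2⟩ := R2.amp_near π δ0 hQ X
    (mem_vnOf.2 fun g hg => mem_vnOf.1 hX g (Or.inl hg))
  have b := fun s => Co.conj_le (ru s) Y
  have k1 : ∀ T ∈ Q, π T * μ (fun s => r s * Y * star (r s)) =
      μ (fun s => r s * Y * star (r s)) * π T := fun T hT => by
    have h1 := hμ.mul _ (π T) 1 ⟨_, b⟩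
    have h2 := hμ.mul _ 1 (π T) ⟨_, b⟩
    simp only [mul_one, one_mul] at h1 h2
    rw [← h1, ← h2]
    refine congrArg μ (funext fun s => ?_)
    rw [mul_assoc _ _ (π T), Co.ucomm (ru s) (rπ s T).symm, ← mul_assoc, ← mul_assoc, rπ,
      mul_assoc (r s), (mem_vnOf.1 y1 _ ⟨T, hT, rfl⟩).1]
    simp only [mul_assoc]
  have k3 : ∀ t, r t * μ (fun s => r s * Y * star (r s)) =
      μ (fun s => r s * Y * star (r s)) * r t := fun t => by
    have a1 := hμ.mul _ (r t) (star (r t)) ⟨_, b⟩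
    have a3 : ∀ s, r t * (r s * Y * star (r s)) * star (r t) = r (t + s) * Y * star (r (t + s)) :=
      fun s => by
        obtain ⟨c, c1, c2⟩ := rr s t
        rw [← mul_assoc, ← mul_assoc, mul_assoc _ (star _), ← star_mul, c2, star_smul,
          smul_mul_assoc, smul_mul_smul_comm, c1, one_smul]
    simp only [a3] at a1
    rw [hμ.inv (fun s => r s * Y * star (r s)) t ⟨_, b⟩] at a1
    nth_rewrite 2 [a1]
    rw [mul_assoc _ (star _), (ru t).1, mul_one]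
  refine ⟨μ fun s => r s * Y * star (r s), mem_vnOf.2 ?_, ?_⟩
  · rintro _ (⟨T, hT, rfl⟩ | ⟨t, rfl⟩)
    exacts [⟨k1 T hT, map_star π T ▸ k1 _ (star_mem hT)⟩, ⟨k3 t, Co.ucomm (ru t) (k3 t)⟩]
  have h1 := hμ.add _ (fun _ => -X) ⟨_, b⟩ ⟨_, fun _ => le_rfl⟩
  rw [hμ.const, ← sub_eq_add_neg] at h1
  rw [norm_sub_rev, ← h1]
  refine hμ.norm _ _ fun s => le_of_eq_of_le (congrArg _ ?_)
    ((Co.conj_le (ru s) (Y - X)).trans (norm_sub_rev X Y ▸ y2))
  rw [mul_sub, sub_mul, (mem_vnOf.1 hX _ (Or.inr ⟨s, rfl⟩)).1, mul_assoc X, (ru s).2, mul_one,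
    sub_eq_add_neg]

lemma iso_le {K : Type*} [NormedAddCommGroup K] [InnerProductSpace ℂ K] [CompleteSpace K]
    {V : K →L[ℂ] G} (hV : ∀ v, (V†) (V v) = v) : ‖V‖ ≤ 1 :=
  V.opNorm_le_bound zero_le_one fun v => by
    rw [one_mul, ← sq_le_sq₀ (norm_nonneg _) (norm_nonneg _), ← qf_one, ← qf_one, qf, qf,
      one_apply_eq_self, ← adjoint_inner_right, hV, one_apply_eq_self]

lemma cmp_le {K : Type*} [NormedAddCommGroup K] [InnerProductSpace ℂ K] [CompleteSpace K]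
    {V : K →L[ℂ] G} (hV : ∀ v, (V†) (V v) = v) :
    (∀ T : Op G, ‖V† ∘L T ∘L V‖ ≤ ‖T‖) ∧ ∀ T : Op K, ‖V ∘L T ∘L V†‖ ≤ ‖T‖ := by
  have a := iso_le hV
  have b : ‖V†‖ ≤ 1 := by simpa using a
  exact ⟨fun T => (opNorm_comp_le _ _).trans ((mul_le_of_le_one_left (norm_nonneg _) b).trans
    ((opNorm_comp_le _ _).trans (mul_le_of_le_one_right (norm_nonneg _) a))),
    fun T => (opNorm_comp_le _ _).trans ((mul_le_of_le_one_left (norm_nonneg _) a).trans
    ((opNorm_comp_le _ _).trans (mul_le_of_le_one_right (norm_nonneg _) b)))⟩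

lemma anc (h1 : StdKKStmt.{u}) (h2 : FmStmt.{u}) (h3 : MeanStmt.{u}) : ∃ C : ℝ, 1 ≤ C ∧
    ∀ (K : Type u) [NormedAddCommGroup K] [InnerProductSpace ℂ K] [CompleteSpace K]
      [TopologicalSpace.SeparableSpace K] (P R : VonNeumannAlgebra K) (ζ : K) (δ : ℝ), Std P ζ →
      Nr P.commutant R δ → Nr R P.commutant δ → 0 < δ → C * δ ≤ 1 / 2 →
      ∃ b : Op K, ‖b‖ ≤ C * δ ∧ ∀ x ∈ P, ∀ a ∈ R, ‖lin b x a‖ ≤ 8 * (C * δ) ^ 2 * ‖x‖ * ‖a‖ := by
  classical
  obtain ⟨C, c1, h1⟩ := h1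
  have k1 := kk1
  refine ⟨C * (2 * kk), by nlinarith, fun K _ _ _ _ P R ζ δ hs n1 n2 δ0 δ1 => ?_⟩
  obtain ⟨Γ, _, _, ε, a, b, e⟩ := exists_Sg
  obtain ⟨G, _, _, _, J, hJ, sp⟩ := h2 K Γ
  have := sp inferInstance
  obtain ⟨μ, hμ⟩ := h3 G Γ
  obtain ⟨π, p1⟩ := hJ.amp
  have p2 : ∀ T i ψ, ((J i)†) (π T ψ) = T (((J i)†) ψ) := fun T i ψ =>
    ext_inner_left ℂ fun w => by
      rw [adjoint_inner_right, ← inner_star_l, ← map_star, p1, ← adjoint_inner_right, inner_star_l]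
  have o0 : ∀ v, ((J 0)†) (J 0 v) = v := fun v => by simp [hJ.orth]
  choose l lu l1 l2 using fun g => tw hJ e.two g (ε g) (e.sq g) (e.re g)
  choose r ru r1 r2 using fun g => tw hJ e.two g (ε · g) (e.sq · g) (e.re · g)
  have e0 : ∀ g, ε 0 g = 1 ∧ ε g 0 = 1 := fun g =>
    ⟨by rw [← e.two 0, e.l, e.sq], by rw [← e.two 0, e.r, e.sq]⟩
  have ll : ∀ g h, l g * l h = ε g h • l (g + h) := fun g h => hJ.ext _ _ fun i v => by
    simp [l1, smul_smul, e.l, e.r, add_assoc, mul_comm, mul_left_comm]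
  have l0 : l 0 = 1 := hJ.ext _ _ fun i v => by simp [l1, e0]
  have ls : ∀ g, star (l g) = ε g g • l g := fun g => hJ.ext _ _ fun i v => by
    simp [l1, l2, smul_smul, e.r]
  have lc : ∀ g h, ε g h = ε h g → l g * l h = l h * l g := fun g h h' => by
    rw [ll, ll, h', add_comm]
  have lr : ∀ g h, r h * l g = l g * r h := fun g h => hJ.ext _ _ fun i v => by
    simp [l1, r1, smul_smul, e.l, e.r, add_left_comm, mul_comm, mul_left_comm]
  have lπ : ∀ g T, π T * l g = l g * π T := fun g T => hJ.ext _ _ fun i v => by simp [l1, p1]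
  have rπ : ∀ g T, π T * r g = r g * π T := fun g T => hJ.ext _ _ fun i v => by simp [r1, p1]
  have rr : ∀ s t, ∃ c : ℂ, c * star c = 1 ∧ r t * r s = c • r (t + s) := fun s t =>
    ⟨ε s t, (congrArg _ (e.re _ _)).trans (e.sq _ _), hJ.ext _ _ fun i v => by
      simp [r1, smul_smul, e.l, e.r, add_assoc, mul_comm, mul_left_comm]⟩
  have N1 := close hμ π ru rπ rr δ0 n2
  have N2 := close hμ π ru rπ rr δ0 n1
  have mA : ∀ X, (∀ T ∈ P.commutant, π T * X = X * π T) → (∀ g, r g * X = X * r g) →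
      X ∈ vnOf (π '' P.commutant ∪ Set.range r) := fun X x1 x2 => mem_vnOf.2 (by
    rintro _ (⟨T, hT, rfl⟩ | ⟨t, rfl⟩)
    exacts [⟨x1 T hT, map_star π T ▸ x1 _ (star_mem hT)⟩, ⟨x2 t, Co.ucomm (ru t) (x2 t)⟩])
  have m1 : ∀ g, l g ∈ vnOf (π '' P.commutant ∪ Set.range r) := fun g =>
    mA _ (fun T _ => lπ g T) (lr g)
  have m2 : ∀ x ∈ P, π x ∈ vnOf (π '' P.commutant ∪ Set.range r) := fun x hx =>
    mA _ (fun T hT => by rw [← map_mul, ← commM hx hT, map_mul]) fun g => (rπ g x).symm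
  have m3 : ∀ X ∈ vnOf (π '' P.commutant ∪ Set.range r),
      ‖star X (J 0 ζ)‖ ≤ ‖X (J 0 ζ)‖ := fun X hX => by
    rw [← sq_le_sq₀ (norm_nonneg _) (norm_nonneg _)]
    refine hasSum_le (fun g => ?_) (hJ.pars _) (hJ.pars _)
    have a1 := hs.nst ((J g)† ∘L X ∘L J 0) (memM fun y hy => by
      ext v
      have : π y (X (J 0 v)) = X (π y (J 0 v)) :=
        congr($((mem_vnOf.1 hX _ (Or.inl ⟨y, hy, rfl⟩)).1) (J 0 v))
      simp only [mul_apply_eq_comp, comp_apply, ← p2, this, p1])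
    have a2 : ((J g)†) (star X (J 0 ζ)) = ε g g • star ((J g)† ∘L X ∘L J 0) ζ :=
      ext_inner_left ℂ fun w => by
        have : r g (X (J 0 w)) = X (r g (J 0 w)) :=
          congr($((mem_vnOf.1 hX _ (Or.inr ⟨g, rfl⟩)).1) (J 0 w))
        rw [r1, (e0 g).1, one_smul, add_zero] at this
        rw [adjoint_inner_right, inner_star_r, ← this, ← inner_star_r, r2, add_zero,
          inner_smul_right, inner_smul_right, inner_star_r, comp_apply, adjoint_inner_left,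
          comp_apply]
    have a3 := congrArg norm (e.sq g g)
    rw [norm_mul, norm_one] at a3
    rw [a2, norm_smul, mul_pow, sq, a3, one_mul]
    gcongr
    exact a1
  have m4 : ∀ x a, a ∈ R → x ∈ vnOf (π '' R ∪ Set.range r) → π a * x = x * π a :=
    fun x a ha hx => (mem_vnOf.1 hx _ (Or.inl ⟨a, ha, rfl⟩)).1
  generalize vnOf (π '' P.commutant ∪ Set.range r) = A at *
  generalize vnOf (π '' R ∪ Set.range r) = B at *
  let D : AddSubmonoid G :=
    { carrier := {w | ∃ k, ∃ x ∈ A,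
        (∀ j ≥ k, x * l (a j) = l (a j) * x ∧ x * l (b j) = l (b j) * x) ∧ x (J 0 ζ) = w}
      zero_mem' := ⟨0, 0, zero_mem _, by simp, rfl⟩
      add_mem' := by
        rintro _ _ ⟨k, x, x1, x2, rfl⟩ ⟨k', y, y1, y2, rfl⟩
        exact ⟨max k k', x + y, add_mem x1 y1, fun j hj => by
          simp only [add_mul, mul_add, x2 j (le_of_max_le_left hj), y2 j (le_of_max_le_right hj),
            and_self], rfl⟩ }
  have d1 : ∀ ψ, ψ ∈ closure (D : Set G) := fun ψ =>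
    isClosed_closure.mem_of_tendsto (hJ.hsum ψ) (.of_forall fun F =>
      sum_mem (S := D.topologicalClosure) fun g _ =>
        map_mem_closure (J g).continuous (hs.cyc _) (by
          rintro _ ⟨x, rfl⟩
          obtain ⟨k, hk⟩ := e.ev g
          refine ⟨k, l g * π x.1, mul_mem (m1 g) (m2 _ x.2), fun j hj => ⟨?_, ?_⟩, by
            simp [p1, l1, e0]⟩ <;> rw [mul_assoc, lπ, ← mul_assoc, ← mul_assoc, lc]
          exacts [by rw [e.a1, (hk j hj).1], by rw [e.b1, (hk j hj).2]]))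
  obtain ⟨T, t1, t2⟩ := h1 G A B (J 0 ζ) (fun k => l (a k)) (fun k => l (b k)) _
    ⟨m3, fun ψ => closure_mono (by rintro _ ⟨k, x, x1, -, rfl⟩; exact ⟨⟨x, x1⟩, rfl⟩) (d1 ψ)⟩
    ⟨fun _ => m1 _, fun _ => m1 _, fun n => ⟨by rw [ls, e.a1, one_smul],
      by rw [ll, e.a1, e.two, l0, one_smul], by rw [ls, e.b1, one_smul],
      by rw [ll, e.b1, e.two, l0, one_smul], by rw [ll, ll, e.a1, e.ba, add_comm]; simp⟩,
      fun m n h => ⟨lc _ _ (by rw [e.a1, e.a1]), lc _ _ (by rw [e.a1, e.ba' _ _ h]),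
        lc _ _ (by rw [e.b1, e.b1])⟩, fun v η η0 => by
        obtain ⟨_, ⟨k, x, x1, x2, rfl⟩, h⟩ := Metric.mem_closure_iff.1 (d1 v) η η0
        exact ⟨k, x, x1, x2, by rwa [← dist_eq_norm, dist_comm]⟩⟩
    N1 N2 (by positivity) (by linarith)
  rw [← mul_assoc] at t1
  have πl : ∀ T, ‖π T‖ ≤ ‖T‖ := NonUnitalStarAlgHom.norm_apply_le π
  refine ⟨_, ((cmp_le o0).1 _).trans t1, fun x hx a ha => ?_⟩
  have f1 : lin ((J 0)† ∘L ((T : Op G) - 1) ∘L J 0) x a =
      (J 0)† ∘L lin ((T : Op G) - 1) (π x) (π a) ∘L J 0 := by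
    ext v; simp [lin, p1, p2, o0]
  have f2 := cle (nle (cle t1 (πl x)) (inv_near t1 δ1)) (πl a)
  rw [f1]
  refine ((cmp_le o0).1 _).trans (le_of_eq_of_le ?_ (f2.trans_eq (by ring)))
  rw [← norm_neg]
  congr 1
  have f3 := m4 _ a ha ((t2 _).1 (m2 x hx))
  have f4 : (((T : Op G) - 1) * π x - π x * (T - 1)) * (↑T⁻¹ - 1) =
      T * π x * ↑T⁻¹ - π x - ((T - 1) * π x - π x * (T - 1)) := by
    simp only [mul_sub, sub_mul, one_mul, mul_one, T.mul_inv_cancel_right]; abel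
  rw [f4, sub_mul, sub_mul, ← f3, lin]
  noncomm_ring

end Vale.Agent.P096.N2
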