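import Vale.Agent.P096.Base

/-! Weighted little Grothendieck inequality. -/

open Finset Vale.Agent.P104 Vale.Agent.P085 Filter Topology ContinuousLinearMap
open scoped InnerProductSpace InnerProduct

set_option linter.unusedSectionVars false

namespace Vale.Agent.P096

universe u

namespace GT

variable {H G : Type*} [NormedAddCommGroup H] [InnerProductSpace ℂ H] [CompleteSpace H]
  [NormedAddCommGroup G] [InnerProductSpace ℂ G] [CompleteSpace G]

lemma exists_kap (G : Type*) [NormedAddCommGroup G] [InnerProductSpace ℂ G] [CompleteSpace G] :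
    ∃ κ : G → G, (∀ u v, κ (u + v) = κ u + κ v) ∧
      (∀ (c : ℂ) u, κ ((starRingEnd ℂ) c • u) = c • κ u) ∧ ∀ u, ‖κ u‖ = ‖u‖ := by
  obtain ⟨w, b, -⟩ := exists_hilbertBasis ℂ G
  refine ⟨fun v => b.repr.symm (star (b.repr v)), fun u v => ?_, fun c u => ?_, fun u => ?_⟩
  · simp only [map_add, star_add]
  · simp only [map_smul, star_smul, RCLike.star_def, Complex.conj_conj]
  · simp only [LinearIsometryEquiv.norm_map, norm_star]

variable {I : Type} [Fintype I] [DecidableEq I] {J : I → H →L[ℂ] G}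
  {M N : VonNeumannAlgebra H}

/-- the quadratic form -/
noncomputable def qq (J : I → H →L[ℂ] G) (ω : I → ℝ) (θ : H) (Z : Op G) : ℝ :=
  ∑ j, ω j * ‖Z (J j θ)‖ ^ 2 + ∑ k, ω k * ‖star Z (J k θ)‖ ^ 2

lemma exists_lam (J : I → H →L[ℂ] G) (ω : I → ℝ) (hω : ∀ i, 0 ≤ ω i) (θ : H) :
    ∃ Λ : Op G →ₗ[ℂ] PiLp 2 (fun _ : I ⊕ I => G), ∀ Z, ‖Λ Z‖ ^ 2 = qq J ω θ Z := by
  obtain ⟨κ, k1, k2, k3⟩ := exists_kap G
  let Λ : Op G →ₗ[ℂ] PiLp 2 (fun _ : I ⊕ I => G) :=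
    { toFun := fun Z => WithLp.toLp 2 (Sum.elim (fun j => (√(ω j) : ℂ) • Z (J j θ))
        fun k => (√(ω k) : ℂ) • κ (star Z (J k θ)))
      map_add' := fun Z Z' => by
        ext (j | k)
        · simp
        · simp [k1]
      map_smul' := fun c Z => by
        ext (j | k)
        · simp [smul_comm c]
        · have := k2 c (star Z (J k θ))
          simp [this, smul_comm c] }
  refine ⟨Λ, fun Z => ?_⟩
  rw [PiLp.norm_sq_eq_of_L2, Fintype.sum_sum_type, qq]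
  simp [Λ, norm_smul, mul_pow, Real.sq_sqrt (hω _), k3]

lemma nJ (hJ : Fam J 1) (i : I) (v : H) : ‖J i v‖ = ‖v‖ := by
  rw [← pow_left_inj₀ (norm_nonneg _) (norm_nonneg _) two_ne_zero, hJ.normsq,
    sum_eq_single i (fun j _ h => by simp [hJ.orth, h]) (by simp)]
  simp [hJ.orth]

lemma nJ' (hJ : Fam J 1) (i : I) (ψ : G) : ‖((J i)†) ψ‖ ^ 2 ≤ ‖ψ‖ ^ 2 := by
  rw [hJ.normsq ψ]
  exact single_le_sum (f := fun x => ‖((J x)†) ψ‖ ^ 2) (fun _ _ => by positivity) (mem_univ i)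

lemma qq_le (hJ : Fam J 1) {ω : I → ℝ} (hω : ∀ i, 0 ≤ ω i) (h1 : ∑ i, ω i = 1) (θ : H)
    (Z : Op G) : qq J ω θ Z ≤ 2 * (‖Z‖ * ‖θ‖) ^ 2 := by
  have key : ∀ Z : Op G, ∑ j, ω j * ‖Z (J j θ)‖ ^ 2 ≤ (‖Z‖ * ‖θ‖) ^ 2 := fun Z => by
    calc _ ≤ ∑ j, ω j * (‖Z‖ * ‖θ‖) ^ 2 := sum_le_sum fun j _ => by
          have := hω j
          gcongr
          exact (Z.le_opNorm _).trans_eq (by rw [nJ hJ])
      _ = _ := by rw [← sum_mul, h1, one_mul]
  have a := key Z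
  have b := key (star Z)
  rw [norm_star] at b
  rw [qq]; linarith

/-- matrices over `M` -/
noncomputable def mat (J : I → H →L[ℂ] G) (M : VonNeumannAlgebra H) : VonNeumannAlgebra G :=
  vnOf (amp J '' (M.commutant : Set (Op H)))

lemma mem_mat {X : Op G} : X ∈ mat J M ↔ ∀ y ∈ M.commutant, amp J y * X = X * amp J y := by
  rw [mat, mem_vnOf]
  refine ⟨fun h y hy => (h _ ⟨y, hy, rfl⟩).1, ?_⟩
  rintro h _ ⟨y, hy, rfl⟩
  exact ⟨h y hy, by rw [amp_star]; exact h _ (star_mem hy)⟩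

lemma mat_near (hJ : Fam J 1) {δ : ℝ} (δ0 : 0 < δ) (h : Nr N.commutant M.commutant δ) :
    Nr (mat J M) (mat J N) (2 * kk * δ) := by
  intro a ha
  rcases eq_or_ne a 0 with rfl | a0
  · exact ⟨0, zero_mem _, by simp⟩
  have a1 := norm_pos_iff.2 a0
  have n1 : ‖(1 : Op H)‖ ≤ 1 := norm_id_le
  obtain ⟨b, b1, b2⟩ := comm_near (A := MA N.commutant)
    ((ampH hJ).toAlgHom.comp N.commutant.toStarSubalgebra.subtype.toAlgHom)
    (fun x => (hJ.norm_amp n1 _).trans (le_mul_of_one_le_left (norm_nonneg _) one_le_two)) a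
    (ε := 2 * δ * ‖a‖) (by positivity) fun x => by
      obtain ⟨y, y1, y2⟩ := h x.1 x.2
      refine le_of_eq_of_le (congrArg _ ?_) ((cle ((hJ.norm_amp n1 _).trans y2)
        (le_refl ‖a‖)).trans_eq (by change _ = _ * ‖x.1‖; ring))
      have e : amp J (x.1 - y) = amp J x.1 - amp J y := map_sub (ampH hJ) _ _
      rw [e, sub_mul, mul_sub, mem_mat.1 ha y y1, sub_sub_sub_cancel_right]; rfl
  exact ⟨b, mem_mat.2 fun x hx => b1 ⟨x, hx⟩, b2.trans_eq (by ring)⟩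

/-- matrix entry -/
noncomputable def ent (J : I → H →L[ℂ] G) (k i : I) (Y : Op G) : Op H := (J k)† ∘L Y ∘L J i

lemma ent_mem (hJ : Fam J 1) {Y : Op G} (hY : Y ∈ mat J N) (k i : I) : ent J k i Y ∈ N :=
  memM fun y hy => by
    ext v
    have := congr(((J k)†) ($(mem_mat.1 hY y hy) (J i v)))
    simpa [ent, hJ.adj_amp, hJ.amp_J] using this

lemma ent_star (k i : I) (Y : Op G) : star (ent J k i Y) = ent J i k (star Y) := by
  simp only [ent, star_eq_adjoint, adjoint_comp, adjoint_adjoint, comp_assoc]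

lemma ent_le (hJ : Fam J 1) (k i : I) (Y : Op G) (v : H) :
    ‖ent J k i Y v‖ ^ 2 ≤ ‖Y (J i v)‖ ^ 2 := nJ' hJ _ _

/-- matrix unit -/
noncomputable def mu (hJ : Fam J 1) (i j : I) (z : MA M) : MA (mat J M) :=
  ⟨J i ∘L z.1 ∘L (J j)†, mem_mat.2 fun y hy => by
    ext v
    have := congr($(commM z.2 hy) (((J j)†) v))
    simp only [mul_apply_eq_comp] at this
    simp [hJ.adj_amp, hJ.amp_J, this]⟩

lemma mu_star (hJ : Fam J 1) (i j : I) (z : MA M) : star (mu hJ i j z) = mu hJ j i (star z) := by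
  apply Subtype.ext
  change star (J i ∘L z.1 ∘L (J j)†) = J j ∘L star z.1 ∘L (J i)†
  simp only [star_eq_adjoint, adjoint_comp, adjoint_adjoint, comp_assoc]

lemma mu_mul (hJ : Fam J 1) (i j k l : I) (z w : MA M) :
    mu hJ i j z * mu hJ k l w = if j = k then mu hJ i l (z * w) else 0 := by
  apply Subtype.ext
  ext v
  split_ifs with h <;> simp [mu, hJ.orth, h]

lemma mu_sq (hJ : Fam J 1) (S : Finset I) (α β : I → I) (hα : Set.InjOn α S) (x : MA M) :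
    star (∑ i ∈ S, mu hJ (α i) (β i) x) * ∑ i ∈ S, mu hJ (α i) (β i) x =
      ∑ i ∈ S, mu hJ (β i) (β i) (star x * x) := by
  rw [star_sum, sum_mul]
  refine sum_congr rfl fun i hi => ?_
  rw [mul_sum, sum_eq_single i, mu_star, mu_mul, if_pos rfl]
  · intro j hj hji
    rw [mu_star, mu_mul, if_neg fun h => hji (hα hi hj h).symm]
  · exact fun h => absurd hi h

lemma ent_mu (hJ : Fam J 1) (S : Finset I) (α : I → I) {i : I} (hi : i ∈ S) (x : MA M) :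
    ent J (α i) i (∑ j ∈ S, mu hJ (α j) j x : MA (mat J M)).1 = x.1 := by
  ext v
  rw [AddSubmonoidClass.coe_finset_sum]
  simp only [ent, comp_apply, ContinuousLinearMap.sum_apply, mu, hJ.orth, map_sum]
  rw [sum_eq_single i (fun j _ h => by simp [h]) (fun h => absurd hi h)]
  simp

/-- the finite step -/
lemma core (hJ : Fam J 1) {ω : I → ℝ} (hω : ∀ i, 0 ≤ ω i) (h1 : ∑ i, ω i = 1) (θ : H) {δ : ℝ}
    (δ0 : 0 < δ) (h : Nr N.commutant M.commutant δ) :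
    ∃ F : MA (mat J M) → ℂ, BL (2 * (4 * kk * δ * ‖θ‖) ^ 2) F ∧
      (∀ y, 0 ≤ (F (star y * y)).re) ∧ ∀ X, ∀ η > 0, ∃ Y ∈ mat J N,
        qq J ω θ (X.1 - Y) ≤ 2 * (F (star X * X)).re + 2 * (F (X * star X)).re + η := by
  obtain ⟨Λ, hΛ⟩ := exists_lam J ω hω θ
  let W0 : Submodule ℂ _ := (mat J N).toStarSubalgebra.toSubalgebra.toSubmodule.map Λ
  let W := W0.topologicalClosure
  let Θ : MA (mat J M) → PiLp 2 (fun _ : I ⊕ I => G) := fun X => Λ X.1 - W.starProjection (Λ X.1)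
  have hmin : ∀ X, ∀ w ∈ W, ‖Θ X‖ ≤ ‖Λ X.1 - w‖ := fun X w hw => by
    change ‖Λ X.1 - W.starProjection (Λ X.1)‖ ≤ _
    rw [Submodule.starProjection_minimal]
    exact ciInf_le (f := fun x : W => ‖Λ X.1 - x‖) ⟨0, by rintro _ ⟨x, rfl⟩; positivity⟩ ⟨w, hw⟩
  have k1 := kk1
  have hB : BL (4 * kk * δ * ‖θ‖) Θ := by
    refine ⟨⟨fun X X' => ?_, fun c X => ?_⟩, fun X hX => ?_⟩
    · simp only [Θ, AddMemClass.coe_add, map_add]; abel
    · simp only [Θ, SetLike.val_smul, map_smul, smul_sub]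
    · obtain ⟨Y, y1, y2⟩ := mat_near hJ δ0 h X.1 X.2
      refine (hmin X (Λ Y) (W0.le_topologicalClosure ⟨Y, y1, rfl⟩)).trans ?_
      rw [← map_sub, ← pow_le_pow_iff_left₀ (norm_nonneg _) (by positivity) two_ne_zero, hΛ]
      refine (qq_le hJ hω h1 θ _).trans ?_
      have y3 : ‖X.1 - Y‖ ≤ 2 * kk * δ := y2.trans (mul_le_of_le_one_right (by positivity) hX)
      have : (‖X.1 - Y‖ * ‖θ‖) ^ 2 ≤ (2 * kk * δ * ‖θ‖) ^ 2 := by gcongr
      nlinarith [sq_nonneg (2 * kk * δ * ‖θ‖)]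
  obtain ⟨F, f1, f2, f3⟩ := groth hB
  refine ⟨F, f1, f2, fun X η η0 => ?_⟩
  have hc : ContinuousAt (fun w => ‖Λ X.1 - w‖ ^ 2) (W.starProjection (Λ X.1)) := by fun_prop
  have hw : W.starProjection (Λ X.1) ∈ closure (W0 : Set _) := W.starProjection_apply_mem _
  obtain ⟨w, w1, Y, y1, rfl⟩ := mem_closure_iff_nhds.1 hw _
    (hc.eventually_lt continuousAt_const (lt_add_of_pos_right _ η0))
  refine ⟨Y, y1, ?_⟩
  rw [← hΛ, map_sub]
  have := f3 X
  have w2 : ‖Λ X.1 - Λ Y‖ ^ 2 < ‖Θ X‖ ^ 2 + η := w1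
  linarith

/-- harmonic numbers -/
noncomputable def hh (L : ℕ) : ℝ := ∑ i ∈ range L, 1 / (i + 1 : ℝ)

lemma half (L m : ℕ) (hm : 0 < m) (h : 2 * (m : ℝ) ≤ hh L) :
    1 / 2 ≤ ∑ i ∈ univ.filter (fun i : Fin L => (i + 1) * m ≤ L), 1 / (i + 1 : ℝ) / hh L := by
  have m0 : (0 : ℝ) < m := by exact_mod_cast hm
  have h0 : 0 < hh L := by linarith
  have e : ∑ i : Fin L, 1 / (i + 1 : ℝ) = hh L := Fin.sum_univ_eq_sum_range (fun i => 1 / (i + 1 : ℝ)) L
  rw [← sum_filter_add_sum_filter_not univ fun i : Fin L => (i + 1) * m ≤ L] at e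
  have L0 : (0 : ℝ) < L := by
    rcases Nat.eq_zero_or_pos L with rfl | h'
    · simp [hh] at h0
    · exact_mod_cast h'
  have b : ∑ i ∈ univ.filter (fun i : Fin L => ¬ (i + 1) * m ≤ L), 1 / (i + 1 : ℝ) ≤ m := by
    calc _ ≤ ∑ i ∈ univ.filter (fun i : Fin L => ¬ (i + 1) * m ≤ L), (m / L : ℝ) :=
          sum_le_sum fun i hi => by
            have : (L : ℝ) < (i + 1) * m := by exact_mod_cast not_le.1 (mem_filter.1 hi).2
            rw [div_le_div_iff₀ (by positivity) L0]; linarith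
      _ ≤ ∑ i : Fin L, (m / L : ℝ) :=
          sum_le_sum_of_subset_of_nonneg (filter_subset _ _) fun _ _ _ => by positivity
      _ = m := by simp; field_simp
  rw [← sum_div, le_div_iff₀ h0]
  linarith

lemma step (L : ℕ) {H : Type u} [NormedAddCommGroup H] [InnerProductSpace ℂ H] [CompleteSpace H]
    {M N : VonNeumannAlgebra H} (θ : H) {δ : ℝ} (δ0 : 0 < δ)
    (h : Nr N.commutant M.commutant δ) :
    ∃ f : MA M → ℂ, BL (2 * (4 * kk * δ * ‖θ‖) ^ 2) f ∧ (∀ y, 0 ≤ (f (star y * y)).re) ∧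
      ∀ (x : MA M) (m : ℕ), 0 < m → 2 * (m : ℝ) ≤ hh (L + 1) → ∀ η > 0, ∃ n ∈ N,
        ‖(x.1 - n) θ‖ ^ 2 + (m : ℝ)⁻¹ * ‖star (x.1 - n) θ‖ ^ 2 ≤
          4 * (f (star x * x)).re + 4 * (m : ℝ)⁻¹ * (f (x * star x)).re + η := by
  obtain ⟨G, _, _, _, J, hJ⟩ := exists_fam (IsStarProjection.one (Op H)) (Fin (L + 1))
  have h0 : 0 < hh (L + 1) := sum_pos (fun _ _ => by positivity) (by simp)
  let ω : Fin (L + 1) → ℝ := fun i => 1 / (i + 1 : ℝ) / hh (L + 1)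
  have hω : ∀ i, 0 ≤ ω i := fun i => by positivity
  have h1 : ∑ i, ω i = 1 := by
    rw [← sum_div, Fin.sum_univ_eq_sum_range (fun i => 1 / (i + 1 : ℝ))]
    exact div_self h0.ne'
  obtain ⟨F, f1, f2, f3⟩ := core hJ hω h1 θ δ0 h
  have Fs : ∀ (S : Finset (Fin (L + 1))) (g : Fin (L + 1) → MA (mat J M)),
      (F (∑ i ∈ S, g i)).re = ∑ i ∈ S, (F (g i)).re := fun S g => by
    rw [← Complex.re_sum]; exact congrArg _ (map_sum (f1.lin.mk' F) g S)
  have Fp : ∀ i (y : MA M), 0 ≤ (F (mu hJ i i (star y * y))).re := fun i y => by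
    have := f2 (mu hJ i i y)
    rwa [mu_star, mu_mul, if_pos rfl] at this
  let π : MA M → MA (mat J M) := fun z => ∑ i, mu hJ i i z
  have hπ : ∀ z, (π z).1 = amp J z.1 := fun z => by
    simp only [π, AddSubmonoidClass.coe_finset_sum]; rfl
  refine ⟨fun z => F (π z), ⟨⟨fun a b => ?_, fun c a => ?_⟩, fun a ha => f1.bd _ ?_⟩,
    fun y => ?_, fun x m hm hL η η0 => ?_⟩
  · rw [← f1.lin.map_add]; congr 1; apply Subtype.ext
    rw [AddMemClass.coe_add, hπ, hπ, hπ]; exact map_add (ampH hJ) _ _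
  · rw [← f1.lin.map_smul]; congr 1; apply Subtype.ext
    rw [SetLike.val_smul, hπ, hπ]; exact map_smul (ampH hJ) _ _
  · change ‖(π a).1‖ ≤ 1
    rw [hπ]; exact (hJ.norm_amp norm_id_le _).trans ha
  · rw [Fs]; exact sum_nonneg fun i _ => Fp i y
  have m0 : (0 : ℝ) < m := by exact_mod_cast hm
  by_contra! hc
  set a := (F (π (star x * x))).re with ha
  set b := (F (π (x * star x))).re with hb
  have a0 : 0 ≤ a := by rw [ha, Fs]; exact sum_nonneg fun i _ => Fp i x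
  have Fp' : ∀ i, 0 ≤ (F (mu hJ i i (x * star x))).re := fun i => by simpa using Fp i (star x)
  have b0 : 0 ≤ b := by rw [hb, Fs]; exact sum_nonneg fun i _ => Fp' i
  let S := univ.filter fun i : Fin (L + 1) => (i + 1) * m ≤ L + 1
  let τ : Fin m → Fin (L + 1) → Fin (L + 1) := fun c i =>
    if h : i * m + c < L + 1 then ⟨_, h⟩ else i
  have hτ : ∀ c, ∀ i ∈ S, (τ c i : ℕ) = i * m + c := fun c i hi => by
    have := (mem_filter.1 hi).2
    have := c.2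
    simp only [τ]; rw [dif_pos (by nlinarith)]
  have inj : ∀ c c', ∀ i ∈ S, ∀ i' ∈ S, τ c i = τ c' i' → c = c' ∧ i = i' := by
    intro c c' i hi i' hi' e
    have e' : (i : ℕ) * m + c = i' * m + c' := by rw [← hτ c i hi, ← hτ c' i' hi', e]
    have e1 := congrArg (· % m) e'
    simp only [Nat.mul_add_mod_self_right, Nat.mod_eq_of_lt c.2, Nat.mod_eq_of_lt c'.2] at e1
    rw [e1] at e'
    exact ⟨Fin.ext e1, Fin.ext (Nat.eq_of_mul_eq_mul_right hm (Nat.add_right_cancel e'))⟩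
  have inj1 : ∀ c, Set.InjOn (τ c) S := fun c i hi i' hi' e => (inj c c i hi i' hi' e).2
  have wτ : ∀ c, ∀ i ∈ S, ω i * (m : ℝ)⁻¹ ≤ ω (τ c i) := fun c i hi => by
    have e : ((τ c i : ℕ) : ℝ) = i * m + c := by exact_mod_cast hτ c i hi
    have c1 : (c : ℝ) + 1 ≤ m := by exact_mod_cast c.2
    simp only [ω, e]
    rw [div_mul_eq_mul_div]
    gcongr
    rw [← div_eq_mul_inv, div_div]
    gcongr
    linarith
  obtain ⟨R, hR⟩ : ∃ R, R = 4 * a + 4 * (m : ℝ)⁻¹ * b + η := ⟨_, rfl⟩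
  have R0 : 0 ≤ R := by rw [hR]; positivity
  have key : ∀ c, R / 2 ≤ 2 * a + 2 * ∑ i ∈ S, (F (mu hJ (τ c i) (τ c i) (x * star x))).re +
      η / 4 := fun c => by
    obtain ⟨Y, y1, y2⟩ := f3 (∑ i ∈ S, mu hJ (τ c i) i x) (η / 4) (by positivity)
    have e1 := mu_sq hJ S (τ c) id (inj1 c) x
    have e2 := mu_sq hJ S id (τ c) (Set.injOn_id _) (star x)
    simp only [id, ← mu_star hJ _ _ x, ← star_sum, star_star] at e1 e2
    rw [e1, e2, Fs, Fs] at y2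
    have u1 : ∑ i ∈ S, (F (mu hJ i i (star x * x))).re ≤ a := by
      rw [ha, Fs]
      exact sum_le_sum_of_subset_of_nonneg (subset_univ _) fun i _ _ => Fp i x
    generalize hZ : (∑ i ∈ S, mu hJ (τ c i) i x : MA (mat J M)).1 - Y = Z at y2
    have hE : ∀ i ∈ S, ent J (τ c i) i Z = x.1 - ent J (τ c i) i Y := fun i hi => by
      rw [← hZ, ← ent_mu hJ S (τ c) hi x]; ext v; simp [ent]
    have l1 : ∑ i ∈ S, ω i * ‖Z (J i θ)‖ ^ 2 ≤ ∑ j, ω j * ‖Z (J j θ)‖ ^ 2 :=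
      sum_le_sum_of_subset_of_nonneg (subset_univ _) fun i _ _ => mul_nonneg (hω i) (by positivity)
    have l2 : ∑ i ∈ S, ω (τ c i) * ‖star Z (J (τ c i) θ)‖ ^ 2 ≤
        ∑ j, ω j * ‖star Z (J j θ)‖ ^ 2 := by
      rw [← sum_image (f := fun j => ω j * ‖star Z (J j θ)‖ ^ 2) (inj1 c)]
      exact sum_le_sum_of_subset_of_nonneg (subset_univ _) fun i _ _ =>
        mul_nonneg (hω i) (by positivity)
    have l3 : ∑ i ∈ S, ω i * R ≤ ∑ i ∈ S, (ω i * ‖Z (J i θ)‖ ^ 2 +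
        ω (τ c i) * ‖star Z (J (τ c i) θ)‖ ^ 2) := sum_le_sum fun i hi => by
      have p1 := hc _ (ent_mem hJ y1 (τ c i) i)
      rw [← hE i hi, ent_star, ← hR] at p1
      have p2 := ent_le hJ (τ c i) i Z θ
      have p3 := ent_le hJ i (τ c i) (star Z) θ
      have p4 := wτ c i hi
      have p5 := hω i
      calc ω i * R ≤ ω i * (‖Z (J i θ)‖ ^ 2 + (m : ℝ)⁻¹ * ‖star Z (J (τ c i) θ)‖ ^ 2) := by
            gcongr
            exact p1.le.trans (by gcongr)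
        _ = ω i * ‖Z (J i θ)‖ ^ 2 + ω i * (m : ℝ)⁻¹ * ‖star Z (J (τ c i) θ)‖ ^ 2 := by ring
        _ ≤ _ := by gcongr
    rw [sum_add_distrib, ← sum_mul] at l3
    have l4 : 1 / 2 * R ≤ (∑ i ∈ S, ω i) * R := mul_le_mul_of_nonneg_right (half _ m hm hL) R0
    rw [qq] at y2
    linarith
  have tot : ∑ c, ∑ i ∈ S, (F (mu hJ (τ c i) (τ c i) (x * star x))).re ≤ b := by
    rw [← sum_product', hb, Fs, ← sum_image (g := fun p : Fin m × Fin (L + 1) => τ p.1 p.2)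
      (f := fun k => (F (mu hJ k k (x * star x))).re) fun p hp q hq e =>
        Prod.ext_iff.2 (inj _ _ _ (mem_product.1 hp).2 _ (mem_product.1 hq).2 e)]
    exact sum_le_sum_of_subset_of_nonneg (subset_univ _) fun i _ _ => Fp' i
  have fin := sum_le_sum fun c (_ : c ∈ univ) => key c
  simp only [sum_add_distrib, sum_const, card_univ, Fintype.card_fin, nsmul_eq_mul,
    ← mul_sum] at fin
  have : (m : ℝ) * (R / 2) = m * (2 * a) + 2 * b + m * η / 2 := by rw [hR]; field_simp; ring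
  nlinarith [mul_pos m0 η0]

end GT

open GT

theorem gtStmt : GTStmt.{u} := by
  have k1 := kk1
  refine ⟨256 * kk ^ 2, by nlinarith, fun H _ _ _ M N θ δ δ0 h => ?_⟩
  rcases eq_or_ne θ 0 with rfl | θ0
  · exact ⟨0, by rw [norm_zero]; positivity, by simp, fun x μ _ η η0 => ⟨0, zero_mem _, by
      simpa using η0.le⟩⟩
  have t0 := norm_pos_iff.2 θ0
  choose f f1 f2 f3 using fun L => step L θ δ0 h
  obtain ⟨g, g1, g2⟩ := wlim_BL (hyperfilter ℕ) f1 (by positivity)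
  have g3 : ∀ y, Tendsto (fun n => (f n y).re) (hyperfilter ℕ) (𝓝 (g y).re) := fun y =>
    (Complex.continuous_re.tendsto _).comp (by simpa using g2 y 1)
  have g4 : ∀ y, 0 ≤ (g (star y * y)).re := fun y => ge_of_tendsto' (g3 _) fun n => f2 n y
  obtain ⟨s, hs⟩ : ∃ s, s = δ ^ 2 * ‖θ‖ ^ 2 := ⟨_, rfl⟩
  have s0 : 0 < s := by rw [hs]; positivity
  let g' := (g1.lin.mk' g).mkContinuous _ g1.le
  have hg : ∀ y, (((8 / s : ℝ) : ℂ) • g') y = ((8 / s : ℝ) : ℂ) * g y := fun y => rfl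
  have main : ∀ (x : MA M) (μ : ℝ), 0 < μ → μ ≤ 1 → ∀ η > 0, ∃ n ∈ N,
      ‖(x.1 - n) θ‖ ^ 2 + μ * ‖star (x.1 - n) θ‖ ^ 2 ≤
        8 * ((g (star x * x)).re + μ * (g (x * star x)).re) + η := fun x μ μ0 μ1 η η0 => by
    have i1 : 1 ≤ μ⁻¹ := one_le_inv_iff₀.2 ⟨μ0, μ1⟩
    have hm : 0 < ⌊μ⁻¹⌋₊ := Nat.floor_pos.2 i1
    obtain ⟨m, hm'⟩ : ∃ m, m = ⌊μ⁻¹⌋₊ := ⟨_, rfl⟩
    have m1 : (m : ℝ) ≤ μ⁻¹ := hm' ▸ Nat.floor_le (by positivity)
    have m2 : μ⁻¹ < m + 1 := hm' ▸ Nat.lt_floor_add_one _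
    rw [← hm'] at hm
    have m0 : (1 : ℝ) ≤ m := by exact_mod_cast hm
    have m3 : μ ≤ (m : ℝ)⁻¹ := by rwa [le_inv_comm₀ μ0 (by positivity)]
    have m4 : (m : ℝ)⁻¹ ≤ 2 * μ := by
      rw [inv_lt_iff_one_lt_mul₀ μ0] at m2
      rw [inv_le_iff_one_le_mul₀ (by positivity)]; nlinarith
    have e1 : ∀ᶠ L in hyperfilter ℕ, 2 * (m : ℝ) ≤ hh (L + 1) :=
      ((Real.tendsto_sum_range_one_div_nat_succ_atTop.comp (tendsto_add_atTop_nat 1)).eventually
        (eventually_ge_atTop _)).filter_mono Nat.hyperfilter_le_atTop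
    have e2 := (((g3 (star x * x)).const_mul 4).add
      ((g3 (x * star x)).const_mul (4 * (m : ℝ)⁻¹))).eventually
      (gt_mem_nhds (lt_add_of_pos_right _ (half_pos η0)))
    obtain ⟨L, l1, l2⟩ := (e1.and e2).exists
    obtain ⟨n, n1, n2⟩ := f3 L x m hm l1 _ (half_pos η0)
    refine ⟨n, n1, ?_⟩
    have a0 := g4 x
    have b0 := g4 (star x)
    rw [star_star] at b0
    have := mul_le_mul_of_nonneg_right m3 (sq_nonneg ‖star (x.1 - n) θ‖)
    have := mul_le_mul_of_nonneg_right m4 b0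
    linarith
  refine ⟨((8 / s : ℝ) : ℂ) • g', ?_, fun y => ?_, fun x μ μ0 η η0 => ?_⟩
  · refine (ContinuousLinearMap.opNorm_smul_le _ g').trans ?_
    have : ‖g'‖ ≤ _ := LinearMap.mkContinuous_norm_le _ (by positivity) _
    rw [Complex.norm_real, Real.norm_of_nonneg (by positivity)]
    refine (mul_le_mul_of_nonneg_left this (by positivity)).trans_eq ?_
    rw [hs]; field_simp; norm_num
  · rw [hg, Complex.re_ofReal_mul]; exact mul_nonneg (by positivity) (g4 y)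
  rw [hg, hg, Complex.re_ofReal_mul, Complex.re_ofReal_mul, ← hs]
  have e : ∀ a b : ℝ, s * (8 / s * a + μ * (8 / s * b)) = 8 * (a + μ * b) := fun a b => by
    field_simp
  rw [e]
  rcases le_total μ 1 with μ1 | μ1
  · exact main x μ μ0 μ1 η η0
  obtain ⟨n, n1, n2⟩ := main (star x) μ⁻¹ (by positivity) (inv_le_one_of_one_le₀ μ1) (η / μ)
    (by positivity)
  refine ⟨star n, star_mem n1, ?_⟩
  have e1 : (star x).1 - n = star (x.1 - star n) := by rw [star_sub, star_star]; rfl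
  rw [e1, star_star, star_star] at n2
  have := mul_le_mul_of_nonneg_left n2 μ0.le
  have e2 : ∀ a b c d : ℝ, μ * (a + μ⁻¹ * b) ≤ μ * (8 * (c + μ⁻¹ * d) + η / μ) →
      b + μ * a ≤ 8 * (d + μ * c) + η := fun a b c d h => by
    have p : μ * (a + μ⁻¹ * b) = b + μ * a := by field_simp; ring
    have q : μ * (8 * (c + μ⁻¹ * d) + η / μ) = 8 * (d + μ * c) + η := by field_simp; ring
    rwa [p, q] at h
  exact e2 _ _ _ _ this

end Vale.Agent.P096
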