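import Vale.Agent.P096.Base

/-! Module K: Kazhdan type correction of an almost cocycle. -/

open Finset Vale.Agent.P104 Vale.Agent.P085 Filter Topology MeasureTheory Complex
open scoped InnerProductSpace InnerProduct

set_option linter.unusedSectionVars false

namespace Vale.Agent.P096

universe u

namespace Kz

variable {H : Type u} [NormedAddCommGroup H] [InnerProductSpace ℂ H] [CompleteSpace H]
  {N : VonNeumannAlgebra H}

lemma uL {u : Op H} (hu : u ∈ unitary (Op H)) (x : Op H) : ‖u * x‖ ≤ ‖x‖ := by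
  simpa using nle (unit_le1 hu) (le_refl ‖x‖)

lemma uR {u : Op H} (hu : u ∈ unitary (Op H)) (x : Op H) : ‖x * u‖ ≤ ‖x‖ := by
  simpa using nle (le_refl ‖x‖) (unit_le1 hu)

lemma uS {u : Op H} (hu : u ∈ unitary (Op H)) : star u ∈ unitary (Op H) := Unitary.star_mem hu

lemma uA {u : Op H} (hu : u ∈ unitary (Op H)) (x : Op H) : ‖u * x * star u‖ ≤ ‖x‖ :=
  (uR (uS hu) _).trans (uL hu x)

lemma memC {x : Op H} (h : ∀ y ∈ N, y * x = x * y) : x ∈ N.commutant :=
  VonNeumannAlgebra.mem_commutant_iff.2 h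

section mean
variable {μ : (ℝ → Op H) → Op H} (hμ : Mean μ) {F F' : ℝ → Op H}
include hμ

lemma m_sub (h : ∃ C, ∀ g, ‖F g‖ ≤ C) (h' : ∃ C, ∀ g, ‖F' g‖ ≤ C) :
    μ (fun g => F g - F' g) = μ F - μ F' := by
  obtain ⟨C, hC⟩ := h
  obtain ⟨C', hC'⟩ := h'
  have := hμ.add (fun g => F g - F' g) F' ⟨C + C', fun g => norm_sub_le_of_le (hC g) (hC' g)⟩
    ⟨C', hC'⟩
  simp only [sub_add_cancel] at this
  exact eq_sub_of_add_eq this.symm

lemma m_comm (h : ∃ C, ∀ g, ‖F g‖ ≤ C) {y : Op H} (hy : ∀ g, y * F g = F g * y) :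
    y * μ F = μ F * y := by
  have a := hμ.mul F y 1 h
  have b := hμ.mul F 1 y h
  simp only [mul_one, one_mul] at a b
  rw [← a, ← b]
  simp only [hy]

lemma m_mem (h : ∃ C, ∀ g, ‖F g‖ ≤ C) {M : VonNeumannAlgebra H} (hM : ∀ g, F g ∈ M) : μ F ∈ M :=
  memM fun _ hy => m_comm hμ h fun g => (commM (hM g) hy).symm

end mean

/-- a unitary near a central element is near a central unitary -/
lemma cen_un {c z : Op H} {η : ℝ} (hc : c ∈ unitary (Op H)) (z1 : z ∈ N) (z2 : z ∈ N.commutant)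
    (h : ‖c - z‖ ≤ η) (hη : η ≤ 1 / 6) :
    ∃ z' ∈ unitary (Op H), z' ∈ N ∧ z' ∈ N.commutant ∧ ‖c - z'‖ ≤ 8 * η := by
  have h1 : ‖star c * z - 1‖ ≤ η := by
    have := uL (uS hc) (z - c)
    rw [mul_sub, hc.1, norm_sub_rev z] at this
    exact this.trans h
  obtain ⟨u, hu, p, e1, -, -, e4, -, e6⟩ := polar_near h1 hη
  have e : star (star c * z) * (star c * z) = star z * z := by
    rw [star_mul, star_star, mul_assoc, ← mul_assoc c, hc.2, one_mul]
  rw [e] at e4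
  have e2 : c * u * p = z := by rw [mul_assoc, ← e1, ← mul_assoc, hc.2, one_mul]
  have key : ∀ y, y * z = z * y → y * star z = star z * y → y * (c * u) = c * u * y := by
    intro y a b
    have hp : (p : Op H) * y = y * p := e4 y (by
      show star z * z * y = y * (star z * z)
      rw [mul_assoc, ← a, ← mul_assoc, ← b, mul_assoc])
    refine (Units.mul_left_inj p).1 ?_
    rw [mul_assoc y, e2, mul_assoc (c * u), ← hp, ← mul_assoc, e2, a]
  refine ⟨c * u, mul_mem hc hu, memM fun y hy => key y (commM z1 hy).symm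
    (commM (star_mem z1) hy).symm, memC fun y hy => key y (commM hy z2) (commM hy (star_mem z2)), ?_⟩
  have := uL hc (1 - u)
  rw [mul_sub, mul_one, norm_sub_rev 1] at this
  exact this.trans e6

/-- a unitary of `N` second order close to `1 - k` -/
lemma exists_w {k : Op H} {ε : ℝ} (hk : k ∈ N) (h1 : ‖k‖ ≤ ε) (h2 : ‖k + star k‖ ≤ ε ^ 2)
    (hε : ε ≤ 1 / 6) :
    ∃ w ∈ unitary (Op H), w ∈ N ∧ ‖w - 1‖ ≤ 8 * ε ∧ ‖w - 1 + k‖ ≤ 6 * ε ^ 2 := by
  have e0 := (norm_nonneg _).trans h1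
  obtain ⟨u, hu, p, e1, -, e3, e4, e5, e6⟩ := polar_near (W := 1 - k) (ε := ε) (by simpa using h1) hε
  have hW : 1 - k ∈ N := sub_mem (one_mem _) hk
  have a1 : ‖(p : Op H) * p - 1‖ ≤ ε * ε + ε ^ 2 := by
    have := norm_sub_le_of_le (nle (a := star k) (r := ε) (by rwa [norm_star]) h1) h2
    refine le_of_eq_of_le (congrArg _ ?_) this
    rw [e3, star_sub, star_one]
    noncomm_ring
  have a2 : ‖(p : Op H) - 1‖ ≤ 6 * ε ^ 2 := by
    have b := norm_sub_le_of_le a1 (nle e5 e5)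
    rw [show (p : Op H) * p - 1 - (p - 1) * (p - 1) = (2 : ℝ) • ((p : Op H) - 1) by
      rw [two_smul]; noncomm_ring, norm_smul, Real.norm_ofNat] at b
    nlinarith
  refine ⟨u, hu, memM fun y hy => ?_, e6, ?_⟩
  · have hp : (p : Op H) * y = y * p := e4 y (commM (mul_mem (star_mem hW) hW) hy)
    refine (Units.mul_left_inj p).1 ?_
    rw [mul_assoc y, ← e1, mul_assoc u, ← hp, ← mul_assoc, ← e1, commM hW hy]
  · have := uL hu (1 - p)
    rw [mul_sub, mul_one, ← e1, norm_sub_rev 1] at this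
    exact le_of_eq_of_le (congrArg _ (by abel)) (this.trans a2)

lemma prod4 {a b c d : Op H} {η : ℝ} (ha : a ∈ unitary (Op H)) (hb : b ∈ unitary (Op H))
    (a1 : ‖a - 1‖ ≤ η) (b1 : ‖b - 1‖ ≤ η) (c1 : ‖c - 1‖ ≤ η) (d1 : ‖d - 1‖ ≤ η) :
    ‖a * b * c * d - 1 - ((a - 1) + (b - 1) + (c - 1) + (d - 1))‖ ≤ 6 * η ^ 2 := by
  have f1 : ‖a * b - 1‖ ≤ η + η :=
    le_of_eq_of_le (congrArg _ (by noncomm_ring)) (norm_add_le_of_le ((uL ha _).trans b1) a1)
  have f2 : ‖a * b * c - 1‖ ≤ η + (η + η) :=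
    le_of_eq_of_le (congrArg _ (by noncomm_ring))
      (norm_add_le_of_le ((uL (mul_mem ha hb) _).trans c1) f1)
  have := norm_add_le_of_le (norm_add_le_of_le (nle a1 b1) (nle f1 c1)) (nle f2 d1)
  exact le_of_eq_of_le (congrArg _ (by noncomm_ring)) (this.trans_eq (by ring))

/-- the cocycle -/
noncomputable def cc (g : ℝ → Op H) (s t : ℝ) : Op H := g s * g t * star (g (s + t))

/-- admissible families -/
structure Adm (N : VonNeumannAlgebra H) (g : ℝ → Op H) : Prop where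
  un : ∀ t, g t ∈ unitary (Op H)
  ad : ∀ t, ∀ n ∈ N, g t * n * star (g t) ∈ N
  ce : ∀ t, ∀ z ∈ N, z ∈ N.commutant → g t * z = z * g t
  co : ∀ s t, cc g s t ∈ N

/-- the cocycle is almost central -/
def Inv (N : VonNeumannAlgebra H) (g : ℝ → Op H) (ε : ℝ) : Prop :=
  ∀ s t, ∃ z ∈ unitary (Op H), z ∈ N ∧ z ∈ N.commutant ∧ ‖cc g s t - z‖ ≤ ε

lemma Adm.cu {g : ℝ → Op H} (h : Adm N g) (s t : ℝ) : cc g s t ∈ unitary (Op H) :=
  mul_mem (mul_mem (h.un s) (h.un t)) (uS (h.un _))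

lemma Adm.coc {g : ℝ → Op H} (h : Adm N g) (s t r : ℝ) :
    cc g s t * cc g (s + t) r = g s * cc g t r * star (g s) * cc g s (t + r) := by
  have e1 : ∀ t v, star (g t) * (g t * v) = v := fun t v => by rw [← mul_assoc, (h.un t).1, one_mul]
  simp only [cc, mul_assoc, e1, add_assoc]

lemma Adm.cc_mul {g w : ℝ → Op H} (h : Adm N g) (s t : ℝ) :
    cc (fun t => w t * g t) s t =
      w s * (g s * w t * star (g s)) * cc g s t * star (w (s + t)) := by
  have e1 : ∀ t v, star (g t) * (g t * v) = v := fun t v => by rw [← mul_assoc, (h.un t).1, one_mul]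
  simp only [cc, mul_assoc, e1, star_mul]

lemma Adm.mul {g w : ℝ → Op H} (h : Adm N g) (w1 : ∀ t, w t ∈ unitary (Op H)) (w2 : ∀ t, w t ∈ N) :
    Adm N fun t => w t * g t where
  un t := mul_mem (w1 t) (h.un t)
  ad t n hn := by
    have := mul_mem (mul_mem (w2 t) (h.ad t n hn)) (star_mem (w2 t))
    simpa only [star_mul, mul_assoc] using this
  ce t z z1 z2 := by rw [mul_assoc, h.ce t z z1 z2, ← mul_assoc, commM (w2 t) z2, mul_assoc]
  co s t := by
    rw [h.cc_mul]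
    exact mul_mem (mul_mem (mul_mem (w2 s) (h.ad s _ (w2 t))) (h.co s t)) (star_mem (w2 _))

lemma lin4 {a₁ a₂ a₃ a₄ l : Op H} {ε : ℝ} (u3 : a₃ ∈ unitary (Op H)) (u4 : a₄ ∈ unitary (Op H))
    (u1 : a₁ ∈ unitary (Op H)) (e : a₁ * a₂ = l * (a₃ * a₄)) (h1 : ‖a₁ - 1‖ ≤ ε)
    (h2 : ‖a₂ - 1‖ ≤ ε) (h3 : ‖a₃ - 1‖ ≤ ε) (h4 : ‖a₄ - 1‖ ≤ ε) :
    ‖l - 1‖ ≤ 4 * ε ∧
      ‖(a₁ - 1) + (a₂ - 1) - (a₃ - 1) - (a₄ - 1) - (l - 1)‖ ≤ 10 * ε ^ 2 := by
  have f1 : ‖a₁ * a₂ - 1‖ ≤ ε + ε :=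
    le_of_eq_of_le (congrArg _ (by noncomm_ring)) (norm_add_le_of_le ((uL u1 _).trans h2) h1)
  have f2 : ‖a₃ * a₄ - 1‖ ≤ ε + ε :=
    le_of_eq_of_le (congrArg _ (by noncomm_ring)) (norm_add_le_of_le ((uL u3 _).trans h4) h3)
  have u34 := mul_mem u3 u4
  have f3 : ‖l - 1‖ ≤ 4 * ε := by
    have a := (uR (uS u34) _).trans (norm_sub_le_of_le f1 f2)
    rw [sub_sub_sub_cancel_right, e, sub_mul, mul_assoc l, u34.2, mul_one] at a
    linarith
  refine ⟨f3, ?_⟩
  have := norm_add_le_of_le (norm_sub_le_of_le (nle h3 h4) (nle h1 h2)) (nle f3 f2)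
  refine le_of_eq_of_le (congrArg _ ?_) (this.trans_eq (by ring))
  have e' : a₁ * a₂ - l * (a₃ * a₄) = 0 := sub_eq_zero.2 e
  rw [← sub_eq_zero, ← e']
  noncomm_ring

theorem step {μ : (ℝ → Op H) → Op H} (hμ : Mean μ) {g : ℝ → Op H} {ε : ℝ} (h : Adm N g)
    (hi : Inv N g ε) (hε : ε ≤ 1 / 10000) :
    ∃ g', (Adm N g' ∧ Inv N g' (ε / 2)) ∧ ∀ t, ‖g' t - g t‖ ≤ 8 * ε := by
  choose z zu z1 z2 z3 using hi
  have e0 : 0 ≤ ε := (norm_nonneg _).trans (z3 0 0)
  obtain ⟨a, ha⟩ : ∃ a : ℝ → ℝ → Op H, ∀ s t, a s t = cc g s t * star (z s t) := ⟨_, fun _ _ => rfl⟩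
  have au : ∀ s t, a s t ∈ unitary (Op H) := fun s t => ha s t ▸ mul_mem (h.cu s t) (uS (zu s t))
  have am : ∀ s t, a s t ∈ N := fun s t => ha s t ▸ mul_mem (h.co s t) (star_mem (z1 s t))
  have az : ∀ s t, cc g s t = a s t * z s t := fun s t => by
    rw [ha, mul_assoc, (zu s t).1, mul_one]
  have a1 : ∀ s t, ‖a s t - 1‖ ≤ ε := fun s t => by
    have := uR (uS (zu s t)) (cc g s t - z s t)
    rw [sub_mul, (zu s t).2, ← ha] at this
    exact this.trans (z3 s t)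
  have bd : ∀ s, ∃ C, ∀ r, ‖a s r - 1‖ ≤ C := fun s => ⟨ε, a1 s⟩
  obtain ⟨k, hk⟩ : ∃ k : ℝ → Op H, ∀ s, k s = μ fun r => a s r - 1 := ⟨_, fun _ => rfl⟩
  have km : ∀ s, k s ∈ N := fun s => hk s ▸ m_mem hμ (bd s) fun r => sub_mem (am s r) (one_mem _)
  have k1 : ∀ s, ‖k s‖ ≤ ε := fun s => hk s ▸ hμ.norm _ _ (a1 s)
  have k2 : ∀ s, ‖k s + star (k s)‖ ≤ ε ^ 2 := fun s => by
    rw [hk, ← hμ.star _ (bd s), ← hμ.add _ _ (bd s) ⟨ε, fun r => by rw [norm_star]; exact a1 s r⟩]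
    refine hμ.norm _ _ fun r => ?_
    have := nle (a := star (a s r - 1)) (r := ε) (by rw [norm_star]; exact a1 s r) (a1 s r)
    rw [← norm_neg, ← sq] at this
    refine le_of_eq_of_le (congrArg _ ?_) this
    have e := (au s r).1
    rw [star_sub, star_one, sub_mul, mul_sub, e]
    noncomm_ring
  choose w wu wm w1 w2 using fun s => exists_w (km s) (k1 s) (k2 s) (by linarith)
  refine ⟨fun t => w t * g t, ⟨h.mul wu wm, fun s t => ?_⟩, fun t => ?_⟩
  swap
  · have := uR (h.un t) (w t - 1)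
    rw [sub_mul, one_mul] at this
    exact this.trans (w1 t)
  have gu : ∀ x ∈ unitary (Op H), g s * x * star (g s) ∈ unitary (Op H) := fun x hx =>
    mul_mem (mul_mem (h.un s) hx) (uS (h.un s))
  have g1 : ∀ x, g s * (x - 1) * star (g s) = g s * x * star (g s) - 1 := fun x => by
    rw [mul_sub, sub_mul, mul_one, (h.un s).2]
  obtain ⟨l, hl⟩ : ∃ l : ℝ → Op H, ∀ r, l r =
    z t r * z s (t + r) * star (z (s + t) r) * star (z s t) := ⟨_, fun _ => rfl⟩
  have l1 : ∀ r, l r ∈ N := fun r => hl r ▸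
    mul_mem (mul_mem (mul_mem (z1 _ _) (z1 _ _)) (star_mem (z1 _ _))) (star_mem (z1 _ _))
  have l2 : ∀ r, l r ∈ N.commutant := fun r => hl r ▸
    mul_mem (mul_mem (mul_mem (z2 _ _) (z2 _ _)) (star_mem (z2 _ _))) (star_mem (z2 _ _))
  have le : ∀ r, a s t * a (s + t) r = l r * (g s * a t r * star (g s) * a s (t + r)) := by
    intro r
    have e := h.coc s t r
    rw [az s t, az (s + t) r, az t r, az s (t + r)] at e
    have c1 : g s * (a t r * z t r) * star (g s) = g s * a t r * star (g s) * z t r := by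
      have := h.ce s _ (star_mem (z1 t r)) (star_mem (z2 t r))
      have c := congrArg star this
      simp only [star_mul, star_star] at c
      rw [mul_assoc, mul_assoc, c]
      simp only [mul_assoc]
    have m1 := h.ad s _ (am t r)
    rw [c1] at e
    have c2 : a s t * z s t * (a (s + t) r * z (s + t) r) =
        a s t * a (s + t) r * (z s t * z (s + t) r) := by
      rw [mul_assoc, ← mul_assoc (z s t), ← commM (am _ _) (z2 s t)]
      simp only [mul_assoc]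
    have c3 : g s * a t r * star (g s) * z t r * (a s (t + r) * z s (t + r)) =
        g s * a t r * star (g s) * a s (t + r) * (z t r * z s (t + r)) := by
      rw [mul_assoc _ (z t r), ← mul_assoc (z t r), ← commM (am _ _) (z2 t r)]
      simp only [mul_assoc]
    rw [c2, c3] at e
    rw [← commM (mul_mem m1 (am _ _)) (l2 r), hl, mul_assoc (z t r * z s (t + r)), ← mul_assoc _ (z t r * _),
      ← e, mul_assoc, mul_assoc, mul_assoc (z s t), ← mul_assoc (z (s + t) r), (zu _ _).2, one_mul,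
      (zu _ _).2, mul_one]
  have l4 := fun r => lin4 (gu _ (au t r)) (au s (t + r)) (au s t) (le r) (a1 _ _) (a1 _ _)
    (by rw [← g1]; exact (uA (h.un s) _).trans (a1 _ _)) (a1 _ _)
  have lb : ∃ C, ∀ r, ‖l r - 1‖ ≤ C := ⟨_, fun r => (l4 r).1⟩
  obtain ⟨ζ, hζ⟩ : ∃ ζ, ζ = μ fun r => l r - 1 := ⟨_, rfl⟩
  have ζ1 : ζ ∈ N := hζ ▸ m_mem hμ lb fun r => sub_mem (l1 r) (one_mem _)
  have ζ2 : ζ ∈ N.commutant := hζ ▸ m_mem hμ lb fun r => sub_mem (l2 r) (one_mem _)
  have key : ‖(a s t - 1) + k (s + t) - g s * k t * star (g s) - k s - ζ‖ ≤ 10 * ε ^ 2 := by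
    have b1 : ∀ r, ‖(a s t - 1) + (a (s + t) r - 1)‖ ≤ ε + ε := fun r =>
      norm_add_le_of_le (a1 _ _) (a1 _ _)
    have b2 : ∀ r, ‖g s * (a t r - 1) * star (g s)‖ ≤ ε := fun r => (uA (h.un s) _).trans (a1 _ _)
    have b3 := fun r => norm_sub_le_of_le (b1 r) (b2 r)
    have b4 := fun r => norm_sub_le_of_le (b3 r) (a1 s (t + r))
    have := hμ.norm _ _ fun r => (l4 r).2
    simp only [← g1] at this
    rwa [m_sub hμ ⟨_, b4⟩ lb, m_sub hμ ⟨_, b3⟩ ⟨_, fun r => a1 s (t + r)⟩,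
      m_sub hμ ⟨_, b1⟩ ⟨_, b2⟩, hμ.add _ _ ⟨_, fun _ => a1 s t⟩ (bd _), hμ.const,
      hμ.mul _ _ _ (bd t), hμ.inv (fun r => a s r - 1) t (bd s), ← hk, ← hk, ← hk, ← hζ] at this
  have p4 := prod4 (η := 8 * ε) (wu s) (gu _ (wu t)) (w1 s)
    (by rw [← g1]; exact (uA (h.un s) _).trans (w1 t)) ((a1 s t).trans (by linarith))
    (d := star (w (s + t))) (by rw [← norm_star, star_sub, star_star, star_one]; exact w1 _)
  have q1 : ‖g s * (w t - 1 + k t) * star (g s)‖ ≤ 6 * ε ^ 2 := (uA (h.un s) _).trans (w2 t)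
  have q2 : ‖star (w (s + t) - 1 + k (s + t))‖ ≤ 6 * ε ^ 2 := by rw [norm_star]; exact w2 _
  have q3 := norm_add_le_of_le (norm_sub_le_of_le (norm_add_le_of_le (norm_add_le_of_le
    (norm_add_le_of_le p4 (w2 s)) q1) q2) (k2 (s + t))) key
  have q4 : ‖w s * (g s * w t * star (g s)) * a s t * star (w (s + t)) - (1 + ζ)‖ ≤ 413 * ε ^ 2 := by
    refine le_of_eq_of_le (congrArg _ ?_) (q3.trans_eq (by ring))
    rw [mul_add, add_mul, g1, star_add, star_sub, star_one]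
    abel
  have q5 : ‖cc (fun t => w t * g t) s t - (1 + ζ) * z s t‖ ≤ 413 * ε ^ 2 := by
    refine le_of_eq_of_le (congrArg _ ?_) ((uR (zu s t) _).trans q4)
    rw [h.cc_mul, az, sub_mul, mul_assoc _ _ (z s t), commM (star_mem (wm _)) (z2 s t)]
    simp only [mul_assoc]
  obtain ⟨z', b1, b2, b3, b4⟩ := cen_un ((h.mul wu wm).cu s t)
    (mul_mem (add_mem (one_mem _) ζ1) (z1 s t)) (mul_mem (add_mem (one_mem _) ζ2) (z2 s t)) q5
    (by nlinarith)
  exact ⟨z', b1, b2, b3, b4.trans (by nlinarith)⟩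

theorem limit {μ : (ℝ → Op H) → Op H} (hμ : Mean μ) {g₀ : ℝ → Op H} {ε : ℝ} (h : Adm N g₀)
    (hi : Inv N g₀ ε) (e0 : 0 ≤ ε) (hε : ε ≤ 1 / 10000) :
    ∃ g : ℝ → Op H, (∀ t, g t ∈ unitary (Op H)) ∧ (∀ t, ∀ n ∈ N, g t * n * star (g t) ∈ N) ∧
      (∀ s t, cc g s t ∈ N.commutant) ∧ ∀ t, ‖g t - g₀ t‖ ≤ 16 * ε := by
  have p1 : ∀ n, (1 / 2 : ℝ) ^ n ≤ 1 := fun n => pow_le_one₀ (by norm_num) (by norm_num)
  obtain ⟨G, s1, s2⟩ := exists_seq (α := ℝ → Op H)
    (P := fun n g => (Adm N g ∧ Inv N g (ε * (1 / 2) ^ n)) ∧ (n = 0 → g = g₀))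
    (Q := fun n g g' => ∀ t, ‖g' t - g t‖ ≤ 8 * ε * (1 / 2) ^ n)
    ⟨g₀, ⟨h, by simpa using hi⟩, fun _ => rfl⟩ fun n g ⟨⟨a1, a2⟩, _⟩ => by
      obtain ⟨g', b1, b2⟩ := step hμ a1 a2 ((mul_le_of_le_one_right e0 (p1 n)).trans hε)
      exact ⟨g', ⟨by rwa [pow_succ, ← mul_assoc, mul_one_div], fun h => absurd h n.succ_ne_zero⟩,
        fun t => by rw [mul_assoc]; exact b2 t⟩
  have hd : ∀ t n, dist (G n t) (G (n + 1) t) ≤ 8 * ε * (1 / 2) ^ n := fun t n => by
    rw [dist_comm, dist_eq_norm]; exact s2 n t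
  choose g hg using fun t => cauchySeq_tendsto_of_complete
    (cauchySeq_of_le_geometric (1 / 2) (8 * ε) (by norm_num) (hd t))
  refine ⟨g, fun t => ⟨?_, ?_⟩, fun t n hn => ?_, fun s t => ?_, fun t => ?_⟩
  · exact tendsto_nhds_unique ((hg t).star.mul (hg t))
      (tendsto_const_nhds.congr fun n => ((s1 n).1.1.un t).1.symm)
  · exact tendsto_nhds_unique ((hg t).mul (hg t).star)
      (tendsto_const_nhds.congr fun n => ((s1 n).1.1.un t).2.symm)
  · exact (vn_cl N).mem_of_tendsto (((hg t).mul_const n).mul (hg t).star)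
      (.of_forall fun k => (s1 k).1.1.ad t n hn)
  · choose z _ _ z2 z3 using fun n => (s1 n).1.2 s t
    have c1 : Tendsto (fun n => cc (G n) s t) atTop (𝓝 (cc g s t)) :=
      ((hg s).mul (hg t)).mul (hg (s + t)).star
    have c2 : Tendsto (fun n => cc (G n) s t - z n) atTop (𝓝 0) :=
      squeeze_zero_norm z3 (by
        simpa using (tendsto_pow_atTop_nhds_zero_of_lt_one (r := (1 / 2 : ℝ)) (by norm_num)
          (by norm_num)).const_mul ε)
    refine (vn_cl N.commutant).mem_of_tendsto (b := atTop) (f := z) ?_ (.of_forall z2)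
    simpa using c1.sub c2
  · have := dist_le_of_le_geometric_of_tendsto₀ (1 / 2) (8 * ε) (by norm_num) (hd t) (hg t)
    rw [(s1 0).2 rfl, dist_comm, dist_eq_norm] at this
    exact this.trans_eq (by ring)

theorem nc (h2 : DEStmt.{u}) [TopologicalSpace.SeparableSpace H] {ξ : H} {V : ℝ → Op H}
    {J : H → H} (hN : Mod N ξ V J) {c : Op H} {ε : ℝ} (ε0 : 0 < ε) (hc : c ∈ N) (c1 : ‖c‖ ≤ 1)
    (h : ∀ n ∈ N, ‖n * c - c * n‖ ≤ ε * ‖n‖) :
    ∃ z ∈ N, z ∈ N.commutant ∧ ‖c - z‖ ≤ 2 * kk * ε := by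
  obtain ⟨n, x, y, E, b1, b2, b3, b4, b5, b6, b7⟩ := h2 H N ξ V J hN
  obtain ⟨c', d1, d2⟩ := near_comm ε0 h
  have t1 : Tendsto (fun k => ∑ i, star (y k i) * c * y k i) atTop (𝓝 c) := by
    have := b2.mul_const c
    rw [one_mul] at this
    refine this.congr fun k => ?_
    rw [Finset.sum_mul]
    exact Finset.sum_congr rfl fun i _ => by rw [mul_assoc, mul_assoc, commM hc ((b1 k).ym i)]
  have t2 : WT (hyperfilter ℕ) (fun k => ∑ i, star (y k i) * c * y k i) c := fun v w => by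
    have c0 : Continuous fun T : Op H => ⟪w, T v⟫_ℂ := by fun_prop
    exact ((c0.tendsto c).comp t1).mono_left (Nat.hyperfilter_le_atTop)
  obtain ⟨e1, e2, -⟩ := b7 (fun _ => c) c (fun _ => c1) t2
  refine ⟨E c, e1, e2, ?_⟩
  have e3 : E c' = c' := by simpa [b5] using (b6 c' d1 1).1
  have e4 := (b4 (c - c')).trans d2
  rw [b3, e3] at e4
  have := norm_sub_le_of_le d2 e4
  rw [sub_sub_sub_cancel_right] at this
  linarith

lemma ad_near {a b : Op H} {η : ℝ} (ha : a ∈ unitary (Op H)) (hb : b ∈ unitary (Op H))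
    (h : ‖a - b‖ ≤ η) (x : Op H) : ‖a * x * star a - b * x * star b‖ ≤ 2 * η * ‖x‖ := by
  have := norm_add_le_of_le ((uR (uS ha) _).trans (nle h (le_refl ‖x‖)))
    (nle (uL hb x) (b := star (a - b)) (s := η) (by rwa [norm_star]))
  refine le_of_eq_of_le (congrArg _ ?_) (this.trans_eq (by ring))
  rw [star_sub]
  noncomm_ring

end Kz

open Kz in
theorem kazStmt (h1 : PtStmt.{u}) (h2 : DEStmt.{u}) (h3 : MeanStmt.{u}) : KazStmt.{u} := by
  obtain ⟨C, C1, hC⟩ := h1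
  have k1 := kk1
  have kC : C ≤ kk * C := le_mul_of_one_le_left (by linarith) k1
  refine ⟨1000000 * (kk * C), by linarith, ?_⟩
  intro H _ _ _ _ M N ξ U V J J' δ hM hN hcl δ0 hδ hq
  have kd : C * δ ≤ kk * C * δ := by gcongr
  have Cd : 0 < C * δ := by positivity
  choose u uu u' uu' um um' hu using hC H M N ξ U V J J' δ hM hN hcl δ0 (by linarith) hq
  obtain ⟨μ, hμ⟩ := h3 H ℝ
  have Vu := hN.toMod0.Uu
  have Vs := hN.toMod0.Ustar
  have adm : Adm N fun t => V t * u t :=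
    { un := fun t => mul_mem (Vu t) (uu t)
      ad := fun t n hn => by
        have := hN.UM t _ (mul_mem (mul_mem (um t) hn) (star_mem (um t)))
        simpa only [star_mul, Vs, mul_assoc] using this
      ce := fun t z z1 z2 => by
        rw [mul_assoc, commM (um t) z2, ← mul_assoc, hN.cen z1 z2, mul_assoc]
      co := fun s t => by
        have := mul_mem (hN.UM s _ (um s))
          (hN.UM (s + t) _ (mul_mem (um t) (star_mem (um (s + t)))))
        have e : ∀ v, V (-s) * (V (s + t) * v) = V t * v := fun v => by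
          rw [← mul_assoc, ← hN.Uadd, neg_add_cancel_left]
        simpa only [Kz.cc, star_mul, Vs, mul_assoc, e] using this }
  have ad' : ∀ t, ∀ n ∈ N, star (V t * u t) * n * (V t * u t) ∈ N := fun t n hn => by
    have := mul_mem (mul_mem (star_mem (um t)) (hN.UM (-t) n hn)) (um t)
    simpa only [star_mul, Vs, mul_assoc, neg_neg] using this
  have near : ∀ t, ∀ n ∈ N,
      ‖U t * n * star (U t) - V t * u t * n * star (V t * u t)‖ ≤ 2 * (C * δ) * ‖n‖ := by
    intro t n hn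
    have := ad_near (hM.toMod0.Uu t) (mul_mem (adm.un t) (uu' t)) (hu t) n
    refine le_of_eq_of_le (congrArg _ ?_) this
    rw [star_mul (V t * u t), mul_assoc _ (u' t), ← commM hn (um' t), mul_assoc _ (n * _),
      mul_assoc n, ← mul_assoc (u' t), (uu' t).2, one_mul, mul_assoc (V t * u t) n]
  have inv : Inv N (fun t => V t * u t) (8 * (2 * kk * (6 * (C * δ)))) := by
    intro s t
    obtain ⟨z, z1, z2, z3⟩ := nc h2 hN (c := Kz.cc (fun t => V t * u t) s t) (ε := 6 * (C * δ))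
      (by positivity) (adm.co s t) (unit_le1 (adm.cu s t)) fun n hn => by
        obtain ⟨g, hg⟩ : ∃ g : ℝ → Op H, ∀ t, g t = V t * u t := ⟨_, fun _ => rfl⟩
        have gu : ∀ t, g t ∈ unitary (Op H) := fun t => hg t ▸ adm.un t
        obtain ⟨m, hm⟩ : ∃ m, m = star (g (s + t)) * n * g (s + t) := ⟨_, rfl⟩
        have m1 : m ∈ N := by rw [hm, hg]; exact ad' _ n hn
        have m2 : ‖m‖ ≤ ‖n‖ := hm ▸ (uR (gu _) _).trans (uL (uS (gu _)) n)
        have m3 : g t * m * star (g t) ∈ N := by rw [hg]; exact adm.ad t m m1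
        have m4 : ‖g t * m * star (g t)‖ ≤ ‖n‖ := (uA (gu t) m).trans m2
        have n1 := near t m m1
        have n2 := near s _ m3
        have n3 := near (s + t) m m1
        simp only [← hg] at n1 n2 n3
        have n4 := (uA (hM.toMod0.Uu s) _).trans n1
        have n5 := norm_sub_le_of_le (norm_add_le_of_le n4 n2) n3
        have n6 := (uR (mul_mem (mul_mem (gu s) (gu t)) (uS (gu (s + t)))) _).trans n5
        have e1 : ∀ t v, star (g t) * (g t * v) = v := fun t v => by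
          rw [← mul_assoc, (gu t).1, one_mul]
        have e2 : ∀ t v, g t * (star (g t) * v) = v := fun t v => by
          rw [← mul_assoc, (gu t).2, one_mul]
        have e3 : g (s + t) * m * star (g (s + t)) = n := by
          simp only [hm, mul_assoc, e2, (gu _).2, mul_one]
        have e4 : g s * (g t * m * star (g t)) * star (g s) * (g s * g t * star (g (s + t))) =
            g s * g t * star (g (s + t)) * n := by
          simp only [hm, mul_assoc, e1, (gu _).2, mul_one]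
        simp only [Kz.cc, ← hg]
        refine le_trans (le_of_eq_of_le (congrArg _ ?_) n6) (by nlinarith)
        rw [← e4, e3, hM.Uadd, star_mul (U s)]
        noncomm_ring
    exact cen_un (adm.cu s t) z1 z2 z3 (by nlinarith)
  obtain ⟨g, g1, g2, g3, g4⟩ := limit hμ adm inv (by positivity) (by nlinarith)
  refine ⟨g, g1, g2, g3, fun t => ⟨u' t, uu' t, um' t, ?_⟩⟩
  have := norm_sub_le_of_le (hu t) ((uR (uu' t) _).trans (g4 t))
  refine le_trans (le_of_eq_of_le (congrArg _ (by noncomm_ring)) this) (by nlinarith)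

end Vale.Agent.P096
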