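import Vale.Agent.P096.Pre2

/-! The modular group and conjugation after Rieffel and van Daele. -/

open Vale.Agent.P104 Vale.Agent.P085 Filter Topology Complex
open scoped InnerProductSpace

set_option linter.unusedSectionVars false

namespace Vale.Agent.P096

namespace RV

variable {H : Type*} [NormedAddCommGroup H] [InnerProductSpace ℂ H] [CompleteSpace H]
  (Φ : C(X, ℂ) →⋆ₐ[ℂ] Op H)

lemma Φn (f : C(X, ℂ)) : ‖Φ f‖ ≤ ‖f‖ := NonUnitalStarAlgHom.norm_apply_le Φ f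

/-- The functional calculus as a continuous linear map. -/
noncomputable def ΦL : C(X, ℂ) →L[ℂ] Op H :=
  LinearMap.mkContinuous Φ.toAlgHom.toLinearMap 1 fun f => by simpa using Φn Φ f

lemma Φc : Continuous Φ := (ΦL Φ).continuous

lemma Φm (f g : C(X, ℂ)) (v : H) : Φ f (Φ g v) = Φ (f * g) v := by rw [map_mul]; rfl

lemma Φd (n : ℕ) (v : H) : Differentiable ℂ fun z => Φ (E n z) v :=
  ((ΦL Φ).differentiable.comp (E_diff n)).clm_apply (differentiable_const v)

lemma Φpos (f : C(X, ℂ)) (h : ∀ r, ∃ c : ℝ, 0 ≤ c ∧ f r = c) (v : H) :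
    0 ≤ (⟪v, Φ f v⟫_ℂ).re := by
  have e : f = star (oR ⟨fun r => √(f r).re, by fun_prop⟩) *
      oR ⟨fun r => √(f r).re, by fun_prop⟩ := by
    rw [star_oR]
    ext r
    obtain ⟨c, hc, e⟩ := h r
    simp [oR, e, ← ofReal_mul, Real.mul_self_sqrt hc]
  rw [e, map_mul, map_star, ← normsq_eq]
  positivity

lemma Φle (f g : C(X, ℂ)) (h : ∀ r, ‖f r‖ ≤ ‖g r‖) (v : H) : ‖Φ f v‖ ≤ ‖Φ g v‖ := by
  have := Φpos Φ (star g * g - star f * f) (fun r => ⟨‖g r‖ ^ 2 - ‖f r‖ ^ 2,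
    sub_nonneg.2 (pow_le_pow_left₀ (norm_nonneg _) (h r) 2), by simp [conj_mul']⟩) v
  rw [map_sub, _root_.sub_apply, inner_sub_right, sub_re, map_mul, map_mul, map_star, map_star,
    ← normsq_eq, ← normsq_eq] at this
  exact le_of_sq_le_sq (by linarith) (norm_nonneg _)

lemma Φconst (c : ℂ) (v : H) : Φ (.const X c) v = c • v := by
  rw [show ContinuousMap.const X c = algebraMap ℂ C(X, ℂ) c by ext; simp, AlgHomClass.commutes,
    Algebra.algebraMap_eq_smul_one]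
  rfl

variable {M : VonNeumannAlgebra H} {ξ : H} {C : H →SL[starRingEnd ℂ] H} {Φ}
  (D : Dat M ξ (Φ ρ) C)
include D

lemma Dat.key (f : C(X, ℂ)) : ∀ v, C (Φ f v) = Φ (fl f) (C v) := by
  have hc := Φc Φ
  have hf := fl_cont
  refine indX (p := fun f => ∀ v, C (Φ f v) = Φ (fl f) (C v)) (fun c v => ?_) (fun v => ?_)
    (fun f g a b v => ?_) (fun f g a b v => ?_) ?_ f
  · rw [show fl (.const X c) = .const X (starRingEnd ℂ c) from rfl, Φconst, Φconst, C.map_smulₛₗ]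
  · rw [D.CR, fl_ρ, map_sub, map_ofNat]
  · rw [fl_add, map_add, map_add, _root_.add_apply, _root_.add_apply, map_add, a, b]
  · rw [fl_mul, ← Φm, ← Φm, a, b]
  · rw [Set.ofPred_forall]
    exact isClosed_iInter fun v => isClosed_eq (by fun_prop) (by fun_prop)

lemma Dat.fix (f : C(X, ℂ)) : Φ f ξ = f o1 • ξ := by
  have hc := Φc Φ
  refine indX (p := fun f => Φ f ξ = f o1 • ξ) (fun c => Φconst _ _ _) ?_
    (fun f g a b => ?_) (fun f g a b => ?_) (isClosed_eq (by fun_prop) (by fun_prop)) f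
  · rw [D.Rξ]; simp [ρ_app, o1]
  · rw [map_add, _root_.add_apply, a, b, ← add_smul]; rfl
  · rw [← Φm, b, map_smul, a, smul_smul, mul_comm]; rfl

lemma Dat.TT (v : H) : Φ τ (Φ τ v) = C (C v) := by
  rw [D.CC, Φm, τ_sq, map_mul, map_sub, map_ofNat]; rfl

omit D in
lemma Tsa : star (Φ τ) = Φ τ := by rw [← map_star, star_τ]

lemma Dat.inn (u v : H) : ⟪C u, C v⟫_ℂ = ⟪Φ τ v, Φ τ u⟫_ℂ := by
  rw [D.sym, ← D.TT, ← inner_star_r, Tsa]

lemma Dat.dense : DenseRange (Φ τ) := by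
  refine Submodule.dense_iff_topologicalClosure_eq_top (s := LinearMap.range (Φ τ).toLinearMap)
    |>.2 ?_
  rw [Submodule.topologicalClosure_eq_top_iff, eq_bot_iff]
  intro v hv
  have h1 : Φ τ v = 0 := by
    have := hv _ ⟨Φ τ v, rfl⟩
    rw [ContinuousLinearMap.coe_coe, ← inner_star_r, Tsa] at this
    exact inner_self_eq_zero.1 this
  have h2 := D.TT v
  rw [h1, map_zero, D.CC] at h2
  exact D.i2 v (D.i0 _ h2.symm)

lemma Dat.lim (v : H) : Tendsto (fun n => Φ (χ n) v) atTop (𝓝 v) := by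
  have hb : ∀ n, ‖Φ (χ n)‖ ≤ 1 := fun n => (Φn Φ _).trans (norm_χ n)
  refine D.dense.induction_on v ?_ fun w => ?_
  · refine isClosed_of_closure_subset fun v hv => Metric.tendsto_nhds.2 fun ε hε => ?_
    obtain ⟨w, hw, h⟩ := Metric.mem_closure_iff.1 hv (ε / 3) (by positivity)
    filter_upwards [Metric.tendsto_nhds.1 hw (ε / 3) (by positivity)] with n hn
    have h1 : dist (Φ (χ n) v) (Φ (χ n) w) ≤ dist v w := by
      rw [dist_eq_norm, dist_eq_norm, ← map_sub]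
      simpa using (Φ (χ n)).le_of_opNorm_le (hb n) (v - w)
    have h2 := dist_triangle4 (Φ (χ n) v) (Φ (χ n) w) w v
    rw [dist_comm w v] at h2
    linarith
  · simp only [Φm]
    have hc := Φc Φ
    exact ((show Continuous fun f => Φ f w by fun_prop).tendsto τ).comp lim_χ

lemma Dat.ind {p : H → Prop} (hp : IsClosed {v | p v}) (h : ∀ n v, p (Φ (χ n) v)) (v : H) :
    p v := hp.mem_of_tendsto (D.lim v) (.of_forall fun n => h n v)

lemma Dat.ext {S T : Op H} (h : ∀ n v, S (Φ (χ n) v) = T (Φ (χ n) v)) : S = T :=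
  ContinuousLinearMap.ext (D.ind (isClosed_eq S.continuous T.continuous) h)

lemma Dat.ext' {u v : H} (h : ∀ n, Φ (χ n) u = Φ (χ n) v) : u = v :=
  tendsto_nhds_unique (D.lim u) (by simp only [h]; exact D.lim v)

lemma Dat.exists_J : ∃ J : H →SL[starRingEnd ℂ] H, ∀ v, J (Φ τ v) = C v :=
  ⟨_, LinearMap.extendOfNorm_eq (f := C.toLinearMap) (e := (Φ τ).toLinearMap) D.dense ⟨1, fun v => by
    have := congrArg re (D.inn v v)
    rw [re_self, re_self] at this
    rw [one_mul]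
    exact le_of_sq_le_sq this.le (norm_nonneg _)⟩⟩

omit D in
lemma exists_U : ∃ U : ℝ → Op H, ∀ t, ‖U t‖ ≤ 1 ∧ (∀ f, Φ f * U t = U t * Φ f) ∧
    ∀ n v, U t (Φ (χ n) v) = Φ (E n t * χ n) v := by
  choose U h1 h2 using fun t : ℝ => wlim (hyperfilter ℕ) (fun n => Φ (E n t)) zero_le_one
    fun n => (Φn Φ _).trans (norm_E n t)
  refine ⟨U, fun t => ⟨h1 t, fun f => wt_comm (h2 t) (.of_forall fun n => by
    rw [← map_mul, ← map_mul, mul_comm]), fun n v => ext_inner_left ℂ fun η => ?_⟩⟩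
  refine tendsto_nhds_unique (h2 t _ η) (tendsto_const_nhds.congr' ?_)
  filter_upwards [Nat.hyperfilter_le_atTop (eventually_ge_atTop n)] with k hk
  rw [Φm, E_χ hk]

omit D in
lemma ident {α β : ℂ → H} (ha : Differentiable ℂ α) (hb : Differentiable ℂ β)
    (h : ∀ t : ℝ, α t = β t) : α = β := by
  refine (ha.differentiableOn.analyticOnNhd isOpen_univ).eq_of_frequently_eq
    (hb.differentiableOn.analyticOnNhd isOpen_univ) (z₀ := 0) ?_
  have h1 : Tendsto (fun n : ℕ => ((1 / ((n : ℝ) + 1) : ℝ) : ℂ)) atTop (𝓝[≠] 0) := by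
    refine tendsto_nhdsWithin_iff.2 ⟨?_, .of_forall fun n => ?_⟩
    · exact (continuous_ofReal.tendsto' 0 0 ofReal_zero).comp
        tendsto_one_div_add_atTop_nhds_zero_nat
    · exact ofReal_ne_zero.2 (by positivity)
  exact h1.frequently (.of_forall fun n => h _)

section

variable {J : H →SL[starRingEnd ℂ] H} (hJ : ∀ v, J (Φ τ v) = C v)
include hJ

lemma Dat.Jf (f : C(X, ℂ)) (v : H) : J (Φ f v) = Φ (fl f) (J v) :=
  D.dense.induction_on v (isClosed_eq (by fun_prop) (by fun_prop)) fun w => by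
    rw [Φm, mul_comm, ← Φm, hJ, hJ, D.key]

lemma Dat.JT (v : H) : J (Φ τ v) = Φ τ (J v) := by rw [D.Jf hJ, fl_τ]

lemma Dat.JJ (v : H) : J (J v) = v :=
  (D.dense.comp D.dense (Φ τ).continuous).induction_on v (isClosed_eq (by fun_prop) (by fun_prop))
    fun w => by
      rw [Function.comp_apply, D.JT hJ, hJ, hJ, D.TT]

lemma Dat.Jinn (v w : H) : ⟪J v, J w⟫_ℂ = ⟪w, v⟫_ℂ :=
  D.dense.induction_on₂ (p := fun v w => ⟪J v, J w⟫_ℂ = ⟪w, v⟫_ℂ)
    (isClosed_eq (by fun_prop) (by fun_prop)) (fun v w => by rw [hJ, hJ, D.inn]) v w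

lemma Dat.st (n : ℕ) {x : Op H} (hx : x ∈ M) :
    Φ (χ n) (J (star x ξ)) = Φ (E n (-(I / 2)) * χ n) (x ξ) := by
  conv_lhs => rw [← τ_iv n, mul_assoc, mul_comm τ, ← Φm, ← D.JT hJ, hJ, D.CM x hx,
    ← map_ofNat Φ 2, ← map_sub, Φm, mul_comm, ← mul_assoc, two_iv]

lemma Dat.real {x y : Op H} (hx : x ∈ M) (hy : y ∈ M) (hx' : star x = x) (hy' : star y = y) :
    (⟪y ξ, J (x ξ)⟫_ℂ).im = 0 := by
  have hs : star (Φ ρ) = Φ ρ := D.R0.isSelfAdjoint
  have a := D.CM x hx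
  have b := D.CM y hy
  rw [hx'] at a
  rw [hy'] at b
  have c : Φ ρ (J (x ξ)) = C (J (x ξ)) := by
    have e : fl (2 - ρ) = ρ := by ext r; simp [fl_app, ρ_app, fp, two_app]
    rw [← e, ← D.Jf hJ, map_sub, map_ofNat, ← a, ← hJ, D.JT hJ (x ξ), hJ]
  have d := D.sym (y ξ) (J (x ξ))
  rw [← c, b, two_sub, inner_sub_right, inner_add_right, ← inner_star_l (Φ ρ) (J (x ξ)), hs,
    ← inner_conj_symm (Φ ρ _), ← inner_conj_symm (J (x ξ))] at d
  have := congrArg im d
  simp only [sub_im, add_im, conj_im] at this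
  linarith

end

theorem Dat.pre (h1 : DenseRange (ev M ξ)) (h2 : DenseRange (ev M.commutant ξ)) :
    ∃ U J, Pre M ξ U J (Φ ρ) (Φ τ) := by
  obtain ⟨J, hJ⟩ := D.exists_J
  obtain ⟨U, hU⟩ := exists_U (Φ := Φ)
  have Un := fun t => (hU t).1
  have Uc := fun t => (hU t).2.1
  have Uf : ∀ t f v, Φ f (U t v) = U t (Φ f v) := fun t f v => congr($(Uc t f) v)
  have Ux := fun t => (hU t).2.2
  have hξ : Φ (χ 1) ξ = ξ := by rw [D.fix, χ_o1, one_smul]
  have hT : Φ τ ξ = ξ := by rw [D.fix, τ_o1, one_smul]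
  have UG : ∀ (t : ℝ) n z v, U t (Φ (E n z * χ n) v) = Φ (E n (z + t) * χ n) v := fun t n z v => by
    rw [← Φm, ← Uf, Ux, Φm, E_add, mul_assoc]
  have Gd : ∀ n v, Differentiable ℂ fun z => Φ (E n z * χ n) v := fun n v => by
    simp only [← Φm]; exact Φd Φ n _
  refine ⟨U, J, ⟨h1, h2, D.ext fun n v => ?_, fun s t => D.ext fun n v => ?_, fun t => D.ext
    fun n v => ?_, fun v => ?_, fun t => ?_, J.map_add, J.map_smulₛₗ, D.Jinn hJ, D.JJ hJ,
    fun t => D.ind (isClosed_eq (by fun_prop) (by fun_prop)) fun n v => ?_, ?_,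
    fun α ha hα x hx h0 => D.ext' fun n => ?_, fun x hx => ?_, fun x hx m t => ?_⟩,
    D.R0.isSelfAdjoint, Tsa, fun t => (Uc t _).symm, fun t => (Uc t _).symm, D.JT hJ,
    fun x hx => by rw [hJ, D.CM x hx], fun v x hx h => by rw [hJ]; exact D.PQ v x hx h,
    fun x hx y hy => D.real hJ hx hy, fun v ε hε => ?_⟩
  · rw [Ux, ofReal_zero, E_zero, one_mul]; rfl
  · rw [mul_apply_eq_comp, Ux, Ux, UG, ofReal_add, add_comm]
  · have e : U t * Φ (χ n) = Φ (E n t * χ n) := ContinuousLinearMap.ext (Ux t n)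
    have e' := congrArg star e
    rw [← Uc, star_mul, ← map_star, ← map_star, star_mul, star_χ, star_E, mul_comm (χ n)] at e'
    rw [Ux, ← e']; rfl
  · refine continuous_of_uniform_approx_of_continuous fun u hu => ?_
    obtain ⟨ε, hε, h⟩ := Metric.mem_uniformity_dist.1 hu
    obtain ⟨n, hn⟩ := (Metric.tendsto_nhds.1 (D.lim v) ε hε).exists
    refine ⟨fun t => Φ (E n t * χ n) v, (Gd n v).continuous.comp continuous_ofReal, fun t => h ?_⟩
    beta_reduce
    rw [← Ux, dist_comm, dist_eq_norm, ← map_sub]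
    rw [dist_eq_norm] at hn
    exact (((U t).le_of_opNorm_le (Un t) _).trans (one_mul _).le).trans_lt hn
  · conv_lhs => rw [← hξ]
    rw [Ux, D.fix, ContinuousMap.mul_apply, E_o1, χ_o1, one_mul, one_smul]
  · rw [Ux, D.Jf hJ, D.Jf hJ, fl_mul, fl_E, fl_χ, Ux]
  · have a := D.CM 1 (one_mem _)
    rw [star_one, one_apply_eq_self, two_sub, D.Rξ, add_sub_cancel_right] at a
    conv_lhs => rw [← hT]
    rw [hJ, a]
  · rw [D.st hJ n hx]
    refine congrFun (ident ((Φ (χ n)).differentiable.comp ha) (Gd n (x ξ)) fun t => ?_) _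
    have := hα t 0
    rw [zero_add, h0] at this
    rw [Function.comp_apply, ← this, Uf, Ux]
  · refine ge_of_tendsto' (x := atTop) (((show Continuous fun v => (⟪v, x ξ⟫_ℂ).re by
      fun_prop).tendsto _).comp (D.lim (J (star x ξ)))) fun n => ?_
    rw [Function.comp_apply, D.st hJ n hx, re_comm]
    refine Φpos Φ _ (fun r => ⟨Real.exp (lg n r / 2) * ch n r,
      mul_nonneg (Real.exp_pos _).le (ch_nn n r), ?_⟩) _
    rw [ContinuousMap.mul_apply, E_neg, χ_app, ofReal_mul]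
  · refine le_of_tendsto_of_tendsto' (D.lim _).norm ((D.lim _).norm.const_mul _) fun n => ?_
    have h0 : 0 ≤ 4 * |t| + 4 := by positivity
    have := Φle Φ ((E n t - .const X (cexp (I * t * m))) * χ n) (.const X ((4 * |t| + 4 : ℝ) : ℂ) *
      ((.const X (cexp (-(m / 2))) * E n (-(I / 2)) - 1) * χ n)) (fun r => by
        simp only [ContinuousMap.mul_apply, ContinuousMap.sub_apply, ContinuousMap.const_apply,
          ContinuousMap.one_apply, E_neg, norm_mul, norm_real, Real.norm_of_nonneg h0]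
        rw [← mul_assoc, E_app]
        exact mul_le_mul_of_nonneg_right (lip0 _ _ _) (norm_nonneg _)) (x ξ)
    rw [← Φm _ (.const X _), Φconst, norm_smul, norm_real, Real.norm_of_nonneg h0, sub_mul, sub_mul,
      map_sub, map_sub, _root_.sub_apply, _root_.sub_apply, mul_assoc (.const X _ : C(X, ℂ)),
      ← Φm _ (.const X _),
      ← Φm _ (.const X _), Φconst, Φconst, one_mul, ← D.st hJ n hx, ← Ux] at this
    rw [map_sub, map_sub, map_smul, map_smul, Uf]
    exact this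
  · obtain ⟨n, hn⟩ := (Metric.tendsto_nhds.1 (D.lim v) ε hε).exists
    refine ⟨fun z => Φ (E n z * χ n) v, Gd n v, fun t z => UG t n z v, ?_, Φ (iv n * χ n) v,
      ?_, ?_, ?_⟩
    · beta_reduce
      rwa [E_zero, one_mul, ← dist_eq_norm]
    · beta_reduce
      rw [Φm, ← mul_assoc, τ_iv, E_zero, one_mul]
    · rw [← map_ofNat Φ 2, ← map_sub, Φm, ← mul_assoc, two_iv]
    · rw [Φm, ← mul_assoc, ρ_iv]

end RV

universe u

theorem preStmt : PreStmt.{u} := by
  intro H _ _ _ M ξ h1 h2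
  obtain ⟨R, C, D⟩ := RV.exists_dat M ξ h1 h2
  obtain ⟨Φ, rfl⟩ := RV.exists_Φ D.R0 D.R2
  obtain ⟨U, J, h⟩ := D.pre h1 h2
  exact ⟨U, J, _, _, h⟩

end Vale.Agent.P096
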