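import Vale.Agent.P096.Base

/-! Module P: the two modular groups agree pointwise up to unitaries of `N` and `N'`. -/

open Finset Vale.Agent.P104 Vale.Agent.P085 Filter Topology MeasureTheory Complex
open scoped InnerProductSpace InnerProduct

set_option linter.unusedSectionVars false

namespace Vale.Agent.P096

universe u

namespace PT

variable {H : Type u} [NormedAddCommGroup H] [InnerProductSpace ℂ H] [CompleteSpace H]
  {M N : VonNeumannAlgebra H} {a b w T T' : Op H} {γ γ' δ : ℝ}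

/-- `w` is within `γ` of a product of unitaries of `M` and `M'` -/
def UU (M : VonNeumannAlgebra H) (w : Op H) (γ : ℝ) : Prop :=
  ∃ u ∈ unitary (Op H), ∃ u' ∈ unitary (Op H), u ∈ M ∧ u' ∈ M.commutant ∧ ‖u * u' - w‖ ≤ γ

lemma UU.star (h : UU M w γ) : UU M (star w) γ := by
  obtain ⟨u, h1, u', h2, h3, h4, h5⟩ := h
  refine ⟨_, Unitary.star_mem h1, _, Unitary.star_mem h2, star_mem h3, star_mem h4, ?_⟩
  rwa [← star_mul, ← commM h3 h4, ← star_sub, norm_star]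

lemma inv_mem {r r' : Op H} (hr : r ∈ M) (h1 : r' * r = 1) (h2 : r * r' = 1) : r' ∈ M :=
  memM fun y hy => by
    calc y * r' = r' * (r * y) * r' := by rw [← mul_assoc, h1, one_mul]
      _ = r' * y := by rw [commM hr hy, mul_assoc, mul_assoc, h2, mul_one]

lemma inv_ge {p : Op H} (p0 : 0 ≤ p) : ∃ r : Op H, r * (p + 1) = 1 ∧ (p + 1) * r = 1 ∧ ‖r‖ ≤ 1 :=
  exists_inv (add_nonneg p0 zero_le_one) fun ξ => by
    have := qf_nonneg p0 ξ
    rw [← qf_one]; simp only [qf, add_apply, inner_add_right, Complex.add_re] at this ⊢; linarith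

lemma pol1 (ha : a ∈ M) : ∃ r ∈ M, 0 ≤ r ∧ r * r = star a * a ∧
    (IsUnit a → IsUnit r → ∃ u ∈ unitary (Op H), u ∈ M ∧ a = u * r) := by
  obtain ⟨r, r0, r2, r3⟩ := exists_sq (star_mul_self_nonneg a)
  have rM : r ∈ M := memM fun y hy =>
    (r3 y (show Commute (star a * a) y from commM (mul_mem (star_mem ha) ha) hy)).eq.symm
  refine ⟨r, rM, r0, r2, ?_⟩
  rintro ua ⟨r, rfl⟩
  have ps : star (r : Op H) = r := r0.isSelfAdjoint.star_eq
  have u1 : star (a * ↑r⁻¹) * (a * ↑r⁻¹) = 1 := by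
    rw [star_mul, inv_sa ps, mul_assoc, ← mul_assoc (star _), ← r2]; simp
  have u2 := (ua.mul r⁻¹.isUnit).mem_unitary_of_star_mul_self u1
  refine ⟨a * (↑r⁻¹ : Op H), u2, mul_mem ha (inv_mem rM r.inv_mul r.mul_inv), ?_⟩
  rw [mul_assoc, r.inv_mul, mul_one]

lemma pol2 (ha : a ∈ M) (hb : b ∈ M.commutant) (hw : w ∈ unitary (Op H))
    (h : ‖a * b - w‖ ≤ γ) (hγ : γ ≤ 1 / 6) : UU M w (4 * γ) := by
  have γ0 := (norm_nonneg _).trans h
  have h1 : ‖star w * (a * b) - 1‖ ≤ γ := by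
    simpa [mul_sub, hw.1] using nle (unit_le1 (Unitary.star_mem hw)) h
  obtain ⟨r, rM, r0, r2, r3⟩ := pol1 ha
  obtain ⟨s, sM, s0, s2, s3⟩ := pol1 hb
  have rs : Commute r s := commM rM sM
  have ab : Commute a b := commM ha hb
  have t1 : ‖r * s * (r * s) - 1‖ ≤ 3 * γ := by
    have := conj_near (a := star (star w * (a * b))) (r := γ)
      (by rwa [← norm_star, star_sub, star_star, star_one]) h1 1
    rw [mul_one, star_mul, star_star, mul_assoc, ← mul_assoc w, hw.2, one_mul, star_mul,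
      mul_assoc, ← mul_assoc (star a), ← mul_assoc, ← commM (mul_mem (star_mem ha) ha)
      (star_mem hb), mul_assoc, ← r2, ← s2, rs.mul_mul_mul_comm] at this
    exact this.trans ((mul_le_of_le_one_right (by positivity) n1).trans (by nlinarith))
  obtain ⟨c, -, c2, c3⟩ := inv_ge (rs.mul_nonneg r0 s0)
  have p1 : ‖r * s - 1‖ ≤ 3 * γ := by
    have := nle t1 c3
    rwa [show r * s * (r * s) - 1 = (r * s - 1) * (r * s + 1) by noncomm_ring,
      mul_assoc, c2, mul_one, mul_one] at this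
  have u1 := rs.isUnit_mul_iff.1 (exists_un (p1.trans (by linarith)))
  have u2 : IsUnit (a * b) := by
    have := (Unitary.isUnit_coe (U := ⟨w, hw⟩)).mul (exists_un (h1.trans (by linarith)))
    rwa [← mul_assoc, hw.2, one_mul] at this
  obtain ⟨u, h2, h3, rfl⟩ := r3 (ab.isUnit_mul_iff.1 u2).1 u1.1
  obtain ⟨u', h4, h5, rfl⟩ := s3 (ab.isUnit_mul_iff.1 u2).2 u1.2
  refine ⟨u, h2, u', h4, h3, h5, ?_⟩
  have := norm_sub_le_of_le h (nle (unit_le1 (mul_mem h2 h4)) p1)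
  rw [mul_assoc u r, ← mul_assoc r, commM rM h5] at this
  exact le_of_eq_of_le (congrArg _ (by noncomm_ring)) (this.trans_eq (by ring))

lemma trick {Φ : Op H → Op H} (γ0 : 0 < γ) (hγ : kk * (2 * γ) ≤ 1)
    (h1 : ∀ S T, Φ (S - T) = Φ S - Φ T) (h2 : ∀ T, ‖Φ T‖ ≤ ‖T‖)
    (h3 : ∀ a ∈ M, ∀ T, Φ (a * T) = a * Φ T ∧ Φ (T * a) = Φ T * a) (hT : T ∈ unitary (Op H))
    (h : ∀ y ∈ M, ∃ y' ∈ M, ‖star T * y * T - y'‖ ≤ γ * ‖y‖) :
    ∃ m ∈ M.commutant, ‖Φ T - m * T‖ ≤ kk * (2 * γ) ∧ ‖m‖ ≤ 2 := by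
  have t1 := unit_le1 hT
  have t2 := unit_le1 (Unitary.star_mem hT)
  have t3 := (h2 T).trans t1
  obtain ⟨m, m1, m2⟩ := near_comm (N := M) (a := Φ T * star T) (ε := 2 * γ) (by positivity)
    fun y hy => by
      obtain ⟨y', a1, a2⟩ := h y hy
      have := nle (norm_sub_le_of_le ((h2 _).trans (nle t1 a2)) (nle t3 a2)) t2
      rw [mul_sub T, h1, (h3 _ a1 T).2, ← mul_assoc, ← mul_assoc, hT.2, one_mul, (h3 _ hy T).1]
        at this
      refine le_of_eq_of_le (congrArg _ ?_) (this.trans_eq (by ring))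
      simp only [mul_sub, sub_mul, mul_assoc, hT.2, mul_one]
      abel
  refine ⟨m, m1, by simpa [sub_mul, mul_assoc, hT.1] using nle m2 t1, ?_⟩
  rw [norm_sub_rev] at m2
  linarith [nle' m2 (nle t3 t2)]

section kraus
variable {n : ℕ} {y : Fin n → Op H}

lemma col_le (h : ∑ i, star (y i) * y i ≤ 1) (v : H) : nn (fun i => y i v) ≤ ‖v‖ := by
  refine nn_le (norm_nonneg _) ?_
  have := qf_nonneg (sub_nonneg.2 h) v
  rw [qf, sub_apply, inner_sub_right, sub_re, ← qf, ← qf, qf_one, qf_sum] at this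
  simp only [normsq_eq]
  exact sub_nonneg.1 this

lemma kr_inner (h : ∑ i, star (y i) * y i ≤ 1) (T : Op H) (v w : H) :
    ‖⟪w, (∑ i, star (y i) * T * y i) v⟫_ℂ‖ ≤ ‖w‖ * nn fun i => T (y i v) := by
  simp only [_root_.sum_apply, inner_sum, mul_apply_eq_comp, inner_star_r]
  exact (nn_inner _ _).trans (mul_le_mul_of_nonneg_right (col_le h w) (nn_nonneg _))

lemma kr_le (h : ∑ i, star (y i) * y i ≤ 1) (T : Op H) : ‖∑ i, star (y i) * T * y i‖ ≤ ‖T‖ := by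
  refine ContinuousLinearMap.opNorm_le_bound _ (norm_nonneg _) fun v => ?_
  have a := kr_inner h T v ((∑ i, star (y i) * T * y i) v)
  have b := (nn_mono (norm_nonneg T) fun i => T.le_opNorm (y i v)).trans
    (mul_le_mul_of_nonneg_left (col_le h v) (norm_nonneg T))
  rw [inner_self_eq_norm_sq_to_K, norm_pow, RCLike.norm_ofReal, abs_norm] at a
  have c := mul_le_mul_of_nonneg_left b (norm_nonneg ((∑ i, star (y i) * T * y i) v))
  by_contra hc
  nlinarith [mul_nonneg (norm_nonneg T) (norm_nonneg v)]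

end kraus

lemma wt_mul {ι : Type*} {l : Filter ι} {x t : ι → Op H} {y t' : Op H} (h : WT l x y) {C : ℝ}
    (hC : ∀ i, ‖x i‖ ≤ C) (ht : ∀ v, Tendsto (fun i => t i v) l (𝓝 (t' v))) :
    WT l (fun i => x i * t i) (y * t') := fun v w => by
  have t1 : Tendsto (fun i => x i (t i v - t' v)) l (𝓝 0) := squeeze_zero_norm
    (fun i => (x i).le_of_opNorm_le (hC i) _) (by
      simpa using ((ht v).sub_const (t' v)).norm.const_mul C)
  simpa [inner_sub_right] using ((tendsto_const_nhds (x := w)).inner (𝕜 := ℂ) t1).add (h (t' v) w)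

/-- `T` nearly normalises `M` and `M'` -/
structure NN (M : VonNeumannAlgebra H) (T : Op H) (γ : ℝ) : Prop where
  un : T ∈ unitary (Op H)
  cp : ∀ q, Cp M q → T * q = q * T
  m : ∀ x ∈ M, ∃ x' ∈ M, ‖star T * x * T - x'‖ ≤ γ * ‖x‖
  m' : ∀ x ∈ M.commutant, ∃ x' ∈ M.commutant, ‖star T * x * T - x'‖ ≤ γ * ‖x‖

lemma cj_le (hT : T ∈ unitary (Op H)) (h : ‖a‖ ≤ γ) : ‖star T * a * T‖ ≤ γ := by
  simpa using nle (nle (unit_le1 (Unitary.star_mem hT)) h) (unit_le1 hT)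

lemma nr_mul (hT : T ∈ unitary (Op H)) (hT' : T' ∈ unitary (Op H)) (γ0 : 0 ≤ γ')
    (h : ∀ x ∈ M, ∃ x' ∈ M, ‖star T * x * T - x'‖ ≤ γ * ‖x‖)
    (h' : ∀ x ∈ M, ∃ x' ∈ M, ‖star T' * x * T' - x'‖ ≤ γ' * ‖x‖) :
    ∀ x ∈ M, ∃ x' ∈ M, ‖star (T * T') * x * (T * T') - x'‖ ≤ (γ + γ' * (γ + 1)) * ‖x‖ := by
  intro x hx
  obtain ⟨y, y1, y2⟩ := h x hx
  obtain ⟨z, z1, z2⟩ := h' y y1
  have a := nle' ((norm_sub_rev _ _).trans_le y2) (cj_le hT (le_refl ‖x‖))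
  have := norm_add_le_of_le (cj_le hT' y2) (z2.trans (mul_le_mul_of_nonneg_left a γ0))
  refine ⟨z, z1, le_of_eq_of_le (congrArg _ ?_) (this.trans_eq (by ring))⟩
  rw [star_mul]; noncomm_ring

lemma NN.mul (h : NN M T γ) (h' : NN M T' γ') (γ0 : 0 ≤ γ') : NN M (T * T') (γ + γ' * (γ + 1)) :=
  ⟨mul_mem h.un h'.un, fun q hq => by rw [mul_assoc, h'.cp q hq, ← mul_assoc, h.cp q hq, mul_assoc],
    nr_mul h.un h'.un γ0 h.m h'.m, nr_mul h.un h'.un γ0 h.m' h'.m'⟩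

lemma NN.mull (h : NN M T 0) (h' : NN M T' γ) (γ0 : 0 ≤ γ) : NN M (T * T') γ := by
  simpa using h.mul h' γ0

lemma NN.mulr (h : NN M T γ) (h' : NN M T' 0) : NN M (T * T') γ := by
  simpa using h.mul h' le_rfl

lemma NN.of (hT : T ∈ unitary (Op H)) (h1 : ∀ q, Cp M q → T * q = q * T)
    (h2 : ∀ x ∈ M, star T * x * T ∈ M) (h3 : ∀ x ∈ M.commutant, star T * x * T ∈ M.commutant) :
    NN M T 0 := ⟨hT, h1, fun x hx => ⟨_, h2 x hx, by simp⟩, fun x hx => ⟨_, h3 x hx, by simp⟩⟩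

lemma NN.mem (hT : T ∈ unitary (Op H)) (h : T ∈ M) : NN M T 0 :=
  .of hT (fun _ hq => commM h hq.2.2) (fun _ hx => mul_mem (mul_mem (star_mem h) hx) h)
    fun x hx => by rwa [mul_assoc, ← commM h hx, ← mul_assoc, hT.1, one_mul]

lemma NN.mem' (hT : T ∈ unitary (Op H)) (h : T ∈ M.commutant) : NN M T 0 :=
  .of hT (fun _ hq => (commM hq.2.1 h).symm)
    (fun x hx => by rwa [mul_assoc, commM hx h, ← mul_assoc, hT.1, one_mul])
    fun _ hx => mul_mem (mul_mem (star_mem h) hx) h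

lemma nr_cl (hT : T ∈ unitary (Op H)) (h1 : Nr M N δ) (h2 : Nr N M δ) (δ0 : 0 ≤ δ) (δ1 : δ ≤ 1)
    (h : ∀ x ∈ N, star T * x * T ∈ N) :
    ∀ x ∈ M, ∃ x' ∈ M, ‖star T * x * T - x'‖ ≤ 3 * δ * ‖x‖ := by
  intro x hx
  obtain ⟨y, y1, y2⟩ := h1 x hx
  obtain ⟨z, z1, z2⟩ := h2 _ (h y y1)
  have a := cj_le hT (nle' ((norm_sub_rev _ _).trans_le y2) (le_refl ‖x‖))
  have := norm_add_le_of_le (cj_le hT y2) (z2.trans (mul_le_mul_of_nonneg_left a δ0))
  refine ⟨z, z1, le_of_eq_of_le (congrArg _ (by noncomm_ring)) (this.trans ?_)⟩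
  nlinarith [mul_le_mul_of_nonneg_right δ1 (mul_nonneg δ0 (norm_nonneg x))]

variable {ξ : H} {U V : ℝ → Op H} {J J' : H → H}

lemma nnU (h : Mod M ξ U J) (t : ℝ) : NN M (U t) 0 :=
  .of (h.Uu t) (fun _ hq => h.cen hq.2.1 hq.2.2 t)
    (fun x hx => by simpa only [h.Ustar, neg_neg] using h.UM (-t) x hx)
    fun x hx => by simpa only [h.Ustar, neg_neg] using h.UM' (-t) hx

lemma nnV (h : Mod N ξ V J) (hc : Cl M N δ) (δ0 : 0 ≤ δ) (δ1 : δ ≤ 1)
    (hq : ∀ q, Cp M q → Cp N q) (t : ℝ) : NN M (V t) (3 * δ) :=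
  ⟨h.Uu t, fun q a => (nnU h t).cp q (hq q a),
    nr_cl (h.Uu t) hc.mn hc.nm δ0 δ1
      fun x hx => by simpa only [h.Ustar, neg_neg] using h.UM (-t) x hx,
    nr_cl (h.Uu t) hc.mn' hc.nm' δ0 δ1
      fun x hx => by simpa only [h.Ustar, neg_neg] using h.UM' (-t) hx⟩

/-- the conclusion of `DEStmt` -/
def DE (M : VonNeumannAlgebra H) (ξ : H) : Prop :=
  ∃ (n : ℕ → ℕ) (x y : ∀ k, Fin (n k) → Op H) (E : Op H → Op H),
    (∀ k, Bal M ξ (x k) (y k)) ∧ Tendsto (fun k => ∑ i, star (y k i) * y k i) atTop (𝓝 1) ∧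
    (∀ S T, E (S - T) = E S - E T) ∧ (∀ T, ‖E T‖ ≤ ‖T‖) ∧ E 1 = 1 ∧
    (∀ a ∈ M.commutant, ∀ T, E (a * T) = a * E T ∧ E (T * a) = E T * a) ∧
    ∀ (T : ℕ → Op H) (S : Op H), (∀ k, ‖T k‖ ≤ 1) →
      WT (hyperfilter ℕ) (fun k => ∑ i, star (y k i) * T k * y k i) S →
      E S ∈ M ∧ E S ∈ M.commutant ∧ ∀ q, Cp M q → ⟪q ξ, E S (q ξ)⟫_ℂ = ⟪q ξ, S (q ξ)⟫_ℂ

/-- `T` nearly fixes the columns `U τ x q ξ` -/
def Fx (M : VonNeumannAlgebra H) (ξ : H) (U : ℝ → Op H) (T q : Op H) : Prop :=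
  ∃ R : ℝ, ∀ (n : ℕ) (x y : Fin n → Op H), Bal M ξ x y → ∃ τ ∈ Set.Icc 0 R,
    ∑ i, ‖(T - 1) (U τ (x i (q ξ)))‖ ^ 2 ≤ (‖q ξ‖ / 4) ^ 2

lemma loc1 (h : Mod M ξ U J) (hD : DE M ξ) (hT : NN M T γ) (γ0 : 0 < γ) (hγ : kk * (2 * γ) ≤ 1)
    {q : Op H} (hq : Cp M q) (hR : Fx M ξ U T q) :
    ∃ z ∈ M, z ∈ M.commutant ∧ ‖z‖ ≤ 1 ∧ 3 / 4 * ‖q ξ‖ ≤ ‖z (q ξ)‖ ∧ ∃ m ∈ M, ∃ m' ∈ M.commutant,
      ‖m‖ ≤ 2 ∧ ‖m'‖ ≤ 2 ∧ ‖z - m * m' * T‖ ≤ 6 * kk * γ := by
  obtain ⟨n, x, y, E, d1, d2, d3, d4, -, d5, d6⟩ := hD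
  obtain ⟨R, hR⟩ := hR
  choose τ τ1 τ2 using fun k => hR _ _ _ (d1 k)
  obtain ⟨s, -, hs⟩ := (isCompact_Icc (a := 0) (b := R)).ultrafilter_le_nhds ((hyperfilter ℕ).map τ) (by
    rw [Ultrafilter.coe_map, le_principal_iff, Filter.mem_map]; exact Eventually.of_forall τ1)
  have f1 : ∀ s, NN M (U (-s) * T * U (- -s)) γ := fun s =>
    ((nnU h _).mull hT γ0.le).mulr (nnU h _)
  have f2 : ∀ v, Tendsto (fun k => (U (-τ k) * T * U (- -τ k)) v) (hyperfilter ℕ)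
      (𝓝 ((U (-s) * T * U (- -s)) v)) := fun v =>
    ((((h.sc T).cont v).comp continuous_neg).tendsto s).comp hs
  choose m' m1 m2 m3 using fun k => trick (M := M) (Φ := fun T => ∑ i, star (y k i) * T * y k i)
    γ0 hγ (fun S T => by simp only [mul_sub, sub_mul, sum_sub_distrib]) (kr_le (d1 k).ys)
    (fun a ha T => by
      simp only [mul_sum, sum_mul, mul_assoc, commM ha ((d1 k).ym _), and_true]
      simp only [← mul_assoc, commM ha (star_mem ((d1 k).ym _))]) (f1 (τ k)).un (f1 (τ k)).m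
  obtain ⟨m'', m4, m5⟩ := wlim (hyperfilter ℕ) m' zero_le_two m3
  obtain ⟨S, s1, s2⟩ := wlim (hyperfilter ℕ)
    (fun k => ∑ i, star (y k i) * (U (-τ k) * T * U (- -τ k)) * y k i) zero_le_one
    fun k => (kr_le (d1 k).ys _).trans (unit_le1 (f1 _).un)
  have s3 := wt_norm (wt_sub s2 (wt_mul m5 m3 f2)) (.of_forall m2)
  have m6 := m5.mem m1
  obtain ⟨m, m7, m8, m9⟩ := trick γ0 hγ d3 d4 d5 (f1 s).un (f1 s).m'
  rw [M.commutant_commutant] at m7
  obtain ⟨z1, z2, z3⟩ := d6 _ S (fun k => unit_le1 (f1 _).un) s2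
  refine ⟨E S, z1, z2, (d4 S).trans s1, ?_, _, h.UM s m m7, _, h.UM' s m6, ?_, ?_, ?_⟩
  · have t : Tendsto (fun k => ⟪q ξ, (∑ i, star (y k i) * y k i) (q ξ)⟫_ℂ) (hyperfilter ℕ)
        (𝓝 ⟪q ξ, (1 : Op H) (q ξ)⟫_ℂ) := (tendsto_const_nhds.inner
      (((ContinuousLinearMap.apply ℂ H (q ξ)).continuous.tendsto _).comp d2)).mono_left
      Nat.hyperfilter_le_atTop
    have := le_of_tendsto' ((s2 (q ξ) (q ξ)).sub t).norm (b := ‖q ξ‖ * (‖q ξ‖ / 4)) fun k => by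
      have := (kr_inner (d1 k).ys (U (-τ k) * (T - 1) * U (τ k)) (q ξ) (q ξ)).trans
        (mul_le_mul_of_nonneg_left (nn_le (by positivity) (le_of_eq_of_le (sum_congr rfl fun i _ => by
          rw [mul_apply_eq_comp, mul_apply_eq_comp, h.Unorm, ← mul_apply_eq_comp (y k i),
            ← commM hq.2.1 ((d1 k).ym i), mul_apply_eq_comp, ← (d1 k).xy, ← mul_apply_eq_comp q,
            ← commM ((d1 k).xm i) hq.2.2, mul_apply_eq_comp]) (τ2 k))) (norm_nonneg _))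
      simpa only [neg_neg, mul_sub, sub_mul, mul_one, h.Uneg', sum_sub_distrib, sub_apply,
        inner_sub_right] using this
    rw [← z3 q hq, one_apply_eq_self, inner_self_eq_norm_sq_to_K, norm_sub_rev] at this
    have a := norm_add_le_of_le this (norm_inner_le_norm (𝕜 := ℂ) (q ξ) (E S (q ξ)))
    rw [sub_add_cancel, norm_pow, RCLike.norm_ofReal, abs_norm] at a
    by_contra hc
    nlinarith [norm_nonneg (q ξ), norm_nonneg (E S (q ξ))]
  · simpa using nle (nle (h.Ule s) m9) (h.Ule (-s))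
  · simpa using nle (nle (h.Ule s) m4) (h.Ule (-s))
  · have a := norm_add_le_of_le ((d4 _).trans s3) (nle m4 m8)
    rw [d3, (d5 _ m6 _).1, mul_sub, sub_add_sub_cancel, ← mul_assoc, ← commM m7 m6] at a
    have := nle (nle (h.Ule s) a) (h.Ule (-s))
    refine le_of_eq_of_le (congrArg _ ?_) (this.trans_eq (by ring))
    have e : ∀ v, U (-s) * (U s * v) = v := fun v => by rw [← mul_assoc, h.Uneg', one_mul]
    rw [mul_sub, sub_mul, h.cen z1 z2]
    simp only [neg_neg, mul_assoc, h.Uneg, mul_one, e]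

lemma loc2 (h : Mod M ξ U J) (hD : DE M ξ) (hT : NN M T γ) (γ0 : 0 < γ) (hγ : kk * (2 * γ) ≤ 1)
    {q : Op H} (hq : Cp M q) (q0 : q ≠ 0) (hR : Fx M ξ U T q) :
    ∃ p, Cp M p ∧ p ≠ 0 ∧ p * q = p ∧ ∃ m ∈ M, ∃ m' ∈ M.commutant,
      ‖m‖ ≤ 8 ∧ ‖m'‖ ≤ 2 ∧ ‖(1 - m * m' * T) * p‖ ≤ 24 * kk * γ := by
  obtain ⟨z, z1, z2, z3, z4, m, m1, m', m2, m3, m4, m5⟩ := loc1 h hD hT γ0 hγ hq hR
  obtain ⟨a, ha⟩ : ∃ a, a = (4 : ℂ) • (star z * z) - 1 := ⟨_, rfl⟩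
  have a1 : a ∈ M := ha ▸ sub_mem (smulM _ (mul_mem (star_mem z1) z1)) (one_mem _)
  have a2 : a ∈ M.commutant := ha ▸ sub_mem (smulM _ (mul_mem (star_mem z2) z2)) (one_mem _)
  obtain ⟨e, e1, e2, e3, e4⟩ := exists_spec (a := a) (by simp [ha, IsSelfAdjoint])
  have e5 : e ∈ M := memM fun y hy => (e2 y (commM a1 hy)).symm
  have e6 : e ∈ M.commutant := VonNeumannAlgebra.mem_commutant_iff.2 fun y hy =>
    (e2 y (commM hy a2).symm).symm
  have eq : e * q = q * e := commM e5 hq.2.2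
  have p1 := e1.mul hq.1 eq
  obtain ⟨r, r1, r2, r3⟩ := inv_ge e3
  have r4 := inv_mem (add_mem (mul_mem a1 e5) (one_mem _)) r1 r2
  refine ⟨e * q, ⟨p1, mul_mem e5 hq.2.1, mul_mem e6 hq.2.2⟩, fun h0 => q0 ?_,
    by rw [mul_assoc, hq.1.isIdempotentElem.eq], (4 : ℂ) • (r * star z) * m,
    mul_mem (smulM _ (mul_mem r4 (star_mem z1))) m1, m', m2, ?_, m4, ?_⟩
  · have := qf_nonneg e4 (q ξ)
    have b : e (q ξ) = 0 := congr($h0 ξ)
    rw [qf, neg_apply, mul_apply_eq_comp, sub_apply, b, sub_zero, one_apply_eq_self, ha,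
      inner_neg_right, sub_apply, inner_sub_right, smul_apply, inner_smul_right, neg_re, sub_re,
      ← qf, qf_one, ← ofReal_ofNat, re_ofReal_mul, ← normsq_eq] at this
    refine h.sep hq.2.1 (zero_mem _) (norm_eq_zero.1 ?_)
    nlinarith [norm_nonneg (q ξ)]
  all_goals
    have c1 : ‖(4 : ℂ) • (r * star z)‖ ≤ 4 := by
      rw [norm_smul, Complex.norm_ofNat]
      linarith [nle r3 ((norm_star z).trans_le z3)]
  · linarith [nle c1 m3]
  · have := nle (nle c1 m5) (proj_le1 p1)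
    refine le_of_eq_of_le (congrArg _ ?_) (this.trans_eq (by ring))
    have b : (4 : ℂ) • (r * star z) * z * e = e := by
      have := congr($r1 * e)
      rw [mul_assoc, add_mul, mul_assoc, e1.isIdempotentElem.eq, ha] at this
      simpa [sub_mul, mul_assoc] using this
    rw [mul_sub, sub_mul, sub_mul, one_mul, ← mul_assoc (_ * z) e, b]
    simp only [mul_assoc]

lemma plem (h3 : ExhStmt.{u}) (h : Mod M ξ U J) (hD : DE M ξ) (hT : NN M T γ) (γ0 : 0 < γ)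
    (hγ : 144 * kk * γ ≤ 1) (hR : ∀ q, Cp M q → Fx M ξ U T q) : UU M T (96 * kk * γ) := by
  have k0 : 0 < kk * γ := mul_pos (zero_lt_one.trans_le kk1) γ0
  obtain ⟨S, s1, -, -, -, s2, s3⟩ := h3 H M _ 1 ⟨.one _, one_mem _, one_mem _⟩
    fun q hq q0 _ => loc2 h hD hT γ0 (by linarith) hq q0 (hR q hq)
  choose! f f1 g g1 f2 g2 fg using fun p hp => (s1 p hp).2.2
  have c := fun p hp => (s1 p hp).1
  obtain ⟨a, -, -, -, a1, a2⟩ := s3 f 8 (by norm_num) fun p hp =>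
    ⟨f2 p hp, commM (f1 p hp) (c p hp).2.2⟩
  obtain ⟨b, -, -, -, b1, b2⟩ := s3 g 2 (by norm_num) fun p hp =>
    ⟨g2 p hp, (commM (c p hp).2.1 (g1 p hp)).symm⟩
  have a3 : a ∈ M := memM fun y hy => a2 y fun p hp =>
    ⟨(commM (c p hp).2.1 hy).symm, (commM (f1 p hp) hy).symm⟩
  have b3 : b ∈ M.commutant := VonNeumannAlgebra.mem_commutant_iff.2 fun y hy => b2 y fun p hp =>
    ⟨commM hy (c p hp).2.2, commM hy (g1 p hp)⟩
  have := s2 (1 - a * b * T) (24 * kk * γ) (by linarith) fun p hp => by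
    have e := hT.cp p (c p hp)
    refine ⟨by rw [sub_mul, mul_sub, mul_assoc, e, ← mul_assoc, mul_assoc a, ← commM (c p hp).2.1 b3,
      ← mul_assoc, commM a3 (c p hp).2.2, one_mul, mul_one, mul_assoc p, mul_assoc p],
      le_of_eq_of_le (congrArg _ ?_) (fg p hp)⟩
    rw [sub_mul, sub_mul, mul_assoc, mul_assoc _ T, e, ← mul_assoc, ← mul_assoc, mul_assoc a,
      (b1 p hp).1, ← commM (c p hp).2.1 (g1 p hp), ← mul_assoc, (a1 p hp).1, mul_assoc (f p) p,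
      commM (c p hp).2.1 (g1 p hp), ← mul_assoc]
  have d := nle this (unit_le1 (Unitary.star_mem hT.un))
  rw [mul_one, mul_one, sub_mul, one_mul, mul_assoc, hT.un.2, mul_one, norm_sub_rev] at d
  have := (pol2 a3 b3 (Unitary.star_mem hT.un) d (by linarith)).star
  rwa [star_star, show 4 * (24 * kk * γ) = 96 * kk * γ by ring] at this

lemma reset (h3 : ExhStmt.{u}) (h : Mod M ξ U J) (hD : DE M ξ) (hT : NN M T γ) (γ0 : 0 < γ)
    (hγ : 144 * kk * γ ≤ 1) (h' : UU M T (1 / 4)) : UU M T (96 * kk * γ) := by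
  obtain ⟨u, u1, u', u2, u3, u4, u5⟩ := h'
  have w := mul_mem u1 u2
  have w' := Unitary.star_mem w
  have t1 : ‖star (u * u') * T - 1‖ ≤ 1 / 4 := by
    simpa only [mul_sub, w.1, one_mul] using nle (unit_le1 w') ((norm_sub_rev _ _).trans_le u5)
  obtain ⟨v, v1, v', v2, v3, v4, v5⟩ := plem (T := star (u * u') * T) h3 h hD (NN.mull (by
    rw [star_mul]; exact (NN.mem' (Unitary.star_mem u2) (star_mem u4)).mulr
      (.mem (Unitary.star_mem u1) (star_mem u3))) hT γ0.le) γ0 hγ fun q _ =>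
    ⟨0, fun n x y hb => ⟨0, ⟨le_rfl, le_rfl⟩, by
      rw [← nn_sq]
      refine pow_le_pow_left₀ (nn_nonneg _) ((nn_mono (y := fun i => x i (q ξ)) (c := 1 / 4) (by norm_num)
        fun i => by rw [← h.Unorm 0 (x i _)]; exact ContinuousLinearMap.le_of_opNorm_le _ t1 _).trans
        ?_) 2
      linarith [col_le hb.xs (q ξ)]⟩⟩
  refine ⟨_, mul_mem u1 v1, _, mul_mem u2 v2, mul_mem u3 v3, mul_mem u4 v4, ?_⟩
  have := nle (unit_le1 w) v5
  rwa [one_mul, mul_sub, ← mul_assoc _ _ T, w.2, one_mul,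
    (show Commute u' v from (commM v3 u4).symm).mul_mul_mul_comm] at this

lemma UU.add (h : Mod M ξ U J) (h' : Mod N ξ V J') {s t : ℝ} (hs : UU M (V (-s) * U s) γ)
    (ht : UU M (V (-t) * U t) γ) : UU M (V (-(s + t)) * U (s + t)) (2 * γ) := by
  obtain ⟨u, u1, u', u2, u3, u4, u5⟩ := hs
  obtain ⟨v, v1, v', v2, v3, v4, v5⟩ := ht
  have k : ∀ u ∈ unitary (Op H), U (-t) * u * U (- -t) ∈ unitary (Op H) := fun u hu =>
    mul_mem (mul_mem (h.Uu _) hu) (h.Uu _)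
  have u6 := h.UM (-t) u u3
  refine ⟨_, mul_mem v1 (k u u1), _, mul_mem v2 (k u' u2), mul_mem v3 u6,
    mul_mem v4 (h.UM' _ u4), ?_⟩
  have := norm_add_le_of_le (nle v5 (unit_le1 (mul_mem (k u u1) (k u' u2))))
    (nle (nle (h'.Ule (-t)) u5) (h.Ule t))
  refine le_of_eq_of_le (congrArg _ ?_) (this.trans_eq (by ring))
  have e : ∀ v, U t * (U (-t) * v) = v := fun v => by rw [← mul_assoc, h.Uneg, one_mul]
  rw [(show Commute _ v' from commM u6 v4).mul_mul_mul_comm, neg_add_rev, h'.Uadd, h.Uadd]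
  simp only [neg_neg, mul_sub, sub_mul, mul_assoc, e]
  abel

end PT

open PT in
theorem ptStmt (h1 : DEStmt.{u}) (h2 : FLStmt.{u}) (h3 : ExhStmt.{u}) : PtStmt.{u} := by
  obtain ⟨C, C1, h2⟩ := h2
  have k1 := kk1
  refine ⟨2304 * kk + 32 * C, by linarith, ?_⟩
  intro H _ _ _ _ M N ξ U V J J' δ h h' hc δ0 hδ hq t
  have hD : DE M ξ := h1 H M ξ U J h
  have k2 : δ ≤ kk * δ := le_mul_of_one_le_left δ0.le k1
  have k3 : δ ≤ C * δ := le_mul_of_one_le_left δ0.le C1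
  have n1 : ∀ t, NN M (V (-t) * U t) (3 * δ) := fun t =>
    (nnV h' hc δ0.le (by linarith) hq _).mulr (nnU h t)
  have n2 : ∀ t, |t| ≤ 1 → UU M (V (-t) * U t) (96 * kk * (3 * δ)) := fun t ht =>
    plem h3 h hD (n1 t) (by linarith) (by linarith) fun q a => ⟨_, fun n x y hb => by
      obtain ⟨τ, τ1, τ2⟩ := h2 H M N ξ U V J J' δ h h' hc δ0 q a (hq q a) t (8 * C)⁻¹ ht
        (by positivity) (inv_le_one_of_one_le₀ (by linarith)) n x y hb
      refine ⟨τ, τ1, le_of_eq_of_le (sum_congr rfl fun i _ => ?_) (τ2.trans ?_)⟩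
      · rw [← h'.Unorm t, ← mul_apply_eq_comp, mul_sub, ← mul_assoc, h'.Uneg, one_mul, mul_one,
          sub_apply]
      · have a1 : C * (8 * C)⁻¹ ^ 2 ≤ 1 / 64 := by
          field_simp; linarith
        have a2 : C * δ ^ 2 ≤ 1 / 32 := by nlinarith
        nlinarith [sq_nonneg ‖q ξ‖]⟩
  have n3 : ∀ s, |s| ≤ 1 → ∀ n : ℕ, UU M (V (-(n * s)) * U (n * s)) (96 * kk * (3 * δ)) := by
    intro s hs n
    induction n with
    | zero => simpa using n2 0 (by simp)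
    | succ n ih =>
      obtain ⟨u, u1, u', u2, u3, u4, u5⟩ := ih.add h h' (n2 s hs)
      rw [Nat.cast_succ, add_one_mul]
      exact reset h3 h hD (n1 _) (by linarith) (by linarith)
        ⟨u, u1, u', u2, u3, u4, u5.trans (by linarith)⟩
  obtain ⟨n, hn⟩ := exists_nat_gt |t|
  have n0 : (0 : ℝ) < n := (abs_nonneg _).trans_lt hn
  obtain ⟨u, u1, u', u2, u3, u4, u5⟩ := n3 (t / n) (by
    rw [abs_div, abs_of_pos n0, div_le_one n0]; exact hn.le) n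
  rw [mul_div_cancel₀ _ n0.ne'] at u5
  obtain ⟨a, a1, a2⟩ := hc.mn u u3
  obtain ⟨b, b1, b2⟩ := hc.mn' u' u4
  have a3 := (norm_sub_rev _ _).trans_le (a2.trans (mul_le_of_le_one_right δ0.le (unit_le1 u1)))
  have b3 := (norm_sub_rev _ _).trans_le (b2.trans (mul_le_of_le_one_right δ0.le (unit_le1 u2)))
  have c := norm_add_le_of_le (nle a3 (nle' b3 (unit_le1 u2))) (nle (unit_le1 u1) b3)
  rw [sub_mul, mul_sub, sub_add_sub_cancel] at c
  obtain ⟨v, v1, v', v2, v3, v4, v5⟩ := pol2 (γ := 3 * δ) a1 b1 (mul_mem u1 u2)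
    (c.trans (by nlinarith)) (by linarith)
  refine ⟨v, v1, v', v2, v3, v4, ?_⟩
  have := nle (h'.Ule t) (norm_add_le_of_le v5 u5)
  rw [sub_add_sub_cancel, mul_sub, ← mul_assoc, ← mul_assoc, h'.Uneg, one_mul, norm_sub_rev] at this
  linarith

end Vale.Agent.P096
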