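import Vale.Agent.P096.Base

/-! The Newton iteration, and the reduction to separable Hilbert spaces. -/

open Finset Vale.Agent.P104 Vale.Agent.P085 Filter Topology ContinuousLinearMap
open scoped InnerProductSpace InnerProduct

set_option linter.unusedSectionVars false

namespace Vale.Agent.P096

universe u

namespace R1

variable {H : Type u} [NormedAddCommGroup H] [InnerProductSpace ℂ H] [CompleteSpace H]
  {M N : VonNeumannAlgebra H} {δ ε : ℝ}

lemma improve (h1 : Nr M N ε) (h2 : Nr N M (1 / 4)) (ε0 : 0 < ε) (ε1 : ε ≤ 1 / 8) :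
    Nr N M (5 * ε) := by
  have k : ∀ j : ℕ, Nr N M (4 * ε + (1 / 2) ^ j) := fun j => by
    induction j with
    | zero => exact fun n _ => ⟨0, zero_mem _, by simp; nlinarith [norm_nonneg n]⟩
    | succ j ih =>
      intro n hn
      obtain ⟨m, m1, m2⟩ := h2 n hn
      obtain ⟨n', n1, n2⟩ := h1 m m1
      obtain ⟨m', m3, m4⟩ := ih _ (sub_mem hn n1)
      have a0 := norm_nonneg n
      have a1 := nle' (norm_sub_rev n m ▸ m2) (le_refl ‖n‖)
      have a2 : ‖m - n'‖ ≤ 2 * ε * ‖n‖ := n2.trans (by nlinarith)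
      have a3 := norm_add_le_of_le m2 a2
      rw [sub_add_sub_cancel] at a3
      have a4 := norm_sub_le_of_le (m4.trans (mul_le_mul_of_nonneg_left (a3.trans
        (show _ ≤ 1 / 2 * ‖n‖ by nlinarith)) (by positivity))) a2
      exact ⟨m + m', add_mem m1 m3, le_of_eq_of_le (congrArg _ (by abel)) (a4.trans_eq (by ring))⟩
  obtain ⟨j, hj⟩ := exists_pow_lt_of_lt_one ε0 (show (1 / 2 : ℝ) < 1 by norm_num)
  exact (k j).mono (by linarith)

lemma step {b : Op H} {r : ℝ} (r0 : 0 < r) (r1 : 10 ^ 4 * kk * r ≤ 1) (h2 : Nr N M r) (hb : ‖b‖ ≤ r)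
    (h : ∀ x ∈ M, ∀ a ∈ N.commutant, ‖lin b x a‖ ≤ r ^ 2 * ‖x‖ * ‖a‖) :
    ∃ u ∈ unitary (Op H), ‖u - 1‖ ≤ 8 * r ∧ ∀ P : VonNeumannAlgebra H,
      (∀ x, x ∈ P ↔ star u * x * u ∈ M) →
      Nr P N (500 * kk * r ^ 2) ∧ Nr N P (5 * (500 * kk * r ^ 2)) := by
  have k1 := kk1
  have r2 : 10 ^ 4 * r ≤ 1 := by nlinarith
  obtain ⟨c, hc⟩ : ∃ c, c = (2 : ℂ)⁻¹ • (b - star b) := ⟨_, rfl⟩
  have c1 : ‖c‖ ≤ r := by
    have := norm_sub_le_of_le hb ((norm_star b).trans_le hb)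
    rw [hc, norm_smul]; simp; linarith
  have c2 : star c = -c := by simp [hc, smul_sub]
  have c3 : ∀ x ∈ M, ∀ a ∈ N.commutant, ‖lin c x a‖ ≤ r ^ 2 * ‖x‖ * ‖a‖ := fun x hx a ha => by
    have := norm_sub_le_of_le (h x hx a ha) ((norm_star _).trans_le (h _ (star_mem hx) _ (star_mem ha)))
    rw [show lin c x a = (2 : ℂ)⁻¹ • (lin b x a - star (lin b (star x) (star a))) by
      simp only [lin, hc, star_add, star_sub, star_mul, star_star, smul_mul_assoc, mul_smul_comm,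
        sub_mul, mul_sub, mul_assoc]
      module, norm_smul]
    simp at this ⊢; linarith
  obtain ⟨u, u1, p, u2, -, u3, -, u4, u5⟩ := polar_near (W := 1 + c) (ε := r) (by simpa) (by linarith)
  have p1 : ‖(p : Op H) - 1‖ ≤ 5 * r ^ 2 := by
    have := norm_add_le_of_le (nle c1 c1) (nle u4 u4)
    rw [show c * c + ((p : Op H) - 1) * (p - 1) = -(2 : ℂ) • ((p : Op H) - 1) by
      rw [star_add, star_one, c2] at u3
      rw [sub_mul, mul_sub, u3, neg_smul, two_smul]; noncomm_ring, norm_smul] at this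
    simp at this; linarith
  have p2 : ‖c + (star u - 1)‖ ≤ 5 * r ^ 2 := by
    have := nle (unit_le1 u1) p1
    rw [mul_sub, ← u2, ← norm_star, star_sub, star_add, star_one, c2, mul_one, one_mul,
      norm_sub_rev] at this
    exact le_of_eq_of_le (congrArg _ (by abel)) this
  have e1 : ∀ v, star u * (u * v) = v := fun v => by rw [← mul_assoc, u1.1, one_mul]
  have e2 : ∀ v, u * (star u * v) = v := fun v => by rw [← mul_assoc, u1.2, one_mul]
  have u6 : ‖star u - 1‖ ≤ 8 * r := by rwa [← norm_star, star_sub, star_star, star_one]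
  have u7 : ∀ x, ‖star u * x * u‖ ≤ ‖x‖ := fun x => by
    simpa using nle (nle (unit_le1 (Unitary.star_mem u1)) (le_refl ‖x‖)) (unit_le1 u1)
  refine ⟨u, u1, u5, fun P hP => ?_⟩
  have n1 : Nr P N (500 * kk * r ^ 2) := fun x hx => by
    rcases eq_or_ne x 0 with rfl | x0
    · exact ⟨0, zero_mem _, by simp⟩
    have x1 := norm_pos_iff.2 x0
    obtain ⟨n, n1, n2⟩ := near_comm' (N := N) (a := x) (ε := 500 * r ^ 2 * ‖x‖) (by positivity)
      fun a ha => by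
        have a1 := lin_conj (Unitary.star_mem u1) (by simpa using u6) c1 (x := star u * x * u)
          (a := star u * a * u) (κ := r ^ 2 * (‖star u * x * u‖ * ‖a‖)) (by
          simpa [mul_assoc, e2, u1.2] using c3 _ ((hP x).1 hx) a ha)
        have a2 := nle (nle (unit_le1 u1) (norm_sub_le_of_le (cle (cle p2 (u7 x)) (u7 a)) a1))
          (unit_le1 (Unitary.star_mem u1))
        refine le_of_eq_of_le (congrArg _ ?_) (a2.trans ?_)
        · simp [lin, mul_sub, sub_mul, mul_assoc, e2, u1.2]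
        · have a3 := mul_le_mul_of_nonneg_right (u7 x) (norm_nonneg a)
          have a4 := mul_le_mul (u7 x) (u7 a) (norm_nonneg _) x1.le
          have a5 : 8 * (8 * r) * r + 4 * (8 * r) ^ 2 * (1 + 2 * r) ≤ 400 * r ^ 2 := by nlinarith
          have a6 := mul_le_mul a5 a4 (by positivity) (by positivity)
          nlinarith [mul_le_mul_of_nonneg_left a3 (sq_nonneg r),
            (by positivity : 0 ≤ r ^ 2 * ‖x‖ * ‖a‖)]
    exact ⟨n, n1, n2.trans_eq (by ring)⟩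
  refine ⟨n1, improve n1 (fun n hn => ?_) (by positivity) (by nlinarith)⟩
  obtain ⟨m, m1, m2⟩ := h2 n hn
  have a0 := norm_nonneg n
  have a1 := nle' (norm_sub_rev n m ▸ m2) (le_refl ‖n‖)
  have a2 := norm_sub_le_of_le m2 ((conj_near u5 u6 m).trans (mul_le_mul
    (show _ ≤ 1 / 10 by nlinarith) (a1.trans (show _ ≤ 2 * ‖n‖ by nlinarith)) (norm_nonneg _)
    (by norm_num)))
  refine ⟨u * m * star u, (hP _).2 (by simpa [mul_assoc, e1, u1.1]),
    le_of_eq_of_le (congrArg _ (by abel)) (a2.trans (by nlinarith))⟩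

lemma lim_mem {f : ℕ → Op H} {y : Op H} {c : ℝ} (hf : Tendsto f atTop (𝓝 y))
    (h : ∀ n, ∃ z ∈ N, ‖f n - z‖ ≤ c * (1 / 2) ^ n) : y ∈ N := by
  choose z h1 h2 using h
  refine (vn_cl N).mem_of_tendsto (f := z) (b := atTop) ?_ (.of_forall h1)
  simpa using hf.sub (squeeze_zero_norm h2 (by
    simpa using (tendsto_pow_atTop_nhds_zero_of_lt_one (r := (1 / 2 : ℝ)) (by norm_num)
      (by norm_num)).const_mul c))

lemma exists_closed {α ι : Type*} [Countable ι] (f : ι → α → α → α) {s : Set α}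
    (hs : s.Countable) : ∃ S, s ⊆ S ∧ S.Countable ∧ ∀ i, ∀ a ∈ S, ∀ b ∈ S, f i a b ∈ S := by
  let T : ℕ → Set α := fun n => Nat.rec s (fun _ t => t ∪ ⋃ i, Set.image2 (f i) t t) n
  have m : Monotone T := monotone_nat_of_le_succ fun _ => Set.subset_union_left
  refine ⟨⋃ n, T n, Set.subset_iUnion T 0, Set.countable_iUnion fun n => ?_, fun i a ha b hb => ?_⟩
  · induction n with
    | zero => exact hs
    | succ n ih => exact ih.union (Set.countable_iUnion fun i => ih.image2 ih _)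
  · obtain ⟨j, ha⟩ := Set.mem_iUnion.1 ha
    obtain ⟨k, hb⟩ := Set.mem_iUnion.1 hb
    exact Set.mem_iUnion.2 ⟨max j k + 1, Or.inr (Set.mem_iUnion.2 ⟨i, a, m (le_max_left _ _) ha, b,
      m (le_max_right _ _) hb, rfl⟩)⟩

lemma exists_sub (M : VonNeumannAlgebra H) {D : Set ℂ} (hD : Dense D) {S : Set (Op H)} (h0 : 1 ∈ S)
    (h1 : ∀ c ∈ D, ∀ a ∈ S, ∀ b ∈ S, c • a + b ∈ S) (h2 : ∀ a ∈ S, ∀ b ∈ S, a * b ∈ S)
    (h3 : ∀ a ∈ S, star a ∈ S) :
    ∃ A : StarSubalgebra ℂ (Op H), (A : Set (Op H)) = closure (S ∩ M) := by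
  have k : ∀ (c : ℂ) a b, a ∈ closure (S ∩ M) → b ∈ closure (S ∩ M) →
      c • a + b ∈ closure (S ∩ (M : Set (Op H))) := fun c a b ha hb => by
    refine map_mem_closure₂ (f := fun (z : ℂ × Op H) b => z.1 • z.2 + b) (x := (c, a))
      (s := D ×ˢ (S ∩ M)) (by fun_prop) (by rw [closure_prod_eq]; exact ⟨hD c, ha⟩) hb ?_
    rintro ⟨c, a⟩ ⟨hc, ha⟩ b hb
    exact ⟨h1 c hc a ha.1 b hb.1, add_mem (smulM c ha.2) hb.2⟩
  have o : (1 : Op H) ∈ closure (S ∩ (M : Set (Op H))) := subset_closure ⟨h0, one_mem M⟩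
  exact ⟨{ carrier := closure (S ∩ M)
           mul_mem' := fun ha hb => map_mem_closure₂ continuous_mul ha hb fun a ha b hb =>
             ⟨h2 a ha.1 b hb.1, mul_mem ha.2 hb.2⟩
           add_mem' := fun ha hb => by simpa using k 1 _ _ ha hb
           algebraMap_mem' := fun c => by
             simpa [Algebra.algebraMap_eq_smul_one, sub_smul] using k (c - 1) _ _ o o
           star_mem' := fun ha => map_mem_closure continuous_star ha fun a ha =>
             ⟨h3 a ha.1, star_mem ha.2⟩ }, rfl⟩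

lemma near_cl {S : Set (Op H)} (δ0 : 0 < δ) (δ1 : δ ≤ 1)
    (h : ∀ x ∈ S, x ∈ M → ∃ y ∈ S, y ∈ N ∧ ‖x - y‖ ≤ δ * ‖x‖) {A B : StarSubalgebra ℂ (Op H)}
    (hA : (A : Set (Op H)) = closure (S ∩ M)) (hB : (B : Set (Op H)) = closure (S ∩ N)) :
    Nr A B (3 * δ) := fun x hx => by
  rcases eq_or_ne x 0 with rfl | x0
  · exact ⟨0, zero_mem _, by simp⟩
  have x1 := norm_pos_iff.2 x0
  obtain ⟨z, z1, z2⟩ := Metric.mem_closure_iff.1 (hA ▸ hx : x ∈ closure (S ∩ M)) _ (mul_pos δ0 x1)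
  obtain ⟨y, y1, y2, y3⟩ := h z z1.1 z1.2
  rw [dist_eq_norm] at z2
  have a1 := nle' (norm_sub_rev x z ▸ z2.le) (le_refl ‖x‖)
  have a2 := norm_add_le_of_le z2.le (y3.trans (mul_le_mul_of_nonneg_left (a1.trans
    (show _ ≤ 2 * ‖x‖ by nlinarith)) δ0.le))
  rw [sub_add_sub_cancel] at a2
  exact ⟨y, show y ∈ (B : Set (Op H)) from hB ▸ subset_closure ⟨y1, y2⟩, a2.trans_eq (by ring)⟩

lemma near_rng {K : Type u} [NormedAddCommGroup K] [InnerProductSpace ℂ K] [CompleteSpace K]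
    {A B : StarSubalgebra ℂ (Op H)} [IsClosed (B : Set (Op H))] (h : Nr B A δ) (δ0 : 0 < δ)
    (c : Op H → Op K) (hc : ∀ x y, ‖c x - c y‖ ≤ ‖x - y‖) (π : A →⋆ₐ[ℂ] Op K) (σ : B →⋆ₐ[ℂ] Op K)
    (hπ : ∀ x, π x = c x) (hσ : ∀ x, σ x = c x) :
    Nr (vnOf (Set.range π)) (vnOf (Set.range σ)) (2 * kk * δ) := fun a ha => by
  rcases eq_or_ne a 0 with rfl | a0
  · exact ⟨0, zero_mem _, by simp⟩
  have a1 := norm_pos_iff.2 a0
  obtain ⟨b, b1, b2⟩ := comm_near σ.toAlgHom (fun x => (NonUnitalStarAlgHom.norm_apply_le σ x).trans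
    (le_mul_of_one_le_left (norm_nonneg _) one_le_two)) a (ε := 2 * δ * ‖a‖) (by positivity)
    fun x => by
      obtain ⟨y, y1, y2⟩ := h x.1 x.2
      refine le_of_eq_of_le (congrArg _ ?_) ((cle ((hc _ _).trans y2) (le_refl ‖a‖)).trans_eq (by
        change _ = _ * ‖x.1‖; ring))
      rw [sub_mul, mul_sub, ← hπ ⟨y, y1⟩, (mem_vnOf.1 ha _ ⟨_, rfl⟩).1, sub_sub_sub_cancel_right,
        ← hσ]
      rfl
  exact ⟨b, mem_vnOf.2 (by rintro _ ⟨x, rfl⟩; exact ⟨b1 x, map_star σ x ▸ b1 _⟩),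
    b2.trans_eq (by ring)⟩

lemma loc (h1 : Nr M N δ) (h2 : Nr N M δ) (δ0 : 0 < δ) (δ1 : δ ≤ 1) (F : Finset (Op H × H)) :
    ∃ (V : Submodule ℂ H) (_ : CompleteSpace V) (_ : TopologicalSpace.SeparableSpace V)
      (P Q : VonNeumannAlgebra V), Nr P Q (12 * kk ^ 2 * δ) ∧ Nr Q P (12 * kk ^ 2 * δ) ∧
      (∀ z ∈ F, z.2 ∈ V) ∧ ∀ z ∈ F, ∃ x : Op V, ‖x‖ ≤ ‖z.1‖ ∧ (∀ ζ : V, z.1 ζ = x ζ) ∧
        (z.1 ∈ M → x ∈ P) ∧ (z.1 ∈ N.commutant → x ∈ Q.commutant) := by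
  have k1 := kk1
  obtain ⟨D, d1, d2⟩ := TopologicalSpace.exists_countable_dense ℂ
  have := d1.to_subtype
  choose! f f1 f2 using h1
  choose! g g1 g2 using h2
  obtain ⟨S, s1, s2, s3⟩ := exists_closed (ι := D ⊕ Fin 4) (Sum.elim (fun c a b => c.1 • a + b)
    ![fun a b => a * b, fun a _ => star a, fun a _ => f a, fun a _ => g a])
    (s := insert 1 (Prod.fst '' (F : Set (Op H × H)))) ((F.countable_toSet.image _).insert _)
  have s4 := s1 (Set.mem_insert _ _)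
  have s5 : ∀ a ∈ S, ∀ b ∈ S, a * b ∈ S := s3 (.inr 0)
  have s6 : ∀ a ∈ S, star a ∈ S := fun a ha => s3 (.inr 1) a ha a ha
  obtain ⟨A, hA⟩ := exists_sub M d2 s4 (fun c hc => s3 (.inl ⟨c, hc⟩)) s5 s6
  obtain ⟨B, hB⟩ := exists_sub N d2 s4 (fun c hc => s3 (.inl ⟨c, hc⟩)) s5 s6
  have n1 := near_cl δ0 δ1 (fun x hx h => ⟨_, s3 (.inr 2) x hx x hx, f1 x h, f2 x h⟩) hA hB
  have n2 := near_cl δ0 δ1 (fun x hx h => ⟨_, s3 (.inr 3) x hx x hx, g1 x h, g2 x h⟩) hB hA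
  have : IsClosed (A : Set (Op H)) := hA ▸ isClosed_closure
  have : IsClosed (B : Set (Op H)) := hB ▸ isClosed_closure
  obtain ⟨W, hW⟩ : ∃ W, W = Submodule.span ℂ (Set.image2 (fun (a : Op H) v => a v) S
    (Prod.snd '' (F : Set (Op H × H)))) := ⟨_, rfl⟩
  have := W.isClosed_topologicalClosure.completeSpace_coe
  have v1 : ∀ a ∈ S, ∀ v ∈ W.topologicalClosure, a v ∈ W.topologicalClosure := fun a ha v hv =>
    map_mem_closure (s := W) (t := W) a.continuous hv (show W ≤ W.comap a.toLinearMap from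
      hW ▸ Submodule.span_le.2 (by
        rintro _ ⟨b, hb, v, hv, rfl⟩
        exact Submodule.mem_comap.2 (Submodule.subset_span ⟨_, s5 a ha b hb, v, hv, rfl⟩)))
  have v2 : ∀ a ∈ closure S, ∀ v ∈ W.topologicalClosure, a v ∈ W.topologicalClosure :=
    fun a ha v hv => W.isClosed_topologicalClosure.closure_subset (map_mem_closure
      (f := fun a : Op H => a v) (by fun_prop) ha fun a ha => v1 a ha v hv)
  have v3 : TopologicalSpace.SeparableSpace W.topologicalClosure :=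
    TopologicalSpace.IsSeparable.separableSpace (s := closure (W : Set H)) (hW ▸
      (s2.image2 (F.countable_toSet.image _) _).isSeparable.span.closure)
  have v4 : ∀ z ∈ F, z.2 ∈ W.topologicalClosure := fun z hz =>
    subset_closure (hW ▸ Submodule.subset_span ⟨1, s4, _, ⟨z, hz, rfl⟩, rfl⟩)
  generalize W.topologicalClosure = V at *
  have q1 : ∀ ζ, (V.subtypeL†) (V.subtypeL ζ) = ζ := by simp [Submodule.adjoint_subtypeL]
  have q2 : ∀ a ∈ closure S, ∀ ζ, V.subtypeL ((V.subtypeL†) (a (V.subtypeL ζ))) = a (V.subtypeL ζ) :=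
    fun a ha ζ => by
      rw [Submodule.adjoint_subtypeL]
      exact Submodule.starProjection_eq_self_iff.2 (v2 a ha _ ζ.2)
  have q3 : ∀ a : Op H, ‖V.subtypeL† ∘L a ∘L V.subtypeL‖ ≤ ‖a‖ := fun a =>
    opNorm_le_bound _ (norm_nonneg _) fun ζ => by
      rw [Submodule.adjoint_subtypeL]
      exact (V.norm_orthogonalProjectionOnto_apply_le _).trans (a.le_opNorm ζ)
  have a1 : ∀ x : A, x.1 ∈ closure S := fun x =>
    closure_mono Set.inter_subset_left (hA ▸ x.2 : x.1 ∈ closure (S ∩ M))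
  have b1 : ∀ x : B, x.1 ∈ closure S := fun x =>
    closure_mono Set.inter_subset_left (hB ▸ x.2 : x.1 ∈ closure (S ∩ N))
  have b2 : ∀ x : B, x.1 ∈ N := fun x => closure_minimal Set.inter_subset_right (vn_cl N)
    (hB ▸ x.2 : x.1 ∈ closure (S ∩ N))
  obtain ⟨π, p1⟩ := exists_cmp A.subtype _ q1 fun x => q2 _ (a1 x)
  obtain ⟨σ, p2⟩ := exists_cmp B.subtype _ q1 fun x => q2 _ (b1 x)
  have c1 : ∀ x y : Op H, ‖V.subtypeL† ∘L x ∘L V.subtypeL - V.subtypeL† ∘L y ∘L V.subtypeL‖ ≤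
      ‖x - y‖ := fun x y => by simpa using q3 (x - y)
  have p3 : ∀ x, π x = V.subtypeL† ∘L x.1 ∘L V.subtypeL := fun x => ContinuousLinearMap.ext (p1 x)
  have p4 : ∀ x, σ x = V.subtypeL† ∘L x.1 ∘L V.subtypeL := fun x => ContinuousLinearMap.ext (p2 x)
  refine ⟨V, this, v3, (vnOf (Set.range π)).commutant, (vnOf (Set.range σ)).commutant,
    ((near_rng n1 (by positivity) _ c1 σ π p4 p3).comm (by positivity)).mono (by nlinarith),
    ((near_rng n2 (by positivity) _ c1 π σ p3 p4).comm (by positivity)).mono (by nlinarith), v4,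
    fun z hz => ?_⟩
  have z1 : z.1 ∈ S := s1 (Or.inr ⟨z, hz, rfl⟩)
  refine ⟨_, q3 z.1, fun ζ => (q2 _ (subset_closure z1) ζ).symm, fun h => mem_vnOf_comm
    ⟨⟨_, show z.1 ∈ (A : Set (Op H)) from hA ▸ subset_closure ⟨z1, h⟩⟩, p3 _⟩, fun h => ?_⟩
  have c : ∀ x, σ x * (V.subtypeL† ∘L z.1 ∘L V.subtypeL) =
      (V.subtypeL† ∘L z.1 ∘L V.subtypeL) * σ x := fun x => by
    ext1 ζ
    simp only [mul_apply_eq_comp, comp_apply, p2, q2 _ (subset_closure z1)]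
    exact congrArg _ ((congr($(commM (b2 x) h) (V.subtypeL ζ))).trans
      (congrArg _ (q2 _ (b1 x) ζ).symm))
  rw [VonNeumannAlgebra.commutant_commutant]
  exact mem_vnOf.2 (by rintro _ ⟨x, rfl⟩; exact ⟨c x, map_star σ x ▸ c _⟩)

lemma up (V : Submodule ℂ H) [CompleteSpace V] (b : Op V) : ∃ c : Op H, ‖c‖ ≤ ‖b‖ ∧
    ∀ (x a : Op V) (y d : Op H), (∀ ζ : V, y ζ = x ζ) → (∀ ζ : V, d ζ = a ζ) →
      ‖V.starProjection * lin c y d * V.starProjection‖ ≤ ‖lin b x a‖ := by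
  obtain ⟨c, c1, c2⟩ : ∃ c : Op H, ‖c‖ ≤ ‖b‖ ∧ ∀ ζ : V, c ζ = b ζ :=
    ⟨V.subtypeL ∘L b ∘L V.orthogonalProjectionOnto, opNorm_le_bound _ (norm_nonneg _) fun v =>
      ale (a := b) le_rfl (V.norm_orthogonalProjectionOnto_apply_le v), by simp⟩
  refine ⟨c, c1, fun x a y d h1 h2 => opNorm_le_bound _ (norm_nonneg _) fun v => ?_⟩
  have e : ∀ ζ : V, lin c y d ζ = lin b x a ζ := fun ζ => by
    simp only [lin, add_apply, sub_apply, mul_apply_eq_comp, h1, h2, c2,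
      Submodule.coe_add, Submodule.coe_sub, map_sub]
  exact (V.norm_starProjection_apply_le _).trans ((congrArg _ (e _)).trans_le
    (ale (a := lin b x a) le_rfl (V.norm_orthogonalProjectionOnto_apply_le v)))

end R1

open R1 in
theorem kk_of_lin (h : LinStmt.{u}) : KKStmt.{u} := by
  obtain ⟨C, C1, h⟩ := h
  have k1 := kk1
  refine ⟨10 ^ 4 * kk * C ^ 2, by nlinarith, fun H _ _ _ M N δ h1 h2 δ0 δ1 => ?_⟩
  have c1 : C ≤ C ^ 2 := by nlinarith
  have c2 : C * δ ≤ kk * C ^ 2 * δ := by gcongr; nlinarith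
  obtain ⟨T, S, t1, t2, t3⟩ := newton (fun (S : (Op H)ˣ) s => (S : Op H) ∈ unitary (Op H) ∧
    ∃ P : VonNeumannAlgebra H, (∀ x, x ∈ P ↔ star (S : Op H) * x * S ∈ M) ∧ Nr P N s ∧ Nr N P s)
    (C := 8 * C) (t := δ) (r := 16 * C * δ) (S₀ := 1) (r₀ := 0) (by positivity) δ0 (by linarith)
    (fun S s s0 s1 _ ⟨a1, P, a2, a3, a4⟩ => by
      have c3 : kk * C ^ 2 * s ≤ kk * C ^ 2 * δ := by gcongr
      have c4 : C * s ≤ C ^ 2 * s := by gcongr
      obtain ⟨b, b1, b2⟩ := h H P N s a3 a4 s0 (by nlinarith)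
      obtain ⟨u, u1, u2, u3⟩ := step (r := C * s) (by positivity) (by nlinarith)
        (a4.mono (by nlinarith)) b1 fun x hx a ha => (b2 x hx a ha).trans (by
          rw [mul_pow]; gcongr)
      obtain ⟨P', p1, -⟩ := exists_conj P u1
      obtain ⟨p2, p3⟩ := u3 P' p1
      refine ⟨Unitary.toUnits ⟨u, u1⟩ * S, ?_, mul_mem u1 a1, P', fun x => ?_,
        p2.mono (by nlinarith), p3.mono (by nlinarith)⟩
      · simpa [sub_mul, mul_assoc] using nle u2 (unit_le1 a1)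
      · simp [p1, a2, mul_assoc]) (by simp) (by linarith) ⟨one_mem _, M, by simp, h1, h2⟩
  have e : ∀ n, (↑(S n)⁻¹ : Op H) = star (S n : Op H) := fun n =>
    (S n).inv_eq_of_mul_eq_one_right (t3 n).1.2
  obtain ⟨w, w1, w2, w3⟩ := gardner (M := M) (N := N) t1 (by linarith) fun x => ⟨fun hx =>
    lim_mem (c := δ * ‖x‖) (t2 _ x tendsto_const_nhds).1 fun n => by
      obtain ⟨a1, P, a2, a3, -⟩ := t3 n
      obtain ⟨y, y1, y2⟩ := a3 (S n * x * ↑(S n)⁻¹) ((a2 _).2 (by simpa [← e, mul_assoc]))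
      refine ⟨y, y1, y2.trans ?_⟩
      have := nle (nle (unit_le1 a1) (le_refl ‖x‖)) (unit_le1 (Unitary.star_mem a1))
      rw [← e, one_mul, mul_one] at this
      exact (mul_le_mul_of_nonneg_left this (by positivity)).trans_eq (by ring), fun hx => by
    have := lim_mem (N := M) (c := δ * ‖T * x * ↑T⁻¹‖) (t2 _ _ tendsto_const_nhds).2 fun n => by
      obtain ⟨a1, P, a2, -, a3⟩ := t3 n
      obtain ⟨y, y1, y2⟩ := a3 _ hx
      refine ⟨_, (a2 y).1 y1, ?_⟩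
      have := nle (nle (unit_le1 (Unitary.star_mem a1)) y2) (unit_le1 a1)
      rw [mul_sub, sub_mul, ← e] at this
      rw [← e]
      exact this.trans_eq (by ring)
    simpa [mul_assoc] using this⟩
  exact ⟨w, w1, by nlinarith, w3⟩

open R1 in
theorem lin_of_sep (h : SepLinStmt.{u}) : LinStmt.{u} := by
  obtain ⟨C, C1, h⟩ := h
  have k1 : 1 ≤ 12 * kk ^ 2 := by nlinarith [kk1]
  obtain ⟨k, hk⟩ : ∃ k, k = 12 * kk ^ 2 := ⟨_, rfl⟩
  rw [← hk] at k1
  have k2 : C * k ≤ C * k ^ 2 := by gcongr; nlinarith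
  have k3 : 1 ≤ C * k := by nlinarith
  refine ⟨C * k ^ 2, by linarith, fun H _ _ _ M N δ h1 h2 δ0 δ1 => ?_⟩
  have k4 : C * (k * δ) ≤ C * k ^ 2 * δ := by nlinarith
  have : ∀ F : Finset (Op H × H), ∃ b q : Op H, ‖b‖ ≤ C * k ^ 2 * δ ∧ star q = q ∧
      (∀ z ∈ F, q z.2 = z.2) ∧ ∀ z ∈ F, ∀ w ∈ F, z.1 ∈ M → w.1 ∈ N.commutant →
        ‖q * lin b z.1 w.1 * q‖ ≤ C * k ^ 2 * δ ^ 2 * ‖z.1‖ * ‖w.1‖ := fun F => by
    obtain ⟨V, _, _, P, Q, a1, a2, a3, a4⟩ := loc h1 h2 δ0 (by nlinarith) F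
    obtain ⟨b, b1, b2⟩ := h V P Q _ (hk ▸ a1) (hk ▸ a2) (by positivity) (k4.trans δ1)
    obtain ⟨c, c1, c2⟩ := up V b
    refine ⟨c, V.starProjection, c1.trans (b1.trans k4), isSelfAdjoint_starProjection V,
      fun z hz => Submodule.starProjection_eq_self_iff.2 (a3 z hz), fun z hz w hw z1 w1 => ?_⟩
    obtain ⟨x, x1, x2, x3, -⟩ := a4 z hz
    obtain ⟨a, x4, x5, -, x6⟩ := a4 w hw
    refine (c2 x a _ _ x2 x5).trans ((b2 x (x3 z1) a (x6 w1)).trans ?_)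
    rw [mul_pow, ← mul_assoc]
    gcongr
  choose b q b1 b2 b3 b4 using this
  obtain ⟨U, hU⟩ := Ultrafilter.exists_le (atTop : Filter (Finset (Op H × H)))
  obtain ⟨b₀, c1, c2⟩ := lin_lim U (1 : Op H) (by simp [one_def, adjoint_id]) b b1
  have e := fun z : Op H × H => (eventually_finset_mem_atTop z).filter_mono hU
  have t : ∀ x : Op H, SV U.toFilter (1 : Op H) (fun _ => x) x := fun x v => tendsto_const_nhds
  refine ⟨b₀, c1, fun x hx a ha => c2 x a (fun _ => x) (fun _ => a) q _ (max ‖x‖ ‖a‖)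
    ?_ (fun v => ?_) (t x) (t (star x)) (t a) (t (star a))⟩
  · filter_upwards [e (x, 0), e (a, 0)] with F f1 f2
    exact ⟨le_max_left _ _, le_max_right _ _, b2 F, by simpa only using b4 F _ f1 _ f2 hx ha⟩
  · exact tendsto_const_nhds.congr' ((e (0, v)).mono fun F hF => (b3 F _ hF).symm)

end Vale.Agent.P096
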