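import Vale.Agent.P096.Core2

/-! Reduction of the separable case to standard position. -/

open Finset Vale.Agent.P104 Vale.Agent.P085 Filter Topology Complex ContinuousLinearMap
open scoped InnerProductSpace InnerProduct

set_option linter.unusedSectionVars false

namespace Vale.Agent.P096

universe u

namespace R2

variable {H G : Type u} [NormedAddCommGroup H] [InnerProductSpace ℂ H] [CompleteSpace H]
  [NormedAddCommGroup G] [InnerProductSpace ℂ G] [CompleteSpace G]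

lemma amp_near (π : Op H →⋆ₐ[ℂ] Op G) {P Q : VonNeumannAlgebra H} {δ : ℝ} (δ0 : 0 < δ)
    (hQ : Nr Q P δ) : Nr (vnOf (π '' P)) (vnOf (π '' Q)) (2 * kk * δ) := by
  intro X hX
  rcases eq_or_ne X 0 with rfl | X0
  · exact ⟨0, zero_mem _, by simp⟩
  have X1 := norm_pos_iff.2 X0
  have πl : ∀ T, ‖π T‖ ≤ ‖T‖ := NonUnitalStarAlgHom.norm_apply_le π
  obtain ⟨Y, y1, y2⟩ := comm_near (π.comp Q.toStarSubalgebra.subtype).toAlgHom
    (fun x => (πl _).trans (le_mul_of_one_le_left (norm_nonneg _) one_le_two)) X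
    (ε := 2 * δ * ‖X‖) (by positivity) fun x => by
      obtain ⟨y, y1, y2⟩ := hQ x.1 x.2
      refine le_of_eq_of_le (congrArg _ ?_) ((cle ((πl _).trans y2) (le_refl ‖X‖)).trans_eq
        (by change _ = _ * ‖x.1‖; ring))
      rw [map_sub, sub_mul, mul_sub, (mem_vnOf.1 hX _ ⟨y, y1, rfl⟩).1,
        sub_sub_sub_cancel_right]; rfl
  refine ⟨Y, mem_vnOf.2 ?_, y2.trans_eq (by ring)⟩
  rintro _ ⟨x, hx, rfl⟩
  exact ⟨y1 ⟨x, hx⟩, map_star π x ▸ y1 ⟨star x, star_mem hx⟩⟩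

lemma mem_amp {π : Op H →⋆ₐ[ℂ] Op G} {P : VonNeumannAlgebra H} {X : Op G}
    (h : ∀ x ∈ P, π x * X = X * π x) : X ∈ vnOf (π '' P) := mem_vnOf.2 (by
  rintro _ ⟨x, hx, rfl⟩
  exact ⟨h x hx, map_star π x ▸ h _ (star_mem hx)⟩)

/-- isometries whose adjoints tend to zero -/
def Sh (s : ℕ → Op H) : Prop :=
  (∀ k, star (s k) * s k = 1) ∧ ∀ v, Tendsto (fun k => star (s k) v) atTop (𝓝 0)

lemma iso_le {s : Op H} (h : star s * s = 1) : ‖star s‖ ≤ 1 := by
  have := CStarRing.norm_star_mul_self (x := s)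
  rw [h] at this
  rw [norm_star]
  nlinarith [norm_nonneg s, n1 (K := H)]

lemma lim_J {J : ℕ → H →L[ℂ] G} (hJ : Fm J) {T : ℕ → Op G} (h1 : ∀ k, ‖T k‖ ≤ 1)
    (h2 : ∀ i v, Tendsto (fun k => T k (J i v)) atTop (𝓝 0)) (ψ : G) :
    Tendsto (fun k => T k ψ) atTop (𝓝 0) :=
  (Co.cl_lim (t := 0) h1).mem_of_tendsto (hJ.hsum ψ) (.of_forall fun F => by
    simpa using tendsto_finset_sum F fun j _ => h2 j (((J j)†) ψ))

lemma shift {J : ℕ → H →L[ℂ] G} (hJ : Fm J) {π : Op H →⋆ₐ[ℂ] Op G}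
    (hπ : ∀ T i v, π T (J i v) = J i (T v)) :
    ∃ s : ℕ → Op G, Sh s ∧ ∀ k T, π T * s k = s k * π T := by
  choose s s0 s1 using fun k : ℕ => hJ.op (· + k) (fun _ => 1) 1 (add_left_injective k)
    fun _ => P096.n1
  have a : ∀ k j ψ, ((J j)†) (star (s k) ψ) = ((J (j + k))†) ψ := fun k j ψ =>
    ext_inner_left ℂ fun w => by
      rw [adjoint_inner_right, inner_star_r, s1, adjoint_inner_right]; rfl
  have b : ∀ k, star (s k) * s k = 1 := fun k => hJ.ext _ _ fun i v =>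
    sub_eq_zero.1 (hJ.tot _ fun j => by simp [a, s1, hJ.orth])
  refine ⟨s, ⟨b, lim_J hJ (fun k => iso_le (b k)) fun i v => tendsto_const_nhds.congr' ?_⟩,
    fun k T => hJ.ext _ _ fun i v => by simp [s1, hπ]⟩
  exact (eventually_gt_atTop i).mono fun k hk => (hJ.tot _ fun j => by
    rw [a, hJ.orth, if_neg (by omega)]).symm

lemma Sh.amp {J : ℕ → H →L[ℂ] G} (hJ : Fm J) {π : Op H →⋆ₐ[ℂ] Op G}
    (hπ : ∀ T i v, π T (J i v) = J i (T v)) {s : ℕ → Op H} (h : Sh s) : Sh fun k => π (s k) := by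
  have b : ∀ k, star (π (s k)) * π (s k) = 1 := fun k => by
    rw [← map_star, ← map_mul, h.1, map_one]
  refine ⟨b, lim_J hJ (fun k => iso_le (b k)) fun i v => ?_⟩
  simpa [← map_star, hπ, Function.comp_def] using ((J i).continuous.tendsto _).comp (h.2 v)

lemma Sh.conj {s : ℕ → Op H} (h : Sh s) {u : Op H} (hu : u ∈ unitary (Op H)) :
    Sh fun k => star u * s k * u := by
  refine ⟨fun k => ?_, fun v => ?_⟩
  · dsimp only
    rw [star_mul, star_mul, star_star, mul_assoc, mul_assoc, mul_assoc, ← mul_assoc u, hu.2,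
      one_mul, ← mul_assoc (star (s k)), h.1, one_mul, hu.1]
  · simpa [Function.comp_def] using ((star u).continuous.tendsto _).comp (h.2 (u v))

lemma cyc_res [TopologicalSpace.SeparableSpace H] {Q : VonNeumannAlgebra H} {s : ℕ → Op H}
    (h : Sh s) (hs : ∀ k, s k ∈ Q) : ∀ᶠ ξ in residual H, DenseRange (ev Q ξ) := by
  have : Nonempty H := ⟨0⟩
  obtain ⟨t, ht⟩ := TopologicalSpace.exists_dense_seq H
  have key : ∀ p : ℕ × ℕ, ∀ᶠ ξ in residual H, ∃ x ∈ Q, ‖x ξ - t p.1‖ < 1 / (p.2 + 1) := by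
    intro p
    refine residual_of_dense_open ?_ (Metric.dense_iff.2 fun v ε ε0 => ?_)
    · simp only [← exists_prop, Set.setOf_exists]
      exact isOpen_iUnion fun x => isOpen_iUnion fun _ => isOpen_lt (by fun_prop) continuous_const
    obtain ⟨η, η0, η1⟩ := exists_pos_mul_lt (half_pos ε0) ‖t p.1‖
    obtain ⟨k, hk⟩ := ((h.2 v).norm.eventually_lt_const (u := ε / 2) (by simpa using ε0)).exists
    have e : ∀ w, star (s k) (s k w) = w := fun w => congr($(h.1 k) w)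
    have n : ∀ w, ‖s k w‖ ≤ ‖w‖ := app_le ((norm_star _).symm.trans_le (iso_le (h.1 k)))
    refine ⟨v + ((η : ℂ) • s k (t p.1) - s k (star (s k) v)), ?_, (η : ℂ)⁻¹ • star (s k),
      smulM _ (star_mem (hs k)), ?_⟩
    · rw [Metric.mem_ball, dist_eq_norm, add_sub_cancel_left]
      refine (norm_sub_le _ _).trans_lt ?_
      rw [norm_smul, norm_real, Real.norm_of_nonneg η0.le]
      nlinarith [n (t p.1), n (star (s k) v)]
    · simp only [smul_apply, map_add, map_sub, map_smul, e, add_sub_cancel, smul_smul]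
      rw [mul_inv_cancel₀ (by exact_mod_cast η0.ne'), one_smul, sub_self, norm_zero]
      positivity
  refine (eventually_countable_forall.2 key).mono fun ξ hξ => Metric.denseRange_iff.2 fun v ε ε0 => ?_
  obtain ⟨j, hj⟩ := ht.exists_dist_lt v (half_pos ε0)
  obtain ⟨n, hn⟩ := exists_nat_one_div_lt (half_pos ε0)
  obtain ⟨x, x1, x2⟩ := hξ (j, n)
  refine ⟨⟨x, x1⟩, (dist_triangle_right _ _ (t j)).trans_lt ?_⟩
  rw [ev_apply, dist_eq_norm (x ξ)]
  linarith

lemma cen_idem {N : VonNeumannAlgebra H} {e : Op H} (e1 : e ∈ N) (e2 : e * e = e)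
    (h : ∀ n ∈ N, ‖e * n - n * e‖ ≤ 1 / 2 * ‖n‖) : e ∈ N.commutant ∧ star e = e := by
  have c : ∀ n ∈ N, n * e = e * n := fun n hn => by
    have a := h _ (mul_mem (mul_mem (sub_mem (one_mem N) e1) hn) e1)
    have b := h _ (mul_mem (mul_mem e1 hn) (sub_mem (one_mem N) e1))
    rw [← mul_assoc, ← mul_assoc, mul_sub e, mul_one, e2, sub_self, zero_mul, zero_mul, zero_sub,
      norm_neg, mul_assoc _ e, e2] at a
    rw [mul_assoc _ (1 - e), sub_mul 1, one_mul, e2, sub_self, mul_zero, sub_zero, ← mul_assoc,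
      ← mul_assoc, e2] at b
    have a' : (1 - e) * n * e = 0 := norm_le_zero_iff.1 (by linarith)
    have b' : e * n * (1 - e) = 0 := norm_le_zero_iff.1 (by linarith)
    rw [sub_mul, sub_mul, one_mul, sub_eq_zero] at a'
    rw [mul_sub, mul_one, sub_eq_zero] at b'
    exact a'.trans b'.symm
  refine ⟨VonNeumannAlgebra.mem_commutant_iff.2 c, ?_⟩
  have d := c _ (star_mem e1)
  have e3 : star e * star e = star e := by rw [← star_mul, e2]
  have f : star (e - star e * e) * (e - star e * e) = 0 := by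
    rw [star_sub, star_mul, star_star, mul_sub, sub_mul, sub_mul, mul_assoc _ e e, e2, sub_self,
      ← mul_assoc, e3, mul_assoc, ← mul_assoc e, ← d, mul_assoc, e2, ← mul_assoc, e3, sub_self,
      sub_self]
  rw [CStarRing.star_mul_self_eq_zero_iff, sub_eq_zero] at f
  rw [f, star_mul, star_star]

lemma move {M N : VonNeumannAlgebra H} {t : ℝ} (t0 : 0 < t) (t1 : t ≤ 1 / 100) (h1 : Nr M N t)
    {c : ℕ → Op H} (hc : ∀ n, Cp M (c n)) :
    ∃ T : (Op H)ˣ, ‖(T : Op H) - 1‖ ≤ 4 * t ∧ ∀ n, T * c n * ↑T⁻¹ ∈ N := by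
  have s1 : ∀ n, star (1 - (c n + c n)) = 1 - (c n + c n) := fun n => by simp [P104.pstar (hc n).1]
  have s2 : ∀ n, (1 - (c n + c n)) * (1 - (c n + c n)) = 1 := fun n => by
    simp only [mul_sub, sub_mul, mul_add, add_mul, pidem (hc n).1, mul_one, one_mul]; abel
  have s3 : ∀ n, 1 - (c n + c n) ∈ M := fun n => sub_mem (one_mem _) (add_mem (hc n).2.1 (hc n).2.1)
  have s4 : ∀ n, 1 - (c n + c n) ∈ M.commutant := fun n =>
    sub_mem (one_mem _) (add_mem (hc n).2.2 (hc n).2.2)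
  let Γ : Subgroup (unitary (Op H)) :=
    ⟨⟨⟨{g | g.1 ∈ M}, fun {g h} a b => mul_mem (show g.1 ∈ M from a) (show h.1 ∈ M from b)⟩,
      one_mem M⟩, fun {g} a => star_mem (show g.1 ∈ M from a)⟩
  let r : ℕ → Γ := fun n => ⟨⟨_, by rw [s1, s2], by rw [s1, s2]⟩, s3 n⟩
  obtain ⟨m, m1, m2⟩ := exists_haar (z := 1) (by simp) (by simp) (r := r)
    (fun n => Subtype.ext (Subtype.ext (s2 n))) fun i n =>
      .inl (Subtype.ext (Subtype.ext (commM (s3 n) (s4 i))))
  let α : Γ →* Op H := ⟨⟨fun g => g.1.1, rfl⟩, fun _ _ => rfl⟩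
  have α1 : ∀ g, ‖α g‖ ≤ 1 := fun g => unit_le1 g.1.2
  obtain ⟨T, T1, -, T2⟩ := am (S := 1) (N := N) (G := fun g => ∀ᶠ k in atTop, (m k).Iv g) (r := 0)
    (fun k => (m1 k).mono fun g hg => eventually_atTop.2 ⟨k, hg⟩) (fun _ h => h)
    (fun _ _ a b => (a.and b).mono fun _ h => h.1.mul h.2) α α1 t0 (by linarith) (by simp)
    (by norm_num) ∅ (by simp) (by simp) fun g _ => by
      obtain ⟨n, a, b⟩ := h1 _ g.2
      exact ⟨n, by simpa [mem_cj] using a, (norm_sub_rev _ _).trans_le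
        (b.trans (mul_le_of_le_one_right t0.le (α1 g)))⟩
  refine ⟨T, by linarith, fun n => ?_⟩
  have := smulM (2 : ℂ)⁻¹ (sub_mem (one_mem N)
    (mem_cj.1 (T2 (r n) ((eventually_gt_atTop n).mono (m2 n)))))
  rwa [show α (r n) = 1 - (c n + c n) from rfl, mul_sub, sub_mul, mul_one, T.mul_inv,
    sub_sub_cancel, mul_add, add_mul, ← two_smul ℂ, inv_smul_smul₀ two_ne_zero] at this

lemma centre {M N : VonNeumannAlgebra H} {t : ℝ} (t0 : 0 < t) (t1 : t ≤ 1 / 100) (h1 : Nr M N t)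
    (h2 : Nr N M t) {c : ℕ → Op H} (hc : ∀ n, Cp M (c n)) : ∃ u ∈ unitary (Op H),
      ‖u - 1‖ ≤ 32 * t ∧ ∀ n, u * c n * star u ∈ N ∧ u * c n * star u ∈ N.commutant := by
  obtain ⟨T, T1, T2⟩ := move t0 t1 h1 hc
  obtain ⟨u, u1, p, p1, -, -, p2, -, u2⟩ := polar_near T1 (by linarith)
  refine ⟨u, u1, by linarith, fun n => ?_⟩
  have a1 := T2 n
  obtain ⟨a2, a3⟩ := cen_idem a1 (by simp [mul_assoc, ← mul_assoc (c n), pidem (hc n).1])
    fun y hy => by
      obtain ⟨x, x1, x2⟩ := h2 y hy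
      have c1 := proj_le1 (hc n).1
      have := norm_add_le_of_le (cle ((conj_un T1 (by linarith) (c n)).1.trans
        (mul_le_of_le_one_right (by positivity) c1)) (le_refl ‖y‖)) (cle c1 x2)
      refine le_of_eq_of_le (congrArg _ ?_) (this.trans (by nlinarith [norm_nonneg y]))
      rw [mul_sub (c n), sub_mul y, commM x1 (hc n).2.2]
      noncomm_ring
  have a4 : (p : Op H) * c n = c n * p := (p2 _ (by
    rw [star_mul, star_mul, P104.pstar (hc n).1] at a3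
    have := congr(star (T : Op H) * $a3 * T)
    rw [← mul_assoc, ← star_mul, T.inv_mul, star_one, one_mul, mul_assoc (star _),
      T.inv_mul_cancel_right, ← mul_assoc, mul_assoc (c n)] at this
    exact this.symm)).eq
  have a5 : u * c n * star u = T * c n * ↑T⁻¹ := by
    rw [T.eq_mul_inv_iff_mul_eq, p1, mul_assoc _ (star u), ← mul_assoc (star u), u1.1, one_mul,
      mul_assoc, ← a4, mul_assoc]
  rw [a5]
  exact ⟨a1, a2⟩

end R2

open R2 in
theorem sepLin (h1 : StdLinStmt.{u}) (h2 : FmStmt.{u}) (h3 : GenZStmt.{u}) : SepLinStmt.{u} := by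
  obtain ⟨C, c1, h1⟩ := h1
  have k1 := kk1
  obtain ⟨K, hK⟩ : ∃ K, K = 2 * kk * (2 * kk * (2 * kk * (2 * kk))) := ⟨_, rfl⟩
  have K1 : 1 ≤ K := by
    have : 1 ≤ 2 * kk := by linarith
    rw [hK]; exact one_le_mul_of_one_le_of_one_le this (one_le_mul_of_one_le_of_one_le this
      (one_le_mul_of_one_le_of_one_le this this))
  obtain ⟨L, hL⟩ : ∃ L, L = 2 * kk * (9 * (32 * K)) := ⟨_, rfl⟩
  have L1 : 576 * K ≤ L := by nlinarith
  have L2 : C * L ≤ C * L ^ 2 := by gcongr; nlinarith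
  have L3 : L ≤ C * L := by nlinarith
  refine ⟨21 * (C * L ^ 2), by linarith, fun H _ _ _ _ M N δ n1 n2 δ0 δ1 => ?_⟩
  have L4 : C * (L * δ) ≤ C * L ^ 2 * δ := by rw [← mul_assoc]; gcongr
  have L5 : L * δ ≤ C * (L * δ) := by rw [← mul_assoc]; gcongr
  have L6 : 576 * (K * δ) ≤ L * δ := by rw [← mul_assoc]; gcongr
  have t0 : 0 < K * δ := by positivity
  obtain ⟨H1, _, _, _, J1, j1, q1⟩ := h2 H ℕ
  have := q1 inferInstance
  obtain ⟨H2, _, _, _, J2, j2, q2⟩ := h2 H1 ℕ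
  have := q2 inferInstance
  obtain ⟨π1, p1⟩ := j1.amp
  obtain ⟨π2, p2⟩ := j2.amp
  obtain ⟨s, s1, s2⟩ := shift j1 p1
  obtain ⟨s', s3, s4⟩ := shift j2 p2
  have e : K * δ = 2 * kk * (2 * kk * (2 * kk * (2 * kk * δ))) := by rw [hK]; ring
  have N1 := (amp_near π2 (by positivity) (amp_near π1 (by positivity) (n2.comm δ0))).comm
    (by positivity)
  have N2 := (amp_near π2 (by positivity) (amp_near π1 (by positivity) (n1.comm δ0))).comm
    (by positivity)
  rw [← e] at N1 N2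
  have a1 : ∀ P : VonNeumannAlgebra H, (∀ k, π2 (s k) ∈
      (vnOf (π2 '' vnOf (π1 '' P.commutant))).commutant) ∧
      (∀ k, s' k ∈ (vnOf (π2 '' vnOf (π1 '' P.commutant))).commutant.commutant) ∧
      (∀ x ∈ P, π2 (π1 x) ∈ (vnOf (π2 '' vnOf (π1 '' P.commutant))).commutant) ∧
      ∀ a ∈ P.commutant, π2 (π1 a) ∈ (vnOf (π2 '' vnOf (π1 '' P.commutant))).commutant.commutant :=
    fun P => by
      rw [VonNeumannAlgebra.commutant_commutant]
      exact ⟨fun k => mem_vnOf_comm ⟨_, mem_amp fun x _ => s2 k x, rfl⟩,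
        fun k => mem_amp fun x _ => s4 k x,
        fun x hx => mem_vnOf_comm ⟨_, mem_amp fun y hy => by
          rw [← map_mul, ← commM hx hy, map_mul], rfl⟩,
        fun a ha => mem_amp fun y hy => by
          rw [← map_mul, ← (mem_vnOf.1 hy _ ⟨a, ha, rfl⟩).1, map_mul]⟩
  obtain ⟨m1, m2, m3, -⟩ := a1 M
  obtain ⟨l1, l2, -, l3⟩ := a1 N
  generalize (vnOf (π2 '' vnOf (π1 '' M.commutant))).commutant = M2 at *
  generalize (vnOf (π2 '' vnOf (π1 '' N.commutant))).commutant = N2' at *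
  obtain ⟨c, g1, g2⟩ := h3 H2 M2
  obtain ⟨u, u1, u2, u3⟩ := centre t0 (by linarith) N2 N1 g1
  obtain ⟨N3, b1, b2⟩ := exists_conj N2' (Unitary.star_mem u1)
  simp only [star_star] at b1 b2
  have b3 : ∀ y, u * (star u * y * u) * star u = y := fun y => by
    rw [← mul_assoc, ← mul_assoc, u1.2, one_mul, mul_assoc, u1.2, mul_one]
  obtain ⟨ξ, ⟨x1, x2⟩, x3, x4⟩ := (dense_of_mem_residual (((cyc_res (s1.amp j2 p2) m1).and
    (cyc_res s3 m2)).and ((cyc_res (Q := N3) ((s1.amp j2 p2).conj u1) fun k =>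
      (b1 _).2 ((b3 _).symm ▸ l1 k)).and (cyc_res (Q := N3.commutant) (s3.conj u1) fun k =>
      (b2 _).2 ((b3 _).symm ▸ l2 k))))).nonempty
  have i : K * δ ≤ 32 * (K * δ) := by linarith
  have cl : Cl M2 N3 (L * δ) := by
    have := Cl.of (M := M2) (N := N3) (δ := 9 * (32 * (K * δ)))
      (fun x hx => ((N2.mono i).cj1 (S := Unitary.toUnits ⟨u, u1⟩) u2
        (by linarith) x hx).imp fun y a => ⟨(b1 y).2 a.1, a.2⟩)
      (fun y hy => (N1.mono i).cj2 (S := Unitary.toUnits ⟨u, u1⟩) u2 (by linarith) y ((b1 y).1 hy))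
      (by positivity)
    exact this.mono (by rw [hL]; exact le_of_eq (by ring))
  obtain ⟨b, d1, d2⟩ := h1 H2 M2 N3 ξ _ x1 x2 x3 x4 cl (by linarith) (by linarith) fun q hq =>
    ⟨hq.1, memM fun y hy => g2 y (fun n => (commM ((b1 _).2 (u3 n).1) hy).symm) q hq.2.1 hq.2.2,
      VonNeumannAlgebra.mem_commutant_iff.2 fun y hy =>
        g2 y (fun n => commM hy ((b2 _).2 (u3 n).2)) q hq.2.1 hq.2.2⟩
  obtain ⟨b₀, f1, f2⟩ := lin_lim (pure () : Ultrafilter Unit) (J2 0 ∘L J1 0)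
    (fun v => by simp [adjoint_comp, j1.orth, j2.orth]) (fun _ => b + (u - 1))
    fun _ => norm_add_le_of_le d1 u2
  refine ⟨b₀, by linarith, fun x hx a ha => ?_⟩
  have πl : ∀ T, ‖π2 (π1 T)‖ ≤ ‖T‖ := fun T =>
    (NonUnitalStarAlgHom.norm_apply_le π2 _).trans (NonUnitalStarAlgHom.norm_apply_le π1 _)
  have sv : ∀ T {l : Filter Unit}, SV l (J2 0 ∘L J1 0) (fun _ => π2 (π1 T)) T :=
    fun T l v => by simp only [comp_apply, p1, p2]; exact tendsto_const_nhds
  refine f2 x a (fun _ => π2 (π1 x)) (fun _ => π2 (π1 a)) (fun _ => 1) _ (‖x‖ + ‖a‖)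
    (.of_forall fun _ => ⟨by linarith [πl x, norm_nonneg a], by linarith [πl a, norm_nonneg x],
      star_one _, ?_⟩) (fun v => by simp) (sv x) (by simpa only [map_star] using sv (star x))
    (sv a) (by simpa only [map_star] using sv (star a))
  rw [one_mul, mul_one]
  have y1 : ‖star u * π2 (π1 a) * u‖ ≤ ‖a‖ := by
    simpa using (Co.conj_le (Unitary.star_mem u1) _).trans (πl a)
  have y2 := lin_conj u1 (u2.trans (show _ ≤ L * δ by linarith)) d1
    (d2 _ (m3 x hx) (star u * π2 (π1 a) * u) ((b2 _).2 (by rw [b3]; exact l3 a ha)))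
  have l0 : 0 ≤ L * δ := by linarith
  have y3 : 4 * (L * δ) ^ 2 * (1 + 2 * (C * (L * δ))) ≤ 12 * (C * (L * δ) ^ 2) := by
    nlinarith [sq_nonneg (L * δ)]
  refine y2.trans ((add_le_add (b := C * (L * δ) ^ 2 * ‖x‖ * ‖a‖)
    (d := 20 * (C * (L * δ) ^ 2) * ‖x‖ * ‖a‖) ?_ ?_).trans_eq (by ring))
  · gcongr; exact πl x
  · gcongr
    exacts [by linarith, πl x, πl a]

end Vale.Agent.P096
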