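import Vale.Agent.P096.Cv2

/-! The perturbation theorem for finite algebras in standard form with a central sequence. -/

open Finset Vale.Agent.P104 Vale.Agent.P085 Filter Topology
open scoped InnerProductSpace

set_option linter.unusedSectionVars false

namespace Vale.Agent.P096

universe u

namespace NZ
variable {K : Type u} [NormedAddCommGroup K] [InnerProductSpace ℂ K] [CompleteSpace K]
  {M N P : VonNeumannAlgebra K} {ξ ζ : K} {S W : (Op K)ˣ} {δ η : ℝ}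

/-- stable under gluing along central projections -/
def Gl (M : VonNeumannAlgebra K) (X : Set (Op K)) : Prop :=
  (∀ x ∈ X, ∀ p, Cp M p → x * p = p * x) ∧ ∃ Y : Set (Op K), (∀ y ∈ Y, ∀ p, Cp M p → y * p = p * y) ∧
    ∀ x, x ∈ X ↔ ∀ y ∈ Y, y * x = x * y

lemma her (ex : ExhStmt.{u}) {X₁ X₂ X₃ X₄ : Set (Op K)} (h1 : Gl M X₁) (h2 : Gl M X₂) (h3 : Gl M X₃)
    (h4 : Gl M X₄) {p₀ : Op K} (hp : Cp M p₀) {α β : ℝ} (β0 : 0 ≤ β)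
    (hβ : 2 * α ^ 2 < β ^ 2 * ‖p₀ ζ‖ ^ 2)
    (k1 : ∀ a ∈ X₁, ‖a‖ ≤ 1 → ∀ x ∈ X₂, ‖x‖ ≤ 1 → ‖(a * x - x * a) (p₀ ζ)‖ ≤ α)
    (k2 : ∀ a ∈ X₃, ‖a‖ ≤ 1 → ∀ x ∈ X₄, ‖x‖ ≤ 1 → ‖(a * x - x * a) (p₀ ζ)‖ ≤ α) :
    ∃ p, Cp M p ∧ p ≠ 0 ∧ p * p₀ = p ∧ ∀ p', Cp M p' → p' * p = p' →
      (∀ a ∈ X₁, ‖a‖ ≤ 1 → ∀ x ∈ X₂, ‖x‖ ≤ 1 → ‖(a * x - x * a) (p' ζ)‖ ≤ β * ‖p' ζ‖) ∧
      ∀ a ∈ X₃, ‖a‖ ≤ 1 → ∀ x ∈ X₄, ‖x‖ ≤ 1 → ‖(a * x - x * a) (p' ζ)‖ ≤ β * ‖p' ζ‖ := by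
  by_contra hc
  have z0 : ∀ {X}, Gl M X → (0 : Op K) ∈ X ∧ ‖(0 : Op K)‖ ≤ 1 := fun ⟨_, Y, _, h⟩ =>
    ⟨(h 0).2 (by simp), by simp⟩
  obtain ⟨T, t1, -, -, t2, -, t3⟩ := ex K M (fun p => ∃ a x a' x' : Op K, (a ∈ X₁ ∧ ‖a‖ ≤ 1) ∧
      (x ∈ X₂ ∧ ‖x‖ ≤ 1) ∧ (a' ∈ X₃ ∧ ‖a'‖ ≤ 1) ∧ (x' ∈ X₄ ∧ ‖x'‖ ≤ 1) ∧ β ^ 2 * ‖p ζ‖ ^ 2 ≤
        ‖(a * x - x * a) (p ζ)‖ ^ 2 + ‖(a' * x' - x' * a') (p ζ)‖ ^ 2) p₀ hp fun q q1 q2 q3 => by
    by_contra hq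
    refine hc ⟨q, q1, q2, q3, fun p p1 p2 => ⟨fun a a1 a2 x x1 x2 => ?_, fun a a1 a2 x x1 x2 => ?_⟩⟩
    all_goals
      by_contra hb
      have e := pow_le_pow_left₀ (by positivity) (not_le.1 hb).le 2
      rw [mul_pow] at e
      refine hq ⟨p, p1, by rintro rfl; simp at hb, p2, ?_⟩
    · exact ⟨a, x, 0, 0, ⟨a1, a2⟩, ⟨x1, x2⟩, z0 h3, z0 h4, by simpa using e⟩
    · exact ⟨0, 0, a, x, z0 h1, z0 h2, ⟨a1, a2⟩, ⟨x1, x2⟩, by simpa using e⟩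
  choose! a x a' x' a1 x1 a2 x2 hb using fun p hp => (t1 p hp).2.2
  have gl : ∀ {X}, Gl M X → ∀ f : Op K → Op K, (∀ p ∈ T, f p ∈ X ∧ ‖f p‖ ≤ 1) →
      ∃ b ∈ X, ‖b‖ ≤ 1 ∧ ∀ p ∈ T, ∀ v, p (b v) = f p (p v) := fun ⟨g1, Y, g2, g3⟩ f hf => by
    obtain ⟨b, b1, -, -, b2, b3⟩ := t3 f 1 zero_le_one fun p hp =>
      ⟨(hf p hp).2, g1 _ (hf p hp).1 p (t1 p hp).1⟩
    exact ⟨b, (g3 b).2 fun y hy => b3 y fun p hp => ⟨g2 y hy p (t1 p hp).1,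
      (g3 _).1 (hf p hp).1 y hy⟩, b1, fun p hp v => congr($((b2 p hp).2) v)⟩
  have hs : ∀ {X X'}, Gl M X → Gl M X' → ∀ f g : Op K → Op K, (∀ p ∈ T, f p ∈ X ∧ ‖f p‖ ≤ 1) →
      (∀ p ∈ T, g p ∈ X' ∧ ‖g p‖ ≤ 1) →
      (∀ a ∈ X, ‖a‖ ≤ 1 → ∀ x ∈ X', ‖x‖ ≤ 1 → ‖(a * x - x * a) (p₀ ζ)‖ ≤ α) →
      ∃ s ≤ α ^ 2, HasSum (fun p : T => ‖(f p * g p - g p * f p) (p.1 ζ)‖ ^ 2) s :=
    fun hX hX' f g hf hg k => by
      obtain ⟨b, b1, b2, b3⟩ := gl hX f hf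
      obtain ⟨c, c1, c2, c3⟩ := gl hX' g hg
      refine ⟨_, ?_, HasSum.congr_fun (t2 ((b * c - c * b) ζ)) fun p => ?_⟩
      · have e1 : ∀ v, b (p₀ v) = p₀ (b v) := fun v => congr($(hX.1 b b1 p₀ hp) v)
        have e2 : ∀ v, c (p₀ v) = p₀ (c v) := fun v => congr($(hX'.1 c c1 p₀ hp) v)
        simpa [e1, e2] using pow_le_pow_left₀ (norm_nonneg _) (k b b1 b2 c c1 c2) 2
      · simp [b3 _ p.2, c3 _ p.2]
  obtain ⟨s, s1, s2⟩ := hs h1 h2 a x a1 x1 k1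
  obtain ⟨s', s3, s4⟩ := hs h3 h4 a' x' a2 x2 k2
  have := hasSum_le (fun p : T => hb p.1 p.2) ((t2 ζ).mul_left (β ^ 2)) (s2.add s4)
  linarith

lemma gl_vn : Gl M M :=
  ⟨fun _ hx _ hp => commM hx hp.2.2, M.commutant, fun _ hy _ hp => (commM hp.2.1 hy).symm,
    fun _ => ⟨fun hx _ hy => (commM hx hy).symm, memM⟩⟩

lemma gl_vn' : Gl M M.commutant :=
  ⟨fun _ hx _ hp => (commM hp.2.1 hx).symm, M, fun _ hy _ hp => commM hy hp.2.2,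
    fun _ => VonNeumannAlgebra.mem_commutant_iff⟩

lemma gl_cj (h1 : ∀ a ∈ cj S N, ∀ p, Cp M p → a * p = p * a)
    (h2 : ∀ a ∈ cj S N.commutant, ∀ p, Cp M p → a * p = p * a) : Gl M (cj S N) :=
  ⟨h1, cj S N.commutant, h2, fun _ => ⟨fun hx _ hy => (cj_comm hx hy).symm, cj_mem⟩⟩

/-- commutators are small on all the vectors `p ξ` -/
def FZ (M : VonNeumannAlgebra K) (Q : Subalgebra ℂ (Op K)) (P : VonNeumannAlgebra K) (ξ : K)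
    (η : ℝ) : Prop := ∀ p, Cp M p → Fl Q P (p ξ) (η * ‖p ξ‖)

lemma cp_mul {p q : Op K} (hp : Cp M p) (hq : Cp M q) : Cp M (p * q) :=
  ⟨hp.1.mul hq.1 (commM hp.2.1 hq.2.2), mul_mem hp.2.1 hq.2.1, mul_mem hp.2.2 hq.2.2⟩

lemma cp_one : Cp M 1 := ⟨.one _, one_mem _, one_mem _⟩

lemma fl_smul {Q : Subalgebra ℂ (Op K)} (c : ℂ) (h : Fl Q P ξ η) : Fl Q P (c • ξ) (‖c‖ * η) :=
  fun a ha x hx => by
    rw [map_smul, norm_smul, mul_assoc, mul_assoc, ← mul_assoc η]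
    exact mul_le_mul_of_nonneg_left (h a ha x hx) (norm_nonneg _)

variable {D : Bim (MA M) K} {m : ℕ → Pr (unitary (MA M))}

lemma hstep (ex : ExhStmt.{u}) (h : SG M ξ D) (hm : HZ M ξ m) (n1 : Nr M (cj S N) δ)
    (n2 : Nr (cj S N) M δ) (n3 : Nr M.commutant (cj S N.commutant) δ)
    (n4 : Nr (cj S N.commutant) M.commutant δ)
    (δ0 : 0 < δ) (δ1 : δ ≤ 1 / 10 ^ 38) (η0 : 0 < η) (η1 : η ≤ 1 / 10 ^ 8)
    (g1 : ∀ g, Gp m g → D.L g ∈ cj S N) (g2 : ∀ g, Gp m g → D.R g ∈ cj S N.commutant)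
    (f1 : FZ M (cj S N.commutant) M ξ η) (f2 : FZ M (cj S N) M.commutant ξ η) {q : Op K}
    (hq : Cp M q) (q0 : q ≠ 0) : ∃ p, Cp M p ∧ p ≠ 0 ∧ p * q = p ∧ ∃ (b : Op K) (W : (Op K)ˣ),
      (W : Op K) = 1 - b ∧ ‖b‖ ≤ 320 * η ∧
      (∀ g, Gp m g → D.L g * b = b * D.L g ∧ D.R g * b = b * D.R g) ∧ ∀ p', Cp M p' → p' * p = p' →
        Fl (cj (S * W) N.commutant) M (p' ξ) (η / 2 * ‖p' ξ‖) ∧
        Fl (cj (S * W) N) M.commutant (p' ξ) (η / 2 * ‖p' ξ‖) := by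
  have q1 : 0 < ‖q ξ‖ := norm_pos_iff.2 fun e => q0 (cyc_ext' h.std.cyc hq.2.2 (zero_mem _) e)
  obtain ⟨c, hc⟩ : ∃ c : ℂ, c = ((‖q ξ‖⁻¹ : ℝ) : ℂ) := ⟨_, rfl⟩
  have c1 : ‖c‖ * ‖q ξ‖ = 1 := by simp [hc, q1.ne']
  have c2 : ‖c‖ * (η * ‖q ξ‖) = η := by rw [mul_left_comm, c1, mul_one]
  have c3 : c ≠ 0 := by rintro rfl; simp at c1
  obtain ⟨f, b, W, p1, p2, p3, p4, p5, p6, p7⟩ := lstep (ζ := c • q ξ) h hm n1 n2 n3 n4 δ0 δ1 η0 η1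
    g1 g2 (by rw [norm_smul, c1]) (fun z => by
      rw [map_smul, map_smul, ← mul_apply_eq_comp, ← commM hq.2.1 (h.Rm z), mul_apply_eq_comp, h.Rv,
        ← mul_apply_eq_comp, ← commM z.2 hq.2.2, mul_apply_eq_comp]) (fun x hx => by
      have := h.std.nst _ (mul_mem hx hq.2.1)
      rw [star_mul, P104.pstar hq.1, ← commM (star_mem hx) hq.2.2] at this
      rw [map_smul, map_smul, norm_smul, norm_smul]
      exact mul_le_mul_of_nonneg_left this (norm_nonneg _))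
    (c2 ▸ fl_smul c (f1 q hq)) (c2 ▸ fl_smul c (f2 q hq))
  have wc : ∀ {y}, y * b = b * y → y * W = W * y := fun hy => by
    rw [p3, mul_sub, sub_mul, mul_one, one_mul, hy]
  obtain ⟨c4, c5⟩ := h.cen (S := S * W) hm (fun g hg => cj_fix (g1 g hg) (wc (p5 g hg).1))
    fun g hg => cj_fix (g2 g hg) (wc (p5 g hg).2)
  have e : (f * q) (c • ξ) = f (c • q ξ) := by simp
  obtain ⟨p, r1, r2, r3, r4⟩ := her ex (ζ := c • ξ) (gl_cj (S := S * W) (N := N.commutant)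
    (fun a ha p hp => c5 a ha p hp.2.1 hp.2.2) (by
      rw [N.commutant_commutant]; exact fun a ha p hp => c4 a ha p hp.2.1 hp.2.2)) gl_vn
    (gl_cj (S := S * W) (fun a ha p hp => c4 a ha p hp.2.1 hp.2.2)
      fun a ha p hp => c5 a ha p hp.2.1 hp.2.2) gl_vn' (cp_mul p1 hq) (α := η / 5) (β := η / 2)
    (by positivity) (by rw [e]; nlinarith [pow_pos η0 2])
    (fun a a1 a2 x x1 x2 => by simpa [e] using p6.le (by positivity) a1 x1 a2 x2)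
    (fun a a1 a2 x x1 x2 => by simpa [e] using p7.le (by positivity) a1 x1 a2 x2)
  have k : ∀ {T p' : Op K}, ‖T (p' (c • ξ))‖ ≤ η / 2 * ‖p' (c • ξ)‖ → ‖T (p' ξ)‖ ≤ η / 2 * ‖p' ξ‖ :=
    fun hT => by
      rw [map_smul, map_smul, norm_smul, norm_smul, mul_left_comm] at hT
      exact le_of_mul_le_mul_left hT (norm_pos_iff.2 c3)
  exact ⟨p, r1, r2, by rw [← r3, mul_assoc, mul_assoc, pidem hq.1], b, W, p3, p4, p5,
    fun p' s1 s2 => ⟨fl_ball fun a a1 a2 x x1 x2 => k ((r4 p' s1 s2).1 a a1 a2 x x1 x2),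
      fl_ball fun a a1 a2 x x1 x2 => k ((r4 p' s1 s2).2 a a1 a2 x x1 x2)⟩⟩

lemma cj_cut {V : (Op K)ˣ} {a p : Op K} (ha : a ∈ cj (S * W) N) (hp : p ∈ cj S N)
    (h1 : V * p = W * p) (h2 : V * p = p * V) (h3 : W * p = p * W) (h4 : a * p = p * a)
    (h5 : p * p = p) : a * p ∈ cj (S * V) N := by
  have e : p * ↑V⁻¹ = ↑W⁻¹ * p := by
    rw [← W.inv_mul_cancel_left (p * _), ← mul_assoc (W : Op K), ← h1, h2, V.mul_inv_cancel_right]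
  have e2 : p * ↑W⁻¹ = ↑W⁻¹ * p := by
    rw [← W.inv_mul_cancel_left (p * _), ← mul_assoc (W : Op K), h3, W.mul_inv_cancel_right]
  have : V * (a * p) * ↑V⁻¹ = W * a * ↑W⁻¹ * p := by
    nth_rewrite 1 [← h5]
    rw [← mul_assoc a, h4, ← mul_assoc, ← mul_assoc, h1, mul_assoc _ p, e, mul_assoc _ p, ← h4]
    simp only [mul_assoc]
    rw [← mul_assoc p, e2, mul_assoc, h5]
  rw [cj_mul, this]
  exact mul_mem (cj_mul.1 ha) hp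

lemma gstep (ex : ExhStmt.{u}) (h : SG M ξ D) (hm : HZ M ξ m) (n1 : Nr M (cj S N) δ)
    (n2 : Nr (cj S N) M δ) (n3 : Nr M.commutant (cj S N.commutant) δ)
    (n4 : Nr (cj S N.commutant) M.commutant δ)
    (δ0 : 0 < δ) (δ1 : δ ≤ 1 / 10 ^ 38) (η0 : 0 < η) (η1 : η ≤ 1 / 10 ^ 8)
    (g1 : ∀ g, Gp m g → D.L g ∈ cj S N) (g2 : ∀ g, Gp m g → D.R g ∈ cj S N.commutant)
    (f1 : FZ M (cj S N.commutant) M ξ η) (f2 : FZ M (cj S N) M.commutant ξ η) :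
    ∃ W : (Op K)ˣ, ‖(W : Op K) - 1‖ ≤ 320 * η ∧
      (∀ g, Gp m g → D.L g * W = W * D.L g ∧ D.R g * W = W * D.R g) ∧
      FZ M (cj (S * W) N.commutant) M ξ (η / 2) ∧ FZ M (cj (S * W) N) M.commutant ξ (η / 2) := by
  obtain ⟨T, t1, -, -, t2, -, t3⟩ := ex K M _ 1 cp_one fun q q1 q2 _ =>
    hstep ex h hm n1 n2 n3 n4 δ0 δ1 η0 η1 g1 g2 f1 f2 q1 q2
  choose! β V v1 v2 v3 v4 using fun p hp => (t1 p hp).2.2
  have bc : ∀ {b}, (∀ g, Gp m g → D.L g * b = b * D.L g ∧ D.R g * b = b * D.R g) →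
      ∀ p, Cp M p → b * p = p * b := fun hb p hp =>
    hm.cen _ (fun g hg _ => by rw [← h.L]; exact (hb g hg).1.symm) p hp.2.1 hp.2.2
  obtain ⟨b, b1, -, -, b2, b3⟩ := t3 β (320 * η) (by positivity) fun p hp =>
    ⟨v2 p hp, bc (v3 p hp) p (t1 p hp).1⟩
  have b4 : ∀ g, Gp m g → D.L g * b = b * D.L g ∧ D.R g * b = b * D.R g := fun g hg =>
    ⟨b3 _ fun p hp => ⟨by rw [h.L]; exact commM g.1.2 (t1 p hp).1.2.2, (v3 p hp g hg).1⟩,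
      b3 _ fun p hp => ⟨(commM (t1 p hp).1.2.1 (h.Rm _)).symm, (v3 p hp g hg).2⟩⟩
  obtain ⟨W, hW⟩ := exists_un (W := 1 - b) (by rw [sub_sub_cancel_left, norm_neg]; linarith)
  have wc : ∀ {y b} {W : (Op K)ˣ}, (W : Op K) = 1 - b → y * b = b * y → y * W = W * y :=
    fun hW hy => by rw [hW, mul_sub, sub_mul, mul_one, one_mul, hy]
  obtain ⟨c1, c2⟩ := h.cen hm g1 g2
  obtain ⟨c4, c5⟩ := h.cen (S := S * W) hm (fun g hg => cj_fix (g1 g hg) (wc hW (b4 g hg).1))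
    fun g hg => cj_fix (g2 g hg) (wc hW (b4 g hg).2)
  have k : ∀ {X P : VonNeumannAlgebra K}, (∀ a ∈ cj (S * W) X, ∀ p, Cp M p → a * p = p * a) →
      (∀ p, Cp M p → p ∈ cj S X) → (∀ x ∈ P, ∀ p, Cp M p → x * p = p * x) →
      (∀ p ∈ T, ∀ p', Cp M p' → p' * p = p' → Fl (cj (S * V p) X) P (p' ξ) (η / 2 * ‖p' ξ‖)) →
      FZ M (cj (S * W) X) P ξ (η / 2) := fun k1 k2 k3 k4 q hq => fl_ball fun a a1 a2 x x1 x2 => by
    refine le_of_sq_le_sq ?_ (by positivity)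
    rw [mul_pow]
    refine hasSum_le (fun p : T => ?_) (t2 ((a * x - x * a) (q ξ))) ((t2 (q ξ)).mul_left ((η / 2) ^ 2))
    obtain ⟨p, hp⟩ := p
    have p1 := (t1 p hp).1
    have i := pidem p1.1
    have := (k4 p hp _ (cp_mul p1 hq) (by rw [commM p1.2.1 hq.2.2, mul_assoc, i])).le (by positivity)
      (cj_cut a1 (k2 p p1) (by rw [v1 p hp, hW, sub_mul, sub_mul, (b2 p hp).1])
        (wc (v1 p hp) (bc (v3 p hp) p p1).symm).symm (wc hW (bc b4 p p1).symm).symm (k1 a a1 p p1) i)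
      x1 (mul_le1 a2 (proj_le1 p1.1)) x2
    rw [← mul_pow]
    refine pow_le_pow_left₀ (norm_nonneg _) (le_of_eq_of_le (congrArg _ ?_) (this.trans_eq
      (mul_one _))) 2
    have e1 : ∀ v, a (p v) = p (a v) := fun v => congr($(k1 a a1 p p1) v)
    have e2 : ∀ v, x (p v) = p (x v) := fun v => congr($(k3 x x1 p p1) v)
    have e3 : ∀ v, p (p v) = p v := fun v => congr($i v)
    simp [e1, e2, e3]
  exact ⟨W, by rwa [hW, sub_sub_cancel_left, norm_neg], fun g hg => ⟨wc hW (b4 g hg).1,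
    wc hW (b4 g hg).2⟩, k (fun a ha p hp => c5 a ha p hp.2.1 hp.2.2) (fun p hp => cj_mem (by
      rw [N.commutant_commutant]; exact fun y hy => c1 y hy p hp.2.1 hp.2.2)) gl_vn.1
      fun p hp p' a b => (v4 p hp p' a b).1, k (fun a ha p hp => c4 a ha p hp.2.1 hp.2.2)
      (fun p hp => cj_mem fun y hy => c2 y hy p hp.2.1 hp.2.2) gl_vn'.1
      fun p hp p' a b => (v4 p hp p' a b).2⟩

lemma nr_fz {Q : Subalgebra ℂ (Op K)} (h : Nr Q P.commutant δ) : FZ M Q P ξ (2 * δ) :=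
  fun p _ a ha x hx => by
    obtain ⟨y, y1, y2⟩ := h a ha
    refine le_of_eq_of_le (congrArg _ ?_) ((ale (cle y2 (le_refl ‖x‖)) (le_refl ‖p ξ‖)).trans_eq
      (by ring))
    rw [sub_mul, mul_sub, commM hx y1, sub_sub_sub_cancel_right]

theorem sg_kk (ex : ExhStmt.{u}) (h : SG M ξ D) (hm : HZ M ξ m) (n : Cl M N δ) (δ0 : 0 < δ)
    (δ1 : δ ≤ 1 / 10 ^ 46) :
    ∃ T : (Op K)ˣ, ‖(T : Op K) - 1‖ ≤ 3 * 10 ^ 6 * δ ∧ ∀ x, x ∈ M ↔ T * x * ↑T⁻¹ ∈ N := by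
  obtain ⟨n1, n2, n3, n4⟩ := n
  have cc := M.commutant_commutant
  obtain ⟨T₁, a1, -, a2⟩ := am (S := 1) (N := N) hm.gp (fun _ h => h) (fun _ _ => gp_mul)
    ((D.L : MA M →* Op K).comp (unitary (MA M)).subtype) (fun g => (h.L _).symm ▸ bu g)
    (r := 0) δ0 (by linarith) (by simp) (by norm_num) ∅ (by simp) (by simp) fun g _ => by
      obtain ⟨y, y1, y2⟩ := n1 g.1.1 g.1.2
      refine ⟨y, by simpa [mem_cj] using y1, ?_⟩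
      rw [norm_sub_rev]
      exact le_of_eq_of_le (congrArg (‖· - y‖) (h.L _))
        (y2.trans (mul_le_of_le_one_right δ0.le (bu g)))
  rw [zero_add] at a1
  obtain ⟨T₂, b1, b2, b3⟩ := am (S := T₁) (N := N.commutant) hm.gp (fun _ h => h)
    (fun _ _ => gp_mul) ⟨⟨fun g => D.R (g⁻¹ : unitary _), by simp [D.R_one]⟩, fun g g' => by
      simp [D.R_mul]⟩ (fun g => (D.R_le _).trans (bu _)) (t := 9 * (4 * δ)) (by positivity)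
    (by linarith) a1 (by linarith) {f | ∃ g, Gp m g ∧ f = D.L g}
    (by rintro _ ⟨g, -, rfl⟩ g'; exact D.comm _ _)
    (by rintro _ ⟨g, hg, rfl⟩; rw [N.commutant_commutant]; exact a2 g hg) fun g _ => by
      obtain ⟨y, y1, y2⟩ := (n3.mono (by linarith)).cj1 a1 (by linarith) _
        (h.Rm (g⁻¹ : unitary _))
      exact ⟨y, y1, (norm_sub_rev _ _).trans_le (y2.trans (mul_le_of_le_one_right (by positivity)
        ((D.R_le _).trans (bu _))))⟩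
  rw [N.commutant_commutant] at b2
  obtain ⟨T, S, c1, c2, c3⟩ := newton (fun S η => (∀ g, Gp m g → D.L g ∈ cj S N ∧
      D.R g ∈ cj S N.commutant) ∧ FZ M (cj S N.commutant) M ξ η ∧ FZ M (cj S N) M.commutant ξ η)
    (C := 480) (t := 2 * (9 * (148 * δ))) (r := 3 * 10 ^ 6 * δ) (r₀ := 148 * δ) (S₀ := T₂)
    (by norm_num) (by positivity) (by linarith) (fun S s s0 s1 s2 ⟨s3, s4, s5⟩ => by
      have i : δ ≤ 3 * 10 ^ 6 * δ := by linarith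
      have j : 3 * 10 ^ 6 * δ ≤ 1 / 2 := by linarith
      obtain ⟨W, w1, w2, w3⟩ := gstep ex h hm ((n1.mono i).cj1 s2 j) ((n2.mono i).cj2 s2 j)
        ((n3.mono i).cj1 s2 j) ((n4.mono i).cj2 s2 j) (by positivity) (by linarith) s0
        (by linarith) (fun g hg => (s3 g hg).1) (fun g hg => (s3 g hg).2) s4 s5
      refine ⟨S * W, ?_, fun g hg => ⟨cj_fix (s3 g hg).1 (w2 g hg).1,
        cj_fix (s3 g hg).2 (w2 g hg).2⟩, w3⟩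
      have := nle (nle' (s2.trans j) P096.n1) w1
      rw [mul_sub, mul_one] at this
      exact this.trans (by linarith)) (by linarith) (by linarith)
    ⟨fun g hg => ⟨b2 _ ⟨g, hg, rfl⟩, by simpa using b3 _ (gp_inv hg)⟩,
      nr_fz ((n4.mono (by linarith)).cj2 (by linarith) (by linarith)),
      nr_fz (cc.symm ▸ (n2.mono (by linarith)).cj2 (by linarith) (by linarith))⟩
  refine ⟨T, c1, fun x => ⟨fun hx => cj_mem fun y hy => ?_, fun hx => ?_⟩⟩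
  · have := fl_lim h.std.cyc hy (c2 _ _ tendsto_const_nhds).2 fun n => by
      simpa only [one_apply_eq_self, mul_right_comm _ _ ‖ξ‖] using (c3 n).2.1 1 cp_one
    simpa [mul_assoc] using (commM hx this).symm
  · have := fl_lim h.std.comm.cyc hx (c2 _ _ tendsto_const_nhds).2 fun n => by
      simpa only [one_apply_eq_self, mul_right_comm _ _ ‖ξ‖] using (c3 n).2.2 1 cp_one
    simpa [mul_assoc, cc] using this

end NZ

theorem stdKK (h1 : TowerStmt.{u}) (h2 : ExhStmt.{u}) : StdKKStmt.{u} := by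
  have k := kk1
  refine ⟨2 * 10 ^ 46 * kk, by linarith, fun K _ _ _ _ P Q ξ s t δ h ht n1 n2 δ0 δ1 => ?_⟩
  obtain ⟨m, hm⟩ := h1 K P ξ s t h ht
  obtain ⟨D, hD⟩ := NZ.exists_SG h
  have := mul_pos (zero_lt_one.trans_le k) δ0
  obtain ⟨T, a, b⟩ := NZ.sg_kk h2 hD hm (Cl.of n1 n2 δ0) (by positivity) (by linarith)
  exact ⟨T, by linarith, b⟩

end Vale.Agent.P096
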