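import Vale.Agent.P096.Tom1

/-! Tomita's theorem, after Rieffel and van Daele. -/

open Finset Vale.Agent.P104 Vale.Agent.P085 Filter Topology MeasureTheory Complex
open scoped InnerProductSpace InnerProduct

set_option linter.unusedSectionVars false

namespace Vale.Agent.P096

universe u

namespace T4

variable {H : Type*} [NormedAddCommGroup H] [InnerProductSpace ℂ H] [CompleteSpace H]
  {M : VonNeumannAlgebra H} {ξ : H} {U : ℝ → Op H} {J : H → H} {R T : Op H}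

lemma ext2 {S : Set H} (hS : Dense S) {A B : Op H}
    (h : ∀ v ∈ S, ∀ w ∈ S, ⟪w, A v⟫_ℂ = ⟪w, B v⟫_ℂ) : A = B :=
  DFunLike.coe_injective (Continuous.ext_on hS A.continuous B.continuous fun v hv =>
    ext_inner_left ℂ fun w => congrFun (Continuous.ext_on hS (f := fun w => ⟪w, A v⟫_ℂ)
      (g := fun w => ⟪w, B v⟫_ℂ) (by fun_prop) (by fun_prop) fun w hw => h v hv w hw) w)

lemma lemB (h : Pre M ξ U J R T) {a : Op H} (ha : a ∈ M.commutant) {s : ℝ} (hs : 0 < s) :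
    ∃ x ∈ M, T * h.toMod0.jj a * T =
      (s : ℂ) • ((2 - R) * x * R) + ((s⁻¹ : ℝ) : ℂ) • (R * x * (2 - R)) := by
  obtain ⟨x, xm, hx⟩ := rn h.toMod0 ha hs
  have hT : ∀ v w, ⟪T v, w⟫_ℂ = ⟪v, T w⟫_ℂ := fun v w => by rw [← inner_star_l, h.Tsa]
  have hR : ∀ v w, ⟪R v, w⟫_ℂ = ⟪v, R w⟫_ℂ := fun v w => by rw [← inner_star_l, h.Rsa]
  have hR' : ∀ v w, ⟪(2 - R) v, w⟫_ℂ = ⟪v, (2 - R) w⟫_ℂ := fun v w => by
    rw [← inner_star_l, star_sub, h.Rsa, star_ofNat]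
  have hC : ∀ v w, ⟪J (T v), w⟫_ℂ = ⟪J (T w), v⟫_ℂ := fun v w => by
    rw [h.Jinner', h.JT, hT]
  have k : ∀ b ∈ M.commutant, ∃ w ∈ M, R (b ξ) = (2 : ℂ) • w ξ ∧ J (T (b ξ)) = (2 : ℂ) • star w ξ :=
    fun b hb => by
      obtain ⟨w, wm, hw⟩ := rn h.toMod0 hb one_pos
      exact ⟨w, wm, h.PQ _ w wm fun y hy => by simpa using hw y hy⟩
  have hsa : star (T * h.toMod0.jj (star a) * T) = T * h.toMod0.jj a * T := by
    rw [star_mul, star_mul, h.Tsa, ← h.toMod0.jj_star, star_star, mul_assoc]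
  refine ⟨star x, star_mem xm, star_injective (ext2 h.cyc' ?_)⟩
  rintro _ ⟨⟨c, hc⟩, rfl⟩ _ ⟨⟨b, hb⟩, rfl⟩
  obtain ⟨w, wm, w1, w2⟩ := k b hb
  obtain ⟨z, zm, z1, z2⟩ := k c hc
  have e := hx _ (mul_mem wm (star_mem zm))
  have e1 : ⟪(T * h.toMod0.jj a * T) (b ξ), c ξ⟫_ℂ = 4 * ⟪(w * star z) ξ, a ξ⟫_ℂ := by
    have := congr($(commM (star_mem wm) ha) ξ)
    simp only [mul_apply_eq_comp] at this
    rw [mul_apply_eq_comp, mul_apply_eq_comp, hT, Mod0.jj_apply, h.Jinner', w2, z2,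
      mul_apply_eq_comp, ← inner_star_r, this, map_smul, inner_smul_left, inner_smul_right,
      conj_ofNat]
    ring
  have e2 : ⟪((2 - R) * star x * R) (b ξ), c ξ⟫_ℂ = 4 * ⟪(w * star z) ξ, x ξ⟫_ℂ := by
    have := h.CM _ (mul_mem (star_mem xm) wm)
    rw [star_mul, star_star] at this
    rw [mul_apply_eq_comp, mul_apply_eq_comp, w1, map_smul, map_smul, inner_smul_left,
      ← mul_apply_eq_comp (star x), ← this, hC, z2, inner_smul_left, conj_ofNat, mul_apply_eq_comp,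
      mul_apply_eq_comp, inner_star_r]
    ring
  have e3 : ⟪(R * star x * (2 - R)) (b ξ), c ξ⟫_ℂ = 4 * ⟪star x ξ, star (w * star z) ξ⟫_ℂ := by
    have := h.CM _ (mul_mem xm zm)
    rw [mul_apply_eq_comp, mul_apply_eq_comp, hR, inner_star_l, hR', z1, map_smul, map_smul,
      inner_smul_right, ← mul_apply_eq_comp x, ← this, ← inner_conj_symm, hC, w2, inner_smul_left,
      map_mul, inner_conj_symm, star_mul, star_mul, star_star, mul_apply_eq_comp, mul_apply_eq_comp,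
      inner_star_l, conj_ofNat, conj_ofNat]
    ring
  simp only [ev_apply, inner_star_r]
  rw [add_apply, smul_apply, smul_apply, inner_add_left, inner_smul_left, inner_smul_left, e1, e2,
    e3, e, conj_ofReal, conj_ofReal]
  ring

lemma bd (h : Mod0 M ξ U J) {α : ℂ → H} (h1 : Differentiable ℂ α)
    (h2 : ∀ (t : ℝ) z, U t (α z) = α (z + t)) : ∃ B, ∀ z : ℂ, |z.im| ≤ 1 / 2 → ‖α z‖ ≤ B := by
  obtain ⟨B, hB⟩ := (isCompact_Icc (a := -(1 / 2 : ℝ)) (b := 1 / 2)).exists_bound_of_continuousOn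
    (f := fun y : ℝ => α (y * I)) (h1.continuous.comp (by fun_prop)).continuousOn
  refine ⟨B, fun z hz => ?_⟩
  have := hB z.im (abs_le.1 hz)
  rwa [← h.Unorm z.re, h2, add_comm, re_add_im] at this

lemma lemC (h : Pre M ξ U J R T) (h2 : StripStmt) (h3 : SechStmt) {a : Op H}
    (ha : a ∈ M.commutant) (σ : ℝ) :
    wint (fun t => cexp (I * σ * t) * ((Real.cosh (Real.pi * t))⁻¹ : ℝ))
      (fun t => U t * h.toMod0.jj a * U (-t)) ∈ M := by
  obtain ⟨c, -, hc⟩ := h2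
  obtain ⟨x, xm, hx⟩ := lemB h ha (Real.exp_pos (σ / 2))
  have hk : Integrable fun t : ℝ => cexp (I * σ * t) * ((Real.cosh (Real.pi * t))⁻¹ : ℝ) :=
    h3.ofReal.bdd_mul (c := 1) (by fun_prop) (.of_forall fun t => by
      rw [show I * σ * t = (σ * t : ℝ) * I by push_cast; ring, norm_exp_ofReal_mul_I])
  let S : Set H := {v | ∃ α : ℂ → H, Differentiable ℂ α ∧ (∀ (t : ℝ) z, U t (α z) = α (z + t)) ∧
    α 0 = v ∧ ∃ w, T w = α 0 ∧ (2 - R) w = α (-(I / 2)) ∧ R w = α (I / 2)}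
  have hS : Dense S := Metric.dense_iff.2 fun v ε hε => by
    obtain ⟨α, a1, a2, a3, a4⟩ := h.band v ε hε
    exact ⟨α 0, by rwa [mem_ball_iff_norm], α, a1, a2, rfl, a4⟩
  suffices wint _ _ = (c : ℂ) • x from this ▸ smulM _ xm
  refine ext2 hS ?_
  rintro _ ⟨α, a1, a2, rfl, w, a3, a4, a5⟩ _ ⟨β, b1, b2, rfl, w', b3, b4, b5⟩
  obtain ⟨A, hA⟩ := bd h.toMod0 a1 a2
  obtain ⟨B, hB⟩ := bd h.toMod0 b1 b2
  have d : Differentiable ℂ fun z => ⟪β (-(starRingEnd ℂ) z), x (α (-z))⟫_ℂ := by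
    have d1 : Differentiable ℂ fun z => innerSL ℂ (β (-(starRingEnd ℂ) z)) := fun z => by
      simpa [Function.comp_def] using DifferentiableAt.comp_semilinear₁ (σ' := starRingEnd ℂ)
        (innerSL ℂ (E := H)) ((b1.comp differentiable_neg) ((starRingEnd ℂ) z))
    exact d1.clm_apply (x.differentiable.comp (a1.comp differentiable_neg))
  have := hc σ (B * (‖x‖ * A)) _ d fun z hz => (norm_inner_le_norm _ _).trans
    (mul_le_mul (hB _ (by simpa using hz)) ((x.le_opNorm _).trans (by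
      gcongr; exact hA _ (by simpa using hz))) (norm_nonneg _)
      ((norm_nonneg _).trans (hB 0 (by simp))))
  rw [(h.sc _).inner hk, smul_apply, inner_smul_right]
  simp only [map_zero, neg_zero] at this
  rw [← this]
  refine integral_congr_ae (.of_forall fun t => congrArg _ ?_)
  have hT : ∀ v w, ⟪T v, w⟫_ℂ = ⟪v, T w⟫_ℂ := fun v w => by rw [← inner_star_l, h.Tsa]
  have hR : ∀ v w, ⟪R v, w⟫_ℂ = ⟪v, R w⟫_ℂ := fun v w => by rw [← inner_star_l, h.Rsa]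
  have hR' : ∀ v w, ⟪(2 - R) v, w⟫_ℂ = ⟪v, (2 - R) w⟫_ℂ := fun v w => by
    rw [← inner_star_l, star_sub, h.Rsa, star_ofNat]
  have uR : ∀ v, U (-t) (R v) = R (U (-t) v) := fun v => congr($(h.UR (-t)) v)
  have uT : ∀ v, U (-t) (T v) = T (U (-t) v) := fun v => congr($(h.UT (-t)) v)
  have uR' : ∀ v, U (-t) ((2 - R) v) = (2 - R) (U (-t) v) := fun v => by
    simp [uR]
  have c1 : -(starRingEnd ℂ) (t - I / 2) = -(I / 2) + (-t : ℝ) := by simp [conj_ofNat]; ring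
  have c2 : -(starRingEnd ℂ) (t + I / 2) = I / 2 + (-t : ℝ) := by simp [conj_ofNat]; ring
  have c3 : -(t - I / 2) = I / 2 + (-t : ℝ) := by push_cast; ring
  have c4 : -(t + I / 2) = -(I / 2) + (-t : ℝ) := by push_cast; ring
  have e := congr(⟪U (-t) w', $hx (U (-t) w)⟫_ℂ)
  simp only [mul_apply_eq_comp, add_apply, smul_apply, inner_add_right, inner_smul_right] at e
  simp only [c1, c2, c3, c4, ← a2, ← b2, ← a3, ← a4, ← a5, ← b3, ← b4, ← b5, uR, uR', uT,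
    mul_apply_eq_comp, hR, hR']
  rw [← inner_star_l, h.Ustar, uT, hT, e, ← Real.exp_neg]
  push_cast; rfl

lemma lemD (h : Pre M ξ U J R T) (h2 : StripStmt) (h3 : SechStmt) (h4 : UniqStmt) {a : Op H}
    (ha : a ∈ M.commutant) (t : ℝ) : U t * h.toMod0.jj a * U (-t) ∈ M := by
  refine memM fun y hy => ContinuousLinearMap.ext fun v => ext_inner_left ℂ fun w => ?_
  have s0 := h.sc (h.toMod0.jj a)
  have s1 := s0.mul y 1
  have s2 := s0.mul 1 y
  simp only [mul_one, one_mul] at s1 s2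
  have i : ∀ {F C}, SC F C → Integrable fun t : ℝ =>
      (((Real.cosh (Real.pi * t))⁻¹ : ℝ) : ℂ) * ⟪w, F t v⟫_ℂ := fun hF => by
    simpa only [inner_smul_right, coe_algebraMap] using (hF.int h3.ofReal v).const_inner (𝕜 := ℂ) w
  have c0 : ∀ t, Real.cosh (Real.pi * t) ≠ 0 := fun t => (Real.cosh_pos _).ne'
  have := h4 (fun t => (((Real.cosh (Real.pi * t))⁻¹ : ℝ) : ℂ) *
      ⟪w, (y * (U t * h.toMod0.jj a * U (-t))) v⟫_ℂ - (((Real.cosh (Real.pi * t))⁻¹ : ℝ) : ℂ) *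
      ⟪w, (U t * h.toMod0.jj a * U (-t) * y) v⟫_ℂ) ?_ ((i s1).sub (i s2)) (fun σ => ?_) t
  · rwa [← mul_sub, mul_eq_zero, or_iff_right (ofReal_ne_zero.2 (inv_ne_zero (c0 t))),
      sub_eq_zero] at this
  · have c : Continuous fun t : ℝ => (((Real.cosh (Real.pi * t))⁻¹ : ℝ) : ℂ) :=
      continuous_ofReal.comp (Continuous.inv₀ (by fun_prop) c0)
    exact (c.mul (continuous_const.inner (s1.cont v))).sub
      (c.mul (continuous_const.inner (s2.cont v)))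
  · have hk : Integrable fun t : ℝ => cexp (I * σ * t) * ((Real.cosh (Real.pi * t))⁻¹ : ℝ) :=
      h3.ofReal.bdd_mul (c := 1) (by fun_prop) (.of_forall fun t => by
        rw [show I * σ * t = (σ * t : ℝ) * I by push_cast; ring, norm_exp_ofReal_mul_I])
    have a := s0.wint_mul hk y 1
    have b := s0.wint_mul hk 1 y
    simp only [mul_one, one_mul] at a b
    have e := commM (lemC h h2 h3 ha σ) hy
    rw [← a, ← b] at e
    have e' := congr(⟪w, $e v⟫_ℂ)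
    rw [s1.inner hk, s2.inner hk] at e'
    have j : ∀ {F C}, SC F C → Integrable fun t : ℝ => cexp (I * σ * t) *
        (((Real.cosh (Real.pi * t))⁻¹ : ℝ) : ℂ) * ⟪w, F t v⟫_ℂ := fun hF => by
      simpa only [inner_smul_right] using (hF.int hk v).const_inner (𝕜 := ℂ) w
    simp only [mul_sub, ← mul_assoc (cexp _)]
    rw [integral_sub (j s1) (j s2), e', sub_self]

lemma sym (h : Pre M ξ U J R T) {x y : Op H} (hx : x ∈ M) (hy : y ∈ M) :
    ⟪star y ξ, J (x ξ)⟫_ℂ = ⟪J (star x ξ), y ξ⟫_ℂ := by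
  have k : ∀ x ∈ M, ∃ a ∈ M, ∃ b ∈ M, star a = a ∧ star b = b ∧ x = a + I • b := fun x hx =>
    ⟨(2⁻¹ : ℂ) • (x + star x), smulM _ (add_mem hx (star_mem hx)),
      (2⁻¹ * I : ℂ) • (star x - x), smulM _ (sub_mem (star_mem hx) hx),
      by simp [add_comm], by simp; module, by
        rw [smul_smul, show I * (2⁻¹ * I) = -2⁻¹ by linear_combination 2⁻¹ * I_mul_I]; module⟩
  have r : ∀ x ∈ M, ∀ y ∈ M, star x = x → star y = y → ⟪y ξ, J (x ξ)⟫_ℂ = ⟪J (x ξ), y ξ⟫_ℂ :=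
    fun x hx y hy a b => by rw [← inner_conj_symm (J _), conj_eq_iff_im.2 (h.real x hx y hy a b)]
  obtain ⟨a, am, b, bm, a1, b1, rfl⟩ := k x hx
  obtain ⟨c, cm, d, dm, c1, d1, rfl⟩ := k y hy
  simp only [star_add, star_smul, a1, b1, c1, d1, add_apply, smul_apply, h.Jadd, h.Jsmul,
    inner_add_left, inner_add_right, inner_smul_left, inner_smul_right, RCLike.star_def,
    conj_conj, r _ am _ cm a1 c1, r _ am _ dm a1 d1, r _ bm _ cm b1 c1, r _ bm _ dm b1 d1]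
  ring

lemma lemE (h : Pre M ξ U J R T) (h' : ∀ b ∈ M.commutant, h.toMod0.jj b ∈ M) {x : Op H}
    (hx : x ∈ M) : h.toMod0.jj x ∈ M.commutant := by
  refine cyc_comm h.cyc fun y hy => ?_
  refine h.cyc'.eq_zero_of_inner_left (𝕜 := ℂ) fun ⟨b, hb⟩ => ?_
  have e := sym h (mul_mem (star_mem hx) (h' b hb)) (star_mem hy)
  have c := congr($(commM (star_mem hy) hb) ξ)
  simp only [mul_apply_eq_comp] at c
  rw [star_star, star_mul, star_star, ← h.toMod0.jj_star, mul_apply_eq_comp, mul_apply_eq_comp,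
    h.toMod0.jj_ξ, Mod0.jj_apply, h.JJ, inner_star_l, ← c, inner_star_r, ← Mod0.jj_apply h.toMod0,
    h.toMod0.jj_star, inner_star_r, ← h.toMod0.jj_ξ] at e
  rw [ev_apply, sub_apply, inner_sub_left, mul_apply_eq_comp, mul_apply_eq_comp, e, sub_self]

end T4

theorem tomStmt (h1 : PreStmt.{u}) (h2 : StripStmt) (h3 : SechStmt) (h4 : UniqStmt) :
    TomStmt.{u} := by
  intro H _ _ _ M ξ c c'
  obtain ⟨U, J, R, T, h⟩ := h1 H M ξ c c'
  have a : ∀ b ∈ M.commutant, h.toMod0.jj b ∈ M := fun b hb => by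
    simpa [h.U0] using T4.lemD h h2 h3 h4 hb 0
  exact ⟨U, J, h.toMod0, fun t x hx => by
    simpa [Mod0.jj_jj] using T4.lemD h h2 h3 h4 (T4.lemE h a hx) t,
    fun x hx => ⟨_, T4.lemE h a hx, fun _ => rfl⟩, fun y hy => ⟨_, a y hy, fun _ => rfl⟩⟩

end Vale.Agent.P096
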