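import Vale.Agent.P096.Cv1

/-! An amenable group of unitaries whose relative commutant is the centre. -/

open Finset Vale.Agent.P104 Vale.Agent.P085 Filter Topology
open scoped InnerProductSpace

set_option linter.unusedSectionVars false

namespace Vale.Agent.P096

universe u

namespace TW

variable {K : Type*} [NormedAddCommGroup K] [InnerProductSpace ℂ K] [CompleteSpace K]
  {P B : VonNeumannAlgebra K} {ξ : K} {s t x y : Op K}

lemma as {a b c : Op K} (h : a * b = c) (z : Op K) : a * (b * z) = c * z := by rw [← mul_assoc, h]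

lemma dec (h : PP s t) (hs : s ∈ B) (ht : t ∈ B) (h1 : y * s = s * y) (h2 : y * t = t * y)
    (k : ∀ b ∈ B, s * b = b * s → t * b = b * t → y * b = b * y) : ∀ x ∈ B, y * x = x * y := by
  have key : ∀ {s t : Op K}, PP s t → s ∈ B → t ∈ B → y * t = t * y → ∀ x ∈ B,
      (∀ b ∈ B, s * b = b * s → (t * x = x * t → t * b = b * t) → y * b = b * y) →
      y * x = x * y := fun {s t} h hs ht h2 x hx k => by
    have e : (2 : ℂ) • x = (x + s * x * s) + (x * t + s * (x * t) * s) * t := by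
      simp [mul_add, add_mul, mul_assoc, h.t2, as h.t2, h.st, two_smul]; abel
    have a := k _ (add_mem hx (mul_mem (mul_mem hs hx) hs))
      (by simp [mul_add, add_mul, mul_assoc, h.s2, as h.s2, add_comm]) fun e => by
        simp [mul_add, add_mul, mul_assoc, h.symm.st, as h.symm.st, e, as e]
    have b := k _ (add_mem (mul_mem hx ht) (mul_mem (mul_mem hs (mul_mem hx ht)) hs))
      (by simp [mul_add, add_mul, mul_assoc, h.s2, as h.s2, add_comm]) fun e => by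
        simp [mul_add, add_mul, mul_assoc, h.symm.st, as h.symm.st, e, as e, h.t2, as h.t2]
    have : y * (2 : ℂ) • x = (2 : ℂ) • x * y := by
      rw [e, mul_add, a, ← mul_assoc, b, mul_assoc _ y, h2, add_mul _ (_ * t) y, mul_assoc _ t]
    rw [mul_smul_comm, smul_mul_assoc] at this
    exact smul_right_injective _ two_ne_zero this
  exact fun x hx => key h hs ht h2 x hx fun b hb b1 _ => key h.symm ht hs h1 b hb
    fun c hc c1 c2 => k c hc (c2 b1) c1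

lemma nst (h : Std P ξ) (hx : x ∈ P) : ‖star x ξ‖ = ‖x ξ‖ :=
  (h.nst x hx).antisymm (by simpa using h.nst _ (star_mem hx))

lemma nright (h : Std P ξ) (hx : x ∈ P) (hy : y ∈ P) : ‖x (y ξ)‖ ≤ ‖y‖ * ‖x ξ‖ := by
  rw [← mul_apply_eq_comp, ← nst h (mul_mem hx hy), star_mul, ← nst h hx, ← norm_star y]
  exact (star y).le_opNorm _

lemma nconj (h : Std P ξ) (hx : x ∈ P) {u : Op K} (hu : u ∈ unitary (Op K)) (u1 : u ∈ P) :
    ‖(u * x * star u) ξ‖ = ‖x ξ‖ := by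
  rw [mul_assoc, mul_apply_eq_comp, ContinuousLinearMap.norm_map_of_mem_unitary hu,
    ← nst h (mul_mem hx (star_mem u1)), star_mul, star_star, mul_apply_eq_comp,
    ContinuousLinearMap.norm_map_of_mem_unitary hu, nst h hx]

lemma dix (h : Std P ξ) (hB : ∀ b ∈ B, b ∈ P) (hx : x ∈ B) {c : ℝ}
    (hc : ∀ u ∈ unitary (Op K), u ∈ B → ‖(x - u * x * star u) ξ‖ ≤ c) :
    ∃ y ∈ B, (∀ b ∈ B, y * b = b * y) ∧ ‖(x - y) ξ‖ ≤ c := by
  let C : Set (Op K) := {y | y ∈ B ∧ ‖y‖ ≤ ‖x‖ ∧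
    ∀ u ∈ unitary (Op K), u ∈ B → ‖(x - u * y * star u) ξ‖ ≤ c}
  have bd : BddBelow ((fun y : Op K => ‖y ξ‖) '' C) := ⟨0, by rintro _ ⟨y, -, rfl⟩; positivity⟩
  obtain ⟨a, -, a1, a2⟩ := exists_seq_tendsto_sInf
    (Set.Nonempty.image _ ⟨x, (⟨hx, le_rfl, hc⟩ : x ∈ C)⟩) bd
  choose z z1 z2 using a2
  obtain ⟨y, y1, y2⟩ := wlim (hyperfilter ℕ) z (norm_nonneg x) fun n => (z1 n).2.1
  have y3 : y ∈ C := ⟨y2.mem fun n => (z1 n).1, y1, fun u hu u1 =>
    WV.le (wt_sub (wt_const x) (y2.mul u (star u)) ξ) (.of_forall fun n => (z1 n).2.2 u hu u1)⟩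
  have y4 : ∀ w ∈ C, ‖y ξ‖ ≤ ‖w ξ‖ := fun w hw => le_trans (le_of_forall_pos_le_add fun ε hε =>
    WV.le (y2 ξ) (Nat.hyperfilter_le_atTop ((a1.eventually (ge_mem_nhds (lt_add_of_pos_right _
      hε))).mono fun n hn => (z2 n).trans_le hn))) (csInf_le bd ⟨w, hw, rfl⟩)
  have y5 : ∀ u ∈ unitary (Op K), u ∈ B → y * u = u * y := fun u hu u1 => by
    have m := mul_mem (mul_mem u1 y3.1) (star_mem u1)
    have a := y4 ((2 : ℂ)⁻¹ • (y + u * y * star u)) ⟨smulM _ (add_mem y3.1 m), by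
      have := norm_add_le_of_le y1 (nle (nle (unit_le1 hu) y1) (unit_le1 (Unitary.star_mem hu)))
      rw [norm_smul]; simp; linarith, fun v hv v1 => by
      have := norm_add_le_of_le (y3.2.2 v hv v1) (y3.2.2 _ (mul_mem hv hu) (mul_mem v1 u1))
      rw [show x - v * (2 : ℂ)⁻¹ • (y + u * y * star u) * star v = (2 : ℂ)⁻¹ • ((x - v * y * star v)
        + (x - v * u * y * star (v * u))) by
          simp only [star_mul, mul_smul_comm, smul_mul_assoc, mul_add, add_mul, mul_assoc]; module,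
        smul_apply, norm_smul, add_apply]
      simp only [norm_inv, Complex.norm_ofNat]; linarith⟩
    have b := parallelogram_law_with_norm ℂ (y ξ) ((u * y * star u) ξ)
    rw [nconj h (hB _ y3.1) hu (hB _ u1)] at b
    rw [smul_apply, norm_smul, add_apply, norm_inv, Complex.norm_ofNat] at a
    have e : y = u * y * star u := cyc_ext' h.comm.cyc (by rw [P.commutant_commutant]; exact hB _ y3.1)
      (by rw [P.commutant_commutant]; exact hB _ m) (sub_eq_zero.1 (norm_eq_zero.1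
        (pow_eq_zero_iff two_ne_zero |>.1 (le_antisymm (by nlinarith [norm_nonneg (y ξ)])
          (sq_nonneg _)))))
    nth_rewrite 1 [e]
    rw [mul_assoc, hu.1, mul_one]
  refine ⟨y, y3.1, fun b hb => ?_, by simpa using y3.2.2 1 (one_mem _) (one_mem _)⟩
  suffices h : ∀ b ∈ Submodule.span ℂ (SetLike.coe (unitary (MA B))), y * b.1 = b.1 * y from
    h ⟨b, hb⟩ (by rw [CStarAlgebra.span_unitary]; trivial)
  intro b hb
  induction hb using Submodule.span_induction with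
  | mem u hu => exact y5 _ ⟨congrArg Subtype.val hu.1, congrArg Subtype.val hu.2⟩ u.2
  | zero => simp
  | add a b _ _ ha hb => simp [mul_add, add_mul, ha, hb]
  | smul c a _ ha => simp [ha]

/-- averaging over a symmetry -/
noncomputable def av (g x : Op K) : Op K := (2 : ℂ)⁻¹ • (x + g * x * g)

lemma av_sq (h : Std P ξ) (hp : PP s t) (hs : s ∈ P) (hx : x ∈ P) :
    4 * ‖av s x ξ‖ ^ 2 + ‖(x - s * x * s) ξ‖ ^ 2 = 4 * ‖x ξ‖ ^ 2 := by
  have b := parallelogram_law_with_norm ℂ (x ξ) ((s * x * star s) ξ)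
  rw [nconj h hx hp.su hs, hp.s1] at b
  rw [av, smul_apply, norm_smul, add_apply, norm_inv, Complex.norm_ofNat, sub_apply]
  linarith

lemma av_le (h : Std P ξ) (hp : PP s t) (hs : s ∈ P) (hx : x ∈ P) : ‖av s x ξ‖ ≤ ‖x ξ‖ :=
  le_of_sq_le_sq (by nlinarith [av_sq h hp hs hx, sq_nonneg ‖(x - s * x * s) ξ‖]) (norm_nonneg _)

lemma av_fix (hp : PP s t) (e : s * x = x * s) : av s x = x := by
  rw [av, e, mul_assoc, hp.s2, mul_one]; module

lemma av_sub (g x y : Op K) : av g (x - y) = av g x - av g y := by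
  simp only [av, mul_sub, sub_mul]; module

lemma av_mem (hs : s ∈ B) (hx : x ∈ B) : av s x ∈ B :=
  smulM _ (add_mem hx (mul_mem (mul_mem hs hx) hs))

lemma av_comm (hp : PP s t) (x : Op K) :
    s * av s (av t x) = av s (av t x) * s ∧ t * av s (av t x) = av s (av t x) * t := by
  constructor
  · simp only [av, mul_add, add_mul, mul_assoc, hp.s2, as hp.s2, mul_smul_comm, smul_mul_assoc,
      one_mul, mul_one]
    module
  · simp only [av, mul_add, add_mul, mul_assoc, hp.t2, as hp.t2, hp.symm.st, as hp.symm.st,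
      mul_smul_comm, smul_mul_assoc, one_mul, mul_one, neg_mul, mul_neg, neg_neg]
    module

lemma twist (h : Std P ξ) (hB : ∀ b ∈ B, b ∈ P) (hp : PP s t) (hs : s ∈ B) (ht : t ∈ B) {u : Op K}
    (hu : u ∈ unitary (Op K)) (u1 : u ∈ B) (u2 : s * u = u * s) (u3 : t * u = u * t) (hx : x ∈ B)
    (x2 : s * x = x * s) (x3 : t * x = x * t) :
    ∃ s' ∈ B, PP s' t ∧ ‖(x - u * x * star u) ξ‖ ≤ 2 * ‖(x - s' * x * s') ξ‖ := by
  obtain ⟨p, hp'⟩ : ∃ p, p = (2 : ℂ)⁻¹ • (1 + t) := ⟨_, rfl⟩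
  have st : ∀ {g}, star g = g → g * u = u * g → g * star u = star u * g := fun e1 e2 => by
    have := congrArg star e2
    rw [star_mul, star_mul, e1] at this; exact this.symm
  have u4 := st hp.s1 u2
  have p1 : star p = p := by simp [hp', hp.t1]
  have p2 : p * p = p := by simp [hp', mul_add, add_mul, hp.t2]; module
  have p3 : s * p = s - p * s := by simp [hp', mul_add, add_mul, hp.st]; module
  have p4 : u * p = p * u := by simp [hp', mul_add, add_mul, u3]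
  have p5 : star u * p = p * star u := (st p1 p4.symm).symm
  have p6 : x * p = p * x := by simp [hp', mul_add, add_mul, x3]
  have p7 : t * p = p * t := by simp [hp', mul_add, add_mul]
  have pB : p ∈ B := hp' ▸ smulM _ (add_mem (one_mem _) ht)
  refine ⟨(p * u + (1 - p) * star u) * s, mul_mem (add_mem (mul_mem pB u1)
    (mul_mem (sub_mem (one_mem _) pB) (star_mem u1))) hs, ⟨?_, ?_, hp.t1, hp.t2, ?_⟩, ?_⟩
  · simp only [star_mul, star_add, star_sub, star_one, star_star, p1, hp.s1, mul_add, add_mul,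
      mul_sub, sub_mul, mul_one, one_mul, mul_assoc, as p4, as p5, p3, as u2, as u4, u2, u4]
    abel
  · simp only [mul_add, add_mul, mul_sub, sub_mul, mul_one, one_mul, mul_assoc, as p4, as p5,
      as p3, as u2, as u4, hp.s2, as p2, as hu.1, as hu.2, hu.1, hu.2, p2]
    abel
  · simp only [mul_add, add_mul, mul_sub, sub_mul, mul_one, one_mul, mul_assoc, as p7, as u3,
      as (st hp.t1 u3), hp.st, mul_neg]
    abel
  obtain ⟨a, ha⟩ : ∃ a, a = x - u * x * star u := ⟨_, rfl⟩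
  have a1 : a ∈ B := ha ▸ sub_mem hx (mul_mem (mul_mem u1 hx) (star_mem u1))
  have a2 : s * a = a * s := by simp only [ha, mul_sub, sub_mul, mul_assoc, x2, as x2, as u2, u4]
  have e1 : p * (x - (p * u + (1 - p) * star u) * s * x * ((p * u + (1 - p) * star u) * s)) =
      p * a := by
    simp only [ha, mul_add, add_mul, mul_sub, sub_mul, mul_one, one_mul, mul_assoc, as p4, as p5,
      as p3, as u2, as u4, hp.s2, as p2, as x2, as p6]
    abel
  have e2 := nconj h (hB _ (mul_mem pB a1)) hp.su (hB _ hs)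
  rw [hp.s1, as p3, sub_mul, sub_mul, mul_assoc p, mul_assoc p, a2, mul_assoc, hp.s2,
    mul_one] at e2
  have e3 := app_le (proj_le1 ⟨p2, p1⟩)
    ((x - (p * u + (1 - p) * star u) * s * x * ((p * u + (1 - p) * star u) * s)) ξ)
  have e4 := norm_add_le ((a - p * a) ξ) ((p * a) ξ)
  rw [← mul_apply_eq_comp, e1] at e3
  rw [← add_apply, sub_add_cancel] at e4
  rw [← ha]; linarith

/-- relative commutant -/
noncomputable def rc (P : VonNeumannAlgebra K) (T : Set (Op K)) : VonNeumannAlgebra K :=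
  vnOf (P.commutant ∪ T)

lemma mem_rc {T : Set (Op K)} (hT : ∀ g ∈ T, star g = g) :
    x ∈ rc P T ↔ x ∈ P ∧ ∀ g ∈ T, g * x = x * g :=
  mem_vnOf.trans ⟨fun h => ⟨memM fun y hy => (h y (.inl hy)).1, fun g hg => (h g (.inr hg)).1⟩,
    fun h g hg => hg.elim (fun hg => ⟨(commM h.1 hg).symm, (commM h.1 (star_mem hg)).symm⟩)
      fun hg => ⟨h.2 g hg, by rw [hT g hg]; exact h.2 g hg⟩⟩

variable {s₀ t₀ : ℕ → Op K}

/-- the tail of the central sequence -/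
def tl (s₀ t₀ : ℕ → Op K) (j : ℕ) : Set (Op K) := {g | ∃ i ≥ j, g = s₀ i ∨ g = t₀ i}

lemma tl_sa (ht : Tail P ξ s₀ t₀) (j : ℕ) : ∀ g ∈ tl s₀ t₀ j, star g = g := by
  rintro _ ⟨i, -, rfl | rfl⟩
  exacts [(ht.pp i).s1, (ht.pp i).t1]

lemma tl_mono {i j : ℕ} (h : i ≤ j) : tl s₀ t₀ j ⊆ tl s₀ t₀ i :=
  fun _ ⟨k, a, b⟩ => ⟨k, h.trans a, b⟩

lemma tl_mem (ht : Tail P ξ s₀ t₀) (k : ℕ) : ∀ g ∈ tl s₀ t₀ (k + 1),
    g * s₀ k = s₀ k * g ∧ g * t₀ k = t₀ k * g := by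
  rintro _ ⟨i, hi, rfl | rfl⟩
  exacts [⟨(ht.cm i k (by omega)).1, (ht.cm i k (by omega)).2.1⟩,
    ⟨(ht.cm k i (by omega)).2.1.symm, (ht.cm i k (by omega)).2.2⟩]

lemma irr0 (h : Std P ξ) (ht : Tail P ξ s₀ t₀) {j : ℕ} (hy : y ∈ rc P (tl s₀ t₀ j))
    (h' : ∀ b ∈ rc P (tl s₀ t₀ j), y * b = b * y) : y ∈ P.commutant := by
  obtain ⟨y1, y2⟩ := (mem_rc (tl_sa ht j)).1 hy
  have k : ∀ i ≥ j, ∀ b ∈ rc P (tl s₀ t₀ i), y * b = b * y := fun i hi => by
    induction i, hi using Nat.le_induction with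
    | base => exact h'
    | succ i hi ih =>
      refine dec (ht.pp i) ((mem_rc (tl_sa ht _)).2 ⟨ht.sm i, fun g hg => (tl_mem ht i g hg).1⟩)
        ((mem_rc (tl_sa ht _)).2 ⟨ht.tm i, fun g hg => (tl_mem ht i g hg).2⟩)
        (y2 _ ⟨i, hi, .inl rfl⟩).symm (y2 _ ⟨i, hi, .inr rfl⟩).symm fun b hb b1 b2 => ih b ?_
      obtain ⟨b3, b4⟩ := (mem_rc (tl_sa ht _)).1 hb
      refine (mem_rc (tl_sa ht _)).2 ⟨b3, fun g ⟨l, l1, l2⟩ => ?_⟩
      rcases l1.eq_or_lt with rfl | l1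
      · rcases l2 with rfl | rfl <;> assumption
      · exact b4 g ⟨l, l1, l2⟩
  obtain ⟨R, r1, -, r2⟩ := h.right y1
  suffices y = R by rwa [this]
  ext v
  refine eq_of_forall_dist_le fun ε hε => ?_
  obtain ⟨l, x, x1, x2, x3⟩ := ht.den v (ε / (‖y - R‖ + 1)) (by positivity)
  have e : (y - R) (x ξ) = 0 := by
    have a := k (max l j) (le_max_right _ _) x ((mem_rc (tl_sa ht _)).2 ⟨x1, by
      rintro _ ⟨i, hi, rfl | rfl⟩
      exacts [(x2 i (le_of_max_le_left hi)).1.symm, (x2 i (le_of_max_le_left hi)).2.symm]⟩)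
    rw [sub_apply, ← mul_apply_eq_comp, ← mul_apply_eq_comp, a, ← commM x1 r1, mul_apply_eq_comp,
      mul_apply_eq_comp, r2, sub_self]
  have := (y - R).le_opNorm (x ξ - v)
  rw [map_sub, e, zero_sub, norm_neg, sub_apply, ← dist_eq_norm] at this
  rw [lt_div_iff₀ (by positivity)] at x3
  nlinarith [norm_nonneg (x ξ - v)]

/-- the state of the inductive construction -/
structure TS (P : VonNeumannAlgebra K) (ξ : K) (s₀ t₀ : ℕ → Op K) where
  k : ℕ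
  S : Set (Op K)
  E : Op K → Op K
  sa : ∀ g ∈ S, star g = g
  mem : ∀ g ∈ S, ∀ g' ∈ tl s₀ t₀ k, g' * g = g * g'
  mp : ∀ v ∈ P, E v ∈ P
  map : ∀ j ≥ k, ∀ v ∈ rc P (tl s₀ t₀ j), E v ∈ rc P (tl s₀ t₀ j ∪ S)
  lip : ∀ z ∈ P, ∀ v ∈ P, (∀ g ∈ S, g * z = z * g) → ‖(z - E v) ξ‖ ≤ ‖(z - v) ξ‖
  irr : ∀ j ≥ k, ∀ y ∈ rc P (tl s₀ t₀ j ∪ S), (∀ b ∈ rc P (tl s₀ t₀ j ∪ S), y * b = b * y) →
    y ∈ P.commutant

lemma step (h : Std P ξ) (ht : Tail P ξ s₀ t₀) (T : TS P ξ s₀ t₀) (l : ℕ) (v : Op K)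
    (hv : v ∈ rc P (tl s₀ t₀ l)) : ∃ (T' : TS P ξ s₀ t₀) (s t : Op K), (s ∈ P ∧ t ∈ P) ∧ PP s t ∧
      (∀ g ∈ T.S, g * s = s * g ∧ g * t = t * g) ∧ T'.S = T.S ∪ {s, t} ∧
      (∀ w ∈ P, ‖T'.E w ξ‖ ≤ ‖T.E w ξ‖) ∧ ∃ y ∈ P, y ∈ P.commutant ∧
        ‖(T.E v - y) ξ‖ ^ 2 ≤ 64 * (‖T.E v ξ‖ ^ 2 - ‖T'.E v ξ‖ ^ 2) := by
  obtain ⟨k, k1, k2⟩ : ∃ k, T.k ≤ k ∧ l ≤ k := ⟨_, le_max_left _ _, le_max_right _ _⟩
  have sa : ∀ j, ∀ g ∈ tl s₀ t₀ j ∪ T.S, star g = g := fun j g hg =>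
    hg.elim (tl_sa ht j g) (T.sa g)
  have mo : ∀ {i j x}, i ≤ j → x ∈ rc P (tl s₀ t₀ i ∪ T.S) → x ∈ rc P (tl s₀ t₀ j ∪ T.S) :=
    fun hij hx => (mem_rc (sa _)).2 ⟨((mem_rc (sa _)).1 hx).1, fun g hg =>
      ((mem_rc (sa _)).1 hx).2 g (hg.imp_left fun hg => tl_mono hij hg)⟩
  have hB : ∀ j, ∀ b ∈ rc P (tl s₀ t₀ j ∪ T.S), b ∈ P := fun j b hb => ((mem_rc (sa _)).1 hb).1
  have hx := T.map k k1 v ((mem_rc (tl_sa ht _)).2 ⟨((mem_rc (tl_sa ht _)).1 hv).1, fun g hg =>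
    ((mem_rc (tl_sa ht _)).1 hv).2 g (tl_mono k2 hg)⟩)
  obtain ⟨u, u1, u2, u3⟩ : ∃ u ∈ unitary (Op K), u ∈ rc P (tl s₀ t₀ k ∪ T.S) ∧
      ∀ w ∈ unitary (Op K), w ∈ rc P (tl s₀ t₀ k ∪ T.S) → ‖(T.E v - w * T.E v * star w) ξ‖ ≤
        2 * ‖(T.E v - u * T.E v * star u) ξ‖ := by
    by_contra! hc
    obtain ⟨w₀, a1, a2, a3⟩ := hc 1 (one_mem _) (one_mem _)
    have : ∀ n : ℕ, ∃ w ∈ unitary (Op K), w ∈ rc P (tl s₀ t₀ k ∪ T.S) ∧
        2 ^ n * ‖(T.E v - w₀ * T.E v * star w₀) ξ‖ ≤ ‖(T.E v - w * T.E v * star w) ξ‖ := fun n => by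
      induction n with
      | zero => exact ⟨w₀, a1, a2, by simp⟩
      | succ n ih =>
        obtain ⟨w, b1, b2, b3⟩ := ih
        obtain ⟨w', c1, c2, c3⟩ := hc w b1 b2
        exact ⟨w', c1, c2, by rw [pow_succ]; linarith⟩
    have a4 := (mul_nonneg zero_le_two (norm_nonneg _)).trans_lt a3
    obtain ⟨n, hn⟩ := pow_unbounded_of_one_lt ((‖T.E v ξ‖ + ‖T.E v ξ‖) /
      ‖(T.E v - w₀ * T.E v * star w₀) ξ‖) one_lt_two
    obtain ⟨w, b1, b2, b3⟩ := this n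
    have := norm_sub_le (T.E v ξ) ((w * T.E v * star w) ξ)
    rw [nconj h (hB _ _ hx) b1 (hB _ _ b2), ← sub_apply] at this
    rw [div_lt_iff₀ a4] at hn
    linarith
  obtain ⟨y, y1, y2, y3⟩ := dix h (hB k) hx u3
  have cs := fun {x} (hx : x ∈ rc P (tl s₀ t₀ k ∪ T.S)) => ((mem_rc (sa _)).1 hx).2 _
    (.inl ⟨k, le_rfl, .inl rfl⟩)
  have ct := fun {x} (hx : x ∈ rc P (tl s₀ t₀ k ∪ T.S)) => ((mem_rc (sa _)).1 hx).2 _
    (.inl ⟨k, le_rfl, .inr rfl⟩)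
  have t1 : t₀ k ∈ rc P (tl s₀ t₀ (k + 1) ∪ T.S) := (mem_rc (sa _)).2 ⟨ht.tm k, fun g hg => hg.elim
    (fun hg => (tl_mem ht k g hg).2) fun hg => (T.mem g hg _ ⟨k, k1, .inr rfl⟩).symm⟩
  obtain ⟨s, s1, s2, s3⟩ := twist h (hB (k + 1)) (ht.pp k) ((mem_rc (sa _)).2 ⟨ht.sm k,
    fun g hg => hg.elim (fun hg => (tl_mem ht k g hg).1)
      fun hg => (T.mem g hg _ ⟨k, k1, .inl rfl⟩).symm⟩) t1 u1 (mo k.le_succ u2) (cs u2) (ct u2)
    (mo k.le_succ hx) (cs hx) (ct hx)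
  have sa' : ∀ g ∈ T.S ∪ {s, t₀ k}, star g = g := by
    rintro g (hg | rfl | rfl)
    exacts [T.sa g hg, s2.s1, s2.t1]
  have mr : ∀ j x, x ∈ rc P (tl s₀ t₀ j ∪ (T.S ∪ {s, t₀ k})) ↔ x ∈ rc P (tl s₀ t₀ j ∪ T.S) ∧
      s * x = x * s ∧ t₀ k * x = x * t₀ k := fun j x => by
    rw [mem_rc fun g hg => hg.elim (tl_sa ht j g) (sa' g), mem_rc (sa j)]
    simp only [Set.mem_union, or_imp, forall_and, Set.mem_insert_iff, Set.mem_singleton_iff,
      forall_eq, and_assoc]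
  have sP := hB _ _ s1
  have tP := ht.tm k
  have le : ∀ x ∈ P, ‖av s (av (t₀ k) x) ξ‖ ≤ ‖x ξ‖ := fun x hx =>
    (av_le h s2 sP (av_mem tP hx)).trans (av_le h s2.symm tP hx)
  refine ⟨⟨k + 1, T.S ∪ {s, t₀ k}, fun w => av s (av (t₀ k) (T.E w)), sa', ?_,
    fun w hw => av_mem sP (av_mem tP (T.mp w hw)), fun j hj w hw => (mr _ _).2 ⟨av_mem (mo hj s1)
      (av_mem (mo hj t1) (T.map j (by omega) w hw)), av_comm s2 _⟩, fun z hz w hw hc => ?_,
    fun j hj z hz hc => ?_⟩, s, t₀ k, ⟨sP, tP⟩, s2, fun g hg => ⟨((mem_rc (sa _)).1 s1).2 g (.inr hg),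
      ((mem_rc (sa _)).1 t1).2 g (.inr hg)⟩, rfl, fun w hw => le _ (T.mp w hw), y, hB _ _ y1,
    T.irr k k1 y y1 y2, ?_⟩
  · rintro g (hg | rfl | rfl) g' hg'
    exacts [T.mem g hg g' (tl_mono (by omega) hg'), ((mem_rc (sa _)).1 s1).2 g' (.inl hg'),
      ((mem_rc (sa _)).1 t1).2 g' (.inl hg')]
  · refine le_trans ?_ (T.lip z hz w hw fun g hg => hc g (.inl hg))
    have := le _ (sub_mem hz (T.mp w hw))
    rwa [av_sub, av_sub, av_fix s2.symm (hc _ (by simp)), av_fix s2 (hc _ (by simp))] at this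
  · obtain ⟨z1, z2, z3⟩ := (mr _ _).1 hz
    exact T.irr j (by omega) z z1 (dec s2 (mo hj s1) (mo hj t1) z2.symm z3.symm
      fun b b1 b2 b3 => hc b ((mr _ _).2 ⟨b1, b2, b3⟩))
  · have a := av_sq h s2 sP (hB _ _ hx)
    have b := pow_le_pow_left₀ (norm_nonneg _) (y3.trans (mul_le_mul_of_nonneg_left s3 zero_le_two)) 2
    simp only [av_fix s2.symm (ct hx)]
    linarith

theorem tower [TopologicalSpace.SeparableSpace K] (h : Std P ξ) (ht : Tail P ξ s₀ t₀) :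
    ∃ s t : ℕ → Op K, (∀ n, (s n ∈ P ∧ t n ∈ P) ∧ PP (s n) (t n)) ∧
      (∀ m n, m < n → (s m * s n = s n * s m ∧ s m * t n = t n * s m) ∧ t m * s n = s n * t m ∧
        t m * t n = t n * t m) ∧
      ∀ z ∈ P, (∀ n, s n * z = z * s n ∧ t n * z = z * t n) → z ∈ P.commutant := by
  obtain ⟨e, he⟩ := TopologicalSpace.exists_dense_seq K
  choose l v v1 v2 v3 using fun i : ℕ => ht.den (e i.unpair.1) (1 / (i.unpair.2 + 1)) (by positivity)
  have v4 : ∀ i, v i ∈ rc P (tl s₀ t₀ (l i)) := fun i => (mem_rc (tl_sa ht _)).2 ⟨v1 i, by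
    rintro _ ⟨j, hj, rfl | rfl⟩
    exacts [(v2 i j hj).1.symm, (v2 i j hj).2.symm]⟩
  choose nx s t h1 h2 h3 h4 h5 h6 using fun T i => step h ht T (l i) (v i) (v4 i)
  let T : ℕ → TS P ξ s₀ t₀ := fun n => Nat.rec ⟨0, ∅, id, by simp, by simp, fun _ h => h,
    fun _ _ _ h => by simpa using h, fun _ _ _ _ _ => le_rfl, fun j _ y hy hc => by
      rw [Set.union_empty] at hy hc; exact irr0 h ht hy hc⟩ (fun n T => nx T n.unpair.1) n
  have hT : ∀ n, T (n + 1) = nx (T n) n.unpair.1 := fun _ => rfl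
  have mo : Monotone fun n => (T n).S := monotone_nat_of_le_succ fun n => by
    rw [hT, h4]; exact Set.subset_union_left
  refine ⟨fun n => s (T n) n.unpair.1, fun n => t (T n) n.unpair.1, fun n => ⟨h1 _ _, h2 _ _⟩,
    fun m n hmn => ⟨h3 _ _ _ (mo (Nat.succ_le_of_lt hmn) (by simp [hT, h4])),
      h3 _ _ _ (mo (Nat.succ_le_of_lt hmn) (by simp [hT, h4]))⟩, fun z z1 hz => ?_⟩
  have z2 : ∀ n, ∀ g ∈ (T n).S, g * z = z * g := fun n => by
    induction n with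
    | zero => simp [T]
    | succ n ih =>
      rw [hT, h4]
      rintro g (hg | rfl | rfl)
      exacts [ih g hg, (hz n).1, (hz n).2]
  have key : ∀ ε > 0, ∃ y ∈ P, y ∈ P.commutant ∧ ‖(z - y) ξ‖ ≤ 3 * ε := fun ε hε => by
    obtain ⟨i, hi⟩ := he.exists_dist_lt (z ξ) hε
    obtain ⟨j, hj⟩ := exists_nat_one_div_lt hε
    have a1 := v3 (Nat.pair i j)
    rw [Nat.unpair_pair] at a1
    generalize Nat.pair i j = q at a1
    have a2 : Antitone fun n => ‖(T n).E (v q) ξ‖ ^ 2 := antitone_nat_of_succ_le fun n =>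
      pow_le_pow_left₀ (norm_nonneg _) (h5 _ _ _ (v1 q)) 2
    have a3 := tendsto_atTop_ciInf a2 ⟨0, by rintro _ ⟨k, rfl⟩; positivity⟩
    have a4 := (a3.sub ((tendsto_add_atTop_iff_nat 1).2 a3)).const_mul 64
    rw [sub_self, mul_zero] at a4
    obtain ⟨n, hn⟩ := eventually_atTop.1 (a4.eventually (gt_mem_nhds (pow_pos hε 2)))
    obtain ⟨y, y1, y2, y3⟩ := h6 (T (Nat.pair q n)) (Nat.pair q n).unpair.1
    have a5 := hn _ (Nat.right_le_pair q n)
    rw [← hT] at y3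
    rw [Nat.unpair_pair] at y3
    have a6 := norm_add_le_of_le ((T (Nat.pair q n)).lip z z1 _ (v1 q) (z2 _))
      (le_of_sq_le_sq (y3.trans a5.le) hε.le)
    have a7 := norm_sub_le (z ξ - e i) (v q ξ - e i)
    rw [← add_apply, sub_add_sub_cancel] at a6
    rw [sub_sub_sub_cancel_right, ← sub_apply, ← dist_eq_norm (z ξ)] at a7
    exact ⟨y, y1, y2, by linarith⟩
  refine cyc_comm h.cyc fun x hx => norm_le_zero_iff.1 (le_of_forall_pos_le_add fun ε hε => ?_)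
  obtain ⟨y, y1, y2, y3⟩ := key (ε / (6 * ‖x‖ + 1)) (by positivity)
  have := norm_sub_le_of_le ((nright h (sub_mem z1 y1) hx).trans (mul_le_mul_of_nonneg_left y3
    (norm_nonneg _))) (ale (le_refl ‖x‖) y3)
  rw [← mul_apply_eq_comp, ← mul_apply_eq_comp, ← sub_apply, sub_mul, mul_sub, commM hx y2,
    sub_sub_sub_cancel_right] at this
  refine this.trans ?_
  rw [zero_add, ← two_mul, ← mul_assoc, ← mul_assoc, mul_div_assoc', div_le_iff₀ (by positivity)]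
  nlinarith [norm_nonneg x]

end TW

open TW in
theorem towerStmt (hG : GenZStmt.{u}) : TowerStmt.{u} := by
  intro K _ _ _ _ P ξ s₀ t₀ h ht
  obtain ⟨s, t, h1, h2, h3⟩ := tower h ht
  obtain ⟨c, c1, c2⟩ := hG K P
  have un : ∀ {g : Op K} (hg : g ∈ P), star g = g → g * g = 1 → (⟨g, hg⟩ : MA P) ∈ unitary (MA P) :=
    fun hg a b => ⟨Subtype.ext (by simp [a, b]), Subtype.ext (by simp [a, b])⟩
  have c3 : ∀ n, (1 - (c n + c n)) * (1 - (c n + c n)) = 1 := fun n => by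
    simp only [mul_sub, sub_mul, mul_add, add_mul, pidem (c1 n).1, mul_one, one_mul]; abel
  have c4 : ∀ n, 1 - (c n + c n) ∈ P.commutant := fun n =>
    sub_mem (one_mem _) (add_mem (c1 n).2.2 (c1 n).2.2)
  let f : ℕ → ℕ → unitary (MA P) := fun j n => if j = 0 then ⟨_, un (h1 n).1.1 (h1 n).2.s1 (h1 n).2.s2⟩
    else if j = 1 then ⟨_, un (h1 n).1.2 (h1 n).2.t1 (h1 n).2.t2⟩ else ⟨_, un (sub_mem (one_mem _)
      (add_mem (c1 n).2.1 (c1 n).2.1)) (by simp [P104.pstar (c1 n).1]) (c3 n)⟩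
  have f1 : ∀ j n, (f j n).1.1 = s n ∨ (f j n).1.1 = t n ∨ (f j n).1.1 = 1 - (c n + c n) :=
    fun j n => by simp only [f]; split_ifs <;> simp
  obtain ⟨m, m1, m2⟩ := exists_haar (z := (-1 : unitary (MA P)))
    (r := fun n => f n.unpair.1 n.unpair.2) (by simp) (by simp)
    (fun n => Subtype.ext (Subtype.ext (by
      rcases f1 n.unpair.1 n.unpair.2 with e | e | e <;> simp only [MulMemClass.coe_mul, e]
      exacts [(h1 _).2.s2, (h1 _).2.t2, c3 _]))) fun i n => by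
      simp only [Subtype.ext_iff, MulMemClass.coe_mul, Unitary.coe_neg, OneMemClass.coe_one,
        neg_one_mul, NegMemClass.coe_neg]
      generalize i.unpair.2 = i', n.unpair.2 = n'
      rcases or_assoc.2 (f1 n.unpair.1 n') with e | e
      swap
      · exact .inl (commM (f _ _).1.2 (e ▸ c4 _)).symm
      rcases or_assoc.2 (f1 i.unpair.1 i') with e' | e'
      swap
      · exact .inl (commM (f _ _).1.2 (e' ▸ c4 _))
      rcases e with e | e <;> rcases e' with e' | e' <;> rw [e, e'] <;>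
        rcases lt_trichotomy i' n' with h | rfl | h
      exacts [.inl (h2 _ _ h).1.1.symm, .inl rfl, .inl (h2 _ _ h).1.1, .inl (h2 _ _ h).2.1.symm,
        .inr (h1 _).2.st, .inl (h2 _ _ h).1.2, .inl (h2 _ _ h).1.2.symm,
        .inr (h1 _).2.symm.st, .inl (h2 _ _ h).2.1, .inl (h2 _ _ h).2.2.symm,
        .inl rfl, .inl (h2 _ _ h).2.2]
  have g1 : ∀ j n, Gp m (f j n) := fun j n => by
    simpa only [Nat.unpair_pair, Gp] using (eventually_gt_atTop _).mono (m2 (Nat.pair j n))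
  have iv : ∀ k, (m k).All (m k).Iv := fun k => (m1 k).mono fun g hg => hg k le_rfl
  refine ⟨m, fun k => Pr.sy_of (iv k), iv, fun k => (m1 k).mono fun g hg =>
    (eventually_ge_atTop k).mono hg, ⟨f 0 0, f 1 0, ⟨Subtype.ext (h1 0).2.s1, Subtype.ext (h1 0).2.s2,
      Subtype.ext (h1 0).2.t1, Subtype.ext (h1 0).2.t2, Subtype.ext (h1 0).2.st⟩, g1 _ _, g1 _ _⟩,
    fun x => ?_, fun T hT => c2 T fun n => ?_⟩
  swap
  · have : T * (1 - (c n + c n)) = (1 - (c n + c n)) * T := hT _ (g1 2 n) (c4 n)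
    rw [mul_sub, sub_mul, mul_one, one_mul, sub_right_inj, ← two_smul ℂ, mul_smul_comm,
      smul_mul_assoc] at this
    exact smul_right_injective _ two_ne_zero this
  obtain ⟨y, -, y2⟩ := wlim (hyperfilter ℕ) (fun k => (cE (m k) x).1) (norm_nonneg x) fun k =>
    (show ‖cE (m k) x‖ ≤ ‖x‖ from (m k).norm_ex' fun g => by
      rw [CStarRing.norm_mul_coe_unitary, CStarRing.norm_coe_unitary_mul])
  have U1 := Nat.hyperfilter_le_atTop
  have y1 : y ∈ P := y2.mem fun k => (cE (m k) x).2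
  have y3 : ∀ g, Gp m g → g.1.1 * y = y * g.1.1 := fun g hg => wt_comm y2 (U1 (hg.mono fun k hk =>
    congrArg Subtype.val (NZ.cE_comm hk x)))
  have y4 := h3 y y1 fun n => ⟨y3 _ (g1 0 n), y3 _ (g1 1 n)⟩
  refine ⟨y, y1, y4, ?_⟩
  have tr : ∀ k, ∀ b ∈ P, ((m k).All fun g => (g⁻¹ : unitary _).1.1 * b = b * (g⁻¹ : unitary _).1.1) →
      ⟪b ξ, (cE (m k) x).1 ξ⟫_ℂ = ⟪b ξ, x.1 ξ⟫_ℂ := fun k b hb hc => by
    rw [cE, Pr.ex_map _ _ (fun z : MA P => ⟪b ξ, z.1 ξ⟫_ℂ) (by simp [inner_add_right]) fun r z => by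
      simp [← Complex.coe_smul, inner_smul_right], Pr.ex_congr (G := fun _ => ⟪b ξ, x.1 ξ⟫_ℂ)
      (hc.mono fun g hg => ?_), Pr.ex_const]
    have e := congrArg star hg
    have e2 : (g⁻¹ : unitary _).1.1 * g.1.1 = 1 := congrArg Subtype.val (uu' g)
    rw [star_mul, star_mul, show star (g⁻¹ : unitary _).1.1 = g.1.1 from star_star _] at e
    rw [← inner_star_r, ← inner_star_r, MulMemClass.coe_mul, mul_apply_eq_comp,
      ← mul_apply_eq_comp (star b), h.trc (mul_mem (star_mem hb) (g.1 * x).2) (g⁻¹ : unitary _).1.2,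
      MulMemClass.coe_mul, ← mul_assoc, e, ← mul_apply_eq_comp, ← mul_assoc, ← mul_assoc, e2,
      one_mul, mul_apply_eq_comp]
  have t1 : ∀ k, ∀ k' ≥ k, ⟪(cE (m k') x).1 ξ, (cE (m k) x).1 ξ⟫_ℂ = ⟪(cE (m k') x).1 ξ, x.1 ξ⟫_ℂ :=
    fun k k' hk => tr k _ (cE (m k') x).2 ((m1 k).mono fun g hg =>
      congrArg Subtype.val (NZ.cE_comm (hg k' hk).inv x))
  have t2 : ∀ k, ⟪y ξ, (cE (m k) x).1 ξ⟫_ℂ = ⟪y ξ, x.1 ξ⟫_ℂ := fun k =>
    tr k y y1 (.of _ fun g => commM (Subtype.prop _) y4)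
  have t3 : ⟪y ξ, y ξ⟫_ℂ = ⟪y ξ, x.1 ξ⟫_ℂ :=
    tendsto_nhds_unique (y2 ξ (y ξ)) (tendsto_const_nhds.congr fun k => (t2 k).symm)
  have n : ∀ v : K, ‖v‖ ^ 2 = (⟪v, v⟫_ℂ).re := fun v => (qf_one v).symm
  have a2 : Antitone fun k => ‖(cE (m k) x).1 ξ‖ ^ 2 := fun k k' hk => by
    have a := (Complex.re_le_norm _).trans (norm_inner_le_norm (𝕜 := ℂ) ((cE (m k') x).1 ξ)
      ((cE (m k) x).1 ξ))
    rw [t1 k k' hk, ← t1 k' k' le_rfl, ← n] at a
    simp only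
    nlinarith [sq_nonneg (‖(cE (m k') x).1 ξ‖ - ‖(cE (m k) x).1 ξ‖)]
  have a3 := tendsto_atTop_ciInf a2 ⟨0, by rintro _ ⟨k, rfl⟩; positivity⟩
  have a4 : Tendsto (fun k => ‖(cE (m k) x).1 ξ‖ ^ 2) (hyperfilter ℕ) (𝓝 (‖y ξ‖ ^ 2)) := by
    have := (Complex.continuous_re.tendsto _).comp (y2 ξ (x.1 ξ))
    rw [← inner_conj_symm, Complex.conj_re, ← t3, ← n] at this
    exact this.congr fun k => by
      rw [n, t1 k k le_rfl, ← inner_conj_symm, Complex.conj_re]; rfl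
  rw [tendsto_nhds_unique (a3.mono_left U1) a4] at a3
  have a5 := (a3.sub_const (‖y ξ‖ ^ 2)).sqrt
  rw [sub_self, Real.sqrt_zero] at a5
  rw [tendsto_iff_norm_sub_tendsto_zero]
  refine a5.congr fun k => ?_
  rw [← Real.sqrt_sq (norm_nonneg (_ - y ξ)), norm_sub_rev, norm_sub_sq (𝕜 := ℂ), t2, ← t3,
    RCLike.re_to_complex, ← n]
  congr 1; ring

end Vale.Agent.P096
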