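import Vale.Agent.P096.Inf
import Vale.Agent.P096.Ana
import Vale.Agent.P096.Pre
import Vale.Agent.P096.Tom
import Vale.Agent.P096.DE
import Vale.Agent.P096.GT
import Vale.Agent.P096.FL
import Vale.Agent.P096.Pt
import Vale.Agent.P096.Kaz
import Vale.Agent.P096.Core
import Vale.Agent.P096.Tower
import Vale.Agent.P096.StdKK
import Vale.Agent.P096.Fin
import Vale.Agent.P096.Red1
import Vale.Agent.P096.Red2

/-! Assembly of the modules. -/

namespace Vale.Agent.P096

universe u

theorem kkStmt : KKStmt.{u} :=
  have de : DEStmt.{u} := deStmt stripStmt sechStmt gauss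
  kk_of_lin (lin_of_sep (sepLin (stdLin (tomStmt preStmt stripStmt sechStmt uniqStmt)
    (kazStmt (ptStmt de (flStmt gtStmt planch gauss) exhStmt) de meanStmt)
    (finStmt (stdKK (towerStmt genZ) exhStmt) fmStmt meanStmt) fmStmt meanStmt) fmStmt genZ))

end Vale.Agent.P096
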