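import Vale.Agent.P096.M2
import Vale.Agent.P104.Col

/-! Little Grothendieck inequality and the passage to an `L²`-bounded primitive. -/

open Finset Vale.Agent.P104 Vale.Agent.P085 Filter Topology
open scoped InnerProductSpace

set_option linter.unusedSectionVars false

namespace Vale.Agent.P096

variable {A K : Type*} [CStarAlgebra A] [NormedAddCommGroup K] [InnerProductSpace ℂ K]
  [CompleteSpace K] {D : Bim A K} {θ β b ω α κ : ℝ} {c r : A → A → K} {ψ : A → K}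

lemma ri_le' (x y : K) : 2 * ri x y ≤ ‖x‖ ^ 2 + ‖y‖ ^ 2 := by
  have := (abs_le.1 (ri_le (le_refl ‖x‖) (le_refl ‖y‖))).2
  nlinarith [sq_nonneg (‖x‖ - ‖y‖)]

lemma ri_self (x : K) : ri x x = ‖x‖ ^ 2 := by rw [ri, inner_self_eq_norm_sq_to_K]; norm_cast

lemma groth0 (h : BL β ψ) (θ0 : 0 < θ) : ∃ F : A → ℂ, BL (2 * β ^ 2) F ∧
    (∀ y, ‖y‖ ≤ 1 → -(2 * θ) ≤ (F (star y * y)).re) ∧
    ∀ x, ‖x‖ ≤ 1 → ‖ψ x‖ ^ 2 ≤ 16 * θ + 2 * (F (star x * x)).re + 2 * (F (x * star x)).re := by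
  let _ := CStarAlgebra.spectralOrder A
  have := CStarAlgebra.spectralOrderedRing A
  have β0 : 0 ≤ β := (norm_nonneg _).trans (h.bd 1 b1)
  obtain ⟨γ, hγ⟩ : ∃ γ, γ = ⨆ u : unitary A, ‖ψ u‖ ^ 2 := ⟨_, rfl⟩
  have g1 : ∀ u : unitary A, ‖ψ u‖ ^ 2 ≤ γ := fun u => hγ ▸ le_ciSup (f := fun u : unitary A =>
    ‖ψ u‖ ^ 2) ⟨β ^ 2, by rintro _ ⟨u, rfl⟩; exact pow_le_pow_left₀ (norm_nonneg _) (h.bd _ (bu u)) 2⟩ u
  obtain ⟨v, hv⟩ := exists_lt_of_lt_ciSup (f := fun u : unitary A => ‖ψ u‖ ^ 2) (b := γ - θ)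
    (by rw [← hγ]; linarith)
  obtain ⟨φ, hφ⟩ : ∃ φ : A → ℝ, φ = fun y => ri (ψ v) (ψ (v * y)) := ⟨_, rfl⟩
  have φa : ∀ x y, φ (x + y) = φ x + φ y := fun x y => by simp [hφ, ri, mul_add, h.lin.map_add]
  have φs : ∀ x y, φ (x - y) = φ x - φ y := fun x y => by simp [hφ, ri, mul_sub, h.lin.map_sub]
  have φh : ∀ x, 2 * φ ((2 : ℂ)⁻¹ • x) = φ x := fun x => by
    simp [hφ, ri, h.lin.map_smul, inner_smul_right]
  have p1 : ∀ y, 0 ≤ y → y ≤ 1 → -θ ≤ φ y := fun y y0 y1 => by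
    have a0 := sub_nonneg.2 y1
    obtain ⟨u, e, -⟩ := exists_unit a0.isSelfAdjoint
      ((CStarAlgebra.norm_le_one_iff_of_nonneg _ a0).2 (sub_le_self _ y0))
    have a1 := φh (u + star (u : A))
    rw [← e, φs, φa] at a1
    have a2 := ri_le' (ψ v) (ψ (v * u : unitary A))
    have a3 := ri_le' (ψ v) (ψ (v * u⁻¹ : unitary A))
    have a4 := ri_self (ψ v)
    have := g1 v
    have := g1 (v * u)
    have := g1 (v * u⁻¹)
    simp only [hφ, mul_one, Submonoid.coe_mul, coe_inv] at *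
    linarith
  have p2 : ∀ y : A, ‖y‖ ≤ 1 → star y * y ≤ 1 := fun y hy =>
    (CStarAlgebra.norm_le_one_iff_of_nonneg _ (star_mul_self_nonneg y)).1 (bm (by rwa [norm_star]) hy)
  have p3 : ∀ k, IsSelfAdjoint k → ‖k‖ ≤ 1 → ‖ψ (v * k)‖ ^ 2 ≤ 3 * θ + 2 * φ (k * k) :=
    fun k k1 k2 => by
      obtain ⟨a, a1, a2, a3, a4, a5, -⟩ := exists_cos k1 k2
      have hu : ∀ c : ℂ, c * c = -1 → star c = -c → a + c • k ∈ unitary A := by
        intro c h1 h2
        rw [Unitary.mem_iff, star_add, star_smul, a1.star_eq, k1.star_eq, h2]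
        simp only [add_mul, mul_add, smul_mul_assoc, mul_smul_comm, smul_smul, neg_mul, mul_neg, h1,
          neg_neg, one_smul, a2, neg_smul, smul_add, smul_neg]
        constructor <;> rw [← a3] <;> abel
      have q1 := g1 (v * ⟨_, hu Complex.I (by simp) (by simp)⟩)
      have q2 := g1 (v * ⟨_, hu (-Complex.I) (by simp) (by simp)⟩)
      simp only [Submonoid.coe_mul, mul_add, mul_smul_comm, h.lin.map_add, h.lin.map_smul,
        neg_smul, mul_neg, h.lin.map_neg] at q1 q2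
      rw [← sub_eq_add_neg] at q2
      have q3 := parallelogram_law_with_norm ℂ (ψ (v * a)) (Complex.I • ψ (v * k))
      rw [norm_smul, Complex.norm_I, one_mul] at q3
      have q4 := nsq_add (ψ v) (-ψ (v * (1 - a)))
      have q5 := p1 (k * k - (1 - a)) (sub_nonneg.2 a5) ((sub_le_self _ a4).trans (by
        simpa only [k1.star_eq] using p2 k k2))
      rw [φs] at q5
      rw [show ψ v + -ψ (v * (1 - a)) = ψ (v * a) by simp [mul_sub, h.lin.map_sub],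
        show ri (ψ v) (-ψ (v * (1 - a))) = -φ (1 - a) by simp [hφ, ri]] at q4
      nlinarith [sq_nonneg ‖-ψ (v * (1 - a))‖]
  have p4 : ∀ y : A, ‖y‖ ≤ 1 → -θ ≤ φ (star y * y) := fun y hy =>
    p1 _ (star_mul_self_nonneg y) (p2 y hy)
  have e0 : ∀ y, (⟪ψ v, ψ (v * y)⟫_ℂ + ⟪ψ v, ψ (y * v)⟫_ℂ).re = φ y + φ (star (v : A) * y * v) :=
    fun y => by simp [hφ, ri, ← mul_assoc]
  have e1 : ∀ y : A, star (v : A) * (star y * y) * v = star (y * v) * (y * v) := fun y => by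
    simp [mul_assoc]
  refine ⟨fun y => ⟪ψ v, ψ (v * y)⟫_ℂ + ⟪ψ v, ψ (y * v)⟫_ℂ, ⟨⟨fun x y => ?_, fun a x => ?_⟩,
    fun y hy => ?_⟩, fun y hy => ?_, fun x hx => ?_⟩
  · simp only [mul_add, add_mul, h.lin.map_add, inner_add_right]; abel
  · simp only [mul_smul_comm, smul_mul_assoc, h.lin.map_smul, inner_smul_right, smul_eq_mul, mul_add]
  · have k : ∀ z, ‖z‖ ≤ 1 → ‖⟪ψ v, ψ z⟫_ℂ‖ ≤ β * β := fun z hz => (norm_inner_le_norm _ _).trans
      (mul_le_mul (h.bd _ (bu v)) (h.bd _ hz) (norm_nonneg _) β0)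
    exact (norm_add_le_of_le (k _ (bm (bu v) hy)) (k _ (bm hy (bu v)))).trans_eq (by ring)
  · rw [e0, e1]; linarith [p4 y hy, p4 _ (bm hy (bu v))]
  · obtain ⟨w, hw⟩ : ∃ w, w = star (v : A) * x := ⟨_, rfl⟩
    have w1 : ‖w‖ ≤ 1 := hw ▸ bm (bu v⁻¹) hx
    have w2 : ‖star w‖ ≤ 1 := by rwa [norm_star]
    have xs : ‖star x‖ ≤ 1 := by rwa [norm_star]
    have a1 := p3 _ (by simp [IsSelfAdjoint, add_comm]) (bh w1 w2)
    have a2 := p3 ((2 : ℂ)⁻¹ • (-Complex.I • w + Complex.I • star w)) (by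
      simp [IsSelfAdjoint, add_comm]) (bh (by simpa [norm_smul]) (by simpa [norm_smul]))
    have e : w = (2 : ℂ)⁻¹ • (w + star w) +
        Complex.I • (2 : ℂ)⁻¹ • (-Complex.I • w + Complex.I • star w) := by
      rw [smul_comm Complex.I, smul_add Complex.I, smul_smul, smul_smul]; simp; module
    have e2 : (2 : ℂ)⁻¹ • (w + star w) * (2 : ℂ)⁻¹ • (w + star w) +
        (2 : ℂ)⁻¹ • (-Complex.I • w + Complex.I • star w) *
          (2 : ℂ)⁻¹ • (-Complex.I • w + Complex.I • star w) =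
        (2 : ℂ)⁻¹ • (star w * w + w * star w) := by
      simp only [smul_mul_smul_comm, mul_add, add_mul, neg_mul, mul_neg, Complex.I_mul_I, neg_neg]
      module
    generalize (2 : ℂ)⁻¹ • (w + star w) = h1 at *
    generalize (2 : ℂ)⁻¹ • (-Complex.I • w + Complex.I • star w) = h2 at *
    have a3 := normsq_add_le (ψ (v * h1)) (Complex.I • ψ (v * h2))
    rw [← h.lin.map_smul, ← h.lin.map_add, ← mul_smul_comm, ← mul_add, ← e, hw, ← mul_assoc,
      v.2.2, one_mul, mul_smul_comm, h.lin.map_smul, norm_smul, Complex.norm_I, one_mul] at a3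
    have a4 := φh (star w * w + w * star w)
    rw [← e2, φa, φa, show star w * w = star x * x by simp [hw, mul_assoc, ← mul_assoc (v : A)],
      show w * star w = star (v : A) * (x * star x) * v by simp [hw, mul_assoc]] at a4
    have a5 := p4 _ (bm hx (bu v))
    have a6 := p4 _ xs
    rw [star_star] at a6
    rw [e0, e0, e1]
    linarith

lemma groth (h : BL β ψ) : ∃ F : A → ℂ, BL (2 * β ^ 2) F ∧ (∀ y, 0 ≤ (F (star y * y)).re) ∧
    ∀ x, ‖ψ x‖ ^ 2 ≤ 2 * (F (star x * x)).re + 2 * (F (x * star x)).re := by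
  choose F h1 h2 h3 using fun n : ℕ => groth0 h (θ := 1 / (n + 1)) (by positivity)
  obtain ⟨G, g1, g2⟩ := wlim_BL (hyperfilter ℕ) h1 (by positivity)
  have g3 : ∀ y, Tendsto (fun n => (F n y).re) (hyperfilter ℕ) (𝓝 (G y).re) := fun y =>
    (Complex.continuous_re.tendsto _).comp (by simpa using g2 y 1)
  have t0 : Tendsto (fun n : ℕ => 1 / (n + 1 : ℝ)) (hyperfilter ℕ) (𝓝 0) :=
    tendsto_one_div_add_atTop_nhds_zero_nat.mono_left Nat.hyperfilter_le_atTop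
  have sc : ∀ x : A, ∃ (t : ℝ) (y : A), ‖y‖ ≤ 1 ∧ x = (t : ℂ) • y := fun x =>
    ⟨‖x‖ + 1, ((‖x‖ + 1 : ℝ) : ℂ)⁻¹ • x, by
      rw [norm_smul, norm_inv, Complex.norm_real, Real.norm_of_nonneg (by positivity),
        inv_mul_le_iff₀ (by positivity)]; simp, by
      rw [smul_inv_smul₀]; exact_mod_cast (by positivity : ‖x‖ + 1 ≠ 0)⟩
  have s1 : ∀ (t : ℝ) (y z : A), (G ((t : ℂ) • y * (t : ℂ) • z)).re = t ^ 2 * (G (y * z)).re :=
    fun t y z => by
      rw [smul_mul_smul_comm, g1.lin.map_smul, smul_eq_mul, ← Complex.ofReal_mul,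
        Complex.re_ofReal_mul, sq]
  refine ⟨G, g1, fun x => ?_, fun x => ?_⟩
  all_goals
    obtain ⟨t, y, hy, rfl⟩ := sc x
    simp only [star_smul, Complex.star_def, Complex.conj_ofReal, s1]
  · have := le_of_tendsto_of_tendsto' (t0.const_mul 2).neg (g3 _) fun n => h2 n y hy
    exact mul_nonneg (sq_nonneg _) (by simpa using this)
  · have := ge_of_tendsto' (((t0.const_mul 16).add ((g3 _).const_mul 2)).add ((g3 _).const_mul 2))
      fun n => h3 n y hy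
    rw [h.lin.map_smul, norm_smul, mul_pow, Complex.norm_real, Real.norm_eq_abs, sq_abs]
    nlinarith [sq_nonneg t]

variable [TrAlg A]

variable (A) in
def ET : Prop := ∀ (F : A → ℂ) (C : ℝ), 0 < C → BL C F → (∀ y, 0 ≤ (F (star y * y)).re) →
  ∃ e, (star e = e ∧ ‖e‖ ≤ 1) ∧ 3 / 4 ≤ rt e ∧
    ∀ y, (F (star (y * e) * (y * e))).re ≤ 4 * C * n2 (y * e) ^ 2

noncomputable def cE (σ : Pr (unitary A)) (x : A) : A := σ.ex fun g => g * x * (g⁻¹ : unitary A)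

lemma cE_le (σ : Pr (unitary A)) {x : A} (hx : ‖x‖ ≤ 1) : ‖cE σ x‖ ≤ 1 :=
  σ.norm_ex' fun g => bm (bm (bu g) hx) (bu _)

lemma cE_comm {σ : Pr (unitary A)} {g : unitary A} (h : σ.Iv g) (x : A) :
    g * cE σ x = cE σ x * g := by
  conv_rhs => rw [cE, ← h.l]
  simp only [cE, Pr.mul_ex, Pr.ex_mul', mul_inv_rev, Submonoid.coe_mul, mul_assoc, uu', mul_one]

def Gp (m : ℕ → Pr (unitary A)) (g : unitary A) : Prop := ∀ᶠ k in atTop, (m k).Iv g

lemma Gp.mul {m : ℕ → Pr (unitary A)} {g g' : unitary A} (h : Gp m g) (h' : Gp m g') :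
    Gp m (g * g') := (h.and h').mono fun k hk => .mk'
  (fun F => by simp only [mul_assoc]; rw [hk.2.l fun a => F (g * a), hk.1.l])
  fun F => by simp only [← mul_assoc]; rw [hk.1.r fun a => F (a * g'), hk.2.r]

lemma Gp.inv {m : ℕ → Pr (unitary A)} {g : unitary A} (h : Gp m g) : Gp m g⁻¹ :=
  h.mono fun _ hk => hk.inv

structure HS (m : ℕ → Pr (unitary A)) : Prop where
  sy : ∀ k, (m k).Sy
  iv : ∀ k, (m k).All (m k).Iv
  gp : ∀ k, (m k).All (Gp m)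
  pp : ∃ s t : unitary A, PP (s : A) t ∧ Gp m s ∧ Gp m t
  cv : ∀ x, Tendsto (fun k => n2 (cE (m k) x - tr x • 1)) atTop (𝓝 0)

lemma AC.ltwo (h : AC D θ β c r) {m : ℕ → Pr (unitary A)} (hm : ∀ k, (m k).All (Gp m)) (et : ET A)
    (S1 : ∀ x v, Tendsto (fun k => D.L (cE (m k) x) v) atTop (𝓝 (tr x • v)))
    (S2 : ∀ x v, Tendsto (fun k => D.R (cE (m k) x) v) atTop (𝓝 (tr x • v)))
    (N1 : ∀ x z, WV atTop (fun k => c (cE (m k) x) z) 0)
    (N2 : ∀ x z, WV atTop (fun k => r z (cE (m k) x)) 0)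
    (p1 : BL 7 ψ) (p2 : ∀ g, Gp m g → Md D ψ g)
    (p3 : ∀ x z, ‖x‖ ≤ 1 → ‖z‖ ≤ 1 → ‖c x z - D.dl ψ x z‖ ≤ κ) :
    ∃ φ : A → K, IsLinearMap ℂ φ ∧ (∀ x, ‖φ x‖ ≤ 72 * n2 x) ∧ (∀ g, Gp m g → Md D φ g) ∧
      ∀ x z, ‖x‖ ≤ 1 → ‖z‖ ≤ 1 → ‖c x z - D.dl φ x z‖ ≤ 81 * κ + 8 * θ := by
  have κ0 : 0 ≤ κ := (norm_nonneg _).trans (p3 1 1 b1 b1)
  have θ0 := h.θ0
  obtain ⟨F, f1, f2, f3⟩ := groth p1
  obtain ⟨e, e1, e2, e3⟩ := et F _ (by norm_num) f1 f2
  have e4 : ∀ y, ‖ψ (e * y * e)‖ ≤ 40 * n2 y := fun y => by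
    have a1 := f3 (e * y * e)
    have a2 := e3 (e * y)
    have a3 := e3 (e * star y)
    rw [show star (e * star y * e) * (e * star y * e) = e * y * e * star (e * y * e) by
      simp [e1.1, mul_assoc]] at a3
    have a4 := pow_le_pow_left₀ (n2_nonneg _) ((n2_right_le e1.2 _).trans (n2_left_le e1.2 y)) 2
    have a5 := pow_le_pow_left₀ (n2_nonneg _)
      ((n2_right_le e1.2 _).trans (n2_left_le e1.2 (star y))) 2
    rw [n2_star] at a5
    refine le_of_sq_le_sq ?_ (mul_nonneg (by norm_num) (n2_nonneg _))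
    nlinarith [sq_nonneg (n2 y)]
  obtain ⟨t, ht⟩ : ∃ t : ℂ, t = (tr e)⁻¹ := ⟨_, rfl⟩
  have t1 : ‖t‖ ≤ 4 / 3 := by
    rw [ht, tr_sa e1.1, norm_inv, Complex.norm_real, Real.norm_of_nonneg (by linarith),
      inv_le_comm₀ (by linarith) (by norm_num)]
    linarith
  have t2 : t * tr e = 1 := by
    rw [ht, inv_mul_cancel₀]; rw [tr_sa e1.1]; exact_mod_cast (by linarith : rt e ≠ 0)
  obtain ⟨k, hk⟩ : ∃ k : ℕ → A, k = fun n => t • cE (m n) e := ⟨_, rfl⟩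
  have k1 : ∀ n, ‖k n‖ ≤ 2 := fun n => by
    rw [hk, norm_smul]
    nlinarith [cE_le (m n) e1.2, norm_nonneg (cE (m n) e)]
  have U1 := Nat.hyperfilter_le_atTop
  have k2 : ∀ v, WV (hyperfilter ℕ) (fun n => D.L (k n) v) v := fun v => .of (by
    simpa [hk, smul_smul, t2] using ((S1 e v).const_smul t).mono_left U1)
  have k3 : ∀ v, WV (hyperfilter ℕ) (fun n => D.R (k n) v) v := fun v => .of (by
    simpa [hk, smul_smul, t2] using ((S2 e v).const_smul t).mono_left U1)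
  have k4 : ∀ z, WV (hyperfilter ℕ) (fun n => c (k n) z) 0 := fun z v => by
    simpa [hk, (h.lin _).map_smul] using (((N1 e z).smul t) v).mono_left U1
  have k5 : ∀ z, WV (hyperfilter ℕ) (fun n => r z (k n)) 0 := fun z v => by
    simpa [hk, (h.lin' _).map_smul] using (((N2 e z).smul t) v).mono_left U1
  have k6 : ∀ g, Gp m g → ∀ᶠ n in hyperfilter ℕ, g * k n = k n * g := fun g hg =>
    U1 (hg.mono fun n hn => by simp [hk, cE_comm hn])
  have k7 : ∀ n n' x, ‖ψ (k n * (x * k n'))‖ ≤ 72 * n2 x := fun n n' x => by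
    have : ‖ψ (cE (m n) e * (x * cE (m n') e))‖ ≤ 40 * n2 x := by
      have mp : ∀ (σ : Pr (unitary A)) (G : unitary A → A), ψ (σ.ex G) = σ.ex fun a => ψ (G a) :=
        fun σ G => σ.ex_map G ψ p1.lin.map_add fun r x => by
          rw [← Complex.coe_smul, p1.lin.map_smul, Complex.coe_smul]
      simp only [cE, Pr.mul_ex, Pr.ex_mul', mp]
      refine Pr.norm_ex ((hm _).mono fun g' hg' => Pr.norm_ex ((hm _).mono fun g hg => ?_))
      have := e4 ((g⁻¹ : unitary A) * x * g')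
      rw [n2_uright g'.2, n2_uleft (g⁻¹).2, ← D.R_norm g'⁻¹, ← D.L_norm g, ← (p2 _ hg'.inv _).2,
        ← (p2 _ hg _).1] at this
      simpa only [mul_assoc] using this
    simp only [hk, smul_mul_assoc, mul_smul_comm, p1.lin.map_smul, norm_smul]
    have a1 : ‖t‖ * ‖t‖ ≤ 4 / 3 * (4 / 3) := mul_le_mul t1 t1 (norm_nonneg _) (by norm_num)
    have := n2_nonneg x
    rw [← mul_assoc]
    exact (mul_le_mul a1 ‹_ ≤ 40 * n2 x› (norm_nonneg _) (by norm_num)).trans (by linarith)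
  have bl : ∀ {b : ℝ} {ψ : A → K}, BL b ψ → 0 ≤ b → ∀ n, BL (b * 2) (fun x => ψ (k n * x)) ∧
      BL (b * 2) fun x => ψ (x * k n) := fun {b ψ} h b0 n =>
    ⟨⟨⟨fun _ _ => by rw [mul_add, h.lin.map_add], fun _ _ => by rw [mul_smul_comm, h.lin.map_smul]⟩,
      fun x hx => (h.le _).trans (mul_le_mul_of_nonneg_left ((norm_mul_le _ _).trans
        (by nlinarith [k1 n, norm_nonneg (k n)])) b0)⟩,
    ⟨⟨fun _ _ => by rw [add_mul, h.lin.map_add], fun _ _ => by rw [smul_mul_assoc, h.lin.map_smul]⟩,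
      fun x hx => (h.le _).trans (mul_le_mul_of_nonneg_left ((norm_mul_le _ _).trans
        (by nlinarith [k1 n, norm_nonneg (k n)])) b0)⟩⟩
  obtain ⟨φ, q1, q2⟩ := wlim_BL (hyperfilter ℕ) (fun n => (bl p1 (by norm_num) n).1) (by norm_num)
  obtain ⟨χ, r1, r2⟩ := wlim_BL (hyperfilter ℕ) (fun n => (bl q1 (by norm_num) n).2) (by norm_num)
  have q3 : ∀ g, Gp m g → Md D φ g := fun g hg x =>
    ⟨(q2 _).eq (((q2 x).op _).congr ((k6 g hg).mono fun n hn => by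
      rw [← (p2 g hg _).1, ← mul_assoc, hn, mul_assoc])),
    (q2 _).eq (((q2 x).op _).congr (.of_forall fun n => by rw [← (p2 g hg _).2, mul_assoc]))⟩
  have q4 : ∀ x z, ‖x‖ ≤ 1 → ‖z‖ ≤ 1 → ‖c x z - D.dl φ x z‖ ≤ 9 * κ := fun x z hx hz => by
    have := norm_sub_le_of_le (p3 x z hx hz) (gauge (D := D) (φ := φ) (ψ := ψ) (ρ := κ * 2)
      (φ 1 - ψ 1) 0 (fun x hx => ?_) hx hz)
    · exact le_of_eq_of_le (congrArg _ (by abel)) (this.trans (by linarith))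
    have a1 := ((k4 x).sub ((((((q2 1).op (D.R x))).sub ((k2 (ψ 1)).op (D.R x))).sub (q2 x)).add
      (k2 (ψ x)))).le (b := κ * 2) (.of_forall fun n => by
        have := lin_le ((h.sub p1).lin x) (fun y hy => p3 y x hy hx) (k n)
        simp only [Bim.dl, mul_one] at this ⊢
        exact this.trans (mul_le_mul_of_nonneg_left (k1 n) κ0))
    exact le_of_eq_of_le (congrArg _ (by simp only [map_sub, map_zero]; abel)) a1
  refine ⟨χ, r1.lin, fun x => (r2 x).le (.of_forall fun n' => (q2 _).le (.of_forall fun n =>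
    k7 n n' x)), fun g hg x => ⟨(r2 _).eq (((r2 x).op _).congr (.of_forall fun n => by
      rw [← (q3 g hg _).1, mul_assoc])), (r2 _).eq (((r2 x).op _).congr ((k6 g hg).mono
      fun n hn => by rw [← (q3 g hg _).2, mul_assoc, ← hn, mul_assoc]))⟩, fun x z hx hz => ?_⟩
  have := norm_sub_le_of_le (q4 x z hx hz) (gauge (D := D) (φ := χ) (ψ := φ)
    (ρ := (9 * κ + θ) * 2) 0 (χ 1 - φ 1) (fun x hx => ?_) hx hz)
  · exact le_of_eq_of_le (congrArg _ (by abel)) (this.trans (by linarith))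
  have a1 := ((k5 x).sub ((((k3 (φ x)).sub (k3 (D.L x (φ 1)))).sub (r2 x)).add
    ((r2 1).op (D.L x)))).le (b := (9 * κ + θ) * 2) (.of_forall fun n => by
      have := lin_le ((h.sub q1).lin' x) (fun y hy => (h.sub q1).rle hx hy (q4 x y hx hy)) (k n)
      simp only [Bim.dl, one_mul] at this ⊢
      exact this.trans (mul_le_mul_of_nonneg_left (k1 n) (by positivity)))
  exact le_of_eq_of_le (congrArg _ (by simp only [map_sub, map_zero]; abel)) a1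

theorem AC.solve (h : AC D θ 1 c r) (θ0 : 0 < θ) (θ1 : θ ≤ 1 / 10 ^ 36) {m : ℕ → Pr (unitary A)}
    (hm : HS m) (et : ET A) (hN : ∀ g, Gp m g → Nul θ c g)
    (S1 : ∀ x v, Tendsto (fun k => D.L (cE (m k) x) v) atTop (𝓝 (tr x • v)))
    (S2 : ∀ x v, Tendsto (fun k => D.R (cE (m k) x) v) atTop (𝓝 (tr x • v)))
    (N1 : ∀ x z, WV atTop (fun k => c (cE (m k) x) z) 0)
    (N2 : ∀ x z, WV atTop (fun k => r z (cE (m k) x)) 0) :
    ∃ φ : A → K, IsLinearMap ℂ φ ∧ (∀ x, ‖φ x‖ ≤ 72 * n2 x) ∧ (∀ g, Gp m g → Md D φ g) ∧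
      ∀ x z, ‖x‖ ≤ 1 → ‖z‖ ≤ 1 → ‖c x z - D.dl φ x z‖ ≤ 1 / 100 := by
  obtain ⟨ψ, p1, p2, p3⟩ := h.diag θ0 (θ1.trans (by norm_num)) hm.sy hm.iv
    (fun k => (hm.gp k).mono hN) (n := 10 ^ 17) (e := 1 / 10 ^ 7) (by norm_num) (by norm_num)
    (by push_cast; linarith)
  obtain ⟨s, t, P, hs, ht⟩ := hm.pp
  have nu : ∀ g, Gp m g → Nul θ (fun x z => c x z - D.dl ψ x z) g := fun g hg x hx => by
    have a1 := (p2 g hg 1).1
    have a2 := (p2 g hg 1).2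
    rw [mul_one] at a1
    rw [one_mul] at a2
    simp only [Bim.dl, (p2 g hg x).1, (p2 g hg x).2]
    rw [← a1, a2, D.LR]
    simpa using hN g hg x hx
  obtain ⟨φ, q1, q2, q3, q4⟩ := h.ltwo hm.gp et S1 S2 N1 N2 p1 p2 fun x z hx hz =>
    (h.sub p1).full P (nu s hs) (nu t ht) (nu _ (hs.mul ht)) p3 hx hz
  exact ⟨φ, q1, q2, q3, fun x z hx hz => (q4 x z hx hz).trans (by linarith)⟩

end Vale.Agent.P096
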