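import Vale.Agent.P096.Groth

/-! An irreducible locally finite group of unitaries in a separable finite factor. -/

open Finset Vale.Agent.P104 Vale.Agent.P085 Filter Topology
open scoped InnerProductSpace

set_option linter.unusedSectionVars false

namespace Vale.Agent.P096

lemma Pr.Iv.mul {U : Type*} [Group U] {σ : Pr U} {g g' : U} (h : σ.Iv g) (h' : σ.Iv g') :
    σ.Iv (g * g') := .mk'
  (fun F => by simp only [mul_assoc]; rw [h'.l fun a => F (g * a), h.l])
  fun F => by simp only [← mul_assoc]; rw [h.r fun a => F (a * g'), h'.r]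

lemma Pr.sy_of {U : Type*} [Group U] {σ : Pr U} (h : σ.All σ.Iv) : σ.Sy := Pr.ext' fun F => by
  have a : (σ.ex fun a => σ.ex fun b => F (a⁻¹ * b)) = σ.ex F := by
    rw [Pr.ex_congr (h.mono fun a ha => ha.inv.l F), Pr.ex_const]
  rw [← a, Pr.ex_comm, Pr.ex_congr (G := fun _ => σ.ex fun a => F a⁻¹) (h.mono fun b hb => by
    simpa using hb.inv.l fun a => F a⁻¹), Pr.ex_const, Pr.ex_map']

lemma exists_haar {U : Type*} [Group U] {z : U} (hz : ∀ a, z * a = a * z) (hzz : z * z = 1)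
    {r : ℕ → U} (hr : ∀ n, r n * r n = 1)
    (hc : ∀ i n, r n * r i = r i * r n ∨ r n * r i = z * (r i * r n)) :
    ∃ m : ℕ → Pr U, (∀ k, (m k).All fun g => ∀ k' ≥ k, (m k').Iv g) ∧
      ∀ i, ∀ k > i, (m k).Iv (r i) := by
  let m : ℕ → Pr U := fun k => Nat.rec (Pr.half 1 z) (fun k σ => σ.cv (Pr.half 1 (r k))) k
  have m0 : ∀ F : U → ℝ, (m 0).ex F = 2⁻¹ * (F 1 + F z) := fun F => Pr.ex_half _ _ _
  have m1 : ∀ k (F : U → ℝ), (m (k + 1)).ex F = (m k).ex fun a => 2⁻¹ * (F a + F (a * r k)) :=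
    fun k F => by simp [m, Pr.ex_half]
  let C : U → Prop := fun g => ∀ n, r n * g = g * r n ∨ r n * g = z * (g * r n)
  have zc : ∀ a b, a * (z * b) = z * (a * b) := fun a b => by rw [← mul_assoc, ← hz, mul_assoc]
  have zz : ∀ a, z * (z * a) = a := fun a => by rw [← mul_assoc, hzz, one_mul]
  have Cm : ∀ a b, C a → C b → C (a * b) := fun a b ha hb n => by
    rw [← mul_assoc]
    rcases ha n with h | h <;> rcases hb n with h' | h' <;> simp [h, h', mul_assoc, zc a, zz]
  have al : ∀ {p : U → Prop}, p 1 → p z → ∀ k, (∀ i < k, ∀ a, p a → p (a * r i)) → (m k).All p :=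
    fun {p} h1 h2 k h3 => by
      classical
      induction k with
      | zero => rw [Pr.all_iff, m0]; simp [h1, h2]
      | succ k ih =>
        rw [Pr.all_iff, m1]
        exact Pr.ex_le ((ih fun i hi => h3 i (by omega)).mono fun a ha => by
          simp [ha, h3 k (by omega) a ha])
  have hC : ∀ k, (m k).All C := fun k =>
    al (fun n => by simp) (fun n => .inl (hz _).symm) k fun i _ a ha => Cm _ _ ha (hc i)
  have st : ∀ k g, (m k).Iv z → (m k).Iv g → C g → (m (k + 1)).Iv g := fun k g h0 h1 h2 =>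
    .mk' (fun F => by
      simp only [m1, ← mul_assoc]; exact h1.l fun a => 2⁻¹ * (F a + F (a * r k))) fun F => by
      simp only [m1, Pr.ex_mul, Pr.ex_add, h1.r F, mul_assoc]
      rcases h2 k with h | h <;> simp only [h, ← mul_assoc]
      · rw [h1.r fun a => F (a * r k)]
      · rw [h0.r fun a => F (a * g * r k), h1.r fun a => F (a * r k)]
  have hz' : ∀ k, (m k).Iv z := fun k => by
    induction k with
    | zero => exact .mk' (fun F => by simp [m0, hzz, add_comm]) fun F => by simp [m0, hzz, add_comm]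
    | succ k ih => exact st k z ih ih fun n => .inl (hz _).symm
  have hr' : ∀ i, ∀ k > i, (m k).Iv (r i) := fun i k hk => by
    induction k, hk using Nat.le_induction with
    | base =>
      refine .mk' (fun F => ?_) fun F => by simp [m1, mul_assoc, hr, add_comm]
      have e : ∀ G : U → ℝ, (m i).ex G = (m i).ex fun a => 2⁻¹ * (G a + G (z * a)) := fun G => by
        rw [Pr.ex_mul, Pr.ex_add, (hz' i).l]; ring
      rw [m1, m1, e, e fun a => 2⁻¹ * (F a + F (a * r i))]
      refine Pr.ex_congr ((hC i).mono fun a ha => ?_)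
      simp only [zc (r i), ← mul_assoc (r i) a, mul_assoc z]
      rcases ha i with h | h <;> simp only [h, mul_assoc, hr, mul_one, zz] <;> ring
    | succ k _ ih => exact st k _ (hz' k) ih (hc i)
  have h1 : ∀ k, (m k).Iv 1 := fun k => .mk' (by simp) (by simp)
  exact ⟨m, fun k => al (fun k _ => h1 k) (fun k _ => hz' k) k fun i hi a ha k' hk' =>
    (ha k' hk').mul (hr' i k' (by omega)), hr'⟩

variable {A : Type*} [CStarAlgebra A] [TrAlg A]

theorem tower2 [Cpl A] [Sep A] (F : Fac (⊤ : StarSubalgebra ℂ A)) : ∃ s t : ℕ → A,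
    (∀ n, Sym ⊤ 1 (s n) ∧ Sym ⊤ 1 (t n) ∧ s n * t n = -(t n * s n)) ∧
    (∀ m n, m < n → s m * s n = s n * s m ∧ t m * s n = s n * t m ∧ t m * t n = t n * t m ∧
      s m * t n = t n * s m) ∧
    ∀ z, (∀ n, s n * z = z * s n ∧ t n * z = z * t n) → z = tr z • 1 := by
  have := P085.Sep.sep (A := A)
  obtain ⟨x, hx⟩ := TopologicalSpace.exists_dense_seq (L2 A)
  choose nx s t h1 h2 h3 h4 h5 h6 using TS.step (A := A)
  let y : ℕ → A := fun n => toL2.symm (x (Nat.unpair n).1)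
  let T : ℕ → TS A := fun n => Nat.rec ⟨⊤, id, F, fun _ => trivial, fun _ _ _ => le_rfl⟩
    (fun n T => nx T (y n)) n
  have hT : ∀ n, T (n + 1) = nx (T n) (y n) := fun _ => rfl
  have hN : ∀ n z, z ∈ (T (n + 1)).N ↔ z ∈ (T n).N ∧ s (T n) (y n) * z = z * s (T n) (y n) ∧
      t (T n) (y n) * z = z * t (T n) (y n) := fun n z => by
    rw [hT, h4, mem_nxt (h1 _ _) (h2 _ _)]
  have hanti : Antitone fun n => (T n).N := antitone_nat_of_succ_le fun n z hz => ((hN n z).1 hz).1
  have top : ∀ {N : StarSubalgebra ℂ A} {a : A}, Sym N 1 a → Sym ⊤ 1 a :=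
    fun h => ⟨trivial, h.sa, h.sq, h.es, h.tr0⟩
  refine ⟨fun n => s (T n) (y n), fun n => t (T n) (y n), fun n => ⟨top (h1 _ _), top (h2 _ _),
    h3 _ _⟩, fun m n h => ?_, fun z hz => ?_⟩
  · have a := (hN m _).1 (hanti (Nat.succ_le_of_lt h) (h1 (T n) (y n)).mem)
    have b := (hN m _).1 (hanti (Nat.succ_le_of_lt h) (h2 (T n) (y n)).mem)
    exact ⟨a.2.1, a.2.2, b.2.2, b.2.1⟩
  · have hz' : ∀ n, z ∈ (T n).N := fun n => by
      induction n with
      | zero => trivial
      | succ n ih => exact (hN n z).2 ⟨ih, hz n⟩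
    refine eq_of_n2 fun ε hε => ?_
    obtain ⟨k, hk⟩ := hx.exists_dist_lt (toL2 z) (half_pos hε)
    obtain ⟨v, hv⟩ : ∃ v : A, v = toL2.symm (x k) := ⟨_, rfl⟩
    have hk' : n2 (v - z) < ε / 2 := by
      rw [n2, map_sub, hv, LinearEquiv.apply_symm_apply, ← dist_eq_norm, dist_comm]; exact hk
    have ha : Antitone fun n => dv 1 ((T n).E v) ^ 2 := antitone_nat_of_succ_le fun n => h5 _ _ v
    have hb : ∀ i : ℕ, ∃ n, dv 1 ((T n).E v) ^ 2 ≤ (195 / 196) ^ i * dv 1 v ^ 2 := fun i => by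
      induction i with
      | zero => exact ⟨0, by simp [T]⟩
      | succ i ih =>
        obtain ⟨n, hn⟩ := ih
        refine ⟨Nat.pair k n + 1, ?_⟩
        have a1 := h6 (T (Nat.pair k n)) (y (Nat.pair k n))
        rw [← hT, show y (Nat.pair k n) = v by simp [y, hv]] at a1
        have a2 := ha (Nat.right_le_pair k n)
        simp only at a2
        rw [pow_succ (195 / 196 : ℝ)]; linarith
    have hc := (tendsto_pow_atTop_nhds_zero_of_lt_one (r := (195 / 196 : ℝ)) (by norm_num)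
      (by norm_num)).mul_const (dv 1 v ^ 2)
    rw [zero_mul] at hc
    obtain ⟨i, hi⟩ := (hc.eventually (gt_mem_nhds (pow_pos (half_pos hε) 2))).exists
    obtain ⟨n, hn⟩ := hb i
    have h7 := lt_of_pow_lt_pow_left₀ 2 (half_pos hε).le (hn.trans_lt hi)
    have h8 := (T n).lip v z (hz' n)
    have h9 := dv_one_le z (tr ((T n).E v))
    have h10 := n2_tri z ((T n).E v) (tr ((T n).E v) • 1)
    rw [n2_sub_rev z ((T n).E v), ← dv_one] at h10
    rw [← dv_one]; linarith


lemma tr_ex {α : Type*} (σ : Pr α) (F : α → A) : tr (σ.ex F) = σ.ex fun a => tr (F a) :=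
  σ.ex_map F tr (map_add _) fun r x => by rw [← Complex.coe_smul, map_smul, Complex.coe_smul]

lemma tr_cE {σ : Pr (unitary A)} {y : A} (h : σ.All fun g => g * y = y * g) (x : A) :
    tr (y * cE σ x) = tr (y * x) := by
  rw [cE, Pr.mul_ex, tr_ex, Pr.ex_congr (G := fun _ => tr (y * x)) (h.mono fun g hg => by
    rw [← mul_assoc, ← mul_assoc, ← hg, mul_assoc _ y]; exact tr_conj g.2 _), Pr.ex_const]

theorem exists_HS [Cpl A] [Sep A] (F : Fac (⊤ : StarSubalgebra ℂ A)) :
    ∃ m : ℕ → Pr (unitary A), HS m := by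
  obtain ⟨s, t, h1, h2, h3⟩ := tower2 F
  let r : ℕ → unitary A := fun n =>
    if n % 2 = 0 then ⟨s (n / 2), (h1 _).1.unit⟩ else ⟨t (n / 2), (h1 _).2.1.unit⟩
  have r0 : ∀ n, (r (2 * n) : A) = s n := fun n => by simp [r]
  have r1 : ∀ n, (r (2 * n + 1) : A) = t n := fun n => by
    have : (2 * n + 1) / 2 = n := by omega
    simp [r, this]
  obtain ⟨m, m1, m2⟩ := exists_haar (z := (-1 : unitary A)) (r := r) (by simp) (by simp)
    (fun n => Subtype.ext (by
      obtain ⟨n, rfl | rfl⟩ := Nat.even_or_odd' n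
      · rw [Submonoid.coe_mul, r0]; exact (h1 n).1.sq
      · rw [Submonoid.coe_mul, r1]; exact (h1 n).2.1.sq)) fun i n => by
      simp only [Subtype.ext_iff, Submonoid.coe_mul, Unitary.coe_neg, OneMemClass.coe_one,
        neg_one_mul]
      obtain ⟨n, rfl | rfl⟩ := Nat.even_or_odd' n <;> obtain ⟨i, rfl | rfl⟩ := Nat.even_or_odd' i <;>
        simp only [r0, r1] <;> rcases lt_trichotomy i n with h | rfl | h
      exacts [.inl (h2 _ _ h).1.symm, .inl rfl, .inl (h2 _ _ h).1, .inl (h2 _ _ h).2.1.symm,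
        .inr (h1 _).2.2, .inl (h2 _ _ h).2.2.2, .inl (h2 _ _ h).2.2.2.symm,
        .inr (by rw [(h1 _).2.2, neg_neg]), .inl (h2 _ _ h).2.1, .inl (h2 _ _ h).2.2.1.symm,
        .inl rfl, .inl (h2 _ _ h).2.2.1]
  have g1 : ∀ i, Gp m (r i) := fun i => (eventually_gt_atTop i).mono (m2 i)
  have iv : ∀ k, (m k).All (m k).Iv := fun k => (m1 k).mono fun g hg => hg k le_rfl
  refine ⟨m, fun k => Pr.sy_of (iv k), iv, fun k => (m1 k).mono fun g hg =>
    (eventually_ge_atTop k).mono hg, ⟨r (2 * 0), r (2 * 0 + 1), ?_, g1 _, g1 _⟩, fun x => ?_⟩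
  · rw [r0, r1]; exact ⟨(h1 0).1.sa, (h1 0).1.sq, (h1 0).2.1.sa, (h1 0).2.1.sq, (h1 0).2.2⟩
  have a1 : ∀ k, ∀ k' ≥ k, n2 (cE (m k) x - cE (m k') x) ^ 2 =
      n2 (cE (m k) x) ^ 2 - n2 (cE (m k') x) ^ 2 := fun k k' hk => by
    have e : ∀ k ≤ k', tr (star (cE (m k') x) * cE (m k) x) = tr (star (cE (m k') x) * x) :=
      fun k hk => tr_cE ((m1 k).mono fun g hg => by
        have := congrArg star (cE_comm (hg k' hk).inv x)
        simpa [coe_inv] using this.symm) x
    rw [n2_sub_rev, n2_sub_sq, e k hk, ← e k' le_rfl, ← n2_sq]; ring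
  have a2 : Antitone fun k => n2 (cE (m k) x) ^ 2 := fun k k' hk => by
    have := a1 k k' hk
    nlinarith [sq_nonneg (n2 (cE (m k) x - cE (m k') x))]
  have a3 := tendsto_atTop_ciInf a2 ⟨0, by rintro _ ⟨k, rfl⟩; positivity⟩
  have a4 : ∀ k, ⨅ k, n2 (cE (m k) x) ^ 2 ≤ n2 (cE (m k) x) ^ 2 :=
    ciInf_le ⟨0, by rintro _ ⟨k, rfl⟩; positivity⟩
  obtain ⟨y, -, hy⟩ := cpl_of (fun k => cE (m k) x) ‖x‖ (fun k => (m k).norm_ex' fun g => by
      rw [CStarRing.norm_mul_coe_unitary, CStarRing.norm_coe_unitary_mul])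
    (fun k => n2 (cE (m k) x) ^ 2 - ⨅ k, n2 (cE (m k) x) ^ 2) (by
      have := a3.sub_const (⨅ k, n2 (cE (m k) x) ^ 2); rwa [sub_self] at this)
    fun N k hk k' hk' => by
      rcases le_total k k' with h | h
      · rw [a1 k k' h]; linarith [a2 hk, a4 k']
      · rw [n2_sub_rev, a1 k' k h]; linarith [a2 hk', a4 k]
  have a5 : ∀ i, r i * y = y * r i := fun i => eq_of_n2 fun ε hε => by
    obtain ⟨k, b1, b2⟩ := ((g1 i).and (hy.eventually (gt_mem_nhds (half_pos hε)))).exists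
    have := n2_sub_le ((cE (m k) x - y) * r i) (r i * (cE (m k) x - y))
    rw [n2_uright (r i).2, n2_uleft (r i).2, sub_mul, mul_sub, cE_comm b1,
      sub_sub_sub_cancel_left] at this
    linarith
  have a6 := h3 y fun n => ⟨r0 n ▸ a5 _, r1 n ▸ a5 _⟩
  have a7 : tr x = tr y := by
    refine eq_of_forall_dist_le fun ε hε => ?_
    obtain ⟨k, b2⟩ := (hy.eventually (gt_mem_nhds hε)).exists
    have := tr_cE (σ := m k) (y := 1) (.of _ (by simp)) x
    rw [one_mul, one_mul] at this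
    rw [dist_eq_norm, ← this, ← map_sub]
    exact (tr_le _).trans b2.le
  rwa [a7, ← a6]

end Vale.Agent.P096
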