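import Vale.Agent.P096.Base

/-! Module A: amplification, invariant mean, exhaustion, generators of the centre. -/

open Finset Vale.Agent.P104 Vale.Agent.P085 Filter Topology
open scoped InnerProductSpace InnerProduct

set_option linter.unusedSectionVars false

namespace Vale.Agent.P096

universe u

namespace Inf

section gen
variable {H : Type*} [NormedAddCommGroup H] [InnerProductSpace ℂ H] [CompleteSpace H]
  {ι : Type*} {l : Filter ι} {x x' : ι → Op H} {y y' : Op H}

lemma wt_eq [l.NeBot] (h : WT l x y) (h' : WT l x y') : y = y' :=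
  ContinuousLinearMap.ext fun v => WV.eq (h v) (h' v)

lemma wt_congr (h : WT l x y) (h' : ∀ᶠ i in l, x i = x' i) : WT l x' y := fun v =>
  WV.congr (h v) (h'.mono fun _ hi => by rw [hi])

lemma wt_star (h : WT l x y) : WT l (fun i => star (x i)) (star y) := fun v w => by
  simpa only [inner_star_r, inner_conj_symm, RCLike.star_def] using (h w v).star

lemma wt_ev [l.NeBot] (h : WT l x y) {v w : H} (h' : ∀ᶠ i in l, x i v = w) : y v = w :=
  WV.eq (h v) ((WV.const w).congr (h'.mono fun _ hi => hi.symm))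

lemma orth_sum (s : Finset ι) (w : ι → H) (h : ∀ i ∈ s, ∀ j ∈ s, i ≠ j → ⟪w i, w j⟫_ℂ = 0) :
    ‖∑ i ∈ s, w i‖ ^ 2 = ∑ i ∈ s, ‖w i‖ ^ 2 := by
  rw [← qf_one, qf, one_apply_eq_self, sum_inner, Complex.re_sum]
  refine sum_congr rfl fun i hi => ?_
  rw [inner_sum, sum_eq_single_of_mem i hi fun j hj hne => h i hi j hj hne.symm, ← qf_one]
  rfl

lemma norm_of_sq {T : Op H} {c : ℝ} (c0 : 0 ≤ c) (h : ∀ v, ‖T v‖ ^ 2 ≤ c ^ 2 * ‖v‖ ^ 2) :
    ‖T‖ ≤ c := T.opNorm_le_bound c0 fun v =>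
  (pow_le_pow_iff_left₀ (norm_nonneg _) (by positivity) two_ne_zero).1 (by rw [mul_pow]; exact h v)

lemma ev_mem (i : ι) : ∀ᶠ s : Finset ι in (Ultrafilter.of atTop).toFilter, i ∈ s :=
  Ultrafilter.of_le _ ((eventually_ge_atTop {i}).mono fun _ hs => hs (mem_singleton_self i))

end gen

section fm
variable {H G : Type*} [NormedAddCommGroup H] [InnerProductSpace ℂ H] [CompleteSpace H]
  [NormedAddCommGroup G] [InnerProductSpace ℂ G] [CompleteSpace G] {ι : Type} [DecidableEq ι]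
  {J : ι → H →L[ℂ] G}

lemma fm_of (orth : ∀ i j v, ((J i)†) (J j v) = if i = j then v else 0)
    (pars : ∀ ψ, HasSum (fun i => ‖((J i)†) ψ‖ ^ 2) (‖ψ‖ ^ 2))
    (hsum : ∀ ψ, HasSum (fun i => J i (((J i)†) ψ)) ψ) : Fm J := by
  have ext : ∀ S T : Op G, (∀ i v, S (J i v) = T (J i v)) → S = T := fun S T h =>
    ContinuousLinearMap.ext fun ψ => ((hsum ψ).mapL S).unique (by simpa only [h] using (hsum ψ).mapL T)
  have ip : ∀ i j v w, ⟪J i v, J j w⟫_ℂ = if i = j then ⟪v, w⟫_ℂ else 0 := fun i j v w => by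
    rw [← ContinuousLinearMap.adjoint_inner_right, orth]; split_ifs <;> simp
  have nm : ∀ i v, ‖J i v‖ ^ 2 = ‖v‖ ^ 2 := fun i v => by
    rw [← qf_one, ← qf_one, qf, qf, one_apply_eq_self, one_apply_eq_self, ip, if_pos rfl]
  have op : ∀ (σ : ι → ι) (T : ι → Op H) (C : ℝ), σ.Injective → (∀ i, ‖T i‖ ≤ C) →
      ∃ D : Op G, ‖D‖ ≤ max C 0 ∧ ∀ i v, D (J i v) = J (σ i) (T i v) := fun σ T C hσ hT => by
    obtain ⟨D, h1, h2⟩ := wlim (Ultrafilter.of atTop)
      (fun s : Finset ι => ∑ i ∈ s, J (σ i) ∘L T i ∘L (J i)†) (le_max_right C 0) fun s =>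
      norm_of_sq (le_max_right C 0) fun ψ => by
        rw [_root_.sum_apply, orth_sum _ _ fun i _ j _ hne => by simp [ip, hσ.ne hne]]
        refine le_trans ?_ (mul_le_mul_of_nonneg_left
          (sum_le_hasSum s (fun _ _ => sq_nonneg _) (pars ψ)) (sq_nonneg _))
        rw [mul_sum]
        refine sum_le_sum fun i _ => ?_
        rw [ContinuousLinearMap.comp_apply, nm, ← mul_pow]
        exact pow_le_pow_left₀ (norm_nonneg _)
          ((T i).le_of_opNorm_le ((hT i).trans (le_max_left _ _)) _) 2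
    refine ⟨D, h1, fun i v => wt_ev h2 ((ev_mem i).mono fun s hs => ?_)⟩
    rw [_root_.sum_apply, sum_eq_single_of_mem i hs fun j _ hne => by simp [orth, hne]]
    simp [orth]
  have tot : ∀ ψ, (∀ i, ((J i)†) ψ = 0) → ψ = 0 := fun ψ h =>
    (hsum ψ).unique (by simpa only [h, map_zero] using hasSum_zero)
  refine ⟨orth, tot, pars, hsum, ext, op, ?_⟩
  choose π _ h using fun T : Op H => op id (fun _ => T) ‖T‖ Function.injective_id fun _ => le_rfl
  refine ⟨⟨⟨⟨⟨⟨π, ext _ _ ?_⟩, fun _ _ => ext _ _ ?_⟩, ext _ _ ?_, fun _ _ => ext _ _ ?_⟩,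
    fun _ => ext _ _ ?_⟩, fun T => ext _ _ fun i v => sub_eq_zero.1 (tot _ fun j =>
      ext_inner_left ℂ fun w => ?_)⟩, h⟩
  iterate 5 simp [h, Algebra.algebraMap_eq_smul_one]
  simp only [ContinuousLinearMap.adjoint_inner_right, inner_sub_right, inner_star_r, h, ip, id,
    inner_zero_right, sub_self]

end fm

section mean
variable {Γ : Type} [AddCommGroup Γ] {E : Type*} [SeminormedAddCommGroup E] [NormedSpace ℝ E]

/-- boxes -/
noncomputable def box (n : ℕ) : List Γ → Pr Γ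
  | [] => Pr.pure 0
  | a :: L => (box n L).bind fun g => (Pr.unif (Fin (n + 1))).map fun k => g + (k : ℕ) • a

lemma box_inv (n : ℕ) (h : Γ) (C : ℝ) : ∀ L : List Γ, h ∈ L → ∀ F : Γ → E, (∀ g, ‖F g‖ ≤ C) →
    ‖(box n L).ex (fun g => F (h + g)) - (box n L).ex F‖ ≤ 2 * C * (1 / ((n : ℝ) + 1))
  | [], hL, _, _ => absurd hL List.not_mem_nil
  | a :: L, hL, F, hF => by
    simp only [box, Pr.ex_bind, Pr.ex_map']
    rcases List.mem_cons.1 hL with rfl | hL
    · rw [← Pr.ex_sub]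
      refine Pr.norm_ex' _ fun g => ?_
      rw [← Pr.ex_sub, Pr.ex_unif,
        Fin.sum_univ_eq_sum_range (fun k => F (h + (g + k • h)) - F (g + k • h))]
      have := sum_range_sub (fun k => F (g + k • h)) (n + 1)
      simp only [succ_nsmul' _ _, add_left_comm g h] at this
      rw [this, norm_smul, Fintype.card_fin, Real.norm_of_nonneg (by positivity), mul_comm]
      push_cast
      rw [one_div]
      gcongr
      exact (norm_sub_le_of_le (hF _) (hF _)).trans_eq (by ring)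
    · simpa only [add_assoc] using box_inv n h C L hL
        (fun g => (Pr.unif (Fin (n + 1))).ex fun k => F (g + (k : ℕ) • a))
        fun g => Pr.norm_ex' _ fun k => hF _

end mean

section exh
variable {H : Type*} [NormedAddCommGroup H] [InnerProductSpace ℂ H] [CompleteSpace H]
  {S : Set (Op H)} (h1 : ∀ p ∈ S, IsStarProjection p) (h2 : S.Pairwise fun p q => p * q = 0)
include h1 h2

lemma os (s : Finset S) (w : S → H) : ‖∑ p ∈ s, p.1 (w p)‖ ^ 2 = ∑ p ∈ s, ‖p.1 (w p)‖ ^ 2 :=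
  orth_sum _ _ fun p _ q _ hne => by
    rw [proj_inner (h1 _ p.2), ← mul_apply_eq_comp, h2 p.2 q.2 (Subtype.coe_ne_coe.2 hne)]; simp

lemma sum_mul_p (g : S → Op H) {s : Finset S} {p : S} (hp : p ∈ s) :
    (∑ q ∈ s, g q * q.1) * p.1 = g p * p.1 := by
  rw [sum_mul, sum_eq_single_of_mem p hp fun q _ hne => by
    rw [mul_assoc, h2 q.2 p.2 (Subtype.coe_ne_coe.2 hne), mul_zero], mul_assoc,
    (h1 _ p.2).isIdempotentElem.eq]

lemma sum_proj (s : Finset S) : IsStarProjection (∑ p ∈ s, p.1) := by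
  refine ⟨?_, isSelfAdjoint_sum _ fun p _ => (h1 _ p.2).isSelfAdjoint⟩
  rw [IsIdempotentElem, mul_sum]
  exact sum_congr rfl fun p hp => by simpa using sum_mul_p h1 h2 (fun _ => 1) hp

lemma sum_bd {g : S → Op H} {c : ℝ} (c0 : 0 ≤ c) (hg : ∀ p, g p * p.1 = p.1 * g p ∧ ‖g p * p‖ ≤ c)
    (s : Finset S) : ‖∑ p ∈ s, g p * p.1‖ ≤ c := norm_of_sq c0 fun v => by
  have e : ∀ p : S, (g p * p.1) v = p.1 (g p v) := fun p => by rw [(hg p).1]; rfl
  have b := os h1 h2 s fun _ => v
  rw [← _root_.sum_apply] at b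
  rw [_root_.sum_apply, sum_congr rfl fun p _ => e p, os h1 h2]
  refine le_trans ?_ (mul_le_mul_of_nonneg_left (b.ge.trans (pow_le_pow_left₀ (norm_nonneg _)
    (app_le (proj_le1 (sum_proj h1 h2 s)) v) 2)) (sq_nonneg _))
  rw [mul_sum]
  refine sum_le_sum fun p _ => ?_
  rw [← e, ← mul_pow, ← (h1 _ p.2).isIdempotentElem.eq, ← mul_assoc, mul_apply_eq_comp,
    (h1 _ p.2).isIdempotentElem.eq]
  exact pow_le_pow_left₀ (norm_nonneg _) ((g p * p.1).le_of_opNorm_le (hg p).2 _) 2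

lemma hs {e : Op H} (he : IsStarProjection e) (h3 : ∀ p ∈ S, e * p = p)
    (h4 : ∀ b : Op H, (∀ p ∈ S, b * p = 0) → b * e = 0) (v : H) :
    Tendsto (fun s : Finset S => (∑ p ∈ s, p.1) v) atTop (𝓝 (e v)) := by
  rw [tendsto_iff_ultrafilter]
  intro U hU
  obtain ⟨y, -, hy⟩ := wlim U (fun s => ∑ p ∈ s, p.1) zero_le_one fun s =>
    proj_le1 (sum_proj h1 h2 s)
  have k : ∀ s : Finset S, e * ∑ p ∈ s, p.1 = ∑ p ∈ s, p.1 := fun s => by
    rw [mul_sum]; exact sum_congr rfl fun p _ => h3 _ p.2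
  have k' : ∀ s : Finset S, (∑ p ∈ s, p.1) * e = ∑ p ∈ s, p.1 := fun s => by
    simpa only [star_mul, he.isSelfAdjoint.star_eq, (sum_proj h1 h2 s).isSelfAdjoint.star_eq]
      using congrArg star (k s)
  have a1 : y * e = y := wt_eq (by simpa using hy.mul 1 e) (by simpa only [k'] using hy)
  have a2 := h4 (y - 1) fun p hp => by
    rw [sub_mul, one_mul, sub_eq_zero]
    refine wt_eq (by simpa using hy.mul 1 p) (wt_congr (wt_const p) (hU ?_))
    filter_upwards [eventually_ge_atTop {(⟨p, hp⟩ : S)}] with s hs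
    simpa using (sum_mul_p h1 h2 (fun _ => 1) (hs (mem_singleton_self _))).symm
  rw [sub_mul, a1, one_mul, sub_eq_zero] at a2
  subst a2
  have t := (Complex.continuous_re.tendsto _).comp ((hy v v).const_sub ⟪v, y v⟫_ℂ)
  rw [sub_self, Complex.zero_re] at t
  rw [tendsto_iff_norm_sub_tendsto_zero]
  have := (Real.continuous_sqrt.tendsto 0).comp t
  rw [Real.sqrt_zero] at this
  refine this.congr fun s => ?_
  have q := proj_normsq ((sum_proj h1 h2 s).sub_of_mul_eq_left he (k' s)) v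
  simp only [Function.comp]
  rw [← inner_sub_right, ← _root_.sub_apply, q, Complex.ofReal_re,
    Real.sqrt_sq (norm_nonneg _), norm_sub_rev]
  rfl

end exh

section genz
variable {H : Type*} [NormedAddCommGroup H] [InnerProductSpace ℂ H] [CompleteSpace H]
  {M : VonNeumannAlgebra H} {T : Op H}

lemma cen01 (h : ∀ p, Cp M p → T * p = p * T) (n : ℕ) : ∀ z ∈ M, z ∈ M.commutant → 0 ≤ z →
    z ≤ 1 → ‖T * z - z * T‖ ≤ 2 * ‖T‖ * (1 / 2) ^ n := by
  induction n with
  | zero =>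
    intro z _ _ z0 z1
    simpa using cle (le_refl ‖T‖) ((CStarAlgebra.norm_le_one_iff_of_nonneg z z0).2 z1)
  | succ n ih =>
    intro z zm zc z0 z1
    have sa : IsSelfAdjoint (z + z - 1) :=
      (z0.isSelfAdjoint.add z0.isSelfAdjoint).sub (IsSelfAdjoint.one _)
    obtain ⟨e, he, c, p1, p2⟩ := exists_spec sa
    have c' : ∀ y, z * y = y * z → e * y = y * e := fun y hy => c y (by
      rw [sub_mul, mul_sub, add_mul, mul_add, hy, one_mul, mul_one])
    have em : e ∈ M := memM fun y hy => (c' y (commM zm hy)).symm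
    have ec : e ∈ M.commutant :=
      VonNeumannAlgebra.mem_commutant_iff.2 fun y hy => (c' y (commM hy zc).symm).symm
    have ez : Commute z e := (c' z rfl).symm
    have q1 := Commute.mul_nonneg z0 he.one_sub.nonneg ((Commute.one_right z).sub_right ez)
    have q2 := Commute.mul_nonneg (sub_nonneg.2 z1) he.nonneg ((Commute.one_left e).sub_left ez)
    have := ih (z + z - e) (sub_mem (add_mem zm zm) em) (sub_mem (add_mem zc zc) ec)
      ((add_nonneg p1 (add_nonneg q1 q1)).trans_eq (by noncomm_ring))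
      (sub_nonneg.1 ((add_nonneg p2 (add_nonneg q2 q2)).trans_eq (by noncomm_ring)))
    rw [show T * (z + z - e) - (z + z - e) * T = (2 : ℝ) • (T * z - z * T) by
      rw [mul_sub, h e ⟨he, em, ec⟩, two_smul]; noncomm_ring, norm_smul, Real.norm_two] at this
    rw [pow_succ]; linarith

lemma cen_all (h : ∀ p, Cp M p → T * p = p * T) : ∀ z ∈ M, z ∈ M.commutant → T * z = z * T := by
  have a : ∀ z ∈ M, z ∈ M.commutant → T * (star z * z) = star z * z * T := fun z zm zc => by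
    obtain ⟨w, hw⟩ : ∃ w, w = star z * z := ⟨_, rfl⟩
    have w0 : 0 ≤ w := hw ▸ star_mul_self_nonneg z
    have r0 : 0 < (‖w‖ + 1)⁻¹ := by positivity
    have k := mem_of_apx (S := {0}) isClosed_singleton (C := 2 * ‖T‖)
      (y := T * (‖w‖ + 1)⁻¹ • w - (‖w‖ + 1)⁻¹ • w * T) fun n => ⟨0, rfl, by
        rw [sub_zero]
        refine cen01 h n _ (smulM ((‖w‖ + 1)⁻¹ : ℝ) (hw ▸ mul_mem (star_mem zm) zm))
          (smulM ((‖w‖ + 1)⁻¹ : ℝ) (hw ▸ mul_mem (star_mem zc) zc)) (smul_nonneg r0.le w0) ?_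
        rw [← CStarAlgebra.norm_le_one_iff_of_nonneg _ (smul_nonneg r0.le w0), norm_smul,
          Real.norm_of_nonneg r0.le, inv_mul_le_one₀ (by positivity)]
        linarith⟩
    rw [Set.mem_singleton_iff, mul_smul_comm, smul_mul_assoc, ← smul_sub,
      smul_eq_zero_iff_right r0.ne', sub_eq_zero] at k
    rwa [← hw]
  have b : ∀ z ∈ M, z ∈ M.commutant → T * (z + star z) = (z + star z) * T := fun z zm zc => by
    have := congr($(a _ (add_mem zm (one_mem M)) (add_mem zc (one_mem _))) - $(a z zm zc) - T)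
    rw [star_add, star_one] at this
    rw [← sub_eq_zero, ← sub_eq_zero.2 this]; noncomm_ring
  intro z zm zc
  have := congr($(b z zm zc) - Complex.I • $(b _ (smulM Complex.I zm) (smulM Complex.I zc)))
  simp only [star_smul, RCLike.star_def, Complex.conj_I, mul_add, add_mul, mul_smul_comm,
    smul_mul_assoc, smul_add, smul_smul, mul_neg, Complex.I_mul_I, neg_neg, one_smul,
    neg_smul, neg_mul, smul_neg] at this
  have e : (2 : ℂ) • (T * z) = (2 : ℂ) • (z * T) := by
    rw [two_smul, two_smul, ← sub_eq_zero, ← sub_eq_zero.2 this]; abel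
  exact smul_right_injective _ two_ne_zero e

end genz

end Inf

open Inf

theorem fmStmt : FmStmt.{u} := by
  intro H _ _ _ ι _ _
  have ad : ∀ i ψ, ((lp.singleContinuousLinearMap ℂ (fun _ : ι => H) 2 i)†) ψ = ψ i := fun i ψ =>
    ext_inner_left ℂ fun v => by
      rw [ContinuousLinearMap.adjoint_inner_right, lp.singleContinuousLinearMap_apply,
        lp.inner_single_left]
  have hs : ∀ ψ : lp (fun _ : ι => H) 2, HasSum (fun i =>
      lp.singleContinuousLinearMap ℂ (fun _ : ι => H) 2 i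
        (((lp.singleContinuousLinearMap ℂ (fun _ : ι => H) 2 i)†) ψ)) ψ := fun ψ => by
    simpa only [ad, lp.singleContinuousLinearMap_apply] using
      lp.hasSum_single ENNReal.ofNat_ne_top ψ
  refine ⟨lp (fun _ : ι => H) 2, inferInstance, inferInstance, inferInstance,
    lp.singleContinuousLinearMap ℂ (fun _ : ι => H) 2, fm_of (fun i j v => ?_) (fun ψ => ?_) hs,
    fun _ => ?_⟩
  · rw [ad, lp.singleContinuousLinearMap_apply, lp.single_apply, Pi.single_apply]
  · simpa [ad] using lp.hasSum_norm (p := 2) (by norm_num) ψ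
  · rw [← TopologicalSpace.isSeparable_univ_iff]
    refine (TopologicalSpace.IsSeparable.iUnion fun i => TopologicalSpace.isSeparable_range
      (lp.singleContinuousLinearMap ℂ (fun _ : ι => H) 2 i).continuous).span
        (R := ℂ) |>.closure.mono fun ψ _ => mem_closure_of_tendsto (hs ψ) (.of_forall fun s => ?_)
    exact Submodule.sum_mem _ fun i _ => Submodule.subset_span (Set.mem_iUnion.2 ⟨i, _, rfl⟩)

theorem meanStmt : MeanStmt.{u} := by
  classical
  intro H _ _ _ Γ _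
  obtain ⟨σ, hσ⟩ : ∃ σ : Finset Γ × ℕ → Pr Γ, σ = fun i => box i.2 i.1.toList := ⟨_, rfl⟩
  let U : Ultrafilter (Finset Γ × ℕ) := .of atTop
  obtain ⟨μ, k⟩ : ∃ μ : (Γ → Op H) → Op H, ∀ F, (∃ C, ∀ g, ‖F g‖ ≤ C) →
      WT U (fun i => (σ i).ex F) (μ F) := by
    refine ⟨fun F => if h : ∃ y, WT U (fun i => (σ i).ex F) y then h.choose else 0,
      fun F ⟨C, hC⟩ => ?_⟩
    obtain ⟨y, -, hy⟩ := wlim U (fun i => (σ i).ex F) ((norm_nonneg _).trans (hC 0))
      fun i => Pr.norm_ex' _ hC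
    have : ∃ y, WT U (fun i => (σ i).ex F) y := ⟨y, hy⟩
    simp only [dif_pos this]
    exact this.choose_spec
  refine ⟨μ, fun a => wt_eq (k _ ⟨_, fun _ => le_rfl⟩) (by simpa using wt_const a),
    fun F F' ⟨C, hC⟩ ⟨C', hC'⟩ => wt_eq (k _ ⟨_, fun g => norm_add_le_of_le (hC g) (hC' g)⟩)
      (by simpa only [Pr.ex_add] using wt_add (k F ⟨C, hC⟩) (k F' ⟨C', hC'⟩)),
    fun F a b ⟨C, hC⟩ => wt_eq (k _ ⟨_, fun g => nle (nle le_rfl (hC g)) le_rfl⟩)
      (by simpa only [Pr.mul_ex, Pr.ex_mul'] using (k F ⟨C, hC⟩).mul a b),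
    fun F ⟨C, hC⟩ => wt_eq (k _ ⟨C, by simpa using hC⟩) ?_, fun F h ⟨C, hC⟩ => ?_,
    fun F C hC => wt_norm (k F ⟨C, hC⟩) (.of_forall fun i => Pr.norm_ex' _ hC),
    fun F v w ε hF h => (WV.sub (k F hF v) (WV.const w)).le (.of_forall fun i => ?_)⟩
  · simpa only [Pr.ex_map _ F star star_add (fun r x => by simp)] using wt_star (k F ⟨C, hC⟩)
  · rw [← sub_eq_zero, ← norm_le_zero_iff]
    refine ge_of_tendsto' (by simpa using tendsto_one_div_add_atTop_nhds_zero_nat.const_mul (2 * C))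
      fun n : ℕ => wt_norm (wt_sub (k _ ⟨C, fun g => hC _⟩) (k F ⟨C, hC⟩)) (Ultrafilter.of_le _ ?_)
    filter_upwards [eventually_ge_atTop (({h}, n) : Finset Γ × ℕ)] with i hi
    rw [hσ]
    refine (box_inv i.2 h C _ (mem_toList.2 (hi.1 (mem_singleton_self h))) F hC).trans ?_
    have : (n : ℝ) ≤ i.2 := by exact_mod_cast hi.2
    have := (norm_nonneg _).trans (hC 0)
    rw [one_div]
    gcongr
  · rw [Pr.ex_app, ← (σ i).ex_const w, ← Pr.ex_sub]
    exact Pr.norm_ex' _ h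

theorem exhStmt : ExhStmt.{u} := by
  intro H _ _ _ M Q p₀ h0 hQ
  obtain ⟨S, hS⟩ := zorn_subset {S : Set (Op H) | (∀ p ∈ S, Cp M p ∧ p * p₀ = p ∧ Q p) ∧
      S.Pairwise fun p q => p * q = 0} fun c hc hch => ⟨⋃₀ c, ⟨fun p ⟨s, hs, hp⟩ => (hc hs).1 p hp,
        (Set.pairwise_sUnion hch.directedOn).2 fun s hs => (hc hs).2⟩,
        fun s => Set.subset_sUnion_of_mem⟩
  obtain ⟨s1, h2⟩ := hS.prop
  have h1 : ∀ p ∈ S, IsStarProjection p := fun p hp => (s1 p hp).1.1
  have h3 : ∀ p ∈ S, p₀ * p = p := fun p hp => by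
    rw [commM h0.2.1 (s1 p hp).1.2.2, (s1 p hp).2.1]
  obtain ⟨e, he, e1, e2, e3⟩ := exists_rp S
  have e4 : ∀ N : VonNeumannAlgebra H, (∀ p ∈ S, p ∈ N) → e ∈ N := fun N hN => memM fun y hy =>
    e3 y (fun p hp => ⟨p, hp, y, (commM (hN p hp) hy).symm⟩)
      fun p hp => ⟨p, hp, _, (commM (hN p hp) (star_mem hy)).symm⟩
  have ec : Cp M e := ⟨he, e4 _ fun p hp => (s1 p hp).1.2.1, e4 _ fun p hp => (s1 p hp).1.2.2⟩
  have e5 : p₀ * e = e := left_fix (a := e) (fun _ h => h) (by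
    have := e2 (1 - p₀) fun p hp => by rw [sub_mul, h3 p hp, one_mul, sub_self]
    rw [sub_mul, one_mul, sub_eq_zero] at this; exact this.symm)
  obtain rfl : p₀ = e := by
    by_contra hne
    obtain ⟨p, pc, p0, pq, hp⟩ := hQ (p₀ - e) ⟨he.sub_of_mul_eq_right h0.1 e5,
      sub_mem h0.2.1 ec.2.1, sub_mem h0.2.2 ec.2.2⟩ (sub_ne_zero.2 hne) (by
        rw [sub_mul, h0.1.isIdempotentElem.eq, commM ec.2.1 h0.2.2, e5])
    have o : ∀ q ∈ S, p * q = 0 := fun q hq => by
      rw [← pq, mul_assoc, sub_mul, h3 q hq, e1 q hq, sub_self, mul_zero]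
    have := hS.eq_of_subset (t := insert p S) ⟨by
      rintro q (rfl | hq)
      · refine ⟨pc, ?_, hp⟩
        rw [← pq, mul_assoc, sub_mul, h0.1.isIdempotentElem.eq, commM ec.2.1 h0.2.2, e5]
      · exact s1 q hq, h2.insert fun q hq _ =>
        ⟨o q hq, by rw [commM (s1 q hq).1.2.1 pc.2.2, o q hq]⟩⟩ (Set.subset_insert _ _)
    exact p0 (by rw [← pc.1.isIdempotentElem.eq, o p (this ▸ Set.mem_insert _ _)])
  have t := hs h1 h2 he e1 e2
  refine ⟨S, s1, h2, fun v => by simpa only [HasSum, _root_.sum_apply] using! t v, fun v => ?_,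
    fun T c c0 hT => (T * p₀).opNorm_le_bound c0 fun v => ?_, fun f C C0 hf => ?_⟩
  · simpa only [HasSum, _root_.sum_apply, os h1 h2 _ fun _ => v] using! (t v).norm.pow 2
  · refine le_of_tendsto' ((T.continuous.tendsto _).comp (t v)).norm fun s => ?_
    have := sum_bd h1 h2 (g := fun _ => T) c0 (fun p => hT p p.2) s
    rw [← mul_sum] at this
    exact (T * _).le_of_opNorm_le this v
  · obtain ⟨b, b1, b2⟩ := wlim (Ultrafilter.of atTop) (fun s : Finset S => ∑ p ∈ s, f p * p.1) C0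
      (sum_bd h1 h2 C0 fun p => ⟨(hf p p.2).2, by
        simpa using nle (hf p p.2).1 (proj_le1 (h1 p p.2))⟩)
    have c : ∀ a : Op H, (∀ p ∈ S, a * p = p * a ∧ a * f p = f p * a) → a * b = b * a :=
      fun a ha => wt_comm b2 (.of_forall fun s => by
        rw [mul_sum, sum_mul]
        exact sum_congr rfl fun p _ => by
          rw [← mul_assoc, (ha p p.2).2, mul_assoc, (ha p p.2).1, mul_assoc])
    have b3 := wt_eq (b2.mul 1 p₀) (wt_congr b2 (.of_forall fun s => by
      rw [one_mul, sum_mul]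
      exact sum_congr rfl fun p _ => by rw [mul_assoc, (s1 p p.2).2.1]))
    have b4 := wt_eq (b2.mul p₀ 1) (wt_congr b2 (.of_forall fun s => by
      rw [mul_one, mul_sum]
      exact sum_congr rfl fun p _ => by rw [(hf p p.2).2, ← mul_assoc, h3 p p.2]))
    refine ⟨b, b1, by simpa using b3, by simpa using b4, fun p hp => ⟨?_, ?_⟩, c⟩
    · simpa using wt_eq (b2.mul 1 p) (wt_congr (wt_const _) ((ev_mem (⟨p, hp⟩ : S)).mono
        fun s hs => by rw [one_mul, sum_mul_p h1 h2 (fun p => f p) hs]))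
    · simpa using wt_eq (b2.mul p 1) (wt_congr (wt_const (f p * p)) ((ev_mem (⟨p, hp⟩ : S)).mono
        fun s hs => by
          rw [mul_one, mul_sum, sum_eq_single_of_mem _ hs fun q _ hne => by
            rw [(hf q q.2).2, ← mul_assoc, h2 hp q.2 fun e => hne (Subtype.ext e.symm), zero_mul],
            (hf p hp).2, ← mul_assoc, (h1 p hp).isIdempotentElem.eq]))

theorem genZ : GenZStmt.{u} := by
  intro H _ _ _ _ M
  have : Nonempty H := ⟨0⟩
  obtain ⟨e, he⟩ := TopologicalSpace.exists_dense_seq H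
  have := UniformSpace.secondCountable_of_separable H
  let φ : {p // Cp M p} → ℕ → H := fun p n => p.1 (e n)
  have : Nonempty (Set.range φ) :=
    ⟨⟨_, ⟨0, IsStarProjection.zero _, zero_mem _, zero_mem _⟩, rfl⟩⟩
  obtain ⟨w, hw⟩ := TopologicalSpace.exists_dense_seq (Set.range φ)
  choose c hc using fun n => (w n).2
  refine ⟨fun n => c n, fun n => (c n).2, fun T hT => cen_all fun p hp => ?_⟩
  have k : ∀ i j, ∀ f : Set.range φ, ⟪e j, T (f.1 i)⟫_ℂ = ⟪f.1 j, T (e i)⟫_ℂ := fun i j f =>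
    hw.induction_on f (isClosed_eq (continuous_const.inner (T.continuous.comp
      ((continuous_apply i).comp continuous_subtype_val)))
      (((continuous_apply j).comp continuous_subtype_val).inner continuous_const)) fun n => by
      rw [← hc n]
      exact (congrArg _ congr($(hT n) (e i))).trans (proj_inner (c n).2.1 _ _).symm
  refine ContinuousLinearMap.coe_injective (LinearMap.ext fun v => he.induction_on v
    (isClosed_eq (T * p).continuous (p * T).continuous) fun i => he.eq_of_inner_right ℂ fun j => ?_)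
  exact (k i j ⟨_, ⟨p, hp⟩, rfl⟩).trans (proj_inner hp.1 _ _)

end Vale.Agent.P096
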