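import Vale.Agent.P096.Test

/-! From the diagonal to the whole cocycle, using a unital copy of two by two matrices. -/

open Finset Vale.Agent.P104 Filter Topology
open scoped InnerProductSpace

set_option linter.unusedSectionVars false

namespace Vale.Agent.P096

variable {A K : Type*} [CStarAlgebra A] [NormedAddCommGroup K] [InnerProductSpace ℂ K]
  [CompleteSpace K] {D : Bim A K} {θ β b ω α κ : ℝ} {c r : A → A → K} {s t a : A}

structure PP (s t : A) : Prop where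
  s1 : star s = s
  s2 : s * s = 1
  t1 : star t = t
  t2 : t * t = 1
  st : s * t = -(t * s)

lemma PP.neg (h : PP s t) : PP s (-t) :=
  ⟨h.s1, h.s2, by rw [star_neg, h.t1], by rw [neg_mul_neg, h.t2], by simp [h.st]⟩

lemma PP.symm (h : PP s t) : PP t s := ⟨h.t1, h.t2, h.s1, h.s2, by rw [h.st, neg_neg]⟩

lemma PP.su (h : PP s t) : s ∈ unitary A := ⟨by rw [h.s1, h.s2], by rw [h.s1, h.s2]⟩
lemma PP.sb (h : PP s t) : ‖s‖ ≤ 1 := bu ⟨s, h.su⟩
lemma PP.tb (h : PP s t) : ‖t‖ ≤ 1 := h.symm.sb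

lemma bh {x y : A} (hx : ‖x‖ ≤ 1) (hy : ‖y‖ ≤ 1) : ‖(2 : ℂ)⁻¹ • (x + y)‖ ≤ 1 := by
  have := norm_add_le_of_le hx hy
  rw [norm_smul, norm_inv, Complex.norm_ofNat]; linarith

lemma AC.m1 (h : AC D θ β c r) (ha : Nul α c a) (a1 : ‖a‖ ≤ 1) {x y : A} (hx : ‖x‖ ≤ 1)
    (hy : ‖y‖ ≤ 1) : ‖c (a * x) y - D.L a (c x y)‖ ≤ θ + 2 * α := by
  have := norm_sub_le_of_le (norm_add_le_of_le (h.coc a x y a1 hx hy) (ha _ (bm hx hy)).1)
    (D.R_le' hy (ha _ hx).1)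
  refine le_of_eq_of_le (congrArg _ (by abel)) (this.trans (by linarith))

lemma AC.m2 (h : AC D θ β c r) (ha : Nul α c a) (a1 : ‖a‖ ≤ 1) {x y : A} (hx : ‖x‖ ≤ 1)
    (hy : ‖y‖ ≤ 1) : ‖c (x * a) y - c x (a * y)‖ ≤ θ + 2 * α := by
  have := norm_sub_le_of_le (norm_add_le_of_le (h.coc x a y hx a1 hy) (D.L_le hx (ha _ hy).1))
    (D.R_le' hy (ha _ hx).2)
  refine le_of_eq_of_le (congrArg _ (by abel)) (this.trans (by linarith))

lemma AC.m3 (h : AC D θ β c r) (ha : Nul α c a) (a1 : ‖a‖ ≤ 1) {x y : A} (hx : ‖x‖ ≤ 1)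
    (hy : ‖y‖ ≤ 1) : ‖c x (y * a) - D.R a (c x y)‖ ≤ θ + 2 * α := by
  have := norm_sub_le_of_le (norm_sub_le_of_le (ha _ (bm hx hy)).2 (D.L_le hx (ha _ hy).2))
    (h.coc x y a hx hy a1)
  refine le_of_eq_of_le (congrArg _ (by abel)) (this.trans (by linarith))

lemma AC.rle (h : AC D θ β c r) {x y : A} (hx : ‖x‖ ≤ 1) (hy : ‖y‖ ≤ 1) (h1 : ‖c x y‖ ≤ α) :
    ‖r x y‖ ≤ α + θ := by simpa using norm_sub_le_of_le h1 (h.lr x y hx hy)

lemma AC.cle (h : AC D θ β c r) {x y : A} (hx : ‖x‖ ≤ 1) (hy : ‖y‖ ≤ 1) (h1 : ‖r x y‖ ≤ α) :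
    ‖c x y‖ ≤ α + θ := by simpa using norm_add_le_of_le h1 (h.lr x y hx hy)

lemma AC.nul1 (h : AC D θ β c r) : Nul θ c 1 := fun x hx =>
  ⟨by simp [h.one, h.θ0], by simpa using h.cle (α := 0) hx b1 (by simp [h.one'])⟩

lemma Nul.mono {α' : ℝ} (h : Nul α c a) (h' : α ≤ α') : Nul α' c a := fun x hx =>
  ⟨(h x hx).1.trans h', (h x hx).2.trans h'⟩

lemma AC.nul_neg (h : AC D θ β c r) (ha : Nul α c a) (a1 : ‖a‖ ≤ 1) : Nul (α + 2 * θ) c (-a) :=
  fun x hx => ⟨by rw [(h.lin x).map_neg, norm_neg]; linarith [(ha x hx).1, h.θ0], by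
    have := h.cle (y := -a) (α := α + θ) hx (by rwa [norm_neg])
      (by rw [(h.lin' x).map_neg, norm_neg]; exact h.rle hx a1 (ha x hx).2)
    linarith⟩

lemma AC.nul_avg (h : AC D θ β c r) {a' : A} (ha : Nul α c a) (ha' : Nul α c a') (a1 : ‖a‖ ≤ 1)
    (a2 : ‖a'‖ ≤ 1) : Nul (α + 2 * θ) c ((2 : ℂ)⁻¹ • (a + a')) := fun x hx => by
  have k : ∀ {u v : K} {e : ℝ}, ‖u‖ ≤ e → ‖v‖ ≤ e → ‖(2 : ℂ)⁻¹ • (u + v)‖ ≤ e := fun hu hv => by
    have := norm_add_le_of_le hu hv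
    rw [norm_smul, norm_inv, Complex.norm_ofNat]; linarith
  constructor
  · rw [(h.lin x).map_smul, (h.lin x).map_add]
    linarith [k (ha x hx).1 (ha' x hx).1, h.θ0]
  · have := h.cle (α := α + θ) hx (bh a1 a2) (by
      rw [(h.lin' x).map_smul, (h.lin' x).map_add]
      exact k (h.rle hx a1 (ha x hx).2) (h.rle hx a2 (ha' x hx).2))
    linarith

lemma exists_W (h : PP s t) (x y : unitary A) (x1 : s * x = x * s) (x2 : t * x = x * t)
    (y1 : s * y = y * s) (y2 : t * y = y * t) {p q : A} (hp : p = (2 : ℂ)⁻¹ • (1 + t))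
    (hq : q = (2 : ℂ)⁻¹ • (1 + -t)) {ρ : ℂ} (h1 : star ρ = ρ) (h2 : ρ * ρ = 2⁻¹) :
    ∃ W : unitary A, p * W = ρ • (x * p + p * s) ∧
      p * (star (W : A) * q) = ρ • (star (y : A) * (p * s)) := by
  have pq : p + q = 1 := by rw [hp, hq]; module
  have pp : p * p = p := by simp only [hp, smul_mul_smul_comm, mul_add, add_mul, h.t2]; simp; module
  have pq0 : p * q = 0 := by
    simp only [hp, hq, smul_mul_smul_comm, mul_add, add_mul, mul_neg, h.t2]; simp; module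
  have qp0 : q * p = 0 := by
    simp only [hp, hq, smul_mul_smul_comm, mul_add, add_mul, neg_mul, h.t2]; simp
  have qq : q * q = q := by
    simp only [hq, smul_mul_smul_comm, mul_add, add_mul, neg_mul_neg, h.t2]; simp; module
  have ps : star p = p := by simp [hp, h.t1]
  have qs : star q = q := by simp [hq, h.t1]
  have sp : s * p = q * s := by simp [hp, hq, mul_add, add_mul, h.st]
  have sq : s * q = p * s := by simp [hp, hq, mul_add, add_mul, h.st]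
  have st : ∀ {z : A}, s * z = z * s → s * star z = star z * s := fun hz => by
    simpa [h.s1] using congrArg star hz.symm
  have st' : ∀ {z : A}, t * z = z * t → t * star z = star z * t := fun hz => by
    simpa [h.t1] using congrArg star hz.symm
  have cp : ∀ {z : A}, t * z = z * t → p * z = z * p ∧ q * z = z * q := fun hz => by
    simp [hp, hq, mul_add, add_mul, hz]
  have as : ∀ {a b c : A}, a * b = c → ∀ z, a * (b * z) = c * z := fun h z => by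
    rw [← mul_assoc, h]
  have k : ∀ z : A, ρ • ρ • (z + z) = z := fun z => by rw [smul_smul, h2]; module
  refine ⟨⟨ρ • (x * p + p * s + y * (q * s) - y * (star (x : A) * q)), ?_, ?_⟩, ?_, ?_⟩
  all_goals simp only [star_smul, star_sub, star_add, star_mul, star_star, h1, ps, qs, h.s1,
      smul_mul_assoc, mul_smul_comm, mul_add, add_mul, mul_sub, sub_mul, mul_assoc, pp, qq, pq0, qp0,
      sp, sq, h.s2, x1, y1, st x1, st y1, (cp x2).1, (cp x2).2, (cp y2).1, (cp y2).2,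
      (cp (st' x2)).1, (cp (st' x2)).2, (cp (st' y2)).1, (cp (st' y2)).2,
      as pp, as qq, as pq0, as qp0, as sp, as sq, as h.s2, as x1, as y1, as (st x1), as (st y1),
      as (cp x2).1, as (cp x2).2, as (cp y2).1, as (cp y2).2, as (cp (st' x2)).1,
      as (cp (st' x2)).2, as (cp (st' y2)).1, as (cp (st' y2)).2, x.2.1, x.2.2, y.2.1, y.2.2,
      as x.2.1, as x.2.2, as y.2.1, as y.2.2, mul_zero, zero_mul, one_mul, mul_one, add_zero,
      zero_add, sub_zero]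
  · rw [← pq, ← k (p + q)]; module
  · rw [← pq, ← k (p + q)]; module

lemma AC.corner (h : AC D θ β c r) (P : PP s t) (h1 : Nul (3 * θ) c s) (h2 : Nul (3 * θ) c t)
    (h3 : Nul (3 * θ) c (t * s)) (h4 : Nul (3 * θ) c (-t)) (hd : ∀ W, ‖dg c W‖ ≤ κ)
    (x y : unitary A) (x1 : s * x = x * s) (x2 : t * x = x * t) (y1 : s * y = y * s)
    (y2 : t * y = y * t) : ‖D.R ((2 : ℂ)⁻¹ • (1 + t)) (c x (star (y : A)))‖ ≤ 4 * κ + 135 * θ := by
  have θ0 := h.θ0
  obtain ⟨ρ, hρ⟩ : ∃ ρ : ℝ, ρ = (√2)⁻¹ := ⟨_, rfl⟩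
  have ρ0 : 0 ≤ ρ := by rw [hρ]; positivity
  have ρ2 : ρ * ρ = 2⁻¹ := by rw [hρ, ← mul_inv, Real.mul_self_sqrt (by norm_num)]
  have ρ1 : ρ ≤ 1 := by nlinarith
  have ρ3 : 2⁻¹ ≤ ρ := by nlinarith
  have ρn : ∀ v : K, ‖(ρ : ℂ) • v‖ = ρ * ‖v‖ := fun v => by
    rw [norm_smul, Complex.norm_real, Real.norm_of_nonneg ρ0]
  obtain ⟨W, w1, w2⟩ := exists_W P x y x1 x2 y1 y2 rfl rfl (ρ := ρ) (by simp)
    (by rw [← Complex.ofReal_mul, ρ2]; simp)
  have n1 := h.nul1.mono (α' := 3 * θ) (by linarith)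
  have pb := bh b1 P.tb
  have qb := bh b1 P.neg.tb
  have np := h.nul_avg n1 h2 b1 P.tb
  have nq := h.nul_avg n1 h4 b1 P.neg.tb
  have ns := h.nul_avg h1 h3 P.sb (bm P.tb P.sb)
  rw [show (2 : ℂ)⁻¹ • (s + t * s) = (2 : ℂ)⁻¹ • (1 + t) * s by simp [add_mul]] at ns
  generalize (2 : ℂ)⁻¹ • (1 + t) = p at *
  generalize (2 : ℂ)⁻¹ • (1 + -t) = q at *
  have Wb : ‖star (W : A)‖ ≤ 1 := bu W⁻¹
  have yb : ‖star (y : A)‖ ≤ 1 := bu y⁻¹
  have zb := bm yb (bm pb P.sb)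
  have a1 := norm_add_le_of_le (h.m3 nq qb (bu W) Wb) (D.R_le' qb (hd W))
  rw [dg, coe_inv, sub_add_cancel] at a1
  have a2 := norm_add_le_of_le (h.m1 np pb (bu W) (bm Wb qb)) (D.L_le pb a1)
  rw [sub_add_cancel, w1, (h.lin _).map_smul, (h.lin _).map_add, ρn] at a2
  have a3 := norm_sub_le (c (x * p) (star (W : A) * q) + c (p * s) (star (W : A) * q))
    (c (p * s) (star (W : A) * q))
  have a4 := norm_sub_le_of_le (le_refl ‖c (x * p) (star (W : A) * q)‖)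
    (h.m2 np pb (bu x) (bm Wb qb))
  rw [add_sub_cancel_right] at a3
  rw [sub_sub_cancel, w2] at a4
  have a5 := h.rle (bu x) (by
    rw [norm_smul, Complex.norm_real, Real.norm_of_nonneg ρ0]
    exact mul_le_one₀ ρ1 (norm_nonneg _) zb) a4
  rw [(h.lin' _).map_smul, ρn] at a5
  have a6 := h.cle (bu x) zb le_rfl
  have a7 := D.R_le' P.sb (norm_sub_le_of_le a6 (h.m3 ns (bm pb P.sb) (bu x) yb))
  rw [sub_sub_cancel, ← D.R_mul', mul_assoc, P.s2, mul_one] at a7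
  have := (ns _ (bm Wb qb)).1
  have := mul_le_mul_of_nonneg_right ρ3 (norm_nonneg (r x (star (y : A) * (p * s))))
  have := mul_le_mul_of_nonneg_right ρ3
    (norm_nonneg (c (x * p) (star (W : A) * q) + c (p * s) (star (W : A) * q)))
  linarith

lemma exists_unit {a : A} (ha : IsSelfAdjoint a) (h1 : ‖a‖ ≤ 1) : ∃ u : unitary A,
    a = (2 : ℂ)⁻¹ • ((u : A) + star (u : A)) ∧ ∀ y, y * a = a * y → y * u = u * y := by
  have hs : ∀ t ∈ spectrum ℝ a, t * t ≤ 1 := fun t ht => by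
    rcases subsingleton_or_nontrivial A with h | h
    · simp [spectrum.of_subsingleton] at ht
    have := (spectrum.norm_le_norm_of_mem ht).trans h1
    rw [Real.norm_eq_abs] at this
    nlinarith [abs_mul_abs_self t, abs_nonneg t]
  obtain ⟨w, hw⟩ : ∃ w, w = cfc (fun t : ℝ => √(1 - t * t)) a := ⟨_, rfl⟩
  have w1 : star w = w := hw ▸ (cfc_predicate _ _ : IsSelfAdjoint _)
  have w2 : ∀ y, y * a = a * y → y * w = w * y := fun y hy =>
    hw ▸ (Commute.cfc_real (a := a) (b := y) hy.symm _).eq.symm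
  have w3 : w * w = 1 - a * a := by
    have e1 : a * a = cfc (fun t : ℝ => t * t) a := by rw [cfc_mul .., cfc_id' ℝ a]
    rw [hw, e1, ← cfc_mul .., ← cfc_const_one ℝ a, ← cfc_sub ..]
    exact cfc_congr fun t ht => Real.mul_self_sqrt (by linarith [hs t ht])
  refine ⟨⟨a + Complex.I • w, ?_, ?_⟩, ?_, fun y hy => ?_⟩
  · simp [ha.star_eq, w1, mul_add, add_mul, smul_smul, w2 a rfl, w3]
  · simp [ha.star_eq, w1, mul_add, add_mul, smul_smul, w2 a rfl, w3]; abel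
  · simp [ha.star_eq, w1]; module
  · simp [mul_add, add_mul, hy, w2 y hy]

lemma dec_u {T : A → K} (hT : IsLinearMap ℂ T) (F : Set A) (hF : ∀ y ∈ F, star y = y)
    (h : ∀ u : unitary A, (∀ y ∈ F, y * u = u * y) → ‖T u‖ ≤ κ) {x : A} (hx : ‖x‖ ≤ 1)
    (hc : ∀ y ∈ F, y * x = x * y) : ‖T x‖ ≤ 2 * κ := by
  have st : ∀ {z : A}, (∀ y ∈ F, y * z = z * y) → ∀ y ∈ F, y * star z = star z * y :=
    fun hz y hy => by simpa [hF y hy] using congrArg star (hz y hy).symm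
  have k : ∀ a, IsSelfAdjoint a → ‖a‖ ≤ 1 → (∀ y ∈ F, y * a = a * y) → ‖T a‖ ≤ κ :=
    fun a h1 h2 h3 => by
      obtain ⟨u, e, hu⟩ := exists_unit h1 h2
      have := norm_add_le_of_le (h u fun y hy => hu y (h3 y hy))
        (h u⁻¹ (st fun y hy => hu y (h3 y hy)))
      rw [e, hT.map_smul, hT.map_add, norm_smul, norm_inv, Complex.norm_ofNat, ← coe_inv]; linarith
  have xs : ‖star x‖ ≤ 1 := by rwa [norm_star]
  have a1 := k _ (by simp [IsSelfAdjoint, add_comm]) (bh hx xs) fun y hy => by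
    simp [mul_add, add_mul, hc y hy, st hc y hy]
  have a2 := k ((2 : ℂ)⁻¹ • (-Complex.I • x + Complex.I • star x)) (by
    simp [IsSelfAdjoint, add_comm]) (bh (by simpa [norm_smul]) (by simpa [norm_smul]))
    fun y hy => by simp [mul_add, add_mul, hc y hy, st hc y hy]
  have e : x = (2 : ℂ)⁻¹ • (x + star x) +
      Complex.I • (2 : ℂ)⁻¹ • (-Complex.I • x + Complex.I • star x) := by
    rw [smul_comm Complex.I, smul_add Complex.I, smul_smul, smul_smul]; simp; module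
  have := norm_add_le_of_le a1 (show ‖Complex.I • _‖ ≤ κ by rwa [norm_smul, Complex.norm_I, one_mul])
  rw [← hT.map_smul, ← hT.map_add, ← e] at this
  linarith

lemma PP.dec1 (P : PP s t) {x : A} (hx : ‖x‖ ≤ 1) : ∃ a b : A, ‖a‖ ≤ 1 ∧ ‖b‖ ≤ 1 ∧
    s * a = a * s ∧ s * b = b * s ∧ x = a + b * t ∧
    (t * x = x * t → t * a = a * t ∧ t * b = b * t) := by
  have as : ∀ {a b c : A}, a * b = c → ∀ z, a * (b * z) = c * z := fun h z => by
    rw [← mul_assoc, h]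
  refine ⟨(2 : ℂ)⁻¹ • (x + s * x * s), (2 : ℂ)⁻¹ • (x * t + s * (x * t) * s),
    bh hx (bm (bm P.sb hx) P.sb), bh (bm hx P.tb) (bm (bm P.sb (bm hx P.tb)) P.sb), ?_, ?_, ?_,
    fun h => ⟨?_, ?_⟩⟩
  · simp [mul_add, add_mul, mul_assoc, P.s2, as P.s2, add_comm]
  · simp [mul_add, add_mul, mul_assoc, P.s2, as P.s2, add_comm]
  · simp [mul_add, add_mul, mul_assoc, P.t2, as P.t2, P.st]; module
  · simp [mul_add, add_mul, mul_assoc, P.symm.st, as P.symm.st, h, as h]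
  · simp [mul_add, add_mul, mul_assoc, P.symm.st, as P.symm.st, h, as h, P.t2, as P.t2]

lemma dec (P : PP s t) {T : A → K} (hT : IsLinearMap ℂ T)
    (h : ∀ g ∈ ({1, s, t, s * t} : Set A), ∀ u : unitary A, s * u = u * s → t * u = u * t →
      ‖T (u * g)‖ ≤ κ) {x : A} (hx : ‖x‖ ≤ 1) : ‖T x‖ ≤ 8 * κ := by
  have k : ∀ g ∈ ({1, s, t, s * t} : Set A), ∀ x, ‖x‖ ≤ 1 → s * x = x * s → t * x = x * t →
      ‖T (x * g)‖ ≤ 2 * κ := fun g hg x hx h1 h2 =>
    dec_u (T := fun x => T (x * g)) ⟨fun _ _ => by rw [add_mul, hT.map_add],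
      fun _ _ => by rw [smul_mul_assoc, hT.map_smul]⟩ {s, t} (by simp [P.s1, P.t1])
      (fun u hu => h g hg u (hu s (by simp)) (hu t (by simp))) hx (by simp [h1, h2])
  obtain ⟨a, b, a1, b1, a2, b2, rfl, -⟩ := P.dec1 hx
  obtain ⟨c, d, c1, d1, c2, d2, rfl, h1⟩ := P.symm.dec1 a1
  obtain ⟨e, f, e1, f1, e2, f2, rfl, h2⟩ := P.symm.dec1 b1
  have := norm_add_le_of_le (norm_add_le_of_le (k 1 (by simp) c c1 (h1 a2).1 c2)
    (k s (by simp) d d1 (h1 a2).2 d2)) (norm_add_le_of_le (k t (by simp) e e1 (h2 b2).1 e2)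
    (k (s * t) (by simp) f f1 (h2 b2).2 f2))
  rw [add_mul, mul_assoc]
  simp only [hT.map_add, mul_one] at this ⊢
  linarith

lemma AC.full (h : AC D θ β c r) (P : PP s t) (h1 : Nul θ c s) (h2 : Nul θ c t)
    (h3 : Nul θ c (s * t)) (hd : ∀ W, ‖dg c W‖ ≤ κ) {x y : A} (hx : ‖x‖ ≤ 1) (hy : ‖y‖ ≤ 1) :
    ‖c x y‖ ≤ 512 * κ + 17673 * θ := by
  have θ0 := h.θ0
  have n1 := h1.mono (α' := 3 * θ) (by linarith)
  have n2 := h2.mono (α' := 3 * θ) (by linarith)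
  have n3 := h3.mono (α' := 3 * θ) (by linarith)
  have n4 := (h.nul_neg h2 P.tb).mono (α' := 3 * θ) (by linarith)
  have n5 := (h.nul_neg h3 (bm P.sb P.tb)).mono (α' := 3 * θ) (by linarith)
  have k1 : ∀ x y : unitary A, s * x = x * s → t * x = x * t → s * y = y * s → t * y = y * t →
      ‖c x y‖ ≤ 8 * κ + 270 * θ := fun x y x1 x2 y1 y2 => by
    have y3 : s * (y⁻¹ : unitary A) = (y⁻¹ : unitary A) * s := by
      simpa [P.s1, coe_inv] using congrArg star y1.symm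
    have y4 : t * (y⁻¹ : unitary A) = (y⁻¹ : unitary A) * t := by
      simpa [P.t1, coe_inv] using congrArg star y2.symm
    have := norm_add_le_of_le (h.corner P n1 n2 (by rwa [P.symm.st]) n4 hd x y⁻¹ x1 x2 y3 y4)
      (h.corner P.neg n1 n4 (by rwa [neg_mul, ← P.st]) (by rwa [neg_neg]) hd x y⁻¹ x1
        (by simp [x2]) y3 (by simp only [neg_mul, mul_neg, y4]))
    rw [← add_apply, ← map_add, show (2 : ℂ)⁻¹ • (1 + t) + (2 : ℂ)⁻¹ • (1 + -t) = 1 by module,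
      D.R_one', coe_inv, star_star] at this
    linarith
  have k0 : ∀ g ∈ ({1, s, t, s * t} : Set A), Nul θ c g ∧ ‖g‖ ≤ 1 ∧
      ∀ u, s * u = u * s → t * u = u * t → u * g = g * u := by
    rintro g (rfl | rfl | rfl | rfl)
    exacts [⟨h.nul1, b1, by simp⟩, ⟨h1, P.sb, fun _ a _ => a.symm⟩, ⟨h2, P.tb, fun _ _ a => a.symm⟩,
      ⟨h3, bm P.sb P.tb, fun _ a b => by rw [mul_assoc, b, ← mul_assoc, ← mul_assoc, a]⟩]
  have := h.cle hx hy (dec P (h.lin' x) (κ := 8 * (8 * κ + 276 * θ) + θ) (fun g' hg' v v1 v2 =>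
    h.rle hx (bm (bu _) (k0 g' hg').2.1) (dec P (h.lin _) (fun g hg u u1 u2 => by
      obtain ⟨a1, a2, a3⟩ := k0 g hg
      obtain ⟨b1, b2, -⟩ := k0 g' hg'
      have e1 := norm_add_le_of_le (h.m1 a1 a2 (bu u) (bu v)) (D.L_le a2 (k1 u v u1 u2 v1 v2))
      rw [sub_add_cancel, ← a3 _ u1 u2] at e1
      have e2 := norm_add_le_of_le (h.m3 b1 b2 (bm (bu u) a2) (bu v)) (D.R_le' b2 e1)
      rw [sub_add_cancel] at e2
      linarith) hx)) hy)
  linarith

end Vale.Agent.P096
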