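import Vale.Agent.P096.Newton

/-! The perturbation theorem in standard form. -/

open Finset Vale.Agent.P104 Vale.Agent.P085 Filter Topology
open scoped InnerProductSpace

set_option linter.unusedSectionVars false

namespace Vale.Agent.P096

universe u
variable {K : Type u} [NormedAddCommGroup K] [InnerProductSpace ℂ K] [CompleteSpace K]
  {M N P : VonNeumannAlgebra K} {ξ : K} {δ η : ℝ}

lemma Nr.comm (h : Nr N M δ) (δ0 : 0 < δ) : Nr M.commutant N.commutant (2 * kk * δ) := by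
  intro a ha
  rcases eq_or_ne a 0 with rfl | a0
  · exact ⟨0, zero_mem _, by simp⟩
  have a1 := norm_pos_iff.2 a0
  obtain ⟨b, b1, b2⟩ := comm_near (A := MA N) N.toStarSubalgebra.subtype.toAlgHom
    (fun x => le_mul_of_one_le_left (norm_nonneg _) one_le_two) a (ε := 2 * δ * ‖a‖)
    (by positivity) fun x => by
      obtain ⟨y, y1, y2⟩ := h x.1 x.2
      refine le_of_eq_of_le (congrArg _ ?_) ((cle y2 (le_refl ‖a‖)).trans_eq (by
        change _ = _ * ‖x.1‖; ring))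
      rw [sub_mul, mul_sub, commM y1 ha, sub_sub_sub_cancel_right]; rfl
  exact ⟨b, VonNeumannAlgebra.mem_commutant_iff.2 fun x hx => b1 ⟨x, hx⟩, b2.trans_eq (by ring)⟩

lemma Nr.fl {Q : Subalgebra ℂ (Op K)} (h : Nr Q P.commutant δ) (ξ1 : ‖ξ‖ ≤ 1) :
    Fl Q P ξ (2 * δ) := fun a ha x hx => by
  obtain ⟨y, y1, y2⟩ := h a ha
  refine le_of_eq_of_le (congrArg _ ?_) ((ale (cle y2 (le_refl ‖x‖)) ξ1).trans_eq (by ring))
  rw [sub_mul, mul_sub, commM hx y1, sub_sub_sub_cancel_right]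

lemma fl_lim (h : DenseRange (ev P ξ)) {S : ℕ → (Op K)ˣ} {a b : Op K} (ha : a ∈ N)
    (h1 : Tendsto (fun n => ↑(S n)⁻¹ * a * S n) atTop (𝓝 b))
    (h2 : ∀ n, Fl (cj (S n) N) P ξ (η * (1 / 2) ^ n)) : b ∈ P.commutant :=
  cyc_comm h fun x hx => norm_le_zero_iff.1 (by
    have := le_of_tendsto_of_tendsto' (((ContinuousLinearMap.apply ℂ K ξ).continuous.tendsto _).comp
      ((h1.mul_const x).sub (h1.const_mul x))).norm
      ((((tendsto_pow_atTop_nhds_zero_of_lt_one (r := (1 / 2 : ℝ)) (by norm_num)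
      (by norm_num)).const_mul η).mul h1.norm).mul_const ‖x‖) fun n => h2 n _ (cj_of ha) x hx
    simpa using this)

theorem sf_kk [TrAlg (MA M)] {D : Bim (MA M) K} (h : SF M ξ D) {m : ℕ → Pr (unitary (MA M))}
    (hm : HS m) (n1 : Nr M N δ) (n2 : Nr N M δ) (n3 : Nr M.commutant N.commutant δ)
    (n4 : Nr N.commutant M.commutant δ) (δ0 : 0 < δ) (δ1 : δ ≤ 1 / 10 ^ 46) :
    ∃ T : (Op K)ˣ, ‖(T : Op K) - 1‖ ≤ 2 * 10 ^ 6 * δ ∧ ∀ x, x ∈ M ↔ T * x * ↑T⁻¹ ∈ N := by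
  have cc := M.commutant_commutant
  obtain ⟨T₁, a1, -, a2⟩ := am (S := 1) (N := N) hm.gp (fun _ h => h) (fun _ _ => Gp.mul)
    ((D.L : MA M →* Op K).comp (unitary (MA M)).subtype) (fun g => (h.L _).symm ▸ bu g)
    (r := 0) δ0 (by linarith) (by simp) (by norm_num) ∅ (by simp) (by simp) fun g _ => by
      obtain ⟨y, y1, y2⟩ := n1 g.1.1 g.1.2
      refine ⟨y, by simpa [mem_cj] using y1, ?_⟩
      rw [norm_sub_rev]
      exact le_of_eq_of_le (congrArg (‖· - y‖) (h.L _))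
        (y2.trans (mul_le_of_le_one_right δ0.le (bu g)))
  rw [zero_add] at a1
  obtain ⟨T₂, b1, b2, b3⟩ := am (S := T₁) (N := N.commutant) hm.gp (fun _ h => h)
    (fun _ _ => Gp.mul) ⟨⟨fun g => D.R (g⁻¹ : unitary _), by simp [D.R_one]⟩, fun g g' => by
      simp [D.R_mul]⟩ (fun g => (D.R_le _).trans (bu _)) (t := 9 * (4 * δ)) (by positivity)
    (by linarith) a1 (by linarith) {f | ∃ g, Gp m g ∧ f = D.L g}
    (by rintro _ ⟨g, -, rfl⟩ g'; exact D.comm _ _)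
    (by rintro _ ⟨g, hg, rfl⟩; rw [N.commutant_commutant]; exact a2 g hg) fun g _ => by
      obtain ⟨y, y1, y2⟩ := (n3.mono (by linarith)).cj1 a1 (by linarith) _
        (h.Rm (g⁻¹ : unitary _))
      exact ⟨y, y1, (norm_sub_rev _ _).trans_le (y2.trans (mul_le_of_le_one_right (by positivity)
        ((D.R_le _).trans (bu _))))⟩
  rw [N.commutant_commutant] at b2
  obtain ⟨T, S, c1, c2, c3⟩ := newton (fun S η => (∀ g, Gp m g → D.L g ∈ cj S N ∧
      D.R g ∈ cj S N.commutant) ∧ Fl (cj S N.commutant) M ξ η ∧ Fl (cj S N) M.commutant ξ η)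
    (C := 288) (t := 2 * (9 * (148 * δ))) (r := 2 * 10 ^ 6 * δ) (r₀ := 148 * δ) (S₀ := T₂)
    (by norm_num) (by positivity) (by linarith) (fun S s s0 s1 s2 ⟨s3, s4, s5⟩ => by
      have i : δ ≤ 2 * 10 ^ 6 * δ := by linarith
      have j : 2 * 10 ^ 6 * δ ≤ 1 / 2 := by linarith
      obtain ⟨W, w1, w2, w3⟩ := nstep h hm ((n1.mono i).cj1 s2 j) ((n2.mono i).cj2 s2 j)
        ((n3.mono i).cj1 s2 j) ((n4.mono i).cj2 s2 j) (by positivity) (by linarith) s0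
        (by linarith) (fun g hg => (s3 g hg).1) (fun g hg => (s3 g hg).2) s4 s5
      refine ⟨S * W, ?_, fun g hg => ⟨cj_fix (s3 g hg).1 (w2 g hg).1,
        cj_fix (s3 g hg).2 (w2 g hg).2⟩, w3⟩
      have := nle (nle' (s2.trans j) P096.n1) w1
      rw [mul_sub, mul_one] at this
      exact this.trans (by linarith)) (by linarith) (by linarith)
    ⟨fun g hg => ⟨b2 _ ⟨g, hg, rfl⟩, by simpa using b3 _ hg.inv⟩,
      Nr.fl ((n4.mono (by linarith)).cj2 (by linarith) (by linarith)) h.nrm.le,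
      Nr.fl (cc.symm ▸ (n2.mono (by linarith)).cj2 (by linarith) (by linarith)) h.nrm.le⟩
  refine ⟨T, c1, fun x => ⟨fun hx => cj_mem fun y hy => ?_, fun hx => ?_⟩⟩
  · have := fl_lim h.std.cyc hy (c2 _ _ tendsto_const_nhds).2 fun n => (c3 n).2.1
    simpa [mul_assoc] using (commM hx this).symm
  · have := fl_lim h.std.comm.cyc hx (c2 _ _ tendsto_const_nhds).2 fun n => (c3 n).2.2
    simpa [mul_assoc, cc] using this

theorem std_kk [TopologicalSpace.SeparableSpace K] (h : Std M ξ) (h1 : ‖ξ‖ = 1)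
    (hfac : ∀ z ∈ M, (∀ x ∈ M, x * z = z * x) → ∃ c : ℂ, z = c • 1)
    (hinf : ¬ FiniteDimensional ℂ (MA M)) (n1 : Nr M N δ) (n2 : Nr N M δ) (δ0 : 0 < δ)
    (δ1 : kk * δ ≤ 1 / 10 ^ 47) :
    ∃ T : (Op K)ˣ, ‖(T : Op K) - 1‖ ≤ 4 * 10 ^ 6 * (kk * δ) ∧ ∀ x, x ∈ M ↔ T * x * ↑T⁻¹ ∈ N := by
  obtain ⟨_, D, h⟩ := h.exists_SF h1
  have := h.nw.cpl
  have := h.nw.sep
  obtain ⟨m, hm⟩ := exists_HS (A := MA M) ⟨C2_univ, fun z _ hz => by
    obtain ⟨c, hc⟩ := hfac z.1 z.2 fun x hx => congrArg Subtype.val (hz ⟨x, hx⟩ trivial)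
    have : z = c • 1 := Subtype.ext hc
    rw [this]; simp, fun T hT => hinf ⟨⟨T, eq_top_iff.2 fun z _ => hT trivial⟩⟩⟩
  have i : δ ≤ 2 * kk * δ := by nlinarith [kk1]
  obtain ⟨T, a, b⟩ := sf_kk h hm (n1.mono i) (n2.mono i) (n2.comm δ0) (n1.comm δ0) (by linarith)
    (by linarith)
  exact ⟨T, by linarith, b⟩

end Vale.Agent.P096
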