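import Vale.Agent.P096.Std

/-! The Newton iteration measured on the trace vector. -/

open Finset Vale.Agent.P104 Vale.Agent.P085 Filter Topology
open scoped InnerProductSpace

set_option linter.unusedSectionVars false

namespace Vale.Agent.P096

variable {K : Type*} [NormedAddCommGroup K] [InnerProductSpace ℂ K] [CompleteSpace K]
  {M N P : VonNeumannAlgebra K} {ξ : K} {S W : (Op K)ˣ} {δ η : ℝ}

/-- commutators are small on the vector `ξ` -/
def Fl (Q : Subalgebra ℂ (Op K)) (P : VonNeumannAlgebra K) (ξ : K) (η : ℝ) : Prop :=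
  ∀ a ∈ Q, ∀ x ∈ P, ‖(a * x - x * a) ξ‖ ≤ η * ‖a‖ * ‖x‖

lemma ale {a : Op K} {v : K} {r s : ℝ} (ha : ‖a‖ ≤ r) (hv : ‖v‖ ≤ s) : ‖a v‖ ≤ r * s :=
  (a.le_opNorm v).trans (mul_le_mul ha hv (norm_nonneg _) ((norm_nonneg _).trans ha))

lemma cle {a b : Op K} {r s : ℝ} (ha : ‖a‖ ≤ r) (hb : ‖b‖ ≤ s) : ‖a * b - b * a‖ ≤ 2 * r * s :=
  (norm_sub_le_of_le (nle ha hb) (nle hb ha)).trans_eq (by ring)

lemma Fl.le {Q : Subalgebra ℂ (Op K)} (h : Fl Q P ξ η) (η0 : 0 ≤ η) {a x : Op K} (ha : a ∈ Q)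
    (hx : x ∈ P) {r : ℝ} (h1 : ‖a‖ ≤ r) (h2 : ‖x‖ ≤ 1) : ‖(a * x - x * a) ξ‖ ≤ η * r :=
  (h a ha x hx).trans ((mul_le_of_le_one_right (by positivity) h2).trans (by gcongr))

lemma two {Q : Subalgebra ℂ (Op K)} (h1 : Nr P.commutant Q δ) (h2 : Fl Q P ξ η) (δ0 : 0 ≤ δ)
    (δ1 : δ ≤ 1 / 8) (η0 : 0 < η) (ξ1 : ‖ξ‖ ≤ 1) {p : Op K} (hp : p ∈ P.commutant) :
    ∃ a ∈ Q, ‖a - p‖ ≤ 4 * δ * ‖p‖ ∧ ‖(a - p) ξ‖ ≤ 17 * η * ‖p‖ := by
  have key : ∀ n : ℕ, ∀ p ∈ P.commutant, ∃ a ∈ Q, ‖a - p‖ ≤ 4 * δ * ‖p‖ ∧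
      ‖(a - p) ξ‖ ≤ (16 * η + (1 / 2) ^ n) * ‖p‖ := fun n => by
    induction n with
    | zero =>
      intro p hp
      obtain ⟨a, a1, a2⟩ := h1 p hp
      rw [norm_sub_rev] at a2
      have := mul_nonneg δ0 (norm_nonneg p)
      exact ⟨a, a1, by linarith, (ale a2 ξ1).trans (by rw [mul_one]; gcongr; simp; linarith)⟩
    | succ n ih =>
      intro p hp
      obtain ⟨a, a1, a2⟩ := h1 p hp
      rw [norm_sub_rev] at a2
      have p0 := norm_nonneg p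
      have d0 := mul_nonneg δ0 p0
      have d1 : δ * ‖p‖ ≤ 1 / 8 * ‖p‖ := by gcongr
      obtain ⟨m, m1, m2, m3⟩ := lemE (P := P) (ξ := ξ) (ζ := (a - p) ξ) (η := η * (2 * ‖p‖)) d0
        fun x hx x1 => by
          have := norm_sub_le_of_le ((a - p).le_of_opNorm_le a2 (x ξ))
            (h2.le η0.le a1 hx (r := 2 * ‖p‖) ((nle' a2 le_rfl).trans (by linarith)) x1)
          refine le_of_eq_of_le (congrArg _ ?_) this
          have : x (p ξ) = p (x ξ) := congr($(commM hx hp) ξ)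
          simp [this]
      obtain ⟨b, b1, b2, b3⟩ := ih m m1
      refine ⟨a - b, sub_mem a1 b1, ?_, ?_⟩
      · have := norm_sub_le_of_le (norm_sub_le_of_le a2 m2) b2
        rw [show a - p - m - (b - m) = a - b - p by abel] at this
        nlinarith [mul_le_mul_of_nonneg_left m2 δ0]
      · have := norm_sub_le_of_le m3 b3
        rw [show (a - p) ξ - m ξ - (b - m) ξ = (a - b - p) ξ by simp only [sub_apply]; abel] at this
        have q : (16 * η + (1 / 2) ^ n) * ‖m‖ ≤ (16 * η + (1 / 2) ^ n) * (1 / 2 * ‖p‖) := by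
          gcongr; linarith
        rw [pow_succ]; linarith
  obtain ⟨n, hn⟩ := exists_pow_lt_of_lt_one η0 (by norm_num : (1 / 2 : ℝ) < 1)
  obtain ⟨a, a1, a2, a3⟩ := key n p hp
  exact ⟨a, a1, a2, a3.trans (by gcongr; linarith)⟩

lemma upd {b : Op K} (hW : (W : Op K) = 1 - b) (hb : ‖b‖ ≤ 144 * η) (h1 : Nr (cj S N) M δ)
    (h2 : Fl (cj S N) P ξ η) (δ0 : 0 ≤ δ) (δ1 : δ ≤ 1 / 10 ^ 6) (η0 : 0 < η) (η1 : η ≤ 1 / 10 ^ 8)
    (ξ1 : ‖ξ‖ ≤ 1) (key : ∀ p ∈ M, ‖p‖ ≤ 1 → ∀ x ∈ P, ‖x‖ ≤ 1 → ∃ a ∈ cj S N, ‖a - p‖ ≤ 4 * δ ∧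
      ‖(a * x - x * a) ξ + ((b * p - p * b) * x - x * (b * p - p * b)) ξ‖ ≤ η / 25) :
    Fl (cj (S * W) N) P ξ (η / 2) := by
  have w1 : ‖(W : Op K) - 1‖ ≤ 144 * η := by rwa [hW, sub_sub_cancel_left, norm_neg]
  have w2 := inv_near w1 (by linarith)
  have k : ∀ a ∈ cj (S * W) N, ‖a‖ ≤ 1 / 2 → ∀ x ∈ P, ‖x‖ ≤ 1 → ‖(a * x - x * a) ξ‖ ≤ η / 4 := by
    intro a₁ ha a1 x hx x1
    obtain ⟨a, a2⟩ : ∃ a, a = W * a₁ * ↑W⁻¹ := ⟨_, rfl⟩
    have a3 : a ∈ cj S N := a2 ▸ cj_mul.1 ha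
    have a4 : ‖a‖ ≤ 3 / 4 := by
      have := nle' (conj_un w1 (by linarith) a₁).1 a1
      rw [a2]; nlinarith
    obtain ⟨p, p1, p2⟩ := h1 a a3
    have p3 : ‖a - p‖ ≤ δ := p2.trans (mul_le_of_le_one_right δ0 (by linarith))
    obtain ⟨c, c1, c2, c3⟩ := key p p1 ((nle' (norm_sub_rev a p ▸ p3) a4).trans (by linarith)) x hx x1
    have e1 := h2.le η0.le (sub_mem a3 c1) hx (r := 5 * δ) (by
      have := norm_sub_le_of_le p3 c2
      rw [sub_sub_sub_cancel_right] at this; linarith) x1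
    have e2 := ale (cle (cle hb p3) x1) ξ1
    have e3 := ale (cle (norm_sub_le_of_le (nle (nle hb w2) a4) (nle (nle w2 a4) hb)) x1) ξ1
    have e4 : (↑W⁻¹ : Op K) = 1 + b * ↑W⁻¹ := by
      rw [← W.mul_inv, hW]; noncomm_ring
    have e5 : a₁ = a + (b * a - a * b) + (b * (↑W⁻¹ - 1) * a - (↑W⁻¹ - 1) * a * b) := by
      have : a₁ = ↑W⁻¹ * a * W := by simp [a2, mul_assoc]
      rw [this, hW]
      nth_rewrite 1 [mul_sub, mul_one, e4]
      noncomm_ring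
    refine le_of_eq_of_le (congrArg _ ?_) ((norm_add_le_of_le (norm_add_le_of_le
      (norm_add_le_of_le e1 c3) e2) e3).trans (by nlinarith))
    simp only [← add_apply]
    rw [e5]; congr 1; noncomm_ring
  intro a ha x hx
  rcases eq_or_ne a 0 with rfl | a0
  · simp
  rcases eq_or_ne x 0 with rfl | x0
  · simp
  have a1 := norm_pos_iff.2 a0
  have x1 := norm_pos_iff.2 x0
  have := k ((((2 * ‖a‖)⁻¹ : ℝ) : ℂ) • a) (Subalgebra.smul_mem _ ha _) (by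
    rw [norm_smul, Complex.norm_real, Real.norm_of_nonneg (by positivity)]; field_simp; rfl)
    (((‖x‖⁻¹ : ℝ) : ℂ) • x) (smulM _ hx) (by simp [norm_smul, x0])
  simp only [smul_mul_smul_comm, mul_comm ((‖x‖⁻¹ : ℝ) : ℂ), ← smul_sub, smul_apply, norm_smul,
    norm_mul, Complex.norm_real] at this
  rw [Real.norm_of_nonneg (by positivity), Real.norm_of_nonneg (by positivity), ← mul_inv,
    inv_mul_le_iff₀ (by positivity)] at this
  linarith

variable [TrAlg (MA M)] {D : Bim (MA M) K} {m : ℕ → Pr (unitary (MA M))}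

lemma nstep (h : SF M ξ D) (hm : HS m) (n1 : Nr M (cj S N) δ) (n2 : Nr (cj S N) M δ)
    (n3 : Nr M.commutant (cj S N.commutant) δ) (n4 : Nr (cj S N.commutant) M.commutant δ)
    (δ0 : 0 < δ) (δ1 : δ ≤ 1 / 10 ^ 38) (η0 : 0 < η) (η1 : η ≤ 1 / 10 ^ 8)
    (g1 : ∀ g, Gp m g → D.L g ∈ cj S N) (g2 : ∀ g, Gp m g → D.R g ∈ cj S N.commutant)
    (f1 : Fl (cj S N.commutant) M ξ η) (f2 : Fl (cj S N) M.commutant ξ η) :
    ∃ W : (Op K)ˣ, ‖(W : Op K) - 1‖ ≤ 144 * η ∧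
      (∀ g, Gp m g → D.L g * W = W * D.L g ∧ D.R g * W = W * D.R g) ∧
      Fl (cj (S * W) N.commutant) M ξ (η / 2) ∧ Fl (cj (S * W) N) M.commutant ξ (η / 2) := by
  have ξ1 := h.nrm.le
  choose a a1 a2 a3 using fun z => two n3 f1 δ0.le (by linarith) η0 ξ1 (h.Rm z)
  choose n b1 b2 b3 using fun z : MA M => two (P := M.commutant) (p := z.1)
    (by rwa [M.commutant_commutant]) f2 δ0.le (by linarith) η0 ξ1 (by
      rw [M.commutant_commutant]; exact z.2)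
  have r1 : ∀ z, ‖z‖ ≤ 1 → ‖D.R z‖ ≤ 1 := fun z hz => (D.R_le z).trans hz
  have a4 : ∀ z, ‖z‖ ≤ 1 → ‖a z - D.R z‖ ≤ 4 * δ := fun z hz =>
    (a2 z).trans (mul_le_of_le_one_right (by positivity) (r1 z hz))
  have a5 : ∀ z, ‖z‖ ≤ 1 → ‖(a z - D.R z) ξ‖ ≤ 17 * η := fun z hz =>
    (a3 z).trans (mul_le_of_le_one_right (by positivity) (r1 z hz))
  have a6 : ∀ z, ‖z‖ ≤ 1 → ‖a z‖ ≤ 2 := fun z hz => (nle' (a4 z hz) (r1 z hz)).trans (by linarith)
  have b4 : ∀ z, ‖z‖ ≤ 1 → ‖n z - z.1‖ ≤ 4 * δ := fun z hz =>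
    (b2 z).trans (mul_le_of_le_one_right (by positivity) hz)
  have b5 : ∀ z, ‖z‖ ≤ 1 → ‖(n z - z.1) ξ‖ ≤ 17 * η := fun z hz =>
    (b3 z).trans (mul_le_of_le_one_right (by positivity) hz)
  have cm : ∀ (x z : MA M), x.1 * D.R z = D.R z * x.1 := fun x z => commM x.2 (h.Rm z)
  obtain ⟨t, ht⟩ : ∃ t : ℂ, t = ((2 * η : ℝ) : ℂ) := ⟨_, rfl⟩
  have t0 : t ≠ 0 := by rw [ht]; exact_mod_cast (by positivity : 2 * η ≠ 0)
  have t1 : ∀ v : K, ‖t • v‖ = 2 * η * ‖v‖ := fun v => by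
    rw [norm_smul, ht, Complex.norm_real, Real.norm_of_nonneg (by positivity)]
  have t2 : ∀ (v : K) (s : ℝ), ‖v‖ ≤ 2 * η * s → ‖t⁻¹ • v‖ ≤ s := fun v s hv => by
    rw [← smul_inv_smul₀ t0 v, t1] at hv
    exact le_of_mul_le_mul_left hv (by positivity)
  have lr : ∀ x z : MA M, ‖x‖ ≤ 1 → ‖z‖ ≤ 1 →
      ‖(a z * x.1 - x.1 * a z) ξ - (n x * D.R z - D.R z * n x) ξ‖ ≤ 2 * η * (80 * δ) :=
    fun x z hx hz => by
      have := norm_sub_le_of_le (ale (b4 x hx) (a5 z hz)) (ale (a4 z hz) (b5 x hx))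
      refine le_of_eq_of_le (congrArg _ ?_) (this.trans (by nlinarith))
      simp only [← mul_apply_eq_comp, ← sub_apply, mul_sub, sub_mul, cm, cj_comm (b1 x) (a1 z)]
      congr 1; abel
  have ac : AC D (80 * δ) 1 (fun x z => t⁻¹ • (a z * x.1 - x.1 * a z) ξ)
      fun x z => t⁻¹ • (n x * D.R z - D.R z * n x) ξ :=
    { lin := fun z => ⟨fun x y => by simp [smul_sub]; abel, fun c x => by
        simp [smul_sub, smul_comm c]⟩
      lin' := fun z => ⟨fun x y => by simp [smul_sub]; abel, fun c x => by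
        simp [smul_sub, smul_comm c]⟩
      lr := fun x z hx hz => by rw [← smul_sub]; exact t2 _ _ (lr x z hx hz)
      bd := fun x z hx hz => t2 _ _ ((f1.le η0.le (a1 z) x.2 (a6 z hz) hx).trans_eq (by ring))
      coc := fun x y z hx hy hz => by
        simp only [map_smul, ← smul_sub, ← smul_add]
        refine t2 _ _ ?_
        have e1 := ale (cle (a4 z hz) (show ‖x.1‖ ≤ 1 from hx)) (a5 y hy)
        have e2 := ale (a4 z hz) (f1.le η0.le (a1 y) x.2 (a6 y hy) hx)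
        have e3 := f1.le η0.le (sub_mem (mul_mem (a1 z) (a1 y)) (a1 (y * z))) x.2 (r := 16 * δ) (by
          have := norm_sub_le_of_le (norm_add_le_of_le (nle (a4 z hz) (a6 y hy))
            (nle (r1 z hz) (a4 y hy))) (a4 _ (bm hy hz))
          refine le_of_eq_of_le (congrArg _ ?_) (this.trans (by linarith))
          rw [D.R_mul]; noncomm_ring) hx
        refine le_of_eq_of_le (congrArg _ ?_) ((norm_sub_le_of_le (norm_sub_le_of_le e3 e1) e2).trans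
          (by nlinarith))
        have q : ∀ v, x.1 (D.R z v) = D.R z (x.1 v) := fun v => congr($(cm x z) v)
        simp only [h.L, sub_apply, mul_apply_eq_comp, map_sub, MulMemClass.coe_mul, h.Rv, q]
        abel
      one := fun z => by simp
      one' := fun z => by simp [D.R_one] }
  obtain ⟨φ, p1, p2, p3, p4⟩ := ac.solve (by positivity) (by linarith) hm (NW.et h.nw)
    (fun g hg x hx => ⟨by
      have := cj_comm (g1 g hg) (a1 x)
      rw [h.L] at this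
      simp only [this, sub_self, zero_apply, smul_zero, norm_zero]; positivity, by
      simpa only [cj_comm (b1 x) (g2 g hg), sub_self, zero_apply, smul_zero, sub_zero] using
        ac.lr x g hx (bu g)⟩) (fun x v => (h.S12 hm x v).1) (fun x v => (h.S12 hm x v).2)
    (fun x z => .of (by
      simpa [h.L] using ((((a z).continuous.tendsto _).comp (h.S12 hm x ξ).1).sub
        (h.S12 hm x (a z ξ)).1).const_smul t⁻¹))
    fun x z => .of (by
      simpa using ((((n z).continuous.tendsto _).comp (h.S12 hm x ξ).2).sub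
        (h.S12 hm x (n z ξ)).2).const_smul t⁻¹)
  obtain ⟨b, q1, q2, q3⟩ := ext_op (ev M ξ) (t • p1.mk' φ) (C := 144 * η) (by positivity) fun x => by
    have := p2 x
    rw [h.n2] at this
    rw [LinearMap.smul_apply, t1, IsLinearMap.mk'_apply, ev_apply]; nlinarith
  obtain ⟨W, hW⟩ := exists_un (W := 1 - b) (by rw [sub_sub_cancel_left, norm_neg]; linarith)
  have q4 : ∀ x : MA M, b (x.1 ξ) = t • φ x := q2
  have q5 : ∀ x z : MA M, ‖x‖ ≤ 1 → ‖z‖ ≤ 1 → ‖(a z * x.1 - x.1 * a z) ξ +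
      ((b * D.R z - D.R z * b) * x.1 - x.1 * (b * D.R z - D.R z * b)) ξ‖ ≤ η / 50 :=
    fun x z hx hz => by
      have := mul_le_mul_of_nonneg_left (p4 x z hx hz) (by positivity : 0 ≤ 2 * η)
      rw [← t1] at this
      refine le_of_eq_of_le (congrArg _ ?_) (this.trans_eq (by ring))
      have q : ∀ v, x.1 (D.R z v) = D.R z (x.1 v) := fun v => congr($(cm x z) v)
      simp only [smul_sub, smul_add, smul_inv_smul₀ t0, Bim.dl, ← map_smul, ← q4, h.L, sub_apply,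
        mul_apply_eq_comp, map_sub, MulMemClass.coe_mul, ← h.Rv z, q, OneMemClass.coe_one,
        one_apply_eq_self]
      abel
  have rx : ∀ x y : MA M, D.R y (x.1 ξ) = (x * y).1 ξ := fun x y =>
    congr($(cm x y) ξ).symm.trans (congrArg x.1 (h.Rv y))
  refine ⟨W, by rwa [hW, sub_sub_cancel_left, norm_neg], fun g hg => ⟨?_, ?_⟩,
    upd hW q1 n4 f1 δ0.le (by linarith) η0 η1 ξ1 fun p p1 p2 x x1 x2 => ?_,
    upd hW q1 n2 f2 δ0.le (by linarith) η0 η1 ξ1 fun x x1 x2 p p1 p2 => ?_⟩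
  · rw [hW, mul_sub, sub_mul, mul_one, one_mul, q3 _ (fun x => ⟨g * x, by rw [h.L]; rfl, by
      simp [(p3 g hg x).1]⟩) fun x => ⟨star g.1 * x, by rw [h.L]; rfl⟩]
  · rw [hW, mul_sub, sub_mul, mul_one, one_mul, q3 _ (fun x => ⟨x * g, rx _ _, by
      simp [(p3 g hg x).2]⟩) fun x => ⟨x * star g.1, by rw [← D.R_star]; exact rx _ _⟩]
  · obtain ⟨z, rfl, z1⟩ := h.onto p p1
    exact ⟨a z, a1 z, a4 z (z1.trans p2), (q5 ⟨x, x1⟩ z x2 (z1.trans p2)).trans (by linarith)⟩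
  · obtain ⟨z, rfl, z1⟩ := h.onto p p1
    refine ⟨n ⟨x, x1⟩, b1 _, b4 _ x2, ?_⟩
    have := norm_sub_le_of_le (q5 ⟨x, x1⟩ z x2 (z1.trans p2)) (lr ⟨x, x1⟩ z x2 (z1.trans p2))
    refine le_of_eq_of_le (congrArg _ ?_) (this.trans (by nlinarith))
    have q : ∀ v, x (D.R z v) = D.R z (x v) := fun v => congr($(cm ⟨x, x1⟩ z) v)
    simp only [sub_apply, mul_apply_eq_comp, map_sub, q]
    abel

end Vale.Agent.P096
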