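import Vale.Agent.P096.Der

/-! Invertible operators near the identity. -/

open Finset Vale.Agent.P104 Vale.Agent.P085 Filter Topology
open scoped InnerProductSpace

set_option linter.unusedSectionVars false

namespace Vale.Agent.P096

variable {K : Type*} [NormedAddCommGroup K] [InnerProductSpace ℂ K] [CompleteSpace K]

lemma n1 : ‖(1 : Op K)‖ ≤ 1 := ContinuousLinearMap.norm_id_le

lemma nle {a b : Op K} {r s : ℝ} (ha : ‖a‖ ≤ r) (hb : ‖b‖ ≤ s) : ‖a * b‖ ≤ r * s :=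
  (norm_mul_le _ _).trans (mul_le_mul ha hb (norm_nonneg _) ((norm_nonneg _).trans ha))

lemma nle' {a b : Op K} {r s : ℝ} (ha : ‖a - b‖ ≤ r) (hb : ‖b‖ ≤ s) : ‖a‖ ≤ r + s := by
  simpa using norm_add_le_of_le ha hb

lemma inv_near {S : (Op K)ˣ} {ε : ℝ} (h : ‖(S : Op K) - 1‖ ≤ ε) (hε : ε ≤ 1 / 2) :
    ‖(↑S⁻¹ : Op K) - 1‖ ≤ 2 * ε := by
  have a := nle (nle' (le_refl ‖(↑S⁻¹ : Op K) - 1‖) n1) h
  rw [mul_sub, S.inv_mul, mul_one, norm_sub_rev] at a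
  nlinarith [norm_nonneg ((↑S⁻¹ : Op K) - 1), (norm_nonneg _).trans h]

lemma exists_un {W : Op K} (h : ‖W - 1‖ ≤ 1 / 2) : ∃ S : (Op K)ˣ, (S : Op K) = W :=
  ⟨Units.oneSub (1 - W) (by rw [norm_sub_rev]; linarith), by simp⟩

lemma conj_near {a b : Op K} {r s : ℝ} (ha : ‖a - 1‖ ≤ r) (hb : ‖b - 1‖ ≤ s) (x : Op K) :
    ‖a * x * b - x‖ ≤ (r * s + r + s) * ‖x‖ := by
  have := norm_add_le_of_le (norm_add_le_of_le (nle (nle ha (le_refl ‖x‖)) hb)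
    (nle ha (le_refl ‖x‖))) (nle (le_refl ‖x‖) hb)
  exact le_of_eq_of_le (congrArg _ (by noncomm_ring)) (this.trans_eq (by ring))

lemma conj_un {S : (Op K)ˣ} {ε : ℝ} (h : ‖(S : Op K) - 1‖ ≤ ε) (hε : ε ≤ 1 / 2) (x : Op K) :
    ‖S * x * ↑S⁻¹ - x‖ ≤ 4 * ε * ‖x‖ ∧ ‖↑S⁻¹ * x * S - x‖ ≤ 4 * ε * ‖x‖ := by
  have e0 := (norm_nonneg _).trans h
  exact ⟨(conj_near h (inv_near h hε) x).trans (by gcongr; nlinarith),
    (conj_near (inv_near h hε) h x).trans (by gcongr; nlinarith)⟩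

lemma inv_sa {p : (Op K)ˣ} (ps : star (p : Op K) = p) : star (↑p⁻¹ : Op K) = ↑p⁻¹ :=
  (p.inv_eq_of_mul_eq_one_right (by
    nth_rewrite 1 [← ps]; rw [← star_mul, p.inv_mul, star_one])).symm

lemma exists_seq {α : Type*} {P : ℕ → α → Prop} {Q : ℕ → α → α → Prop} (h0 : ∃ a, P 0 a)
    (h : ∀ n a, P n a → ∃ b, P (n + 1) b ∧ Q n a b) :
    ∃ f : ℕ → α, (∀ n, P n (f n)) ∧ ∀ n, Q n (f n) (f (n + 1)) := by
  obtain ⟨a, ha⟩ := h0
  choose g g1 g2 using h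
  let f : ∀ n, {a // P n a} := fun n => Nat.rec ⟨a, ha⟩ (fun n x => ⟨g n x.1 x.2, g1 n x.1 x.2⟩) n
  exact ⟨fun n => (f n).1, fun n => (f n).2, fun n => g2 n _ (f n).2⟩

lemma exists_sq {T : Op K} (t0 : 0 ≤ T) :
    ∃ p : Op K, 0 ≤ p ∧ p * p = T ∧ ∀ y, Commute T y → Commute p y :=
  ⟨CFC.sqrt T, CFC.sqrt_nonneg _, CFC.sqrt_mul_sqrt_self _ t0, fun _ hy => hy.cfcₙ_nnreal _⟩

lemma polar_near {W : Op K} {ε : ℝ} (h : ‖W - 1‖ ≤ ε) (hε : ε ≤ 1 / 6) :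
    ∃ u ∈ unitary (Op K), ∃ p : (Op K)ˣ, W = u * p ∧ star (p : Op K) = p ∧
      (p : Op K) * p = star W * W ∧ (∀ y, Commute (star W * W) y → Commute (p : Op K) y) ∧
      ‖(p : Op K) - 1‖ ≤ 3 * ε ∧ ‖u - 1‖ ≤ 8 * ε := by
  have e0 := (norm_nonneg _).trans h
  obtain ⟨p, p0, p2, p4⟩ := exists_sq (star_mul_self_nonneg W)
  have t1 : ‖star W * W - 1‖ ≤ 3 * ε := by
    have := conj_near (a := star W) (r := ε) (by rwa [← norm_star, star_sub, star_star, star_one]) h 1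
    rw [mul_one] at this
    exact this.trans ((mul_le_of_le_one_right (by positivity) n1).trans (by nlinarith))
  obtain ⟨r, -, r2, r3⟩ := exists_inv (add_nonneg p0 zero_le_one) fun ξ => by
    have := qf_nonneg p0 ξ
    rw [← qf_one]; simp only [qf, add_apply, inner_add_right, Complex.add_re] at this ⊢; linarith
  have p1 : ‖p - 1‖ ≤ 3 * ε := by
    have := nle t1 r3
    rwa [← p2, show p * p - 1 = (p - 1) * (p + 1) by noncomm_ring,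
      mul_assoc, r2, mul_one, mul_one] at this
  obtain ⟨p, rfl⟩ := exists_un (p1.trans (by linarith))
  obtain ⟨S, rfl⟩ := exists_un (h.trans (by linarith))
  have ps : star (p : Op K) = p := p0.isSelfAdjoint.star_eq
  have qs := inv_sa ps
  have u1 : star ((S : Op K) * ↑p⁻¹) * (S * ↑p⁻¹) = 1 := by
    rw [star_mul, qs, mul_assoc, ← mul_assoc (star _), ← p2]; simp
  have p3 := inv_near p1 (by linarith)
  have u2 : (S : Op K) * ↑p⁻¹ * (p * ↑S⁻¹) = 1 := by simp [mul_assoc]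
  have u3 : ‖(S : Op K) * ↑p⁻¹ - 1‖ ≤ 8 * ε := by
    have := conj_near h p3 1
    rw [mul_one] at this
    exact this.trans ((mul_le_of_le_one_right (by positivity) n1).trans (by nlinarith))
  have u4 : (S : Op K) * ↑p⁻¹ ∈ unitary (Op K) := ⟨u1, by rw [left_inv_eq_right_inv u1 u2, u2]⟩
  exact ⟨_, u4, p, (p.inv_mul_cancel_right _).symm, ps, p2, p4, p1, u3⟩

lemma mem_of_apx {E : Type*} [NormedAddCommGroup E] {S : Set E} (hS : IsClosed S) {y : E} {C : ℝ}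
    (h : ∀ n : ℕ, ∃ m ∈ S, ‖y - m‖ ≤ C * (1 / 2) ^ n) : y ∈ S := by
  choose m h1 h2 using h
  refine hS.mem_of_tendsto (f := m) (b := atTop) ?_ (.of_forall h1)
  rw [tendsto_iff_norm_sub_tendsto_zero]
  refine squeeze_zero (fun _ => norm_nonneg _) (fun n => (norm_sub_rev _ _).trans_le (h2 n)) ?_
  simpa using (tendsto_pow_atTop_nhds_zero_of_lt_one (r := (1 / 2 : ℝ)) (by norm_num)
    (by norm_num)).const_mul C

lemma vn_cl (M : VonNeumannAlgebra K) : IsClosed (M : Set (Op K)) := vn_closed M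

lemma sqrt_inv {M : VonNeumannAlgebra K} {a b : Op K}
    (h1 : ∀ x, ‖a * x * b - x‖ ≤ 1 / 4 * ‖x‖) (h2 : ∀ x ∈ M, a * (a * x * b) * b ∈ M) :
    ∀ x ∈ M, a * x * b ∈ M := by
  have key : ∀ n : ℕ, ∀ x ∈ M, ∃ m ∈ M, ‖a * x * b - x - m‖ ≤ 1 / 4 * ‖x‖ * (1 / 2) ^ n := by
    intro n
    induction n with
    | zero => exact fun x _ => ⟨0, zero_mem _, by simpa using h1 x⟩
    | succ n ih =>
      intro x hx
      obtain ⟨m, m1, m2⟩ := ih x hx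
      obtain ⟨m', m3, m4⟩ := ih m m1
      have p1 : (1 / 2 : ℝ) ^ n ≤ 1 := pow_le_one₀ (by norm_num) (by norm_num)
      have p0 : 0 ≤ (1 / 2 : ℝ) ^ n := by positivity
      have x0 := norm_nonneg x
      have a1 := norm_sub_le_of_le (h1 x) m2
      rw [sub_sub_cancel] at a1
      have a2 := norm_add_le_of_le m4 (h1 (a * x * b - x - m))
      refine ⟨(2 : ℂ)⁻¹ • (a * (a * x * b) * b - x - m'), smulM _ (sub_mem (sub_mem (h2 x hx) hx) m3),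
        ?_⟩
      rw [show a * x * b - x - (2 : ℂ)⁻¹ • (a * (a * x * b) * b - x - m') = -(2 : ℂ)⁻¹ •
        (a * m * b - m - m' + (a * (a * x * b - x - m) * b - (a * x * b - x - m))) by
          simp only [mul_sub, sub_mul]; module, norm_smul, norm_neg, norm_inv, pow_succ]
      have a3 : ‖m‖ * (1 / 2) ^ n ≤ 1 / 2 * ‖x‖ * (1 / 2) ^ n := by
        gcongr; nlinarith
      simp only [Complex.norm_ofNat]
      nlinarith
  intro x hx
  simpa using add_mem (mem_of_apx (vn_cl M) fun n => key n x hx) hx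

theorem gardner {M N : VonNeumannAlgebra K} {W : (Op K)ˣ} {ε : ℝ} (h : ‖(W : Op K) - 1‖ ≤ ε)
    (hε : ε ≤ 1 / 48) (hW : ∀ x, x ∈ M ↔ W * x * ↑W⁻¹ ∈ N) :
    ∃ u ∈ unitary (Op K), ‖u - 1‖ ≤ 8 * ε ∧ ∀ x, x ∈ M ↔ u * x * star u ∈ N := by
  obtain ⟨u, hu, p, h1, h2, h3, -, h5, h6⟩ := polar_near h (by linarith)
  have h7 := inv_sa h2
  have h8 : (↑W⁻¹ : Op K) = ↑p⁻¹ * star u := by
    refine W.inv_eq_of_mul_eq_one_right ?_
    rw [h1, mul_assoc, p.mul_inv_cancel_left, hu.2]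
  have u1 : ∀ y, star u * (u * y) = y := fun y => by rw [← mul_assoc, hu.1, one_mul]
  have k : ∀ x, x ∈ M ↔ u * (p * x * ↑p⁻¹) * star u ∈ N := fun x => by
    rw [hW, h8, h1]; simp only [mul_assoc]
  have a := sqrt_inv (M := M) (a := p) (b := ↑p⁻¹) (fun x => (conj_un h5 (by linarith) x).1.trans
    (by gcongr; linarith)) fun x hx => by
      have := (k (↑p⁻¹ * star (p * x * ↑p⁻¹) * p)).2 (by
        simpa [mul_assoc] using star_mem ((k x).1 hx))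
      simpa [mul_assoc, h2, h7] using star_mem this
  refine ⟨u, hu, h6, fun x => ⟨fun hx => ?_, fun hx => ?_⟩⟩
  · simpa [mul_assoc, h2, h7] using (k _).1 (star_mem (a _ (star_mem hx)))
  · simpa [mul_assoc] using a _ ((k (↑p⁻¹ * x * p)).2 (by simpa [mul_assoc] using hx))

lemma newton (Φ : (Op K)ˣ → ℝ → Prop) {C t r : ℝ} (C0 : 0 ≤ C) (t0 : 0 < t) (r1 : r ≤ 1 / 2)
    (hs : ∀ (S : (Op K)ˣ) s, 0 < s → s ≤ t → ‖(S : Op K) - 1‖ ≤ r → Φ S s →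
      ∃ S' : (Op K)ˣ, ‖(S' : Op K) - S‖ ≤ C * s ∧ Φ S' (s / 2))
    {S₀ : (Op K)ˣ} {r₀ : ℝ} (h0 : ‖(S₀ : Op K) - 1‖ ≤ r₀) (h1 : r₀ + 2 * C * t ≤ r) (h2 : Φ S₀ t) :
    ∃ (T : (Op K)ˣ) (S : ℕ → (Op K)ˣ), ‖(T : Op K) - 1‖ ≤ r ∧
      (∀ x : ℕ → Op K, ∀ y, Tendsto x atTop (𝓝 y) →
        Tendsto (fun n => S n * x n * ↑(S n)⁻¹) atTop (𝓝 (T * y * ↑T⁻¹)) ∧
        Tendsto (fun n => ↑(S n)⁻¹ * x n * S n) atTop (𝓝 (↑T⁻¹ * y * T))) ∧
      ∀ n, Φ (S n) (t * (1 / 2) ^ n) := by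
  have p1 : ∀ n, (1 / 2 : ℝ) ^ n ≤ 1 := fun n => pow_le_one₀ (by norm_num) (by norm_num)
  have Ct := mul_nonneg C0 t0.le
  obtain ⟨S, s1, s2⟩ := exists_seq (α := (Op K)ˣ)
    (P := fun n S => ‖(S : Op K) - 1‖ ≤ r - 2 * C * t * (1 / 2) ^ n ∧ Φ S (t * (1 / 2) ^ n))
    (Q := fun n S S' => ‖(S' : Op K) - S‖ ≤ C * t * (1 / 2) ^ n)
    ⟨S₀, by simp; linarith, by simpa using h2⟩ fun n S ⟨a1, a2⟩ => by
      have q := mul_nonneg Ct (by positivity : (0 : ℝ) ≤ (1 / 2) ^ n)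
      obtain ⟨S', b1, b2⟩ := hs S _ (by positivity) (mul_le_of_le_one_right t0.le (p1 n))
        (by linarith) a2
      have := norm_add_le_of_le b1 a1
      rw [sub_add_sub_cancel] at this
      exact ⟨S', ⟨by rw [pow_succ]; linarith, by rwa [pow_succ, ← mul_assoc, mul_one_div]⟩,
        by linarith⟩
  obtain ⟨T, hT⟩ := cauchySeq_tendsto_of_complete (cauchySeq_of_le_geometric (1 / 2) (C * t)
    (by norm_num) (f := fun n => (S n : Op K)) fun n => by rw [dist_comm, dist_eq_norm]; exact s2 n)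
  have T1 : ‖T - 1‖ ≤ r := le_of_tendsto' (hT.sub_const 1).norm fun n => by
    have := mul_nonneg Ct (by positivity : (0 : ℝ) ≤ (1 / 2) ^ n)
    linarith [(s1 n).1]
  obtain ⟨T, rfl⟩ := exists_un (T1.trans r1)
  have T2 : Tendsto (fun n => (↑(S n)⁻¹ : Op K)) atTop (𝓝 ↑T⁻¹) := by
    simpa [Function.comp_def] using (NormedRing.inverse_continuousAt T).tendsto.comp hT
  exact ⟨T, S, T1, fun x y h => ⟨(hT.mul h).mul T2, (T2.mul h).mul hT⟩, fun n => (s1 n).2⟩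

end Vale.Agent.P096
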