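import Mathlib

/-! Finitely supported probability measures as a monad of averaging operators. -/

open Finset

namespace Vale.Agent.P096

structure Pr (α : Type*) where
  w : α →₀ ℝ
  nn : ∀ a, 0 ≤ w a
  one : w.sum (fun _ r => r) = 1

namespace Pr

variable {α β γ : Type*} {V W : Type*} [AddCommGroup V] [Module ℝ V] [AddCommGroup W] [Module ℝ W]

noncomputable def ex (σ : Pr α) (F : α → V) : V := ∑ a ∈ σ.w.support, σ.w a • F a

def All (σ : Pr α) (p : α → Prop) : Prop := ∀ a, σ.w a ≠ 0 → p a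

lemma All.of (σ : Pr α) {p : α → Prop} (h : ∀ a, p a) : σ.All p := fun a _ => h a

lemma All.mono {σ : Pr α} {p q : α → Prop} (h : σ.All p) (h' : ∀ a, p a → q a) : σ.All q :=
  fun a ha => h' a (h a ha)

lemma All.and {σ : Pr α} {p q : α → Prop} (h : σ.All p) (h' : σ.All q) :
    σ.All fun a => p a ∧ q a := fun a ha => ⟨h a ha, h' a ha⟩

lemma ex_lc (σ : Pr α) (F : α → V) : σ.ex F = Finsupp.linearCombination ℝ F σ.w := rfl

lemma ex_congr {σ : Pr α} {F G : α → V} (h : σ.All fun a => F a = G a) : σ.ex F = σ.ex G :=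
  sum_congr rfl fun a ha => by rw [h a (Finsupp.mem_support_iff.1 ha)]

@[simp] lemma ex_const (σ : Pr α) (v : V) : σ.ex (fun _ => v) = v := by
  rw [ex, ← sum_smul]
  have := σ.one
  rw [Finsupp.sum] at this
  rw [this, one_smul]

lemma ex_map (σ : Pr α) (F : α → V) (T : V → W) (h1 : ∀ x y, T (x + y) = T x + T y)
    (h2 : ∀ (r : ℝ) x, T (r • x) = r • T x) : T (σ.ex F) = σ.ex fun a => T (F a) := by
  let L : V →ₗ[ℝ] W := ⟨⟨T, h1⟩, h2⟩
  change L _ = _
  simp only [ex, map_sum, map_smul]; rfl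

lemma ex_add (σ : Pr α) (F G : α → V) : σ.ex (fun a => F a + G a) = σ.ex F + σ.ex G := by
  simp only [ex, smul_add, sum_add_distrib]

lemma ex_sub (σ : Pr α) (F G : α → V) : σ.ex (fun a => F a - G a) = σ.ex F - σ.ex G := by
  simp only [ex, smul_sub, sum_sub_distrib]

lemma ex_neg (σ : Pr α) (F : α → V) : σ.ex (fun a => -F a) = -σ.ex F := by
  simp only [ex, smul_neg, sum_neg_distrib]

lemma ex_mul (σ : Pr α) (c : ℝ) (F : α → ℝ) : σ.ex (fun a => c * F a) = c * σ.ex F := by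
  simp only [ex, smul_eq_mul, mul_sum, mul_left_comm]

lemma ex_comm (σ : Pr α) (τ : Pr β) (F : α → β → V) :
    (σ.ex fun a => τ.ex fun b => F a b) = τ.ex fun b => σ.ex fun a => F a b := by
  simp only [ex, smul_sum]
  rw [sum_comm]
  exact sum_congr rfl fun _ _ => sum_congr rfl fun _ _ => smul_comm _ _ _

lemma ex_mono {σ : Pr α} {F G : α → ℝ} (h : σ.All fun a => F a ≤ G a) : σ.ex F ≤ σ.ex G :=
  sum_le_sum fun a ha => mul_le_mul_of_nonneg_left (h a (Finsupp.mem_support_iff.1 ha)) (σ.nn a)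

lemma ex_le {σ : Pr α} {F : α → ℝ} {c : ℝ} (h : σ.All fun a => F a ≤ c) : σ.ex F ≤ c :=
  (ex_mono h).trans_eq (σ.ex_const c)

lemma le_ex {σ : Pr α} {F : α → ℝ} {c : ℝ} (h : σ.All fun a => c ≤ F a) : c ≤ σ.ex F :=
  (σ.ex_const c).symm.trans_le (ex_mono h)

lemma ex_mem (σ : Pr α) {S : Set V} (hS : Convex ℝ S) {F : α → V} (h : σ.All fun a => F a ∈ S) :
    σ.ex F ∈ S :=
  hS.sum_mem (fun a _ => σ.nn a) σ.one fun a ha => h a (Finsupp.mem_support_iff.1 ha)

lemma ext' {σ τ : Pr α} (h : ∀ F : α → ℝ, σ.ex F = τ.ex F) : σ = τ := by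
  classical
  have k : ∀ (σ : Pr α) a, σ.ex (Pi.single a (1 : ℝ) : α → ℝ) = σ.w a := fun σ a => by
    simp only [ex, Pi.single_apply, smul_eq_mul, mul_ite, mul_one, mul_zero, sum_ite_eq']
    split_ifs with h
    · rfl
    · exact (Finsupp.notMem_support_iff.1 h).symm
  have : σ.w = τ.w := Finsupp.ext fun a => by rw [← k, ← k, h]
  cases σ; cases τ; congr

noncomputable def pure (a : α) : Pr α where
  w := Finsupp.single a 1
  nn b := by classical rw [Finsupp.single_apply]; split_ifs <;> norm_num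
  one := by simp

@[simp] lemma ex_pure (a : α) (F : α → V) : (pure a).ex F = F a := by
  simp [ex_lc, pure]

noncomputable def bind (σ : Pr α) (τ : α → Pr β) : Pr β where
  w := σ.ex fun a => (τ a).w
  nn b := by
    rw [σ.ex_map _ (fun f : β →₀ ℝ => f b) (fun _ _ => rfl) fun _ _ => rfl]
    exact le_ex (.of _ fun a => (τ a).nn b)
  one := by
    have := σ.ex_map (fun a => (τ a).w) (Finsupp.linearCombination ℝ fun _ : β => (1 : ℝ))
      (map_add _) (map_smul _)
    have h2 : ∀ f : β →₀ ℝ, Finsupp.linearCombination ℝ (fun _ : β => (1 : ℝ)) f =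
      f.sum fun _ r => r := fun f => by simp [Finsupp.linearCombination_apply]
    simp only [h2, one, ex_const] at this
    exact this

@[simp] lemma ex_bind (σ : Pr α) (τ : α → Pr β) (F : β → V) :
    (σ.bind τ).ex F = σ.ex fun a => (τ a).ex F :=
  σ.ex_map (fun a => (τ a).w) (Finsupp.linearCombination ℝ F) (map_add _) (map_smul _)

lemma all_iff {σ : Pr α} {p : α → Prop} [DecidablePred p] :
    σ.All p ↔ σ.ex (fun a => if p a then (0 : ℝ) else 1) ≤ 0 := by
  refine ⟨fun h => ex_le (h.mono fun a ha => by rw [if_pos ha]), fun h a ha => ?_⟩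
  by_contra hp
  have := single_le_sum (f := fun a => σ.w a • if p a then (0 : ℝ) else 1)
    (fun a _ => smul_nonneg (σ.nn a) (by split_ifs <;> norm_num)) (Finsupp.mem_support_iff.2 ha)
  simp only [if_neg hp, smul_eq_mul, mul_one] at this
  exact ha (le_antisymm (this.trans h) (σ.nn a))

lemma All.pure {a : α} {p : α → Prop} (h : p a) : (pure a).All p := by
  classical
  rw [all_iff]; simp [h]

lemma All.bind {σ : Pr α} {τ : α → Pr β} {p : β → Prop} (h : σ.All fun a => (τ a).All p) :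
    (σ.bind τ).All p := by
  classical
  rw [all_iff, ex_bind]; exact ex_le (h.mono fun a ha => all_iff.1 ha)

noncomputable def map (σ : Pr α) (f : α → β) : Pr β := σ.bind fun a => pure (f a)

@[simp] lemma ex_map' (σ : Pr α) (f : α → β) (F : β → V) :
    (σ.map f).ex F = σ.ex fun a => F (f a) := by simp [map]

noncomputable def ofFin {ι : Type*} [Fintype ι] (t : ι → ℝ) (h0 : ∀ i, 0 ≤ t i)
    (h1 : ∑ i, t i = 1) : Pr ι where
  w := Finsupp.equivFunOnFinite.symm t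
  nn := h0
  one := by rw [Finsupp.sum_fintype _ _ fun _ => rfl]; exact h1

lemma ex_ofFin {ι : Type*} [Fintype ι] (t : ι → ℝ) (h0 : ∀ i, 0 ≤ t i) (h1 : ∑ i, t i = 1)
    (F : ι → V) : (ofFin t h0 h1).ex F = ∑ i, t i • F i := by
  rw [ex_lc, Finsupp.linearCombination_apply, Finsupp.sum_fintype _ _ (by simp)]; rfl

noncomputable def unif (ι : Type*) [Fintype ι] [Nonempty ι] : Pr ι :=
  ofFin (fun _ => (Fintype.card ι : ℝ)⁻¹) (fun _ => by positivity) (by simp)

lemma ex_unif {ι : Type*} [Fintype ι] [Nonempty ι] (F : ι → V) :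
    (unif ι).ex F = (Fintype.card ι : ℝ)⁻¹ • ∑ i, F i := by
  rw [unif, ex_ofFin, smul_sum]

noncomputable def half (a b : α) : Pr α := (unif Bool).map fun c => if c then a else b

lemma ex_half (a b : α) (F : α → V) : (half a b).ex F = (2 : ℝ)⁻¹ • (F a + F b) := by
  simp [half, ex_unif]

section norm
variable {E : Type*} [SeminormedAddCommGroup E] [NormedSpace ℝ E]

lemma norm_ex_le (σ : Pr α) (F : α → E) : ‖σ.ex F‖ ≤ σ.ex fun a => ‖F a‖ :=
  (norm_sum_le _ _).trans (sum_le_sum fun a _ => by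
    rw [norm_smul, Real.norm_of_nonneg (σ.nn a)]; rfl)

lemma norm_ex {σ : Pr α} {F : α → E} {c : ℝ} (h : σ.All fun a => ‖F a‖ ≤ c) : ‖σ.ex F‖ ≤ c :=
  (σ.norm_ex_le F).trans (ex_le h)

lemma norm_ex' (σ : Pr α) {F : α → E} {c : ℝ} (h : ∀ a, ‖F a‖ ≤ c) : ‖σ.ex F‖ ≤ c :=
  norm_ex (.of _ h)

lemma sq_ex_le (σ : Pr α) (F : α → ℝ) : σ.ex F ^ 2 ≤ σ.ex fun a => F a ^ 2 := by
  have := le_ex (σ := σ) (F := fun a => F a ^ 2 - (2 * σ.ex F) * F a + σ.ex F ^ 2) (c := 0)
    (.of _ fun a => by nlinarith [sq_nonneg (F a - σ.ex F)])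
  rw [ex_add, ex_sub, ex_mul, ex_const] at this
  linarith

lemma normsq_ex_le (σ : Pr α) (F : α → E) : ‖σ.ex F‖ ^ 2 ≤ σ.ex fun a => ‖F a‖ ^ 2 :=
  (pow_le_pow_left₀ (norm_nonneg _) (σ.norm_ex_le F) 2).trans (σ.sq_ex_le _)

end norm

section clm
variable {E E' : Type*} [SeminormedAddCommGroup E] [NormedSpace ℂ E] [SeminormedAddCommGroup E']
  [NormedSpace ℂ E']

lemma clm_ex (σ : Pr α) (T : E →L[ℂ] E') (F : α → E) : T (σ.ex F) = σ.ex fun a => T (F a) :=
  σ.ex_map F T (map_add T) (T.map_smul_of_tower)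

lemma ex_app (σ : Pr α) (T : α → E →L[ℂ] E') (x : E) : σ.ex T x = σ.ex fun a => T a x :=
  σ.ex_map T (fun S => S x) (fun _ _ => rfl) fun _ _ => rfl

end clm

section ring
variable {R : Type*} [Ring R] [Algebra ℝ R]

lemma mul_ex (σ : Pr α) (x : R) (F : α → R) : x * σ.ex F = σ.ex fun a => x * F a :=
  σ.ex_map F (x * ·) (mul_add x) fun _ _ => mul_smul_comm _ _ _

lemma ex_mul' (σ : Pr α) (x : R) (F : α → R) : σ.ex F * x = σ.ex fun a => F a * x :=
  σ.ex_map F (· * x) (fun _ _ => add_mul _ _ _) fun _ _ => smul_mul_assoc _ _ _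

end ring

section grp
variable {U : Type*} [Group U]

noncomputable def cv (σ τ : Pr U) : Pr U := σ.bind fun a => τ.map (a * ·)

@[simp] lemma ex_cv (σ τ : Pr U) (F : U → V) :
    (σ.cv τ).ex F = σ.ex fun a => τ.ex fun b => F (a * b) := by simp [cv]

noncomputable def pw (μ : Pr U) : ℕ → Pr U
  | 0 => pure 1
  | n + 1 => (pw μ n).cv μ

lemma pw_add (μ : Pr U) (m n : ℕ) : pw μ (m + n) = (pw μ m).cv (pw μ n) := by
  induction n with
  | zero => exact ext' fun F => by simp [pw]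
  | succ n ih => exact ext' fun F => by simp [← add_assoc, pw, ih, mul_assoc]

def Sy (σ : Pr U) : Prop := σ.map (·⁻¹) = σ

lemma Sy.ex {σ : Pr U} (h : σ.Sy) (F : U → V) : (σ.ex fun a => F a⁻¹) = σ.ex F := by
  conv_rhs => rw [← h]
  simp

lemma Sy.pw {μ : Pr U} (h : μ.Sy) (n : ℕ) : (pw μ n).Sy := by
  induction n with
  | zero => exact ext' fun F => by simp [Pr.pw]
  | succ n ih =>
    refine ext' fun F => ?_
    conv_rhs => rw [add_comm, pw_add]
    simp only [ex_map', Pr.pw, ex_cv, mul_inv_rev, ex_pure, one_mul]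
    rw [ex_comm, ← h.ex]
    simp only [inv_inv]
    exact congrArg _ (funext fun a => ih.ex fun b => F (a * b))

/-- two sided invariance -/
def Iv (σ : Pr U) (g : U) : Prop := σ.map (g * ·) = σ ∧ σ.map (· * g) = σ

lemma Iv.l {σ : Pr U} {g : U} (h : σ.Iv g) (F : U → V) : (σ.ex fun a => F (g * a)) = σ.ex F := by
  conv_rhs => rw [← h.1]
  simp

lemma Iv.r {σ : Pr U} {g : U} (h : σ.Iv g) (F : U → V) : (σ.ex fun a => F (a * g)) = σ.ex F := by
  conv_rhs => rw [← h.2]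
  simp

lemma Iv.mk' {σ : Pr U} {g : U} (h1 : ∀ F : U → ℝ, (σ.ex fun a => F (g * a)) = σ.ex F)
    (h2 : ∀ F : U → ℝ, (σ.ex fun a => F (a * g)) = σ.ex F) : σ.Iv g :=
  ⟨ext' fun F => by simp [h1], ext' fun F => by simp [h2]⟩

lemma Iv.cv {σ τ : Pr U} {g : U} (h : σ.Iv g) (h' : τ.Iv g) : (σ.cv τ).Iv g :=
  .mk' (fun F => by
    simp only [ex_cv, ← mul_assoc]; exact h.l fun a => τ.ex fun b => F (a * b))
  fun F => by
    simp only [ex_cv, mul_assoc]; exact congrArg _ (funext fun a => h'.r fun b => F (a * b))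

lemma Iv.pw {μ : Pr U} {g : U} (h : μ.Iv g) (n : ℕ) : (pw μ (n + 1)).Iv g := by
  induction n with
  | zero =>
    have : Pr.pw μ (0 + 1) = μ := ext' fun F => by simp [Pr.pw]
    rwa [this]
  | succ n ih => exact ih.cv h

/-- approximate invariance of `ν` under convolution by `σ` -/
def AI (E : Type*) [SeminormedAddCommGroup E] [NormedSpace ℝ E] (ν σ : Pr U) (ε : ℝ) : Prop :=
  ∀ (F : U → E) (B : ℝ), (∀ a, ‖F a‖ ≤ B) →
    ‖(σ.ex fun s => ν.ex fun w => F (s * w)) - ν.ex F‖ ≤ ε * B ∧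
    ‖(σ.ex fun s => ν.ex fun w => F (w * s)) - ν.ex F‖ ≤ ε * B

variable {E : Type*} [SeminormedAddCommGroup E] [NormedSpace ℝ E]

lemma Iv.ai {ν : Pr U} {g : U} (h : ν.Iv g) {ε : ℝ} (hε : 0 ≤ ε) : AI E ν (pure g) ε :=
  fun F B hF => by
    have := mul_nonneg hε ((norm_nonneg _).trans (hF 1))
    simp [h.l, h.r, this]

lemma ex_sum (σ : Pr α) {ι : Type*} (s : Finset ι) (F : ι → α → V) :
    (σ.ex fun a => ∑ i ∈ s, F i a) = ∑ i ∈ s, σ.ex (F i) := by
  simp only [ex, smul_sum]; exact sum_comm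

lemma ex_smul (σ : Pr α) (c : ℝ) (F : α → V) : (σ.ex fun a => c • F a) = c • σ.ex F :=
  (σ.ex_map F (c • ·) (smul_add c) fun _ _ => smul_comm _ _ _).symm

variable (E) in
lemma exists_nu (μ : Pr U) (n : ℕ) {ε : ℝ} (hε : 0 < ε) : ∃ ν : Pr U,
    (∀ j ≤ n, AI E ν (pw μ j) ε) ∧ ∀ g, μ.Iv g → ν.Iv g := by
  obtain ⟨N, hN⟩ := exists_nat_gt (2 * n / ε)
  have N0 : (0 : ℝ) < N + 1 := by positivity
  let ν : Pr U := (unif (Fin (N + 1))).bind fun i => pw μ (i + 1)
  have hν : ∀ {V : Type _} [AddCommGroup V] [Module ℝ V] (F : U → V),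
      ν.ex F = (N + 1 : ℝ)⁻¹ • ∑ i ∈ range (N + 1), (pw μ (i + 1)).ex F := fun F => by
    simp only [ν, ex_bind, ex_unif, Fintype.card_fin]
    rw [Fin.sum_univ_eq_sum_range (fun i => (pw μ (i + 1)).ex F)]; simp
  have hν' : ∀ (F : U → ℝ),
      ν.ex F = (N + 1 : ℝ)⁻¹ • ∑ i ∈ range (N + 1), (pw μ (i + 1)).ex F := fun F => by
    simp only [ν, ex_bind, ex_unif, Fintype.card_fin]
    rw [Fin.sum_univ_eq_sum_range (fun i => (pw μ (i + 1)).ex F)]; simp
  refine ⟨ν, fun j hj F B hF => ?_, fun g hg => .mk' (fun F => ?_) fun F => ?_⟩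
  · have B0 := (norm_nonneg _).trans (hF 1)
    have key : ‖(N + 1 : ℝ)⁻¹ • ∑ i ∈ range (N + 1), (pw μ (j + (i + 1))).ex F - ν.ex F‖ ≤
        ε * B := by
      have e1 := sum_range_add (fun i => (pw μ (i + 1)).ex F) j (N + 1)
      have e2 := sum_range_add (fun i => (pw μ (i + 1)).ex F) (N + 1) j
      rw [add_comm j] at e1
      simp only [add_assoc j] at e1
      have e3 : ∑ i ∈ range (N + 1), (pw μ (j + (i + 1))).ex F -
          ∑ i ∈ range (N + 1), (pw μ (i + 1)).ex F = ∑ i ∈ range j, (pw μ (N + 1 + i + 1)).ex F -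
          ∑ i ∈ range j, (pw μ (i + 1)).ex F := by
        rw [sub_eq_sub_iff_add_eq_add, add_comm, ← e1, e2, add_comm]
      have b : ∀ f : ℕ → ℕ, ‖∑ i ∈ range j, (pw μ (f i)).ex F‖ ≤ n * B := fun f =>
        (norm_sum_le_of_le _ fun i _ => (pw μ (f i)).norm_ex' hF).trans (by
          rw [sum_const, card_range, nsmul_eq_mul]; gcongr)
      rw [hν, ← smul_sub, e3, norm_smul, Real.norm_of_nonneg (by positivity),
        inv_mul_le_iff₀ N0]
      rw [div_lt_iff₀ hε] at hN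
      have := norm_sub_le_of_le (b fun i => N + 1 + i + 1) (b fun i => i + 1)
      nlinarith [mul_nonneg hε.le B0]
    constructor <;> refine le_of_eq_of_le ?_ key <;> congr 2
    · simp only [hν, ex_smul, ex_sum, pw_add μ j, ex_cv]
    · rw [ex_comm]
      simp only [hν, add_comm j, pw_add μ (_ + 1), ex_cv]
  · simp only [hν']; congr 1; exact sum_congr rfl fun i _ => (hg.pw i).l F
  · simp only [hν']; congr 1; exact sum_congr rfl fun i _ => (hg.pw i).r F

end grp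

end Pr

end Vale.Agent.P096
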