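import Vale.Agent.P096.Spec

/-! The two real projections of Rieffel and van Daele. -/

open Finset Vale.Agent.P104 Vale.Agent.P085 Filter Topology Complex
open scoped InnerProductSpace

set_option linter.unusedSectionVars false

namespace Vale.Agent.P096.RV

variable {H : Type*} [NormedAddCommGroup H] [InnerProductSpace ℂ H] [CompleteSpace H]

lemma exists_rproj (K : Submodule ℝ H) (hK : IsClosed (K : Set H)) :
    ∃ P : H →L[ℝ] H, (∀ v, P v ∈ K) ∧ ∀ v, ∀ k ∈ K, (⟪k, P v⟫_ℂ).re = (⟪k, v⟫_ℂ).re := by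
  let _ : InnerProductSpace ℝ H := InnerProductSpace.complexToReal
  have _ : CompleteSpace K := hK.completeSpace_coe
  refine ⟨K.starProjection, fun v => K.starProjection_apply_mem v, fun v k hk => ?_⟩
  have h := K.starProjection_inner_eq_zero v k hk
  rw [real_inner_comm, inner_sub_right, sub_eq_zero] at h
  exact h.symm

lemma ext_re {a b : ℂ} (h1 : a.re = b.re) (h2 : (I * a).re = (I * b).re) : a = b := by
  apply Complex.ext h1
  simpa using h2

lemma re_comm (u v : H) : (⟪u, v⟫_ℂ).re = (⟪v, u⟫_ℂ).re := by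
  rw [← inner_conj_symm, conj_re]

lemma re_self (u : H) : (⟪u, u⟫_ℂ).re = ‖u‖ ^ 2 := by
  rw [inner_self_eq_norm_sq_to_K]; norm_cast

lemma smul_split (c : ℂ) (v : H) : c • v = c.re • v + c.im • (I • v) := by
  rw [← Complex.coe_smul, ← Complex.coe_smul, smul_smul, ← add_smul, re_add_im]

lemma II (v : H) : I • I • v = -v := by rw [smul_smul, I_mul_I, neg_one_smul]

/-- The data from which the modular theory is built. -/
structure Dat (M : VonNeumannAlgebra H) (ξ : H) (R : Op H) (C : H →SL[starRingEnd ℂ] H) :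
    Prop where
  R0 : 0 ≤ R
  R2 : 0 ≤ 2 - R
  sym : ∀ u v, ⟪u, C v⟫_ℂ = ⟪v, C u⟫_ℂ
  CC : ∀ v, C (C v) = R ((2 - R) v)
  CR : ∀ v, C (R v) = (2 - R) (C v)
  i0 : ∀ v, R v = 0 → v = 0
  i2 : ∀ v, (2 - R) v = 0 → v = 0
  CM : ∀ x ∈ M, C (star x ξ) = (2 - R) (x ξ)
  Rξ : R ξ = ξ
  PQ : ∀ v, ∀ x ∈ M, (∀ y ∈ M, ⟪y ξ, v⟫_ℂ = ⟪y ξ, x ξ⟫_ℂ + ⟪star x ξ, star y ξ⟫_ℂ) →
    R v = (2 : ℂ) • x ξ ∧ C v = (2 : ℂ) • star x ξ

/-- The real subspace. -/
def K00 (M : VonNeumannAlgebra H) (ξ : H) : Submodule ℝ H where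
  carrier := {v | ∃ x ∈ M, star x = x ∧ x ξ = v}
  zero_mem' := ⟨0, zero_mem _, star_zero _, rfl⟩
  add_mem' := by
    rintro _ _ ⟨x, hx, hx', rfl⟩ ⟨y, hy, hy', rfl⟩
    exact ⟨x + y, add_mem hx hy, by rw [star_add, hx', hy'], rfl⟩
  smul_mem' := by
    rintro c _ ⟨x, hx, hx', rfl⟩
    exact ⟨(c : ℂ) • x, smulM _ hx, by rw [star_smul, hx']; simp, by simp⟩

lemma dec {M : VonNeumannAlgebra H} {x : Op H} (hx : x ∈ M) : ∃ a ∈ M, ∃ b ∈ M,
    star a = a ∧ star b = b ∧ x = a + I • b := by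
  refine ⟨(1 / 2 : ℂ) • (x + star x), smulM _ (add_mem hx (star_mem hx)),
    (-I / 2) • (x - star x), smulM _ (sub_mem hx (star_mem hx)), ?_, ?_, ?_⟩
  · rw [star_smul, star_add, star_star, add_comm]; simp
  · rw [star_smul, star_sub, star_star, ← neg_sub, smul_neg, ← neg_smul]; simp [neg_div]
  · rw [smul_smul, show I * (-I / 2) = 1 / 2 by rw [← mul_div_assoc, mul_neg, I_mul_I, neg_neg],
      ← smul_add]
    module

lemma zero_of {M : VonNeumannAlgebra H} {ξ v : H} (h : DenseRange (ev M ξ))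
    (h' : ∀ x ∈ M, star x = x → ⟪x ξ, v⟫_ℂ = 0) : v = 0 := by
  have : ∀ u, ⟪u, v⟫_ℂ = 0 := fun u => h.induction_on u (isClosed_eq (by fun_prop) (by fun_prop))
    fun x => by
      obtain ⟨a, ha, b, hb, h1, h2, e⟩ := dec x.2
      rw [ev_apply, e]
      simp [h' a ha h1, h' b hb h2]
  exact inner_self_eq_zero.1 (this v)

lemma two_sub (R : Op H) (v : H) : (2 - R) v = v + v - R v := by
  rw [← one_add_one_eq_two]; rfl

lemma exists_RC (P : H →L[ℝ] H) (PP : ∀ v, P (P v) = P v)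
    (Ps : ∀ u v, (⟪u, P v⟫_ℂ).re = (⟪P u, v⟫_ℂ).re) :
    ∃ (R : Op H) (C : H →SL[starRingEnd ℂ] H), (∀ v, R v = P v - I • P (I • v)) ∧
      (∀ v, C v = P v + I • P (I • v)) ∧ 0 ≤ R ∧ 0 ≤ 2 - R ∧ (∀ u v, ⟪u, C v⟫_ℂ = ⟪v, C u⟫_ℂ) ∧
      (∀ v, C (C v) = R ((2 - R) v)) ∧ (∀ v, C (R v) = (2 - R) (C v)) ∧
      (∀ v, R v = 0 → P v = 0 ∧ P (I • v) = 0) ∧
      ∀ v, (2 - R) v = 0 → P v = v ∧ P (I • v) = I • v := by
  have Pn : ∀ v, (⟪v, P v⟫_ℂ).re = ‖P v‖ ^ 2 := fun v => by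
    rw [← re_self, ← Ps, PP]
  have Pd : ∀ v, ‖v - P v‖ ^ 2 = ‖v‖ ^ 2 - ‖P v‖ ^ 2 := fun v => by
    have := norm_sub_sq (𝕜 := ℂ) v (P v)
    rw [RCLike.re_to_complex, Pn] at this
    linarith
  obtain ⟨Q, hQ⟩ : ∃ Q : H → H, ∀ v, Q v = -(I • P (I • v)) := ⟨_, fun _ => rfl⟩
  have QI : ∀ v, Q (I • v) = I • P v := fun v => by simp [hQ, II]
  have IQ : ∀ v, I • Q v = P (I • v) := fun v => by simp [hQ, II]
  have Qadd : ∀ u v, Q (u + v) = Q u + Q v := fun u v => by simp [hQ, add_comm]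
  have Qsub : ∀ u v, Q (u - v) = Q u - Q v := fun u v => by
    simp only [hQ, smul_sub, map_sub]; abel
  have Qr : ∀ (c : ℝ) v, Q (c • v) = c • Q v := fun c v => by
    simp only [hQ, smul_neg, smul_comm I c, map_smul]
  have QQ : ∀ v, Q (Q v) = Q v := fun v => by rw [hQ (Q v), IQ, PP, hQ]
  have Qc : Continuous Q := by rw [funext hQ]; fun_prop
  have Qs : ∀ u v, (⟪u, Q v⟫_ℂ).re = (⟪Q u, v⟫_ℂ).re := fun u v => by
    have := Ps (I • u) (I • v)
    simp only [hQ, inner_neg_left, inner_neg_right, inner_smul_left, inner_smul_right] at this ⊢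
    simp at this ⊢
    linarith
  have Qn : ∀ v, (⟪v, Q v⟫_ℂ).re = ‖P (I • v)‖ ^ 2 := fun v => by
    rw [← Pn]
    simp [hQ, inner_smul_right]
  have nI : ∀ v : H, ‖I • v‖ = ‖v‖ := fun v => by simp [norm_smul]
  obtain ⟨R, Ra⟩ : ∃ R : Op H, ∀ v, R v = P v + Q v := ⟨
    { toFun := fun v => P v + Q v
      map_add' := fun u v => by rw [map_add, Qadd]; abel
      map_smul' := fun c v => by
        rw [smul_split c v, map_add, Qadd, map_smul, map_smul, Qr, Qr, QI, RingHom.id_apply,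
          smul_split c, smul_add I, IQ]
        module
      cont := by fun_prop }, fun _ => rfl⟩
  obtain ⟨C, Ca⟩ : ∃ C : H →SL[starRingEnd ℂ] H, ∀ v, C v = P v - Q v := ⟨
    { toFun := fun v => P v - Q v
      map_add' := fun u v => by rw [map_add, Qadd]; abel
      map_smul' := fun c v => by
        rw [smul_split c v, map_add, Qadd, map_smul, map_smul, Qr, Qr, QI,
          smul_split (starRingEnd ℂ c), smul_sub I, IQ, conj_re, conj_im]
        module
      cont := by fun_prop }, fun _ => rfl⟩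
  have Rs : ∀ u v, (⟪u, R v⟫_ℂ).re = (⟪R u, v⟫_ℂ).re := fun u v => by
    rw [Ra, Ra, inner_add_left, inner_add_right, add_re, add_re, Ps, Qs]
  have Cs : ∀ u v, (⟪u, C v⟫_ℂ).re = (⟪v, C u⟫_ℂ).re := fun u v => by
    rw [re_comm v, Ca, Ca, inner_sub_left, inner_sub_right, sub_re, sub_re, Ps, Qs]
  have Rsym : ∀ u v, ⟪R u, v⟫_ℂ = ⟪u, R v⟫_ℂ := fun u v => by
    refine ext_re (Rs u v).symm ?_
    have := Rs u (I • v)
    rw [map_smul, inner_smul_right, inner_smul_right] at this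
    exact this.symm
  have Rq : ∀ v, (⟪v, R v⟫_ℂ).re = ‖P v‖ ^ 2 + ‖P (I • v)‖ ^ 2 := fun v => by
    rw [Ra, inner_add_right, add_re, Pn, Qn]
  have R2q : ∀ v, (⟪v, (2 - R) v⟫_ℂ).re = ‖v - P v‖ ^ 2 + ‖I • v - P (I • v)‖ ^ 2 := fun v => by
    rw [two_sub, inner_sub_right, inner_add_right, sub_re, add_re, Rq, re_self, Pd, Pd, nI]
    ring
  have z2 : ∀ a b : H, 0 = ‖a‖ ^ 2 + ‖b‖ ^ 2 → a = 0 ∧ b = 0 := fun a b h =>
    ⟨norm_eq_zero.1 (by nlinarith [norm_nonneg a, sq_nonneg ‖b‖]),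
      norm_eq_zero.1 (by nlinarith [norm_nonneg b, sq_nonneg ‖a‖])⟩
  refine ⟨R, C, fun v => by rw [Ra, hQ, sub_eq_add_neg], fun v => by rw [Ca, hQ, sub_neg_eq_add],
    ?_, ?_, fun u v => ?_, fun v => ?_, fun v => ?_, fun v hv => ?_, fun v hv => ?_⟩
  · refine (ContinuousLinearMap.nonneg_iff_isPositive _).2 ⟨Rsym, fun v => ?_⟩
    show 0 ≤ (⟪R v, v⟫_ℂ).re
    rw [re_comm, Rq]; positivity
  · refine (ContinuousLinearMap.nonneg_iff_isPositive _).2 ⟨fun u v => ?_, fun v => ?_⟩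
    · show ⟪(2 - R) u, v⟫_ℂ = ⟪u, (2 - R) v⟫_ℂ
      rw [two_sub, two_sub, inner_sub_left, inner_sub_right, inner_add_left, inner_add_right, Rsym]
    · show 0 ≤ (⟪(2 - R) v, v⟫_ℂ).re
      rw [re_comm, R2q]; positivity
  · refine ext_re (Cs u v) ?_
    have := Cs (I • u) v
    rw [C.map_smulₛₗ, inner_smul_left, inner_smul_right] at this
    simp at this ⊢
    exact this
  · simp only [Ca, two_sub, Ra, map_sub, map_add, Qsub, Qadd, PP, QQ]
    abel
  · simp only [Ca, two_sub, Ra, map_sub, map_add, Qsub, Qadd, PP, QQ]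
    abel
  · have a := Rq v
    rw [hv, inner_zero_right, zero_re] at a
    exact z2 _ _ a
  · have a := R2q v
    rw [hv, inner_zero_right, zero_re] at a
    exact ⟨(sub_eq_zero.1 (z2 _ _ a).1).symm, (sub_eq_zero.1 (z2 _ _ a).2).symm⟩

theorem exists_dat (M : VonNeumannAlgebra H) (ξ : H) (h1 : DenseRange (ev M ξ))
    (h2 : DenseRange (ev M.commutant ξ)) : ∃ R C, Dat M ξ R C := by
  obtain ⟨P, hP, hP'⟩ := exists_rproj (K00 M ξ).topologicalClosure
    (K00 M ξ).isClosed_topologicalClosure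
  have km : ∀ x ∈ M, star x = x → x ξ ∈ (K00 M ξ).topologicalClosure := fun x hx hx' =>
    (K00 M ξ).le_topologicalClosure ⟨x, hx, hx', rfl⟩
  have kind : ∀ {p : H → Prop}, IsClosed {v | p v} → (∀ x ∈ M, star x = x → p (x ξ)) →
      ∀ k ∈ (K00 M ξ).topologicalClosure, p k := fun hp h k hk =>
    closure_minimal (s := (K00 M ξ : Set H)) (by rintro _ ⟨x, a, b, rfl⟩; exact h x a b) hp hk
  have uniq : ∀ v, ∀ w ∈ (K00 M ξ).topologicalClosure,
      (∀ x ∈ M, star x = x → (⟪x ξ, w⟫_ℂ).re = (⟪x ξ, v⟫_ℂ).re) → P v = w := by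
    intro v w hw h
    have a := kind (p := fun k => (⟪k, w⟫_ℂ).re = (⟪k, v⟫_ℂ).re)
      (isClosed_eq (by fun_prop) (by fun_prop)) h _ (sub_mem (hP v) hw)
    rw [← hP' v _ (sub_mem (hP v) hw), eq_comm, ← sub_eq_zero, ← sub_re, ← inner_sub_right,
      re_self] at a
    exact sub_eq_zero.1 (norm_eq_zero.1 (pow_eq_zero_iff two_ne_zero |>.1 a))
  obtain ⟨R, C, Ra, Ca, r0, r2, sy, cc, cr, i0, i2⟩ := exists_RC P
    (fun v => uniq _ _ (hP v) fun _ _ _ => rfl) fun u v => by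
      rw [re_comm, ← hP' u _ (hP v), re_comm, hP' v _ (hP u)]
  have CM0 : ∀ x ∈ M, star x = x → C (x ξ) = (2 - R) (x ξ) := fun x hx hx' => by
    rw [two_sub, Ra, Ca, uniq _ _ (km x hx hx') fun _ _ _ => rfl]; abel
  refine ⟨R, C, r0, r2, sy, cc, cr, fun v hv => ?_, fun v hv => ?_,
    fun x hx => ?_, ?_, fun v x hx h => ?_⟩
  · obtain ⟨a1, a2⟩ := i0 v hv
    refine zero_of h1 fun x hx hx' => ext_re ?_ ?_
    · rw [← hP' v _ (km x hx hx'), a1, inner_zero_right]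
    · rw [← inner_smul_right, ← hP' _ _ (km x hx hx'), a2, inner_zero_right, mul_zero]
  · obtain ⟨a1, a2⟩ := i2 v hv
    refine zero_of h2 fun y hy hy' => ?_
    have b := kind (p := fun k => (⟪y ξ, k⟫_ℂ).im = 0) (isClosed_eq (by fun_prop) (by fun_prop))
      fun x hx hx' => by
        rw [← conj_eq_iff_im, inner_conj_symm, ← hx', inner_star_l, ← hy', inner_star_l, hx', hy']
        exact congrArg _ congr($(commM hx hy) ξ)
    have b1 := b _ (hP v)
    have b2 := b _ (hP (I • v))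
    rw [a1] at b1
    rw [a2, inner_smul_right, I_mul_im] at b2
    exact Complex.ext b2 b1
  · obtain ⟨a, ha, b, hb, a1, b1, rfl⟩ := dec hx
    rw [star_add, star_smul, a1, b1]
    simp only [_root_.add_apply, _root_.smul_apply, map_add,
      C.map_smulₛₗ, map_smul, CM0 a ha a1, CM0 b hb b1]
    simp
  · have a : P (I • ξ) = 0 := uniq _ _ (zero_mem _) fun x hx hx' => by
      have : (⟪x ξ, ξ⟫_ℂ).im = 0 := by
        rw [← conj_eq_iff_im, inner_conj_symm, ← inner_star_l, hx']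
      simp [inner_smul_right, this]
    have b : P ξ = ξ := uniq _ _ (km 1 (one_mem _) (star_one _)) fun _ _ _ => rfl
    rw [Ra, b, a, smul_zero, sub_zero]
  · have a : P v = (x + star x) ξ :=
      uniq _ _ (km _ (add_mem hx (star_mem hx)) (by rw [star_add, star_star, add_comm]))
        fun y hy hy' => by
          rw [h y hy, hy', add_re, re_comm (star x ξ), _root_.add_apply,
            inner_add_right, add_re]
    have b : P (I • v) = (I • (x - star x)) ξ :=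
      uniq _ _ (km _ (smulM _ (sub_mem hx (star_mem hx))) (by
        rw [star_smul, star_sub, star_star, ← neg_sub, smul_neg, ← neg_smul]; simp))
        fun y hy hy' => by
          rw [inner_smul_right, h y hy, hy', ← inner_conj_symm (star x ξ),
            _root_.smul_apply, inner_smul_right, _root_.sub_apply,
            inner_sub_right, I_mul_re, I_mul_re, add_im, sub_im, conj_im, sub_eq_add_neg]
    rw [Ra, Ca, a, b, _root_.smul_apply, II, _root_.add_apply,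
      _root_.sub_apply, two_smul, two_smul]
    constructor <;> abel

end Vale.Agent.P096.RV
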