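import Vale.Agent.P096.Pre1

/-! Functions on the interval from zero to two, and the functional calculus. -/

open Vale.Agent.P104 Vale.Agent.P085 Filter Topology Complex
open scoped InnerProductSpace

set_option linter.unusedSectionVars false

namespace Vale.Agent.P096.RV

/-- The interval. -/
abbrev X : Type := Set.Icc (0 : ℝ) 2

/-- A real function as a complex one. -/
def oR (f : C(X, ℝ)) : C(X, ℂ) := ⟨fun r => (f r : ℂ), by fun_prop⟩

/-- The coordinate. -/
def ρ : C(X, ℂ) := ⟨fun r => (r.1 : ℂ), by fun_prop⟩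

/-- The reflection. -/
def fp : C(X, X) := ⟨fun r => ⟨2 - r.1, by have := r.2.1; have := r.2.2; constructor <;> linarith⟩,
  by fun_prop⟩

/-- Reflection and conjugation. -/
noncomputable def fl (f : C(X, ℂ)) : C(X, ℂ) := star (f.comp fp)

/-- The symmetric coordinate. -/
def sy (r : X) : ℝ := r.1 * (2 - r.1)

@[fun_prop] lemma sy_cont : Continuous sy := by unfold sy; fun_prop

/-- The square root of the symmetric coordinate. -/
noncomputable def τ : C(X, ℂ) := oR ⟨fun r => √(sy r), by fun_prop⟩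

/-- The cutoff. -/
noncomputable def ch (n : ℕ) (r : X) : ℝ := min 1 (max 0 ((n + 1) * sy r - 1))

/-- The cutoff. -/
noncomputable def χ (n : ℕ) : C(X, ℂ) := oR ⟨ch n, by unfold ch; fun_prop⟩

lemma e_pos (n : ℕ) : (0 : ℝ) < 1 / (2 * (n + 1)) := by positivity

/-- The truncated logarithm. -/
noncomputable def lg (n : ℕ) (r : X) : ℝ :=
  Real.log (max (2 - r.1) (1 / (2 * (n + 1)))) - Real.log (max r.1 (1 / (2 * (n + 1))))

@[fun_prop] lemma lg_cont (n : ℕ) : Continuous (lg n) :=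
  (Continuous.log (by fun_prop) fun _ => (lt_max_of_lt_right (e_pos n)).ne').sub
    (Continuous.log (by fun_prop) fun _ => (lt_max_of_lt_right (e_pos n)).ne')

/-- The truncated modular group. -/
noncomputable def E (n : ℕ) (z : ℂ) : C(X, ℂ) := ⟨fun r => cexp (I * z * lg n r), by fun_prop⟩

/-- The truncated inverse. -/
noncomputable def iv (n : ℕ) : C(X, ℂ) :=
  oR ⟨fun r => (√(max (sy r) (1 / (2 * (n + 1)))))⁻¹, Continuous.inv₀ (by fun_prop)
    fun _ => (Real.sqrt_pos.2 (lt_max_of_lt_right (e_pos n))).ne'⟩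

lemma two_app (r : X) : (2 : C(X, ℂ)) r = 2 := by
  rw [← one_add_one_eq_two (R := C(X, ℂ)), ← one_add_one_eq_two (R := ℂ)]; rfl
lemma χ_app (n : ℕ) (r : X) : χ n r = ch n r := rfl
lemma τ_app (r : X) : τ r = √(sy r) := rfl
lemma ρ_app (r : X) : ρ r = r.1 := rfl
lemma E_app (n : ℕ) (z : ℂ) (r : X) : E n z r = cexp (I * z * lg n r) := rfl
lemma iv_app (n : ℕ) (r : X) : iv n r = ((√(max (sy r) (1 / (2 * (n + 1)))))⁻¹ : ℝ) := rfl
lemma fl_app (f : C(X, ℂ)) (r : X) : fl f r = starRingEnd ℂ (f (fp r)) := rfl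

lemma sy_nn (r : X) : 0 ≤ sy r := mul_nonneg r.2.1 (sub_nonneg.2 r.2.2)
lemma sy_fp (r : X) : sy (fp r) = sy r := by simp [sy, fp]; ring
lemma ch_nn (n : ℕ) (r : X) : 0 ≤ ch n r := le_min zero_le_one (le_max_left _ _)
lemma ch_le (n : ℕ) (r : X) : ch n r ≤ 1 := min_le_left _ _

lemma supp {m : ℕ} {r : X} (h : ch m r ≠ 0) : 1 / (m + 1) < sy r := by
  by_contra h'
  rw [not_lt, le_div_iff₀ (by positivity)] at h'
  exact h (by rw [ch, max_eq_left (by linarith)]; simp)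

lemma supp' {m n : ℕ} (hm : m ≤ n) {r : X} (h : ch m r ≠ 0) : 1 / (2 * (n + 1)) ≤ sy r ∧
    1 / (2 * (n + 1)) ≤ r.1 ∧ 1 / (2 * (n + 1)) ≤ 2 - r.1 := by
  have h1 := supp h
  have h2 : (1 : ℝ) / (n + 1) ≤ 1 / (m + 1) := Nat.one_div_le_one_div hm
  have h3 : (1 : ℝ) / (2 * (n + 1)) = 1 / (n + 1) / 2 := by field_simp
  have h4 := e_pos n
  have a := r.2.1
  have b := r.2.2
  rw [h3] at h4 ⊢
  unfold sy at h1 ⊢
  refine ⟨by linarith, by nlinarith, by nlinarith⟩

lemma lg_eq {m n : ℕ} (hm : m ≤ n) {r : X} (h : ch m r ≠ 0) :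
    lg n r = Real.log (2 - r.1) - Real.log r.1 := by
  obtain ⟨-, a, b⟩ := supp' hm h
  rw [lg, max_eq_left a, max_eq_left b]

lemma extχ {f g : C(X, ℂ)} {m : ℕ} (h : ∀ r, ch m r ≠ 0 → f r = g r) : f * χ m = g * χ m := by
  ext r
  by_cases hr : ch m r = 0
  · simp [χ_app, hr]
  · simp [h r hr]

lemma E_χ {m n : ℕ} (hm : m ≤ n) (z : ℂ) : E n z * χ m = E m z * χ m :=
  extχ fun r hr => by rw [E_app, E_app, lg_eq hm hr, lg_eq le_rfl hr]

lemma E_add (n : ℕ) (z w : ℂ) : E n (z + w) = E n z * E n w := by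
  ext r; simp [E_app, ← exp_add, mul_add, add_mul]

lemma E_zero (n : ℕ) : E n 0 = 1 := by ext r; simp [E_app]

lemma star_E (n : ℕ) (t : ℝ) : star (E n t) = E n (-t : ℝ) := by
  ext r; simp [E_app, ← exp_conj]

lemma star_oR (f : C(X, ℝ)) : star (oR f) = oR f := by ext r; simp [oR]
lemma star_χ (n : ℕ) : star (χ n) = χ n := star_oR _
lemma star_τ : star τ = τ := star_oR _

lemma fl_χ (n : ℕ) : fl (χ n) = χ n := by ext r; simp [fl_app, χ_app, ch, sy_fp]
lemma fl_τ : fl τ = τ := by ext r; simp [fl_app, τ_app, sy_fp]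
lemma fl_mul (f g : C(X, ℂ)) : fl (f * g) = fl f * fl g := by ext r; simp [fl_app]
lemma fl_add (f g : C(X, ℂ)) : fl (f + g) = fl f + fl g := by ext r; simp [fl_app]
lemma fl_ρ : fl ρ = 2 - ρ := by ext r; simp [fl_app, ρ_app, fp, two_app, map_ofNat]
lemma fl_E (n : ℕ) (t : ℝ) : fl (E n t) = E n t := by
  ext r
  have : lg n (fp r) = -lg n r := by simp [lg, fp]
  simp [fl_app, E_app, this, ← exp_conj]
lemma fl_cont : Continuous fl := by unfold fl; fun_prop

lemma τ_sq : τ * τ = ρ * (2 - ρ) := by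
  ext r
  simp only [ContinuousMap.mul_apply, τ_app, ← ofReal_mul, Real.mul_self_sqrt (sy_nn r)]
  simp [sy, ρ_app, two_app]

lemma half {m : ℕ} {r : X} (h : ch m r ≠ 0) : iv m r = ((√(sy r))⁻¹ : ℝ) ∧ 0 < √(sy r) ∧
    Real.exp (lg m r / 2) = (2 - r.1) * (√(sy r))⁻¹ ∧
    Real.exp (-(lg m r / 2)) = r.1 * (√(sy r))⁻¹ := by
  obtain ⟨a, b, c⟩ := supp' le_rfl h
  have b' := (e_pos m).trans_le b
  have c' := (e_pos m).trans_le c
  have s0 := Real.sqrt_pos.2 ((e_pos m).trans_le a)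
  have s1 := Real.mul_self_sqrt (sy_nn r)
  have e1 : Real.exp (lg m r / 2) = (2 - r.1) * (√(sy r))⁻¹ := by
    refine (pow_left_inj₀ (Real.exp_pos _).le (by positivity) two_ne_zero).1 ?_
    rw [← Real.exp_nat_mul, show ((2 : ℕ) : ℝ) * (lg m r / 2) = lg m r by push_cast; ring,
      lg_eq le_rfl h, Real.exp_sub, Real.exp_log c', Real.exp_log b', mul_pow, inv_pow,
      Real.sq_sqrt (sy_nn r), sy]
    field_simp
  refine ⟨by rw [iv_app, max_eq_left a], s0, e1, ?_⟩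
  rw [Real.exp_neg, e1]
  field_simp
  rw [sq, s1, sy]

lemma τ_iv (n : ℕ) : τ * iv n * χ n = χ n := by
  rw [extχ (g := 1), one_mul]
  intro r hr
  obtain ⟨a, b, -⟩ := half hr
  rw [ContinuousMap.mul_apply, a, τ_app, ← ofReal_mul, mul_inv_cancel₀ b.ne']; rfl

lemma E_neg (n : ℕ) (r : X) : E n (-(I / 2)) r = Real.exp (lg n r / 2) := by
  rw [E_app, ofReal_exp]
  congr 1
  push_cast
  linear_combination (-(lg n r : ℂ) / 2) * I_mul_I

lemma two_iv (n : ℕ) : (2 - ρ) * iv n * χ n = E n (-(I / 2)) * χ n := extχ fun r hr => by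
  obtain ⟨a, -, b, -⟩ := half hr
  rw [E_neg, b, ContinuousMap.mul_apply, a]
  simp [ρ_app, two_app]

lemma ρ_iv (n : ℕ) : ρ * iv n * χ n = E n (I / 2) * χ n := extχ fun r hr => by
  obtain ⟨a, -, -, b⟩ := half hr
  have : E n (I / 2) r = Real.exp (-(lg n r / 2)) := by
    rw [E_app, ofReal_exp]
    congr 1
    push_cast
    linear_combination ((lg n r : ℂ) / 2) * I_mul_I
  rw [this, b, ContinuousMap.mul_apply, a]
  simp [ρ_app]

lemma norm_E (n : ℕ) (t : ℝ) : ‖E n t‖ ≤ 1 :=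
  (ContinuousMap.norm_le _ zero_le_one).2 fun r => by
    rw [E_app, norm_exp]; simp

lemma norm_χ (n : ℕ) : ‖χ n‖ ≤ 1 :=
  (ContinuousMap.norm_le _ zero_le_one).2 fun r => by
    rw [χ_app, norm_real, Real.norm_of_nonneg (ch_nn n r)]; exact ch_le n r

lemma lim_χ : Tendsto (fun n => χ n * τ) atTop (𝓝 τ) := by
  rw [tendsto_iff_norm_sub_tendsto_zero]
  have h : Tendsto (fun n : ℕ => √(2 * (1 / ((n : ℝ) + 1)))) atTop (𝓝 (√(2 * 0))) :=
    (tendsto_one_div_add_atTop_nhds_zero_nat.const_mul 2).sqrt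
  rw [mul_zero, Real.sqrt_zero] at h
  refine squeeze_zero (fun _ => norm_nonneg _) (fun n => ?_) h
  refine (ContinuousMap.norm_le _ (Real.sqrt_nonneg _)).2 fun r => ?_
  simp only [ContinuousMap.sub_apply, ContinuousMap.mul_apply, χ_app, τ_app, ← ofReal_mul,
    ← ofReal_sub, norm_real, Real.norm_eq_abs]
  by_cases h1 : sy r ≤ 2 * (1 / ((n : ℝ) + 1))
  · have := Real.sqrt_le_sqrt h1
    have a := ch_nn n r
    have b := ch_le n r
    have c := Real.sqrt_nonneg (sy r)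
    rw [abs_le]; constructor <;> nlinarith
  · rw [not_le, mul_one_div, div_lt_iff₀ (by positivity)] at h1
    rw [ch, min_eq_left (le_max_of_le_right (by linarith))]
    simp

lemma E_diff (n : ℕ) : Differentiable ℂ (E n) := by
  have : E n = fun z : ℂ => NormedSpace.exp (z • (I • oR ⟨lg n, lg_cont n⟩)) := by
    funext z
    ext r
    have := NormedSpace.map_exp (ContinuousMap.evalAlgHom ℂ ℂ r) (by
      show Continuous fun f : C(X, ℂ) => f r
      fun_prop) (z • (I • oR ⟨lg n, lg_cont n⟩))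
    refine Eq.trans ?_ this.symm
    rw [← exp_eq_exp_ℂ, E_app]
    congr 1
    simp [oR]; ring
  rw [this]
  intro z
  have h := (hasDerivAt_exp_smul_const (I • oR ⟨lg n, lg_cont n⟩) z).differentiableAt
  exact h

/-- The midpoint. -/
def o1 : X := ⟨1, by norm_num⟩

lemma χ_o1 : χ 1 o1 = 1 := by rw [χ_app]; norm_num [ch, sy, o1]
lemma τ_o1 : τ o1 = 1 := by rw [τ_app]; norm_num [sy, o1]
lemma E_o1 (n : ℕ) (z : ℂ) : E n z o1 = 1 := by rw [E_app]; norm_num [lg, o1]

lemma lip0 (a m t : ℝ) : ‖cexp (I * t * a) - cexp (I * t * m)‖ ≤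
    (4 * |t| + 4) * ‖cexp (-(m / 2)) * Real.exp (a / 2) - 1‖ := by
  have e1 : cexp (I * t * a) - cexp (I * t * m) =
      cexp (I * (t * m : ℝ)) * (cexp (I * (t * (a - m) : ℝ)) - 1) := by
    rw [mul_sub, ← exp_add]; push_cast; ring_nf
  have e2 : cexp (-(m / 2)) * Real.exp (a / 2) - 1 = (Real.exp ((a - m) / 2) - 1 : ℝ) := by
    push_cast; rw [← exp_add]; ring_nf
  rw [e1, e2, norm_mul, norm_exp_I_mul_ofReal, one_mul, norm_real, Real.norm_eq_abs]
  generalize a - m = d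
  have h1 : ‖cexp (I * (t * d : ℝ)) - 1‖ ≤ |t| * |d| := by
    rw [← abs_mul]; exact Real.norm_exp_I_mul_ofReal_sub_one_le
  have h2 : ‖cexp (I * (t * d : ℝ)) - 1‖ ≤ 2 := by
    refine (norm_sub_le _ _).trans ?_
    rw [norm_exp_I_mul_ofReal, norm_one]; norm_num
  have h3 : |d| / 2 ≤ (1 + |d| / 2) * |Real.exp (d / 2) - 1| := by
    rcases le_total 0 d with h | h
    · have := Real.add_one_le_exp (d / 2)
      rw [abs_of_nonneg h, abs_of_nonneg (by linarith)]
      nlinarith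
    · have a := Real.add_one_le_exp (-(d / 2))
      have b := Real.exp_pos (d / 2)
      have c : Real.exp (d / 2) * Real.exp (-(d / 2)) = 1 := by rw [← Real.exp_add]; simp
      have e : Real.exp (d / 2) ≤ 1 := Real.exp_le_one_iff.2 (by linarith)
      rw [abs_of_nonpos h, abs_of_nonpos (by linarith)]
      nlinarith
  have h4 := abs_nonneg t
  have h5 := abs_nonneg d
  have h6 := abs_nonneg (Real.exp (d / 2) - 1)
  rcases le_total |d| 2 with h | h
  · have : |d| ≤ 4 * |Real.exp (d / 2) - 1| := by nlinarith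
    nlinarith
  · have : 1 ≤ 2 * |Real.exp (d / 2) - 1| := by
      by_contra h'
      nlinarith
    nlinarith

lemma indX {p : C(X, ℂ) → Prop} (h0 : ∀ c, p (.const X c)) (h1 : p ρ)
    (add : ∀ f g, p f → p g → p (f + g)) (mul : ∀ f g, p f → p g → p (f * g))
    (cl : IsClosed {f | p f}) (f : C(X, ℂ)) : p f := by
  have hc : Continuous oR := ContinuousMap.continuous_postcomp ⟨ofReal, continuous_ofReal⟩
  have h : ∀ g : C(X, ℝ), p (oR g) := fun g => by
    refine ContinuousMap.induction_on_of_compact (p := fun g => p (oR g)) (fun c => h0 c) h1 h1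
      (fun f g a b => ?_) (fun f g a b => ?_) (fun f a => ?_) g
    · rw [show oR (f + g) = oR f + oR g by ext; simp [oR]]; exact add _ _ a b
    · rw [show oR (f * g) = oR f * oR g by ext; simp [oR]]; exact mul _ _ a b
    · exact (cl.preimage hc).closure_subset (mem_closure_iff_frequently.2 a)
  have e : f = oR ⟨fun r => (f r).re, by fun_prop⟩ + oR ⟨fun r => (f r).im, by fun_prop⟩ *
      .const X I := by ext r; simp [oR]
  rw [e]
  exact add _ _ (h _) (mul _ _ (h _) (h0 _))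

variable {H : Type*} [NormedAddCommGroup H] [InnerProductSpace ℂ H] [CompleteSpace H]

lemma exists_Φ {R : Op H} (h0 : 0 ≤ R) (h2 : 0 ≤ 2 - R) :
    ∃ Φ : C(X, ℂ) →⋆ₐ[ℂ] Op H, Φ ρ = R := by
  have hs : IsSelfAdjoint R := h0.isSelfAdjoint
  have hn : IsStarNormal R := hs.isStarNormal
  have h3 : ∀ z ∈ spectrum ℂ R, z.re ∈ Set.Icc (0 : ℝ) 2 := fun z hz => by
    have a : z.re ∈ spectrum ℝ R := by
      rw [← spectrum.algebraMap_mem_iff ℂ]
      exact (hs.mem_spectrum_eq_re hz) ▸ hz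
    refine ⟨spectrum_nonneg_of_nonneg h0 a, (le_algebraMap_iff_spectrum_le hs).1 ?_ _ a⟩
    rw [map_ofNat]; exact sub_nonneg.1 h2
  let ι : C(spectrum ℂ R, X) := ⟨fun z => ⟨z.1.re, h3 _ z.2⟩, by fun_prop⟩
  refine ⟨(cfcHom hn).comp (ContinuousMap.compStarAlgHom' ℂ ℂ ι), ?_⟩
  refine Eq.trans (congrArg (cfcHom hn) ?_) (cfcHom_id (R := ℂ) hn)
  ext z
  exact (hs.mem_spectrum_eq_re z.2).symm

end Vale.Agent.P096.RV
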