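import Vale.Agent.P096.Amp

/-! Exact statements of the modules of the proof of the full Kadison-Kastler conjecture.
See `notes/P096.md` for the proofs. -/

open Finset Vale.Agent.P104 Vale.Agent.P085 Filter Topology MeasureTheory Complex
open scoped InnerProductSpace InnerProduct

set_option linter.unusedSectionVars false

namespace Vale.Agent.P096

universe u

section defs
variable {H G : Type*} [NormedAddCommGroup H] [InnerProductSpace ℂ H] [CompleteSpace H]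
  [NormedAddCommGroup G] [InnerProductSpace ℂ G] [CompleteSpace G]

/-- `[x + [b, x], a]` -/
noncomputable def lin (b x a : Op H) : Op H :=
  (x * a - a * x) + ((b * x - x * b) * a - a * (b * x - x * b))

/-- central projection -/
def Cp (M : VonNeumannAlgebra H) (p : Op H) : Prop :=
  IsStarProjection p ∧ p ∈ M ∧ p ∈ M.commutant

/-- the algebras and their commutants are close -/
structure Cl (M N : VonNeumannAlgebra H) (δ : ℝ) : Prop where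
  mn : Nr M N δ
  nm : Nr N M δ
  mn' : Nr M.commutant N.commutant δ
  nm' : Nr N.commutant M.commutant δ

/-- `ℓ²(ι; H)`, with the coordinate embeddings -/
structure Fm {ι : Type} [DecidableEq ι] (J : ι → H →L[ℂ] G) : Prop where
  orth : ∀ i j v, ((J i)†) (J j v) = if i = j then v else 0
  tot : ∀ ψ, (∀ i, ((J i)†) ψ = 0) → ψ = 0
  pars : ∀ ψ, HasSum (fun i => ‖((J i)†) ψ‖ ^ 2) (‖ψ‖ ^ 2)
  hsum : ∀ ψ, HasSum (fun i => J i (((J i)†) ψ)) ψ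
  ext : ∀ S T : Op G, (∀ i v, S (J i v) = T (J i v)) → S = T
  op : ∀ (σ : ι → ι) (T : ι → Op H) (C : ℝ), σ.Injective → (∀ i, ‖T i‖ ≤ C) →
    ∃ D : Op G, ‖D‖ ≤ max C 0 ∧ ∀ i v, D (J i v) = J (σ i) (T i v)
  amp : ∃ π : Op H →⋆ₐ[ℂ] Op G, ∀ T i v, π T (J i v) = J i (T v)

/-- an invariant mean for bounded operator valued functions on an abelian group -/
structure Mean {Γ : Type} [AddCommGroup Γ] (μ : (Γ → Op H) → Op H) : Prop where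
  const : ∀ a, μ (fun _ => a) = a
  add : ∀ F F' : Γ → Op H, (∃ C, ∀ g, ‖F g‖ ≤ C) → (∃ C, ∀ g, ‖F' g‖ ≤ C) →
    μ (fun g => F g + F' g) = μ F + μ F'
  mul : ∀ (F : Γ → Op H) a b, (∃ C, ∀ g, ‖F g‖ ≤ C) → μ (fun g => a * F g * b) = a * μ F * b
  star : ∀ F : Γ → Op H, (∃ C, ∀ g, ‖F g‖ ≤ C) → μ (fun g => star (F g)) = star (μ F)
  inv : ∀ (F : Γ → Op H) h, (∃ C, ∀ g, ‖F g‖ ≤ C) → μ (fun g => F (h + g)) = μ F
  norm : ∀ (F : Γ → Op H) C, (∀ g, ‖F g‖ ≤ C) → ‖μ F‖ ≤ C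
  vec : ∀ (F : Γ → Op H) v w ε, (∃ C, ∀ g, ‖F g‖ ≤ C) → (∀ g, ‖F g v - w‖ ≤ ε) → ‖μ F v - w‖ ≤ ε

/-- the common part of `Pre` and `Mod`: modular group `U t = Δ^{it}` and conjugation `J` -/
structure Mod0 (M : VonNeumannAlgebra H) (ξ : H) (U : ℝ → Op H) (J : H → H) : Prop where
  cyc : DenseRange (ev M ξ)
  cyc' : DenseRange (ev M.commutant ξ)
  U0 : U 0 = 1
  Uadd : ∀ s t, U (s + t) = U s * U t
  Ustar : ∀ t, star (U t) = U (-t)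
  Ucont : ∀ v, Continuous fun t => U t v
  Uξ : ∀ t, U t ξ = ξ
  Jadd : ∀ v w, J (v + w) = J v + J w
  Jsmul : ∀ (c : ℂ) v, J (c • v) = (starRingEnd ℂ) c • J v
  Jinner : ∀ v w, ⟪J v, J w⟫_ℂ = ⟪w, v⟫_ℂ
  JJ : ∀ v, J (J v) = v
  JU : ∀ t v, J (U t v) = U t (J v)
  Jξ : J ξ = ξ
  kms : ∀ α : ℂ → H, Differentiable ℂ α → (∀ (t : ℝ) z, U t (α z) = α (z + t)) →
    ∀ x ∈ M, α 0 = x ξ → α (-(I / 2)) = J (star x ξ)
  pos : ∀ x ∈ M, 0 ≤ (⟪J (star x ξ), x ξ⟫_ℂ).re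
  lip : ∀ x ∈ M, ∀ m t : ℝ, ‖U t (x ξ) - cexp (I * t * m) • x ξ‖ ≤
    (4 * |t| + 4) * ‖cexp (-(m / 2)) • J (star x ξ) - x ξ‖

/-- Rieffel-van Daele operators `R = 2 (1 + Δ)⁻¹`, `T = (R (2 - R))^{1/2}` -/
structure Pre (M : VonNeumannAlgebra H) (ξ : H) (U : ℝ → Op H) (J : H → H) (R T : Op H) : Prop
    extends Mod0 M ξ U J where
  Rsa : star R = R
  Tsa : star T = T
  UR : ∀ t, U t * R = R * U t
  UT : ∀ t, U t * T = T * U t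
  JT : ∀ v, J (T v) = T (J v)
  CM : ∀ x ∈ M, J (T (star x ξ)) = (2 - R) (x ξ)
  PQ : ∀ v, ∀ x ∈ M, (∀ y ∈ M, ⟪y ξ, v⟫_ℂ = ⟪y ξ, x ξ⟫_ℂ + ⟪star x ξ, star y ξ⟫_ℂ) →
    R v = (2 : ℂ) • x ξ ∧ J (T v) = (2 : ℂ) • star x ξ
  real : ∀ x ∈ M, ∀ y ∈ M, star x = x → star y = y → (⟪y ξ, J (x ξ)⟫_ℂ).im = 0
  band : ∀ v, ∀ ε > 0, ∃ α : ℂ → H, Differentiable ℂ α ∧ (∀ (t : ℝ) z, U t (α z) = α (z + t)) ∧
    ‖α 0 - v‖ < ε ∧ ∃ w, T w = α 0 ∧ (2 - R) w = α (-(I / 2)) ∧ R w = α (I / 2)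

/-- Tomita-Takesaki theory -/
structure Mod (M : VonNeumannAlgebra H) (ξ : H) (U : ℝ → Op H) (J : H → H) : Prop
    extends Mod0 M ξ U J where
  UM : ∀ t, ∀ x ∈ M, U t * x * U (-t) ∈ M
  JM : ∀ x ∈ M, ∃ y ∈ M.commutant, ∀ v, y v = J (x (J v))
  JM' : ∀ y ∈ M.commutant, ∃ x ∈ M, ∀ v, x v = J (y (J v))

/-- balanced pair of columns -/
structure Bal (M : VonNeumannAlgebra H) (ξ : H) {n : ℕ} (x y : Fin n → Op H) : Prop where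
  xm : ∀ i, x i ∈ M
  ym : ∀ i, y i ∈ M.commutant
  xy : ∀ i, x i ξ = y i ξ
  xs : ∑ i, star (x i) * x i ≤ 1
  ys : ∑ i, star (y i) * y i ≤ 1

/-- an asymptotically central sequence of anticommuting pairs of symmetries -/
structure Tail (P : VonNeumannAlgebra H) (ξ : H) (s t : ℕ → Op H) : Prop where
  sm : ∀ n, s n ∈ P
  tm : ∀ n, t n ∈ P
  pp : ∀ n, PP (s n) (t n)
  cm : ∀ m n, m ≠ n → s m * s n = s n * s m ∧ s m * t n = t n * s m ∧ t m * t n = t n * t m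
  den : ∀ v, ∀ ε > 0, ∃ k, ∃ x ∈ P, (∀ j ≥ k, x * s j = s j * x ∧ x * t j = t j * x) ∧
    ‖x ξ - v‖ < ε

/-- an amenable group of unitaries whose relative commutant is the centre -/
structure HZ (P : VonNeumannAlgebra H) (ξ : H) (m : ℕ → Pr (unitary (MA P))) : Prop where
  sy : ∀ k, (m k).Sy
  iv : ∀ k, (m k).All (m k).Iv
  gp : ∀ k, (m k).All (Gp m)
  pp : ∃ s t : unitary (MA P), PP (s : MA P) t ∧ Gp m s ∧ Gp m t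
  cv : ∀ x : MA P, ∃ z ∈ P, z ∈ P.commutant ∧
    Tendsto (fun k => (cE (m k) x).1 ξ) atTop (𝓝 (z ξ))
  cen : ∀ T : Op H, (∀ g : unitary (MA P), Gp m g → g.1.1 ∈ P.commutant → T * g.1.1 = g.1.1 * T) →
    ∀ z ∈ P, z ∈ P.commutant → T * z = z * T

end defs

/-! ### Module A -/

def FmStmt : Prop := ∀ (H : Type u) [NormedAddCommGroup H] [InnerProductSpace ℂ H] [CompleteSpace H]
  (ι : Type) [DecidableEq ι] [Countable ι],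
  ∃ (G : Type u) (_ : NormedAddCommGroup G) (_ : InnerProductSpace ℂ G) (_ : CompleteSpace G)
    (J : ι → H →L[ℂ] G), Fm J ∧
    (TopologicalSpace.SeparableSpace H → TopologicalSpace.SeparableSpace G)

def MeanStmt : Prop := ∀ (H : Type u) [NormedAddCommGroup H] [InnerProductSpace ℂ H]
  [CompleteSpace H] (Γ : Type) [AddCommGroup Γ], ∃ μ : (Γ → Op H) → Op H, Mean μ

/-- exhaustion, and gluing along an orthogonal family of projections -/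
def ExhStmt : Prop := ∀ (H : Type u) [NormedAddCommGroup H] [InnerProductSpace ℂ H]
  [CompleteSpace H] (M : VonNeumannAlgebra H) (Q : Op H → Prop) (p₀ : Op H), Cp M p₀ →
  (∀ q, Cp M q → q ≠ 0 → q * p₀ = q → ∃ p, Cp M p ∧ p ≠ 0 ∧ p * q = p ∧ Q p) →
  ∃ S : Set (Op H), (∀ p ∈ S, Cp M p ∧ p * p₀ = p ∧ Q p) ∧ (S.Pairwise fun p q => p * q = 0) ∧
    (∀ v, HasSum (fun p : S => p.1 v) (p₀ v)) ∧
    (∀ v, HasSum (fun p : S => ‖p.1 v‖ ^ 2) (‖p₀ v‖ ^ 2)) ∧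
    (∀ (T : Op H) (c : ℝ), 0 ≤ c → (∀ p ∈ S, T * p = p * T ∧ ‖T * p‖ ≤ c) → ‖T * p₀‖ ≤ c) ∧
    ∀ (f : Op H → Op H) (C : ℝ), 0 ≤ C → (∀ p ∈ S, ‖f p‖ ≤ C ∧ f p * p = p * f p) →
      ∃ b : Op H, ‖b‖ ≤ C ∧ b * p₀ = b ∧ p₀ * b = b ∧
        (∀ p ∈ S, b * p = f p * p ∧ p * b = f p * p) ∧
        ∀ a : Op H, (∀ p ∈ S, a * p = p * a ∧ a * f p = f p * a) → a * b = b * a

def GenZStmt : Prop := ∀ (H : Type u) [NormedAddCommGroup H] [InnerProductSpace ℂ H]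
  [CompleteSpace H] [TopologicalSpace.SeparableSpace H] (M : VonNeumannAlgebra H),
  ∃ c : ℕ → Op H, (∀ n, Cp M (c n)) ∧ ∀ T : Op H, (∀ n, T * c n = c n * T) →
    ∀ z ∈ M, z ∈ M.commutant → T * z = z * T

/-! ### Module B -/

def StripStmt : Prop := ∃ c : ℝ, 0 < c ∧ ∀ (σ B : ℝ) (f : ℂ → ℂ), Differentiable ℂ f →
  (∀ z : ℂ, |z.im| ≤ 1 / 2 → ‖f z‖ ≤ B) →
  ∫ t : ℝ, cexp (I * σ * t) * ((Real.cosh (Real.pi * t))⁻¹ : ℝ) *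
    (cexp (σ / 2) * f (t - I / 2) + cexp (-(σ / 2)) * f (t + I / 2)) = c * f 0

def SechStmt : Prop := Integrable fun t : ℝ => (Real.cosh (Real.pi * t))⁻¹

def UniqStmt : Prop := ∀ φ : ℝ → ℂ, Continuous φ → Integrable φ →
  (∀ σ : ℝ, ∫ t : ℝ, cexp (I * σ * t) * φ t = 0) → ∀ t, φ t = 0

def PlanchStmt : Prop := ∀ (H : Type u) [NormedAddCommGroup H] [InnerProductSpace ℂ H]
  [CompleteSpace H] (F : ℝ → H), Continuous F → Integrable F → Integrable (fun s => ‖F s‖ ^ 2) →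
  Integrable (fun m : ℝ => ‖∫ s : ℝ, cexp (-(I * m * s)) • F s‖ ^ 2) ∧
    ∫ m : ℝ, ‖∫ s : ℝ, cexp (-(I * m * s)) • F s‖ ^ 2 = 2 * Real.pi * ∫ s, ‖F s‖ ^ 2

def GaussStmt : Prop := ∀ (H : Type u) [NormedAddCommGroup H] [InnerProductSpace ℂ H]
  [CompleteSpace H] (F : ℝ → H) (C a m : ℝ), Continuous F → (∀ s, ‖F s‖ ≤ C) → 0 < a →
  (∀ z : ℂ, Integrable fun s : ℝ => cexp (-(a * (s - z) ^ 2) - I * m * (s - z))) ∧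
  (Differentiable ℂ fun z : ℂ => ∫ s : ℝ, cexp (-(a * (s - z) ^ 2) - I * m * (s - z)) • F s) ∧
  Tendsto (fun n : ℕ => ∫ s : ℝ, ((√((n + 1) / Real.pi) : ℝ) * cexp (-((n + 1) * s ^ 2))) • F s)
    atTop (𝓝 (F 0))

/-! ### Modules T3, T4 -/

def PreStmt : Prop := ∀ (H : Type u) [NormedAddCommGroup H] [InnerProductSpace ℂ H]
  [CompleteSpace H] (M : VonNeumannAlgebra H) (ξ : H), DenseRange (ev M ξ) →
  DenseRange (ev M.commutant ξ) → ∃ U J R T, Pre M ξ U J R T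

def TomStmt : Prop := ∀ (H : Type u) [NormedAddCommGroup H] [InnerProductSpace ℂ H]
  [CompleteSpace H] (M : VonNeumannAlgebra H) (ξ : H), DenseRange (ev M ξ) →
  DenseRange (ev M.commutant ξ) → ∃ U J, Mod M ξ U J

/-! ### Module D -/

def DEStmt : Prop := ∀ (H : Type u) [NormedAddCommGroup H] [InnerProductSpace ℂ H]
  [CompleteSpace H] [TopologicalSpace.SeparableSpace H] (M : VonNeumannAlgebra H) (ξ : H)
  (U : ℝ → Op H) (J : H → H), Mod M ξ U J →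
  ∃ (n : ℕ → ℕ) (x y : ∀ k, Fin (n k) → Op H) (E : Op H → Op H),
    (∀ k, Bal M ξ (x k) (y k)) ∧ Tendsto (fun k => ∑ i, star (y k i) * y k i) atTop (𝓝 1) ∧
    (∀ S T, E (S - T) = E S - E T) ∧ (∀ T, ‖E T‖ ≤ ‖T‖) ∧ E 1 = 1 ∧
    (∀ a ∈ M.commutant, ∀ T, E (a * T) = a * E T ∧ E (T * a) = E T * a) ∧
    ∀ (T : ℕ → Op H) (S : Op H), (∀ k, ‖T k‖ ≤ 1) →
      WT (hyperfilter ℕ) (fun k => ∑ i, star (y k i) * T k * y k i) S →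
      E S ∈ M ∧ E S ∈ M.commutant ∧ ∀ q, Cp M q → ⟪q ξ, E S (q ξ)⟫_ℂ = ⟪q ξ, S (q ξ)⟫_ℂ

/-! ### Modules G, F -/

def GTStmt : Prop := ∃ C : ℝ, 1 ≤ C ∧ ∀ (H : Type u) [NormedAddCommGroup H]
  [InnerProductSpace ℂ H] [CompleteSpace H] (M N : VonNeumannAlgebra H) (θ : H) (δ : ℝ), 0 < δ →
  Nr N.commutant M.commutant δ → ∃ f : MA M →L[ℂ] ℂ, ‖f‖ ≤ C ∧ (∀ y, 0 ≤ (f (star y * y)).re) ∧
    ∀ (x : MA M) (μ : ℝ), 0 < μ → ∀ η > 0, ∃ n ∈ N,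
      ‖(x.1 - n) θ‖ ^ 2 + μ * ‖star (x.1 - n) θ‖ ^ 2 ≤
        δ ^ 2 * ‖θ‖ ^ 2 * ((f (star x * x)).re + μ * (f (x * star x)).re) + η

def FLStmt : Prop := ∃ C : ℝ, 1 ≤ C ∧ ∀ (H : Type u) [NormedAddCommGroup H]
  [InnerProductSpace ℂ H] [CompleteSpace H] (M N : VonNeumannAlgebra H) (ξ : H)
  (U V : ℝ → Op H) (J J' : H → H) (δ : ℝ), Mod M ξ U J → Mod N ξ V J' → Cl M N δ → 0 < δ →
  ∀ q, Cp M q → Cp N q → ∀ t σ : ℝ, |t| ≤ 1 → 0 < σ → σ ≤ 1 →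
  ∀ (n : ℕ) (x y : Fin n → Op H), Bal M ξ x y → ∃ τ ∈ Set.Icc 0 σ⁻¹,
    ∑ i, ‖U t (U τ (x i (q ξ))) - V t (U τ (x i (q ξ)))‖ ^ 2 ≤ C * (δ ^ 2 + σ ^ 2) * ‖q ξ‖ ^ 2

/-! ### Modules P, K -/

def PtStmt : Prop := ∃ C : ℝ, 1 ≤ C ∧ ∀ (H : Type u) [NormedAddCommGroup H]
  [InnerProductSpace ℂ H] [CompleteSpace H] [TopologicalSpace.SeparableSpace H]
  (M N : VonNeumannAlgebra H) (ξ : H) (U V : ℝ → Op H) (J J' : H → H) (δ : ℝ),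
  Mod M ξ U J → Mod N ξ V J' → Cl M N δ → 0 < δ → C * δ ≤ 1 → (∀ q, Cp M q → Cp N q) →
  ∀ t, ∃ u ∈ unitary (Op H), ∃ u' ∈ unitary (Op H), u ∈ N ∧ u' ∈ N.commutant ∧
    ‖U t - V t * u * u'‖ ≤ C * δ

def KazStmt : Prop := ∃ C : ℝ, 1 ≤ C ∧ ∀ (H : Type u) [NormedAddCommGroup H]
  [InnerProductSpace ℂ H] [CompleteSpace H] [TopologicalSpace.SeparableSpace H]
  (M N : VonNeumannAlgebra H) (ξ : H) (U V : ℝ → Op H) (J J' : H → H) (δ : ℝ),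
  Mod M ξ U J → Mod N ξ V J' → Cl M N δ → 0 < δ → C * δ ≤ 1 → (∀ q, Cp M q → Cp N q) →
  ∃ g : ℝ → Op H, (∀ t, g t ∈ unitary (Op H)) ∧ (∀ t, ∀ n ∈ N, g t * n * star (g t) ∈ N) ∧
    (∀ s t, g s * g t * star (g (s + t)) ∈ N.commutant) ∧
    ∀ t, ∃ u' ∈ unitary (Op H), u' ∈ N.commutant ∧ ‖U t - g t * u'‖ ≤ C * δ

/-! ### Modules W, N1, N2 -/

def TowerStmt : Prop := ∀ (K : Type u) [NormedAddCommGroup K] [InnerProductSpace ℂ K]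
  [CompleteSpace K] [TopologicalSpace.SeparableSpace K] (P : VonNeumannAlgebra K) (ξ : K)
  (s t : ℕ → Op K), Std P ξ → Tail P ξ s t → ∃ m, HZ P ξ m

def StdKKStmt : Prop := ∃ C : ℝ, 1 ≤ C ∧ ∀ (K : Type u) [NormedAddCommGroup K]
  [InnerProductSpace ℂ K] [CompleteSpace K] [TopologicalSpace.SeparableSpace K]
  (P Q : VonNeumannAlgebra K) (ξ : K) (s t : ℕ → Op K) (δ : ℝ), Std P ξ → Tail P ξ s t →
  Nr P Q δ → Nr Q P δ → 0 < δ → C * δ ≤ 1 →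
  ∃ T : (Op K)ˣ, ‖(T : Op K) - 1‖ ≤ C * δ ∧ ∀ x, x ∈ P ↔ T * x * ↑T⁻¹ ∈ Q

def FinStmt : Prop := ∃ C : ℝ, 1 ≤ C ∧ ∀ (K : Type u) [NormedAddCommGroup K]
  [InnerProductSpace ℂ K] [CompleteSpace K] [TopologicalSpace.SeparableSpace K]
  (P Q : VonNeumannAlgebra K) (ζ : K) (δ : ℝ), (∀ x ∈ P, ‖star x ζ‖ ≤ ‖x ζ‖) →
  Nr P Q δ → Nr Q P δ → 0 < δ → C * δ ≤ 1 →
  ∃ q b : Op K, IsStarProjection q ∧ (∀ x ∈ P, q (x ζ) = x ζ) ∧ ‖b‖ ≤ C * δ ∧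
    ∀ x ∈ P, ∀ a ∈ Q.commutant, ‖q * lin b x a * q‖ ≤ C * δ ^ 2 * ‖x‖ * ‖a‖

/-! ### Modules C, R1, R2 -/

def StdLinStmt : Prop := ∃ C : ℝ, 1 ≤ C ∧ ∀ (H : Type u) [NormedAddCommGroup H]
  [InnerProductSpace ℂ H] [CompleteSpace H] [TopologicalSpace.SeparableSpace H]
  (M N : VonNeumannAlgebra H) (ξ : H) (δ : ℝ), DenseRange (ev M ξ) →
  DenseRange (ev M.commutant ξ) → DenseRange (ev N ξ) → DenseRange (ev N.commutant ξ) →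
  Cl M N δ → 0 < δ → C * δ ≤ 1 → (∀ q, Cp M q → Cp N q) →
  ∃ b : Op H, ‖b‖ ≤ C * δ ∧
    ∀ x ∈ M, ∀ a ∈ N.commutant, ‖lin b x a‖ ≤ C * δ ^ 2 * ‖x‖ * ‖a‖

def SepLinStmt : Prop := ∃ C : ℝ, 1 ≤ C ∧ ∀ (H : Type u) [NormedAddCommGroup H]
  [InnerProductSpace ℂ H] [CompleteSpace H] [TopologicalSpace.SeparableSpace H]
  (M N : VonNeumannAlgebra H) (δ : ℝ), Nr M N δ → Nr N M δ → 0 < δ → C * δ ≤ 1 →
  ∃ b : Op H, ‖b‖ ≤ C * δ ∧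
    ∀ x ∈ M, ∀ a ∈ N.commutant, ‖lin b x a‖ ≤ C * δ ^ 2 * ‖x‖ * ‖a‖

def LinStmt : Prop := ∃ C : ℝ, 1 ≤ C ∧ ∀ (H : Type u) [NormedAddCommGroup H]
  [InnerProductSpace ℂ H] [CompleteSpace H]
  (M N : VonNeumannAlgebra H) (δ : ℝ), Nr M N δ → Nr N M δ → 0 < δ → C * δ ≤ 1 →
  ∃ b : Op H, ‖b‖ ≤ C * δ ∧
    ∀ x ∈ M, ∀ a ∈ N.commutant, ‖lin b x a‖ ≤ C * δ ^ 2 * ‖x‖ * ‖a‖

def KKStmt : Prop := ∃ C : ℝ, 1 ≤ C ∧ ∀ (H : Type u) [NormedAddCommGroup H]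
  [InnerProductSpace ℂ H] [CompleteSpace H]
  (M N : VonNeumannAlgebra H) (δ : ℝ), Nr M N δ → Nr N M δ → 0 < δ → C * δ ≤ 1 →
  ∃ u ∈ unitary (Op H), ‖u - 1‖ ≤ C * δ ∧ ∀ x, x ∈ M ↔ u * x * star u ∈ N

end Vale.Agent.P096
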