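import Vale.Agent.P096.AM

/-! Von Neumann algebras with a cyclic trace vector. -/

open Finset Vale.Agent.P104 Vale.Agent.P085 Filter Topology
open scoped InnerProductSpace

set_option linter.unusedSectionVars false

namespace Vale.Agent.P096

variable {K : Type*} [NormedAddCommGroup K] [InnerProductSpace ℂ K] [CompleteSpace K]
  {M : VonNeumannAlgebra K} {ξ : K}

structure Std (M : VonNeumannAlgebra K) (ξ : K) : Prop where
  nst : ∀ x ∈ M, ‖star x ξ‖ ≤ ‖x ξ‖
  cyc : DenseRange (ev M ξ)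

lemma Std.right (h : Std M ξ) {a : Op K} (ha : a ∈ M) :
    ∃ T ∈ M.commutant, ‖T‖ ≤ ‖a‖ ∧ T ξ = a ξ := ext_comm (norm_nonneg _) fun x hx => by
  have := h.nst _ (star_mem (mul_mem hx ha))
  rw [star_star, star_mul] at this
  exact this.trans (((star a).le_opNorm _).trans (by rw [norm_star]; gcongr; exact h.nst x hx))

lemma cyc_ext (h : DenseRange (ev M ξ)) {T T' : Op K} (h' : ∀ x ∈ M, T (x ξ) = T' (x ξ)) : T = T' :=
  DFunLike.coe_injective (h.equalizer T.continuous T'.continuous (funext fun x => h' x.1 x.2))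

lemma cyc_ext' (h : DenseRange (ev M ξ)) {T T' : Op K} (hT : T ∈ M.commutant)
    (hT' : T' ∈ M.commutant) (h' : T ξ = T' ξ) : T = T' := cyc_ext h fun x hx =>
  congr($(commM hx hT) ξ).symm.trans ((congrArg x h').trans congr($(commM hx hT') ξ))

lemma cyc_comm (h : DenseRange (ev M ξ)) {a : Op K} (h' : ∀ x ∈ M, (a * x - x * a) ξ = 0) :
    a ∈ M.commutant := VonNeumannAlgebra.mem_commutant_iff.2 fun x hx => cyc_ext h fun y hy => by
  have a1 := h' _ (mul_mem hx hy)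
  have a2 := congrArg x (h' y hy)
  simp only [sub_apply, mul_apply_eq_comp, map_sub, map_zero, sub_eq_zero] at a1 a2 ⊢
  rw [a1, a2]

lemma Std.comm (h : Std M ξ) : Std M.commutant ξ where
  nst a ha := by
    have : ∀ v, ‖⟪star a ξ, v⟫_ℂ‖ ≤ ‖a ξ‖ * ‖v‖ := fun v => h.cyc.induction_on v
      (isClosed_le (by fun_prop) (by fun_prop)) fun x => by
        rw [ev_apply, inner_star_l, ← mul_apply_eq_comp, ← commM x.2 ha, mul_apply_eq_comp,
          ← inner_star_l, mul_comm]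
        exact (norm_inner_le_norm _ _).trans (by gcongr; exact h.nst _ x.2)
    have := this (star a ξ)
    rw [inner_self_eq_norm_sq_to_K, norm_pow, RCLike.norm_ofReal, abs_norm] at this
    nlinarith [norm_nonneg (star a ξ), norm_nonneg (a ξ)]
  cyc := h.cyc.mono (by
    rintro _ ⟨x, rfl⟩
    obtain ⟨T, a, -, b⟩ := h.right x.2
    exact ⟨⟨T, a⟩, b⟩)

lemma Std.trc (h : Std M ξ) {x y : Op K} (hx : x ∈ M) (hy : y ∈ M) :
    ⟪ξ, x (y ξ)⟫_ℂ = ⟪ξ, y (x ξ)⟫_ℂ := by
  have e : ∀ x ∈ M, ‖star x ξ‖ = ‖x ξ‖ := fun x hx =>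
    (h.nst x hx).antisymm (by simpa using h.nst _ (star_mem hx))
  have r : ∀ x ∈ M, ∀ y ∈ M, (⟪ξ, x (y ξ)⟫_ℂ).re = (⟪ξ, y (x ξ)⟫_ℂ).re := fun x hx y hy => by
    have a1 := congr($(e _ (add_mem (star_mem hx) hy)) ^ 2)
    simp only [star_add, star_star, add_apply, norm_add_sq (𝕜 := ℂ), e x hx, e y hy, inner_star_l,
      RCLike.re_to_complex] at a1
    rw [← inner_conj_symm, Complex.conj_re, inner_star_l] at a1
    linarith
  have := r _ (smulM Complex.I hx) y hy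
  simp only [smul_apply, map_smul, inner_smul_right, Complex.I_mul_re, neg_inj] at this
  exact Complex.ext (r x hx y hy) this

structure SF (M : VonNeumannAlgebra K) (ξ : K) [TrAlg (MA M)] (D : Bim (MA M) K) : Prop where
  L : ∀ x, D.L x = x.1
  Rm : ∀ z, D.R z ∈ M.commutant
  Rv : ∀ z, D.R z ξ = z.1 ξ
  onto : ∀ a ∈ M.commutant, ∃ z, D.R z = a ∧ ‖z‖ ≤ ‖a‖
  n2 : ∀ x : MA M, n2 x = ‖x.1 ξ‖
  std : Std M ξ
  nw : NW M

theorem Std.exists_SF (h : Std M ξ) (h1 : ‖ξ‖ = 1) :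
    ∃ (_ : TrAlg (MA M)) (D : Bim (MA M) K), SF M ξ D := by
  have h' := h.comm
  have sep : ∀ x ∈ M, ∀ y ∈ M, x ξ = y ξ → x = y := fun x hx y hy =>
    cyc_ext' h'.cyc (by rwa [M.commutant_commutant]) (by rwa [M.commutant_commutant])
  let T : TrAlg (MA M) :=
    { trl := (innerSL ℂ ξ).toLinearMap ∘ₗ ev M ξ
      tr_one' := by simp [h1]
      tr_comm' := fun x y => h.trc x.2 y.2
      tr_star' := fun x => (inner_star_r _ _ _).trans (inner_conj_symm _ _).symm
      tr_pos' := fun x => (sq_nonneg _).trans_eq (normsq_eq x.1 ξ)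
      tr_faith' := fun x hx => Subtype.ext (sep _ x.2 0 (zero_mem _) (inner_self_eq_zero.1
        ((inner_star_r _ _ _).symm.trans hx))) }
  choose R r1 r2 r3 using fun z : MA M => h.right z.2
  have e := fun {T T'} => cyc_ext' (T := T) (T' := T') h.cyc
  refine ⟨T, ⟨M.toStarSubalgebra.subtype, ⟨⟨R, fun x y => e (r1 _) (add_mem (r1 _) (r1 _))
    (by simp [r3])⟩, fun c x => e (r1 _) (smulM _ (r1 _)) (by simp [r3])⟩, fun z w => e (r1 _)
    (mul_mem (r1 _) (r1 _)) ?_, e (r1 _) (one_mem _) (r3 _), fun z => e (r1 _) (star_mem (r1 _)) ?_,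
    r2, fun x z => commM x.2 (r1 _)⟩, fun _ => rfl, r1, r3, fun a ha => ?_, fun x => ?_, h,
    fun l y C _ hw => hw ξ ξ⟩
  · change R _ ξ = R w (R z ξ)
    rw [r3, r3, ← mul_apply_eq_comp (R w), ← commM z.2 (r1 w), mul_apply_eq_comp, r3]; rfl
  · change R _ ξ = star (R z) ξ
    refine ext_inner_right ℂ fun v => h.cyc.induction_on v (isClosed_eq (by fun_prop) (by fun_prop))
      fun x => ?_
    rw [r3, ev_apply, inner_star_l, ← mul_apply_eq_comp (R z), ← commM x.2 (r1 z),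
      mul_apply_eq_comp, r3, ← h.trc z.2 x.2]
    exact inner_star_l _ _ _
  · obtain ⟨z, z1, z2, z3⟩ := h'.right ha
    rw [M.commutant_commutant] at z1
    exact ⟨⟨z, z1⟩, e (r1 _) ha ((r3 _).trans z3), z2⟩
  · rw [← sq_eq_sq₀ (n2_nonneg _) (norm_nonneg _), n2_sq, normsq_eq]; rfl

lemma strong {ι : Type*} {l : Filter ι} (h : DenseRange (ev M ξ)) {T : ι → Op K} {C : ℝ}
    (hC : ∀ i, ‖T i‖ ≤ C) (h' : ∀ x ∈ M, Tendsto (fun i => T i (x ξ)) l (𝓝 0)) (v : K) :
    Tendsto (fun i => T i v) l (𝓝 0) := by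
  rw [Metric.tendsto_nhds]
  intro ε hε
  obtain ⟨x, hx⟩ := h.exists_dist_lt v (by positivity : 0 < ε / 2 / (|C| + 1))
  filter_upwards [Metric.tendsto_nhds.1 (h' x.1 x.2) _ (half_pos hε)] with i hi
  have a := (T i).le_of_opNorm_le ((hC i).trans (le_abs_self C)) (v - x.1 ξ)
  rw [dist_zero_right] at hi ⊢
  rw [dist_eq_norm, lt_div_iff₀ (by positivity), ev_apply] at hx
  have b := norm_add_le_of_le a hi.le
  rw [map_sub, sub_add_cancel] at b
  nlinarith [norm_nonneg (v - x.1 ξ)]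

variable [TrAlg (MA M)] {D : Bim (MA M) K}

lemma SF.nrm (h : SF M ξ D) : ‖ξ‖ = 1 := by simpa using (h.n2 1).symm

lemma SF.S12 (h : SF M ξ D) {m : ℕ → Pr (unitary (MA M))} (hm : HS m) (x : MA M) (v : K) :
    Tendsto (fun k => D.L (cE (m k) x) v) atTop (𝓝 (tr x • v)) ∧
    Tendsto (fun k => D.R (cE (m k) x) v) atTop (𝓝 (tr x • v)) := by
  have b : ∀ k, ‖cE (m k) x - tr x • 1‖ ≤ ‖x‖ + ‖tr x • (1 : MA M)‖ := fun k =>
    norm_sub_le_of_le ((m k).norm_ex' fun g => by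
      rw [CStarRing.norm_mul_coe_unitary, CStarRing.norm_coe_unitary_mul]) le_rfl
  have c : ∀ T : Op K, Tendsto (fun k => T ((cE (m k) x - tr x • 1).1 ξ)) atTop (𝓝 0) := fun T => by
    have := hm.cv x
    simp only [h.n2, ← tendsto_zero_iff_norm_tendsto_zero] at this
    simpa only [map_zero, Function.comp_def] using (T.continuous.tendsto 0).comp this
  have a1 := strong h.std.cyc (l := atTop) (T := fun k => (cE (m k) x - tr x • 1).1) b (fun y hy =>
    (c (D.R ⟨y, hy⟩)).congr fun k => by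
      rw [← mul_apply_eq_comp, ← commM (Subtype.prop _) (h.Rm _), mul_apply_eq_comp, h.Rv]) v
  have a2 := strong h.std.cyc (l := atTop) (T := fun k => D.R (cE (m k) x - tr x • 1))
    (fun k => (D.R_le _).trans (b k)) (fun y hy => (c y).congr fun k => by
      rw [← h.Rv, ← mul_apply_eq_comp, commM hy (h.Rm _), mul_apply_eq_comp]) v
  constructor <;> rw [← tendsto_sub_nhds_zero_iff]
  · simpa [h.L] using a1
  · simpa [D.R_one] using a2

end Vale.Agent.P096
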