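import Vale.Agent.P096.Walk
import Vale.Agent.P085.Bridge

/-! From averaged estimates to uniform estimates on the diagonal. -/

open Finset Vale.Agent.P104 Filter Topology
open scoped InnerProductSpace

set_option linter.unusedSectionVars false

namespace Vale.Agent.P096

lemma minimax {X ι : Type*} [AddCommGroup X] [Module ℝ X] [Fintype ι] [Nonempty ι] {C : Set X}
    {f : ι → X → ℝ} (hf : ∀ i, ConvexOn ℝ C (f i)) {κ κ' : ℝ} (hκ : κ < κ')
    (h : ∀ t : Pr ι, ∃ x ∈ C, t.ex (f · x) ≤ κ) : ∃ x ∈ C, ∀ i, f i x ≤ κ' := by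
  classical
  by_contra hcon
  have hC := (hf (Classical.arbitrary ι)).1
  obtain ⟨φ, u, h1, h2⟩ := geometric_hahn_banach_open (s := {z : ι → ℝ | ∀ i, z i < κ'})
    (t := {z | ∃ x ∈ C, ∀ i, f i x ≤ z i})
    (by
      rw [Set.ofPred_forall]
      exact convex_iInter fun i => convex_halfSpace_lt (f := fun x : ι → ℝ => x i)
        ⟨fun _ _ => rfl, fun _ _ => rfl⟩ κ')
    (by
      rw [Set.ofPred_forall]
      exact isOpen_iInter_of_finite fun i => isOpen_lt (continuous_apply i) continuous_const)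
    (by
      rintro z ⟨x, hx, h1⟩ z' ⟨x', hx', h2⟩ a b ha hb hab
      exact ⟨_, hC hx hx' ha hb hab, fun i => ((hf i).2 hx hx' ha hb hab).trans
        (add_le_add (mul_le_mul_of_nonneg_left (h1 i) ha) (mul_le_mul_of_nonneg_left (h2 i) hb))⟩)
    (Set.disjoint_left.2 fun z hz ⟨x, hx, h1⟩ => hcon ⟨x, hx, fun i => (h1 i).trans (hz i).le⟩)
  obtain ⟨w, hw⟩ : ∃ w : ι → ℝ, ∀ z, φ z = ∑ i, w i * z i := ⟨fun i => φ fun j => if i = j then 1
    else 0, fun z => by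
      have := LinearMap.pi_apply_eq_sum_univ (φ : (ι → ℝ) →ₗ[ℝ] ℝ) z
      simp only [smul_eq_mul, ContinuousLinearMap.coe_coe] at this
      rw [this]; exact sum_congr rfl fun _ _ => mul_comm _ _⟩
  have w0 : ∀ i, 0 ≤ w i := fun i => by
    by_contra hi
    have hi' : 0 < -w i := by linarith [not_le.1 hi]
    have := h1 (fun j => κ - (|u - κ * ∑ i, w i| / -w i) * if j = i then 1 else 0) fun j => by
      have : 0 ≤ (|u - κ * ∑ i, w i| / -w i) * if j = i then 1 else 0 := by positivity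
      linarith
    simp only [hw, mul_sub, sum_sub_distrib, mul_ite, mul_one, mul_zero, sum_ite_eq', mem_univ,
      if_true, ← sum_mul] at this
    have e : w i * (|u - κ * ∑ i, w i| / -w i) = -|u - κ * ∑ i, w i| := by
      have : w i ≠ 0 := by linarith
      field_simp
    linarith [le_abs_self (u - κ * ∑ i, w i)]
  have a1 := h1 (fun _ => (κ + κ') / 2) fun _ => by linarith
  rw [hw, ← sum_mul] at a1
  rcases (sum_nonneg fun i _ => w0 i : 0 ≤ ∑ i, w i).eq_or_lt with h0 | h0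
  · obtain ⟨x, hx, -⟩ := h (Pr.unif ι)
    have := h2 (f · x) ⟨x, hx, fun _ => le_rfl⟩
    rw [hw, sum_eq_zero fun i _ => by
      rw [(sum_eq_zero_iff_of_nonneg fun i _ => w0 i).1 h0.symm i (mem_univ _), zero_mul]] at this
    rw [← h0] at a1; linarith
  · obtain ⟨x, hx, h3⟩ := h (Pr.ofFin (fun i => w i / ∑ i, w i) (fun i => div_nonneg (w0 i) h0.le)
      (by rw [← sum_div, div_self h0.ne']))
    have := h2 (f · x) ⟨x, hx, fun _ => le_rfl⟩
    simp only [Pr.ex_ofFin, smul_eq_mul, div_mul_eq_mul_div, ← sum_div, div_le_iff₀ h0] at h3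
    rw [hw] at this
    nlinarith

variable {A K : Type*} [CStarAlgebra A] [NormedAddCommGroup K] [InnerProductSpace ℂ K]
  [CompleteSpace K] {D : Bim A K} {θ β b ω α : ℝ} {c r : A → A → K} {ψ φ : A → K}

lemma lin_le {E : Type*} [NormedAddCommGroup E] [NormedSpace ℂ E] {T : E → K}
    (hT : IsLinearMap ℂ T) (h : ∀ x, ‖x‖ ≤ 1 → ‖T x‖ ≤ b) (x : E) : ‖T x‖ ≤ b * ‖x‖ := by
  rcases eq_or_ne x 0 with rfl | h0
  · simp [hT.map_zero]
  · have x0 := norm_pos_iff.2 h0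
    have := h (((‖x‖⁻¹ : ℝ) : ℂ) • x) (by simp [norm_smul, h0])
    rw [hT.map_smul, norm_smul, Complex.norm_real, norm_inv, norm_norm,
      inv_mul_le_iff₀ x0] at this
    linarith

lemma BL.le (h : BL b ψ) (x : A) : ‖ψ x‖ ≤ b * ‖x‖ := lin_le h.lin h.bd x

def WV {ι : Type*} (l : Filter ι) (f : ι → K) (y : K) : Prop :=
  ∀ v, Tendsto (fun i => ⟪v, f i⟫_ℂ) l (𝓝 ⟪v, y⟫_ℂ)

section
variable {ι : Type*} {l : Filter ι} {f g : ι → K} {x y : K}

lemma WV.const (x : K) : WV l (fun _ => x) x := fun _ => tendsto_const_nhds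
lemma WV.add (h : WV l f x) (h' : WV l g y) : WV l (fun i => f i + g i) (x + y) := fun v => by
  simpa only [inner_add_right] using (h v).add (h' v)
lemma WV.sub (h : WV l f x) (h' : WV l g y) : WV l (fun i => f i - g i) (x - y) := fun v => by
  simpa only [inner_sub_right] using (h v).sub (h' v)
lemma WV.smul (h : WV l f x) (a : ℂ) : WV l (fun i => a • f i) (a • x) := fun v => by
  simpa only [inner_smul_right] using (h v).const_mul a
lemma WV.op (h : WV l f x) (T : Op K) : WV l (fun i => T (f i)) (T x) := fun v => by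
  simpa only [inner_star_l] using h (star T v)
lemma WV.of (h : Tendsto f l (𝓝 x)) : WV l f x := fun _ => tendsto_const_nhds.inner h
lemma WV.congr (h : WV l f x) (h' : ∀ᶠ i in l, f i = g i) : WV l g x := fun v =>
  (h v).congr' (h'.mono fun _ hi => by simp only [hi])
lemma WV.eq [l.NeBot] (h : WV l f x) (h' : WV l f y) : x = y :=
  ext_inner_left ℂ fun v => tendsto_nhds_unique (h v) (h' v)
lemma WV.le [l.NeBot] (h : WV l f x) (h' : ∀ᶠ i in l, ‖f i‖ ≤ b) : ‖x‖ ≤ b := by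
  have b0 : 0 ≤ b := (norm_nonneg _).trans h'.exists.choose_spec
  have := le_of_tendsto (h x).norm (b := ‖x‖ * b) (h'.mono fun i hi =>
    (norm_inner_le_norm _ _).trans (by gcongr))
  rw [inner_self_eq_norm_sq_to_K, norm_pow, RCLike.norm_ofReal, abs_norm] at this
  nlinarith [norm_nonneg x]

lemma WV.dl {ψs : ι → A → K} (h : ∀ x, WV l (ψs · x) (ψ x)) (y z : A) :
    WV l (fun i => D.dl (ψs i) y z) (D.dl ψ y z) :=
  ((((h y).op _).sub (((h 1).op _).op _)).sub (h _)).add ((h z).op _)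

lemma wlim_BL (U : Ultrafilter ι) {ψs : ι → A → K} (h : ∀ i, BL b (ψs i)) (b0 : 0 ≤ b) :
    ∃ ψ, BL b ψ ∧ ∀ x, WV U (ψs · x) (ψ x) := by
  choose ψ h1 h2 using fun x => P085.wlim_vec U (ψs · x) (C := b * ‖x‖) (by positivity)
    fun i => (h i).le x
  refine ⟨ψ, ⟨⟨fun x y => WV.eq (h2 _) ?_, fun a x => WV.eq (h2 _) ?_⟩, fun x hx =>
    (h1 x).trans (mul_le_of_le_one_right b0 hx)⟩, h2⟩
  · simpa only [(h _).lin.map_add] using WV.add (h2 x) (h2 y)
  · simpa only [(h _).lin.map_smul] using WV.smul (h2 x) a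

end

lemma gauge {ρ : ℝ} (ζ ζ' : K) (h : ∀ x, ‖x‖ ≤ 1 → ‖φ x - ψ x - D.R x ζ - D.L x ζ'‖ ≤ ρ) {y z : A}
    (hy : ‖y‖ ≤ 1) (hz : ‖z‖ ≤ 1) : ‖D.dl φ y z - D.dl ψ y z‖ ≤ 4 * ρ := by
  refine le_of_eq_of_le ?_ (D.dl_le h hy hz)
  congr 1
  simp only [Bim.dl, map_sub, D.L_mul, D.R_mul', D.LR, D.L_one, D.R_one']; abel

def Nul (α : ℝ) (c : A → A → K) (a : A) : Prop := ∀ x, ‖x‖ ≤ 1 → ‖c a x‖ ≤ α ∧ ‖c x a‖ ≤ α

def Md (D : Bim A K) (ψ : A → K) (g : A) : Prop :=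
  ∀ x, ψ (g * x) = D.L g (ψ x) ∧ ψ (x * g) = D.R g (ψ x)

lemma avg (h : BL b ψ) (m : Pr (unitary A)) (hm : m.All fun g => Nul α (D.dl ψ) g) :
    ∃ φ, BL b φ ∧ (∀ g, m.Iv g → Md D φ g) ∧
      ∀ y z, ‖y‖ ≤ 1 → ‖z‖ ≤ 1 → ‖D.dl φ y z - D.dl ψ y z‖ ≤ 8 * α := by
  refine ⟨fun x => m.ex fun g => m.ex fun g' =>
    D.L (g⁻¹ : unitary A) (D.R (g'⁻¹ : unitary A) (ψ (g * x * g'))), ⟨⟨fun x y => ?_,
    fun a x => ?_⟩, fun x hx => m.norm_ex' fun g => m.norm_ex' fun g' => D.L_le (bu _)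
      (D.R_le' (bu _) (h.bd _ (bm (bm (bu _) hx) (bu _))))⟩, fun γ hγ x => ⟨?_, ?_⟩,
    fun y z hy hz => (gauge (ρ := 2 * α)
      (m.ex fun g => D.L (g⁻¹ : unitary A) (ψ g) - ψ 1)
      (m.ex fun g => D.R (g⁻¹ : unitary A) (ψ g) - ψ 1) (fun x hx => ?_) hy hz).trans_eq (by ring)⟩
  · simp only [mul_add, add_mul, h.lin.map_add, map_add, Pr.ex_add]
  · simp only [mul_smul_comm, smul_mul_assoc, h.lin.map_smul, map_smul, ex_csmul]
  · simp only []
    rw [← hγ.r fun g => m.ex fun g' =>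
      D.L (g⁻¹ : unitary A) (D.R (g'⁻¹ : unitary A) (ψ (g * x * g')))]
    simp only [Pr.clm_ex, mul_inv_rev, Submonoid.coe_mul, D.L_mul, D.L1, mul_assoc]
  · simp only [Pr.clm_ex]
    refine congrArg _ (funext fun g => ?_)
    rw [← hγ.l fun g' => D.R γ
      (D.L (g⁻¹ : unitary A) (D.R (g'⁻¹ : unitary A) (ψ (g * x * g'))))]
    simp only [mul_inv_rev, Submonoid.coe_mul, D.R_mul', D.R1, mul_assoc, D.LR]
  · have := Pr.norm_ex (σ := m) (hm.mono fun g hg => Pr.norm_ex (σ := m) (hm.mono fun g' hg' =>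
      norm_add_le_of_le (D.R_le' (bu g'⁻¹) (hg' x hx).2)
        (D.L_le (bu g⁻¹) (D.R_le' (bu g'⁻¹) (hg _ (bm hx (bu g'))).1))))
    rw [← norm_neg] at this
    refine le_of_eq_of_le ?_ (this.trans (by linarith))
    congr 1
    simp only [Bim.dl, map_sub, map_add, Pr.ex_sub, Pr.ex_add, Pr.clm_ex, D.LR, D.L2, D.R2,
      D.R_mul', Pr.ex_const, mul_assoc]
    abel

lemma Pr.Iv.inv {U : Type*} [Group U] {σ : Pr U} {g : U} (h : σ.Iv g) : σ.Iv g⁻¹ :=
  .mk' (fun F => by simpa using (h.l fun a => F (g⁻¹ * a)).symm)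
    fun F => by simpa using (h.r fun a => F (a * g⁻¹)).symm

lemma AC.cand (h : AC D θ 1 c r) (θ0 : 0 < θ) (θ1 : θ ≤ 1) {m : Pr (unitary A)} (m1 : m.Sy)
    (m2 : m.All m.Iv) (m3 : m.All fun g => Nul θ c g) {n : ℕ} {e : ℝ} (e0 : 0 ≤ e) (n0 : 0 < n)
    (he : 29 ^ 2 + 29 * (7 * θ) * (6 * n ^ 2 + 16 * n) ≤ n * e ^ 2) (t : Pr (unitary A)) :
    ∃ φ, (BL 7 φ ∧ ∀ g, m.Iv g → Md D φ g) ∧
      t.ex (fun W => ‖dg (fun x z => c x z - D.dl φ x z) W‖) ≤ 2 * e + 220 * θ := by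
  obtain ⟨μ0, hμ0⟩ : ∃ μ0, μ0 = t.bind fun W => Pr.half W W⁻¹ := ⟨_, rfl⟩
  have s0 : μ0.Sy := Pr.ext' fun F => by simp [hμ0, Pr.ex_half, add_comm]
  obtain ⟨μ, hμ⟩ : ∃ μ, μ = m.cv (μ0.cv m) := ⟨_, rfl⟩
  have s1 : μ.Sy := Pr.ext' fun F => by
    simp only [hμ, Pr.ex_map', Pr.ex_cv, mul_inv_rev, mul_assoc]
    rw [m1.ex fun a => μ0.ex fun b => m.ex fun c => F (c⁻¹ * (b⁻¹ * a)), m.ex_comm,
      s0.ex fun b => m.ex fun a => m.ex fun c => F (c⁻¹ * (b * a)), m.ex_comm μ0]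
    refine congrArg _ (funext fun b => ?_)
    rw [m.ex_comm, m1.ex fun c => m.ex fun a => F (c * (b * a))]
  have s2 : ∀ g, m.Iv g → μ.Iv g := fun g hg => .mk' (fun F => by
      simp only [hμ, Pr.ex_cv, ← mul_assoc]
      exact hg.l fun a => μ0.ex fun b => m.ex fun c => F (a * b * c)) fun F => by
    simp only [hμ, Pr.ex_cv, mul_assoc]
    exact congrArg _ (funext fun a => congrArg _ (funext fun b => hg.r fun c => F (a * (b * c))))
  obtain ⟨ν, n1, n2⟩ := Pr.exists_nu K μ (n + 1) (ε := θ / 5) (by positivity)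
  obtain ⟨ψ, p1, p2⟩ := h.harm θ1 ν
  have h1 := h.sub p1
  generalize hγ : (fun x z => c x z - D.dl ψ x z) = γ at h1 p2
  have w1 := h1.walk (ω := 7 * θ) (by linarith) s1 n fun j hj => p2 _ (n1 j hj)
  have w2 : μ.ex (fun s => ‖dg γ s‖) ≤ e := by
    refine le_of_sq_le_sq ((μ.sq_ex_le _).trans ?_) e0
    have : (0 : ℝ) < n := by exact_mod_cast n0
    refine le_of_mul_le_mul_left (w1.trans (le_trans (le_of_eq ?_) he)) this
    norm_num
  have nu : ∀ g, m.Iv g → Nul (7 * θ) γ g := fun g hg x hx => by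
    have := p2 _ ((n2 g (s2 g hg)).ai (by positivity)) x hx
    simp only [Pr.ex_pure, D.L_norm, D.R_norm] at this
    exact this.symm
  obtain ⟨φ, q1, q2, q3⟩ := avg (D := D) (α := 8 * θ) p1 m ((m2.and m3).mono fun g hg x hx => by
    have a := norm_sub_le_of_le (hg.2 x hx).1 (nu g hg.1 x hx).1
    have b := norm_sub_le_of_le (hg.2 x hx).2 (nu g hg.1 x hx).2
    simp only [← hγ, sub_sub_cancel] at a b
    constructor <;> linarith)
  refine ⟨φ, ⟨q1, q2⟩, ?_⟩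
  generalize hγ' : (fun x z => c x z - D.dl φ x z) = γ'
  have w3 : ∀ g g', m.Iv g → m.Iv g' → ∀ W,
      ‖dg γ' W‖ - 110 * θ ≤ ‖dg γ (g * (W * g'))‖ := fun g g' hg hg' W => by
    have a1 := norm_sub_le_of_le (norm_sub_le_of_le (norm_sub_le_of_le (h1.hid W g')
      (D.L_le (bu W) (D.L_le (bu g') (nu _ hg'.inv _ (bu W⁻¹)).1)))
      (D.R_le' (bu W⁻¹) (D.R_le' (bu g'⁻¹) (nu _ hg' _ (bu W)).2))) (le_refl ‖dg γ (W * g')‖)
    have dd : ∀ g, m.Iv g → ‖dg γ g‖ ≤ 7 * θ := fun g hg => (nu _ hg _ (bu g⁻¹)).1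
    have a2 := norm_add_le_of_le a1 (D.L_le (bu W) (D.R_le' (bu W⁻¹) (dd _ hg')))
    have a3 := norm_sub_le_of_le (norm_sub_le_of_le (norm_sub_le_of_le (h1.hid g (W * g'))
      (D.L_le (bu g) (D.L_le (bu (W * g')) (nu _ hg.inv _ (bu (W * g')⁻¹)).2)))
      (D.R_le' (bu g⁻¹) (D.R_le' (bu (W * g')⁻¹) (nu _ hg _ (bu (W * g'))).1)))
      (le_refl ‖dg γ (g * (W * g'))‖)
    have a4 := norm_add_le_of_le a3 (dd _ hg)
    have a5 := norm_sub_le_of_le (le_refl ‖dg γ W‖) (q3 W (W⁻¹ : unitary A) (bu _) (bu _))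
    rw [show ∀ a b c d e : K, a - (b + c - d - e) - d - e - a + c = -b from fun _ _ _ _ _ => by abel,
      norm_neg] at a2
    rw [show ∀ a b c d e : K, a - (b + c - d - e) - d - e - a + b = -c from fun _ _ _ _ _ => by abel,
      norm_neg, D.L_norm, D.R_norm] at a4
    have a6 : dg γ W - (D.dl φ W (W⁻¹ : unitary A) - D.dl ψ W (W⁻¹ : unitary A)) = dg γ' W := by
      simp only [← hγ, ← hγ', dg]; abel
    rw [a6] at a5
    linarith
  have w4 : μ0.ex (fun W => ‖dg γ' W‖) - 110 * θ ≤ μ.ex fun s => ‖dg γ s‖ := by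
    simp only [hμ, Pr.ex_cv]
    refine Pr.le_ex (m2.mono fun g hg => ?_)
    rw [← μ0.ex_const (110 * θ), ← Pr.ex_sub]
    exact Pr.ex_mono (.of _ fun W => Pr.le_ex (m2.mono fun g' hg' => w3 g g' hg hg' W))
  have w5 : 2⁻¹ * t.ex (fun W => ‖dg γ' W‖) ≤ μ0.ex fun W => ‖dg γ' W‖ := by
    simp only [hμ0, Pr.ex_bind, Pr.ex_half, ← Pr.ex_mul, smul_eq_mul]
    exact Pr.ex_mono (.of _ fun W => by linarith [norm_nonneg (dg γ' W⁻¹)])
  linarith

lemma AC.diag (h : AC D θ 1 c r) (θ0 : 0 < θ) (θ1 : θ ≤ 1) {m : ℕ → Pr (unitary A)}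
    (m1 : ∀ k, (m k).Sy) (m2 : ∀ k, (m k).All (m k).Iv) (m3 : ∀ k, (m k).All fun g => Nul θ c g)
    {n : ℕ} {e : ℝ} (e0 : 0 ≤ e) (n0 : 0 < n)
    (he : 29 ^ 2 + 29 * (7 * θ) * (6 * n ^ 2 + 16 * n) ≤ n * e ^ 2) :
    ∃ φ, BL 7 φ ∧ (∀ g, (∀ᶠ k in atTop, (m k).Iv g) → Md D φ g) ∧
      ∀ W, ‖dg (fun x z => c x z - D.dl φ x z) W‖ ≤ 2 * e + 221 * θ := by
  classical
  have key : ∀ i : Finset (unitary A) × ℕ, ∃ φ ∈ {φ | BL 7 φ ∧ ∀ g, (m i.2).Iv g → Md D φ g},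
      ∀ W : Option i.1, ‖dg (fun x z => c x z - D.dl φ x z) (W.elim 1 Subtype.val)‖ ≤
        2 * e + 221 * θ := fun i => by
    refine minimax (κ := 2 * e + 220 * θ) (fun W => ⟨?_, ?_⟩) (by linarith) fun t => ?_
    · rintro φ ⟨a1, a2⟩ φ' ⟨b1, b2⟩ s t hs ht hst
      refine ⟨⟨⟨fun x y => ?_, fun a x => ?_⟩, fun x hx => ?_⟩, fun g hg x => ?_⟩
      · simp only [Pi.add_apply, Pi.smul_apply, a1.lin.map_add, b1.lin.map_add, smul_add]; abel
      · simp only [Pi.add_apply, Pi.smul_apply, a1.lin.map_smul, b1.lin.map_smul, smul_add,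
          smul_comm a]
      · exact mem_closedBall_zero_iff.1 (convex_closedBall 0 7 (mem_closedBall_zero_iff.2
          (a1.bd x hx)) (mem_closedBall_zero_iff.2 (b1.bd x hx)) hs ht hst)
      · simp only [Pi.add_apply, Pi.smul_apply, (a2 g hg x).1, (a2 g hg x).2, (b2 g hg x).1,
          (b2 g hg x).2, map_add, ContinuousLinearMap.map_smul_of_tower, and_self]
    · rintro φ - φ' - s t hs ht hst
      refine le_of_eq_of_le ?_ (convexOn_univ_norm.2 trivial trivial hs ht hst)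
      congr 1
      simp only [dg, Bim.dl, Pi.add_apply, Pi.smul_apply, map_add,
        ContinuousLinearMap.map_smul_of_tower]
      conv_lhs => rw [← one_smul ℝ (c _ _), ← hst]
      module
    · obtain ⟨φ, a, b⟩ := h.cand θ0 θ1 (m1 i.2) (m2 i.2) (m3 i.2) e0 n0 he
        (t.map fun W => W.elim 1 Subtype.val)
      exact ⟨φ, a, by simpa using b⟩
  choose φs h1 h2 using key
  obtain ⟨U, hU⟩ := exists_ultrafilter_le (atTop : Filter (Finset (unitary A) × ℕ))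
  obtain ⟨φ, a, b⟩ := wlim_BL U (fun i => (h1 i).1) (by norm_num)
  refine ⟨φ, a, fun g hg x => ?_, fun W => ?_⟩
  · have : ∀ᶠ i : Finset (unitary A) × ℕ in U, (m i.2).Iv g :=
      hU (by rw [← prod_atTop_atTop_eq]; exact tendsto_snd.eventually hg)
    exact ⟨(b _).eq (((b x).op _).congr (this.mono fun i hi => ((h1 i).2 g hi x).1.symm)),
      (b _).eq (((b x).op _).congr (this.mono fun i hi => ((h1 i).2 g hi x).2.symm))⟩
  · refine ((WV.const _).sub (WV.dl b _ _)).le (hU ?_)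
    filter_upwards [eventually_ge_atTop (({W}, 0) : Finset (unitary A) × ℕ)] with i hi
    exact h2 i (some ⟨W, hi.1 (mem_singleton_self W)⟩)

end Vale.Agent.P096
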