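import Vale.Agent.P096.Base

/-! The linear Radon-Nikodym lemma. -/

open Finset Vale.Agent.P104 Vale.Agent.P085 Filter Topology MeasureTheory Complex
open scoped InnerProductSpace InnerProduct

set_option linter.unusedSectionVars false

namespace Vale.Agent.P096.T4

lemma hb {E : Type*} [NormedAddCommGroup E] [InnerProductSpace ℂ E] [CompleteSpace E]
    (D : Submodule ℂ E) (C : Set E) (hC : Convex ℝ C) (hD : C ⊆ D) (K : ℝ)
    (hK : ∀ c ∈ C, ‖c‖ ≤ K) (g : E) (h : ∀ d ∈ D, ∃ c ∈ C, (⟪d, g⟫_ℂ).re ≤ (⟪d, c⟫_ℂ).re) :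
    ∃ g₀ ∈ closure C, ∀ d ∈ D, ⟪d, g⟫_ℂ = ⟪d, g₀⟫_ℂ := by
  let F := D.topologicalClosure
  have : CompleteSpace F := (Submodule.isClosed_topologicalClosure _).completeSpace_coe
  have hF : ∀ d ∈ D, F.starProjection d = d := fun d hd =>
    Submodule.starProjection_eq_self_iff.2 (D.le_topologicalClosure hd)
  have e : ∀ d ∈ D, ∀ v, ⟪d, v⟫_ℂ = ⟪d, F.starProjection v⟫_ℂ := fun d hd v => by
    rw [← F.inner_starProjection_left_eq_right, hF d hd]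
  refine ⟨F.starProjection g, ?_, fun d hd => e d hd g⟩
  by_contra hc
  obtain ⟨f, u, h1, h2⟩ := RCLike.geometric_hahn_banach_closed_point (𝕜 := ℂ) hC.closure
    isClosed_closure hc
  obtain ⟨n, rfl⟩ := (InnerProductSpace.toDual ℂ E).surjective f
  simp only [InnerProductSpace.toDual_apply_apply, RCLike.re_to_complex] at h1 h2
  rw [← F.inner_starProjection_left_eq_right] at h2
  obtain ⟨c₀, hc₀, -⟩ := h 0 D.zero_mem
  have K0 : 0 ≤ K := (norm_nonneg _).trans (hK c₀ hc₀)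
  have p : 0 < K + ‖g‖ + 1 := by positivity
  obtain ⟨d, hd, h3⟩ := Metric.mem_closure_iff.1
    (show F.starProjection n ∈ closure (D : Set E) from F.starProjection_apply_mem n)
    (((⟪F.starProjection n, g⟫_ℂ).re - u) / (K + ‖g‖ + 1)) (div_pos (sub_pos.2 h2) p)
  obtain ⟨c, h4, h5⟩ := h d hd
  have h6 := h1 c (subset_closure h4)
  rw [← hF c (hD h4), ← F.inner_starProjection_left_eq_right] at h6
  rw [dist_eq_norm, lt_div_iff₀ p] at h3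
  have b : ∀ v, |(⟪F.starProjection n, v⟫_ℂ).re - (⟪d, v⟫_ℂ).re| ≤
      ‖F.starProjection n - d‖ * ‖v‖ := fun v => by
    rw [← sub_re, ← inner_sub_left]
    exact (abs_re_le_norm _).trans (norm_inner_le_norm _ _)
  have b1 := (abs_le.1 (b g)).2
  have b2 := (abs_le.1 ((b c).trans (mul_le_mul_of_nonneg_left (hK c h4) (norm_nonneg _)))).1
  nlinarith [norm_nonneg (F.starProjection n - d)]

variable {H : Type*} [NormedAddCommGroup H] [InnerProductSpace ℂ H] [CompleteSpace H]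
  {M : VonNeumannAlgebra H} {ξ : H} {U : ℝ → Op H} {J : H → H}

lemma polar {a : Op H} (ha : a ∈ M) : ∃ s ∈ M, ∃ h ∈ M, ‖s‖ ≤ 1 ∧ star h = h ∧
    s * (h * h) = a ∧ star s * a = h * h := by
  have hsa : star (CFC.abs a) = CFC.abs a := (CFC.abs_nonneg a).isSelfAdjoint.star_eq
  obtain ⟨s, hs, h1, -, -, -, h4⟩ := exists_pi
    (LinearMap.range ((CFC.abs a).toLinearMap.prod a.toLinearMap)) (by
      rintro _ ⟨x, rfl⟩
      rw [← sq_eq_sq₀ (norm_nonneg _) (norm_nonneg _)]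
      change ‖CFC.abs a x‖ ^ 2 = ‖a x‖ ^ 2
      rw [normsq_eq, normsq_eq, hsa, CFC.abs_mul_abs])
  have e1 : s * CFC.abs a = a := by ext x; exact (h1 _ ⟨x, rfl⟩).1
  have e2 : star s * a = CFC.abs a := by ext x; exact (h1 _ ⟨x, rfl⟩).2
  have c : ∀ y ∈ M.commutant, Commute (CFC.abs a) y := fun y hy =>
    Commute.cfcAbs_left (a := a) (b := y) (commM ha hy) (commM ha (star_mem hy))
  have hy : ∀ y ∈ M.commutant, ∀ z ∈ LinearMap.range ((CFC.abs a).toLinearMap.prod a.toLinearMap),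
      (y z.1, y z.2) ∈ LinearMap.range ((CFC.abs a).toLinearMap.prod a.toLinearMap) := by
    rintro y hy _ ⟨x, rfl⟩
    exact ⟨y x, Prod.ext congr($((c y hy).eq) x) congr($(commM ha hy) x)⟩
  obtain ⟨p, p0, p1, p2⟩ := exists_sq (CFC.abs_nonneg a)
  refine ⟨s, memM fun y h => h4 y (hy y h) (hy _ (star_mem h)), p,
    memM fun y h => (p2 y (c y h)).eq.symm, ?_, p0.isSelfAdjoint.star_eq, p1.symm ▸ e1,
    p1.symm ▸ e2⟩
  have := proj_le1 hs.proj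
  rw [CStarRing.norm_star_mul_self] at this
  nlinarith [norm_nonneg s]

lemma key {a y : Op H} (ha : a ∈ M.commutant) (hy : y ∈ M) {s : ℝ} (hs : 0 < s) :
    ∃ x ∈ M, ‖x‖ ≤ ‖a‖ / 2 ∧ (⟪y ξ, a ξ⟫_ℂ).re ≤
      s * (⟪y ξ, x ξ⟫_ℂ).re + s⁻¹ * (⟪star x ξ, star y ξ⟫_ℂ).re := by
  obtain ⟨u, um, h, hm, u1, h1, h2, h3⟩ := polar hy
  refine ⟨((‖a‖ / 2 : ℝ) : ℂ) • u, smulM _ um, ?_, ?_⟩
  · rw [norm_smul, norm_real, Real.norm_of_nonneg (by positivity)]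
    exact mul_le_of_le_one_right (by positivity) u1
  have hl : ∀ v w, ⟪h v, w⟫_ℂ = ⟪v, h w⟫_ℂ := fun v w => by rw [← inner_star_l, h1]
  have a1 : ⟪y ξ, a ξ⟫_ℂ = ⟪h ξ, a (h (star u ξ))⟫_ℂ := by
    have := congr($(commM (mul_mem hm (star_mem um)) ha) ξ)
    simp only [mul_apply_eq_comp] at this
    rw [← this, ← hl, inner_star_r, ← h2]; rfl
  have a2 : (⟪y ξ, u ξ⟫_ℂ).re = ‖h ξ‖ ^ 2 := by
    rw [← inner_star_l, ← mul_apply_eq_comp, h3, mul_apply_eq_comp, hl,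
      inner_self_eq_norm_sq_to_K]; norm_cast
  have a3 : (⟪star u ξ, star y ξ⟫_ℂ).re = ‖h (star u ξ)‖ ^ 2 := by
    rw [← h2, star_mul, star_mul, h1, mul_apply_eq_comp, mul_apply_eq_comp, ← hl,
      inner_self_eq_norm_sq_to_K]; norm_cast
  have a4 : (⟪h ξ, a (h (star u ξ))⟫_ℂ).re ≤ ‖h ξ‖ * (‖a‖ * ‖h (star u ξ)‖) :=
    (re_le_norm _).trans ((norm_inner_le_norm _ _).trans (by gcongr; exact a.le_opNorm _))
  rw [star_smul, smul_apply, smul_apply, inner_smul_left, inner_smul_right, RCLike.star_def,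
    conj_ofReal, conj_ofReal, re_ofReal_mul, re_ofReal_mul, a1, a2, a3]
  refine a4.trans ?_
  have : 0 ≤ s⁻¹ * (‖a‖ / 2 * (s * ‖h ξ‖ - ‖h (star u ξ)‖) ^ 2) := by positivity
  have e : s⁻¹ * (‖a‖ / 2 * (s * ‖h ξ‖ - ‖h (star u ξ)‖) ^ 2) = s * (‖a‖ / 2 * ‖h ξ‖ ^ 2) +
    s⁻¹ * (‖a‖ / 2 * ‖h (star u ξ)‖ ^ 2) - ‖h ξ‖ * (‖a‖ * ‖h (star u ξ)‖) := by
    field_simp; ring
  linarith

theorem rn (h : Mod0 M ξ U J) {a : Op H} (ha : a ∈ M.commutant) {s : ℝ} (hs : 0 < s) :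
    ∃ x ∈ M, ∀ y ∈ M, ⟪y ξ, a ξ⟫_ℂ = s * ⟪y ξ, x ξ⟫_ℂ + (s⁻¹ : ℝ) * ⟪star x ξ, star y ξ⟫_ℂ := by
  obtain ⟨r, r0, rfl⟩ : ∃ r : ℝ, 0 < r ∧ s = r * r :=
    ⟨√s, Real.sqrt_pos.2 hs, (Real.mul_self_sqrt hs.le).symm⟩
  let Φ : MA M →ₗ[ℂ] WithLp 2 (H × H) :=
    { toFun := fun y => WithLp.toLp 2 ((r : ℂ) • y.1 ξ, ((r⁻¹ : ℝ) : ℂ) • J (star y.1 ξ))
      map_add' := fun x y => by
        rw [← WithLp.toLp_add]; simp [h.Jadd]
      map_smul' := fun c x => by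
        rw [← WithLp.toLp_smul]; simp [h.Jsmul, smul_comm c] }
  have i1 : ∀ x y, ⟪Φ y, Φ x⟫_ℂ = (r * r : ℝ) * ⟪y.1 ξ, x.1 ξ⟫_ℂ +
      ((r * r)⁻¹ : ℝ) * ⟪star x.1 ξ, star y.1 ξ⟫_ℂ := fun x y => by
    rw [WithLp.prod_inner_apply]
    simp only [Φ, LinearMap.coe_mk, AddHom.coe_mk, inner_smul_left, inner_smul_right, conj_ofReal,
      h.Jinner]
    push_cast; ring
  have i2 : ∀ y, ⟪Φ y, WithLp.toLp 2 (((r⁻¹ : ℝ) : ℂ) • a ξ, (0 : H))⟫_ℂ = ⟪y.1 ξ, a ξ⟫_ℂ :=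
    fun y => by
      rw [WithLp.prod_inner_apply]
      simp only [Φ, LinearMap.coe_mk, AddHom.coe_mk, inner_smul_left, inner_smul_right, conj_ofReal,
        inner_zero_right]
      have : (r : ℂ) ≠ 0 := ofReal_ne_zero.2 r0.ne'
      push_cast; field_simp; ring
  obtain ⟨g, g1, g2⟩ := hb (LinearMap.range Φ) (Φ '' Metric.closedBall 0 (‖a‖ / 2))
    ((convex_closedBall _ _).linear_image (Φ.restrictScalars ℝ))
    (Set.image_subset_range _ _) ((r + r⁻¹) * (‖a‖ / 2 * ‖ξ‖)) (by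
      rintro _ ⟨x, hx, rfl⟩
      have hx : ‖x.1‖ ≤ ‖a‖ / 2 := by simpa using hx
      have b1 := x.1.le_of_opNorm_le hx ξ
      have b2 := (star x.1).le_of_opNorm_le ((norm_star _).trans_le hx) ξ
      refine le_of_sq_le_sq ?_ (by positivity)
      rw [WithLp.prod_norm_sq_eq_of_L2]
      simp only [Φ, LinearMap.coe_mk, AddHom.coe_mk, WithLp.toLp_fst, WithLp.toLp_snd, norm_smul,
        h.Jnorm, norm_real, Real.norm_of_nonneg r0.le, Real.norm_of_nonneg (inv_pos.2 r0).le]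
      have c1 : (r * ‖x.1 ξ‖) ^ 2 ≤ (r * (‖a‖ / 2 * ‖ξ‖)) ^ 2 := by gcongr
      have c2 : (r⁻¹ * ‖star x.1 ξ‖) ^ 2 ≤ (r⁻¹ * (‖a‖ / 2 * ‖ξ‖)) ^ 2 := by gcongr
      have c3 : 0 ≤ r * r⁻¹ * (‖a‖ / 2 * ‖ξ‖) ^ 2 := by positivity
      nlinarith)
    (WithLp.toLp 2 (((r⁻¹ : ℝ) : ℂ) • a ξ, (0 : H))) (by
      rintro _ ⟨y, rfl⟩
      obtain ⟨x, xm, x1, x2⟩ := key (ξ := ξ) ha y.2 hs
      refine ⟨_, ⟨⟨x, xm⟩, by simpa using x1, rfl⟩, ?_⟩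
      rw [i1, i2, add_re, re_ofReal_mul, re_ofReal_mul]; exact x2)
  obtain ⟨c, c1, c2⟩ := mem_closure_iff_seq_limit.1 g1
  choose x x1 x2 using c1
  obtain ⟨z, -, z2⟩ := wlim (hyperfilter ℕ) (fun n => (x n).1) (C := ‖a‖ / 2) (by positivity)
    fun n => by simpa using x1 n
  refine ⟨z, z2.mem fun n => (x n).2, fun y hy => ?_⟩
  have t1 := (tendsto_const_nhds (x := Φ ⟨y, hy⟩).inner (𝕜 := ℂ) c2).mono_left
    Nat.hyperfilter_le_atTop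
  rw [← g2 _ ⟨_, rfl⟩, i2] at t1
  refine tendsto_nhds_unique t1 ?_
  simp only [← x2, i1, inner_star_l]
  exact ((z2 _ _).const_mul _).add ((z2 _ _).const_mul _)

end Vale.Agent.P096.T4
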