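import Vale.Agent.P096.Main

/-! A faithful tracial state on a factor is a finite sum of vector functionals. -/

open Finset Vale.Agent.P104 Vale.Agent.P085 Filter Topology
open scoped InnerProductSpace ComplexOrder

set_option linter.unusedSectionVars false

namespace Vale.Agent.P096

variable {H : Type*} [NormedAddCommGroup H] [InnerProductSpace ℂ H] [CompleteSpace H]
  {M : VonNeumannAlgebra H}

lemma cyc_proj {A : Type*} [CStarAlgebra A] (π : A →⋆ₐ[ℂ] Op H) (η : H) :
    ∃ (V : Submodule ℂ H) (_ : CompleteSpace V), (∀ x, π x η ∈ V) ∧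
      (∀ p : H → Prop, IsClosed {v | p v} → (∀ x, p (π x η)) → ∀ v ∈ V, p v) ∧
      ∀ x, π x * V.starProjection = V.starProjection * π x := by
  let e : A →ₗ[ℂ] H := (ContinuousLinearMap.apply ℂ H η).toLinearMap ∘ₗ π.toLinearMap
  have := (LinearMap.range e).isClosed_topologicalClosure.completeSpace_coe
  refine ⟨(LinearMap.range e).topologicalClosure, this, fun x => subset_closure ⟨x, rfl⟩,
    fun p h h' v hv => closure_minimal (t := {v | p v}) (by rintro _ ⟨x, rfl⟩; exact h' x) h hv,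
    fun x => ?_⟩
  have k : ∀ x, (1 - (LinearMap.range e).topologicalClosure.starProjection) * π x *
      (LinearMap.range e).topologicalClosure.starProjection = 0 := fun x => by
    ext v
    simp only [mul_apply_eq_comp, sub_apply, one_apply_eq_self, zero_apply, sub_eq_zero]
    refine (Submodule.starProjection_eq_self_iff.2 (map_mem_closure (s := LinearMap.range e)
      (t := LinearMap.range e) (π x).continuous ((LinearMap.range e).topologicalClosure.starProjection_apply_mem v) ?_)).symm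
    rintro _ ⟨y, rfl⟩; exact ⟨x * y, congr($(map_mul π x y) η)⟩
  exact comm_of_ann (isStarProjection_starProjection) (k x) (by rw [← map_star]; exact k _)

lemma rn (ω : MA M →ₗ[ℂ] ℂ) (η : H) {C : ℝ} (C0 : 0 ≤ C)
    (h1 : ∀ x y, ‖ω (star y * x)‖ ≤ C * ‖y.1 η‖ * ‖x.1 η‖) (h2 : ∀ x, 0 ≤ ω (star x * x)) :
    ∃ ξ, ∀ x, ω x = ⟪ξ, x.1 ξ⟫_ℂ := by
  obtain ⟨ζ₀, h0⟩ := riesz ω (((C * ‖η‖ : ℝ) : ℂ) • ev M η) fun x => by
    have := h1 x 1
    rw [star_one, one_mul] at this
    rwa [LinearMap.smul_apply, norm_smul, Complex.norm_real, Real.norm_of_nonneg (by positivity)]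
  obtain ⟨P, hP, v2, v3, v4⟩ : ∃ P : Op H, IsStarProjection P ∧ (∀ x : MA M, x.1 * P = P * x.1) ∧
      (∀ x : MA M, P (x.1 η) = x.1 η) ∧ ∀ p : H → Prop, IsClosed {v | p v} →
      (∀ x : MA M, p (x.1 η)) → ∀ v, p (P v) := by
    obtain ⟨V, _, v1, v2, v3⟩ := cyc_proj M.toStarSubalgebra.subtype η
    exact ⟨_, isStarProjection_starProjection, v3, fun x => Submodule.starProjection_eq_self_iff.2
      (v1 x), fun p h h' v => v2 p h h' _ (V.starProjection_apply_mem v)⟩
  have v5 : ∀ (x : MA M) v, x.1 (P v) = P (x.1 v) := fun x v => congr($(v2 x) v)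
  obtain ⟨ζ₁, hζ⟩ : ∃ ζ₁, ∀ x, ω x = ⟪P ζ₁, x.1 η⟫_ℂ :=
    ⟨((C * ‖η‖ : ℝ) : ℂ) • ζ₀, fun x => by
      rw [h0, proj_inner hP, v3, inner_smul_left]; simp [inner_smul_right]⟩
  have k : ∀ x y : MA M, ω (star y * x) = ⟪y.1 (P ζ₁), x.1 η⟫_ℂ := fun x y => by
    rw [hζ, ← inner_star_r y.1]; rfl
  obtain ⟨T, t1, -, t2⟩ := ext_comm (P := M) (ξ := η) (ζ := P ζ₁) C0 fun y hy => by
    have := v4 (fun v => ‖⟪y (P ζ₁), v⟫_ℂ‖ ≤ C * ‖y η‖ * ‖v‖)
      (isClosed_le (continuous_const.inner continuous_id).norm (by fun_prop))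
      (fun x => k x ⟨y, hy⟩ ▸ h1 x ⟨y, hy⟩) (y ζ₁)
    rw [← v5 ⟨y, hy⟩, inner_self_eq_norm_sq_to_K, norm_pow, RCLike.norm_ofReal, abs_norm] at this
    nlinarith [norm_nonneg (y (P ζ₁)), mul_nonneg C0 (norm_nonneg (y η))]
  have t3 : ∀ (x : MA M) v, T (x.1 v) = x.1 (T v) := fun x v => congr($(commM x.2 t1) v).symm
  obtain ⟨R, r0, r1, r2⟩ := exists_sq (T := P * T * P) (pos_iff.2 fun v => by
    simp only [mul_apply_eq_comp, ← proj_inner hP]
    refine v4 (fun v => 0 ≤ ⟪v, T v⟫_ℂ) (isClosed_le continuous_const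
      (continuous_id.inner T.continuous)) (fun x => ?_) v
    have := h2 x
    rw [k, Complex.nonneg_iff] at this
    rw [t3, t2, ← inner_conj_symm, Complex.nonneg_iff, Complex.conj_re, Complex.conj_im, ← this.2]
    simpa using this.1)
  refine ⟨R η, fun x => ?_⟩
  have a := (r2 x.1 (((show Commute _ _ from v2 x).mul_right (commM x.2 t1)).mul_right
    (v2 x)).symm).eq
  have b : P η = η := v3 1
  rw [hζ, ← t2, ← mul_apply_eq_comp x.1, ← a, mul_apply_eq_comp, ← inner_star_l R,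
    r0.isSelfAdjoint.star_eq, ← mul_apply_eq_comp R, r1, mul_apply_eq_comp, mul_apply_eq_comp, b,
    proj_inner hP, v3]

variable [TrAlg (MA M)]

/-- `tr (· f)` is a finite sum of vector functionals -/
def VF (f : MA M) : Prop := ∃ (ι : Type) (_ : Fintype ι) (ξ : ι → H),
  ∀ x : MA M, tr (x * f) = ∑ i, ⟪ξ i, x.1 (ξ i)⟫_ℂ

lemma VF.add {e f : MA M} (h : VF e) (h' : VF f) : VF (e + f) := by
  obtain ⟨ι, _, ξ, h⟩ := h
  obtain ⟨κ, _, ζ, h'⟩ := h'
  exact ⟨ι ⊕ κ, inferInstance, Sum.elim ξ ζ, fun x => by simp [mul_add, h, h']⟩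

lemma VF.sub {e s : MA M} (h : VF e) (h' : s * e = s) : VF (s * star s) := by
  obtain ⟨ι, _, ξ, h⟩ := h
  refine ⟨ι, inferInstance, fun i => s.1 (ξ i), fun x => ?_⟩
  rw [← mul_assoc, tr_comm, ← h', ← mul_assoc, ← mul_assoc, h', h]
  exact sum_congr rfl fun i _ => inner_star_r _ _ _

lemma exists_VF [Nontrivial H] : ∃ e : MA M, IsStarProjection e ∧ e ≠ 0 ∧ VF e := by
  obtain ⟨η, hη⟩ := exists_norm_eq H zero_le_one
  obtain ⟨s, t, s1, t1, st, s0, h1, h2⟩ := etrick (P := M) rt (fun x => 2 * qf x.1 η) rt_add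
    (fun x y => by simp [qf, mul_add]) (fun x => rt_nn)
    (fun x hx => mul_nonneg zero_le_two (qf_nonneg hx _))
    fun a z _ hz => ((Complex.continuous_re.tendsto _).comp (hz η η)).const_mul _
  have s2 : 0 < ‖s.1‖ := norm_pos_iff.2 fun h => by
    rw [show s = 0 from Subtype.ext h, mul_zero, zero_add] at st
    rw [st, OneMemClass.coe_one, qf_one, hη, rt_one] at h1
    norm_num at h1
  obtain ⟨c, hc⟩ : ∃ c : Op H, c = algebraMap ℝ _ (‖s.1‖ / 2) := ⟨_, rfl⟩
  have c1 : ∀ y, c * y = y * c := fun y => hc ▸ Algebra.commutes _ _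
  have c2 : ∀ v, c v = ((‖s.1‖ / 2 : ℝ) : ℂ) • v := fun v => by
    rw [hc, Algebra.algebraMap_eq_smul_one, ← Complex.coe_smul]; rfl
  obtain ⟨e, e1, e2, e3, e4⟩ := exists_spec (a := s.1 - c) (s0.isSelfAdjoint.sub
    (hc ▸ IsSelfAdjoint.algebraMap _ (IsSelfAdjoint.all _)))
  have eM : e ∈ M := memM fun y hy => (e2 y (by rw [sub_mul, mul_sub, c1, commM s.2 hy])).symm
  have es : e * s.1 = s.1 * e := e2 _ (by rw [sub_mul, mul_sub, c1])
  obtain ⟨d, hd⟩ : ∃ d : ℂ, d = ((‖s.1‖ / 2)⁻¹ : ℝ) := ⟨_, rfl⟩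
  have d0 : 0 ≤ d := by rw [hd]; positivity
  have d1 : d • c = 1 := by
    ext v
    have : (‖s.1‖ : ℂ) ≠ 0 := by exact_mod_cast s2.ne'
    simp [c2, hd, -Complex.coe_smul, smul_smul, this]
  obtain ⟨r, r1, r2, -⟩ := exists_inv (add_nonneg (smul_nonneg d0 e3) zero_le_one) fun v => by
    have := qf_nonneg (smul_nonneg d0 e3) v
    rw [← qf_one]; simp only [qf, add_apply, inner_add_right, Complex.add_re] at this ⊢; linarith
  have rM : r ∈ M := memM fun y hy => by
    have := commM (add_mem (smulM d (mul_mem (sub_mem s.2 (hc ▸ M.toStarSubalgebra.algebraMap_mem'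
      (‖s.1‖ / 2 : ℝ))) eM)) (one_mem M)) hy
    rw [← one_mul (y * r), ← r1, mul_assoc, ← mul_assoc _ y, this, mul_assoc y, r2, mul_one]
  have ee : d • r * e * s.1 = e := by
    have := congr($r1 * e)
    rw [mul_assoc, add_mul, smul_mul_assoc, mul_assoc, pidem e1, sub_mul, smul_sub,
      ← smul_mul_assoc d c, d1, sub_add_cancel] at this
    simpa [mul_assoc, es] using this
  have k : ∀ x : MA M, n2 (x * ⟨e, eM⟩) ≤ √2 * ‖x.1 (e η)‖ := fun x => by
    have := scale (f := fun x : MA M => rt (star (x * s) * (x * s)))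
      (g := fun x => 2 * qf (star (x * s) * (x * s)).1 η) 2 (fun t x ht => by
        simp [rt, smul_smul, sq]) (fun t x ht => by simp [qf, inner_smul_right]; ring) h2
      (x * ⟨_, mul_mem (smulM d rM) eM⟩)
    rw [mul_assoc, show (⟨_, mul_mem (smulM d rM) eM⟩ : MA M) * s = ⟨e, eM⟩ from Subtype.ext ee,
      rt, ← n2_sq] at this
    refine le_of_sq_le_sq ?_ (by positivity)
    rw [mul_pow, Real.sq_sqrt zero_le_two]
    exact this.trans_eq (congrArg _ (normsq_eq _ _).symm)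
  have e5 : IsStarProjection (⟨e, eM⟩ : MA M) := mkP (Subtype.ext (P104.pstar e1))
    (Subtype.ext (pidem e1))
  have k2 : ∀ x y : MA M, tr (star y * x * ⟨e, eM⟩) = tr (star (y * ⟨e, eM⟩) * (x * ⟨e, eM⟩)) :=
    fun x y => by
      generalize (⟨e, eM⟩ : MA M) = e at e5
      rw [star_mul, P085.pstar e5, mul_assoc e, tr_comm e]
      simp only [mul_assoc, pp e5]
  obtain ⟨ξ, hξ⟩ := rn (tr ∘ₗ LinearMap.mulRight ℂ (⟨e, eM⟩ : MA M)) (e η) zero_le_two
    (fun x y => (congrArg _ (k2 x y)).trans_le ((tr_smul_le _ _).trans ((mul_le_mul (k y) (k x)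
      (n2_nonneg _) (by positivity)).trans_eq (by
        rw [mul_mul_mul_comm, Real.mul_self_sqrt zero_le_two, mul_assoc]))))
    fun x => ((k2 x x).trans (tr_sq _)).ge.trans' (by positivity)
  refine ⟨_, e5, fun h => ?_, Unit, inferInstance, fun _ => ξ, fun x => by simpa using hξ x⟩
  rw [show e = 0 from congrArg Subtype.val h, sub_zero, mul_one, neg_sub, sub_nonneg, hc,
    ← CStarAlgebra.norm_le_iff_le_algebraMap _ (by positivity) s0] at e4
  linarith

theorem exists_vecs [Nontrivial H]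
    (hfac : ∀ z ∈ M, (∀ x ∈ M, x * z = z * x) → ∃ c : ℂ, z = c • 1) : VF (1 : MA M) := by
  obtain ⟨e, e1, e2, e3⟩ := exists_VF (M := M)
  have cp : ∀ {p : MA M}, IsStarProjection p → IsStarProjection p.1 := fun h =>
    ⟨congrArg Subtype.val (pp h), congrArg Subtype.val (P085.pstar h)⟩
  have key : ∀ n : ℕ, ∀ f : MA M, IsStarProjection f → rt f ≤ n * rt e → VF f := fun n => by
    induction n with
    | zero =>
      intro f f1 f2
      obtain rfl : f = 0 := by by_contra h; simpa using (rt_pos f1 h).trans_le f2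
      exact ⟨Empty, inferInstance, Empty.elim, by simp⟩
    | succ n ih =>
      intro f f1 f2
      obtain ⟨z, z1, z2, z3⟩ := exists_gc (cp f1) (cp e1) f.2 e.2
      obtain ⟨c, rfl⟩ := hfac z z1.mem z1.comm
      have := pidem z1.proj
      rw [smul_mul_smul_comm, mul_one] at this
      rcases IsIdempotentElem.iff_eq_zero_or_one.1 (smul_left_injective ℂ one_ne_zero this) with
        rfl | rfl
      · obtain ⟨s, sM, s1, s2⟩ := z3
        rw [zero_smul, sub_zero, mul_one] at s1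
        have s3 := PI.of_proj (s1 ▸ cp e1)
        have s4 : IsStarProjection ((⟨s, sM⟩ : MA M) * star ⟨s, sM⟩) :=
          piso_proj' (Subtype.ext s3)
        have := (ih (f - ⟨s, sM⟩ * star ⟨s, sM⟩) (s4.sub_of_mul_eq_right f1 (Subtype.ext
          (by change f.1 * (s * star s) = s * star s; rw [← mul_assoc, s2]))) (by
            rw [rt_sub, rt, rt, tr_comm, show star (⟨s, sM⟩ : MA M) * ⟨s, sM⟩ = e from
              Subtype.ext s1]
            push_cast at f2; unfold rt at *; linarith)).add (e3.sub (s := ⟨s, sM⟩) (Subtype.ext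
          (by change s * e.1 = s; rw [← s1, ← mul_assoc, s3])))
        rwa [sub_add_cancel] at this
      · obtain ⟨s, sM, s1, s2⟩ := z2
        rw [one_smul, mul_one] at s1
        have := e3.sub (s := star ⟨s, sM⟩) (Subtype.ext (by
          simpa [P104.pstar (cp e1)] using congrArg star s2))
        rwa [star_star, show star (⟨s, sM⟩ : MA M) * ⟨s, sM⟩ = f from Subtype.ext s1] at this
  obtain ⟨n, hn⟩ := exists_nat_ge (1 / rt e)
  exact key n 1 (.one _) (by rwa [rt_one, ← div_le_iff₀ (rt_pos e1 e2)])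

end Vale.Agent.P096
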