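import Vale.Agent.P096.Coc

/-! The random walk estimate for biharmonic approximate cocycles. -/

open Finset Vale.Agent.P104
open scoped InnerProductSpace

set_option linter.unusedSectionVars false

namespace Vale.Agent.P096

variable {A K : Type*} [CStarAlgebra A] [NormedAddCommGroup K] [InnerProductSpace ℂ K]
  [CompleteSpace K] {D : Bim A K} {θ β b ω : ℝ} {c r : A → A → K} {ψ : A → K}

noncomputable def ri (x y : K) : ℝ := (⟪x, y⟫_ℂ).re

lemma ri_ex {α : Type*} (σ : Pr α) (x : K) (F : α → K) : ri x (σ.ex F) = σ.ex fun a => ri x (F a) :=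
  σ.ex_map F (ri x) (fun _ _ => by simp [ri]) fun t y => by
    rw [ri, ← Complex.coe_smul, inner_smul_right, Complex.re_ofReal_mul]; rfl

lemma ex_ri {α : Type*} (σ : Pr α) (x : K) (F : α → K) : ri (σ.ex F) x = σ.ex fun a => ri (F a) x :=
  σ.ex_map F (ri · x) (fun _ _ => by simp [ri, inner_add_left]) fun t y => by
    simp only [ri]
    rw [← Complex.coe_smul, inner_smul_left, Complex.conj_ofReal, Complex.re_ofReal_mul]; rfl

lemma ri_le {x y : K} {a b : ℝ} (hx : ‖x‖ ≤ a) (hy : ‖y‖ ≤ b) : |ri x y| ≤ a * b :=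
  (Complex.abs_re_le_norm _).trans ((norm_inner_le_norm _ _).trans
    (mul_le_mul hx hy (norm_nonneg _) ((norm_nonneg _).trans hx)))

lemma ri_sub (x y z : K) : ri x (y - z) = ri x y - ri x z := by simp [ri]
lemma sub_ri (x y z : K) : ri (y - z) x = ri y x - ri z x := by simp [ri, inner_sub_left]
lemma nsq_add (x y : K) : ‖x + y‖ ^ 2 = ‖x‖ ^ 2 + 2 * ri x y + ‖y‖ ^ 2 := norm_add_sq (𝕜 := ℂ) x y

lemma nsq_ge {u v : K} {ρ β : ℝ} (h : ‖u - v‖ ≤ ρ) (hv : ‖v‖ ≤ β) : ‖v‖ ^ 2 - 2 * (β * ρ) ≤ ‖u‖ ^ 2 := by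
  have := nsq_add v (u - v)
  rw [add_sub_cancel] at this
  have := (abs_le.1 (ri_le hv h)).1
  nlinarith [sq_nonneg ‖u - v‖]

lemma geom_pos {P : Op K} (hP : IsSelfAdjoint P) (h1 : ‖P‖ ≤ 1) (j : ℕ) :
    ∀ v, 0 ≤ ri ((∑ i ∈ range j, P ^ i) v) v := by
  induction j using Nat.twoStepInduction with
  | zero => simp [ri]
  | one => intro v; simpa [ri] using inner_self_nonneg (𝕜 := ℂ) (x := v)
  | more j ih _ =>
    intro v
    have e : ∑ i ∈ range (j + 2), P ^ i = 1 + P + star P * ((∑ i ∈ range j, P ^ i) * P) := by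
      rw [sum_range_succ', sum_range_succ', hP.star_eq, sum_mul, mul_sum]
      simp only [← pow_succ, ← pow_succ', pow_zero, zero_add, pow_one]; abel
    have a := ih (P v)
    have b := (abs_le.1 (ri_le (app_le h1 v) (le_refl ‖v‖))).1
    have d : ri v v = ‖v‖ * ‖v‖ := by
      rw [ri, inner_self_eq_norm_sq_to_K, ← sq]; norm_cast
    rw [e]
    simp only [ri, add_apply, inner_add_left, Complex.add_re, mul_apply_eq_comp, inner_star_l,
      one_apply_eq_self] at a b d ⊢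
    linarith

noncomputable def dg (c : A → A → K) (u : unitary A) : K := c u (u⁻¹ : unitary A)

lemma AC.hid (h : AC D θ β c r) (γ s : unitary A) :
    ‖dg c (γ * s) - (dg c γ + D.L γ (D.R (γ⁻¹ : unitary A) (dg c s)) -
      D.L γ (D.L s (c (s⁻¹ : unitary A) (γ⁻¹ : unitary A))) -
      D.R (γ⁻¹ : unitary A) (D.R (s⁻¹ : unitary A) (c γ s)))‖ ≤ 2 * θ := by
  have e1 := h.coc γ s (s⁻¹ * γ⁻¹ : unitary A) (bu _) (bu _) (bu _)
  have e2 := D.L_le (bu γ) (h.coc s (s⁻¹ : unitary A) (γ⁻¹ : unitary A) (bu _) (bu _) (bu _))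
  refine le_of_eq_of_le ?_ ((norm_sub_le_of_le e1 e2).trans (by linarith))
  congr 1
  simp only [dg, mul_inv_rev, Submonoid.coe_mul, ← mul_assoc, uu, one_mul, h.one, map_sub, map_add,
    map_zero, D.R_mul']
  abel

lemma AC.walk (h : AC D θ β c r) (hθ : θ ≤ ω) {μ : Pr (unitary A)} (hμ : μ.Sy) (n : ℕ)
    (hH : ∀ j ≤ n + 1, Har D ω c (μ.pw j)) :
    n * μ.ex (fun s => ‖dg c s‖ ^ 2) ≤ β ^ 2 + β * ω * (6 * n ^ 2 + 16 * n) := by
  have β0 := h.β0
  have ω0 := h.θ0.trans hθ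
  have hμ1 : Har D ω c μ := by
    have := hH 1 (by omega)
    rwa [show μ.pw 1 = μ from Pr.ext' fun F => by simp [Pr.pw]] at this
  have db : ∀ u, ‖dg c u‖ ≤ β := fun u => h.bd _ _ (bu _) (bu _)
  obtain ⟨H, hH'⟩ : ∃ H : unitary A → K, H = fun γ => D.L (γ⁻¹ : unitary A) (D.R γ (dg c γ)) :=
    ⟨_, rfl⟩
  obtain ⟨Z, hZ⟩ : ∃ Z : unitary A → unitary A → K,
    Z = fun γ s => D.L (γ⁻¹ : unitary A) (D.R γ (dg c (γ * s) - dg c γ)) := ⟨_, rfl⟩
  have Hn : ∀ γ, ‖H γ‖ = ‖dg c γ‖ := fun γ => by rw [hH', D.L_norm, D.R_norm]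
  have HZ : ∀ γ s, H (γ * s) = D.L (s⁻¹ : unitary A) (D.R s (H γ + Z γ s)) := fun γ s => by
    simp only [hH', hZ, mul_inv_rev, Submonoid.coe_mul, D.L_mul, D.R_mul', map_sub, D.LR,
      add_sub_cancel]
  have z1 : ∀ γ s, ‖Z γ s - (dg c s - D.R γ (D.L s (c (s⁻¹ : unitary A) (γ⁻¹ : unitary A))) -
      D.L (γ⁻¹ : unitary A) (D.R (s⁻¹ : unitary A) (c γ s)))‖ ≤ 2 * θ := fun γ s => by
    refine le_of_eq_of_le ?_ (D.L_le (bu γ⁻¹) (D.R_le' (bu γ) (h.hid γ s)))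
    congr 1
    simp only [hZ, map_sub, map_add, D.LR, D.L2, D.R1]
    abel
  obtain ⟨κ, hκ⟩ : ∃ κ, κ = μ.ex (dg c) := ⟨_, rfl⟩
  have κb : ‖κ‖ ≤ β := hκ ▸ μ.norm_ex' db
  have z2 : ∀ γ, ‖μ.ex (Z γ) - κ‖ ≤ 4 * ω := fun γ => by
    have e1 := μ.norm_ex' (z1 γ)
    have e2 := (hμ1 _ (bu γ⁻¹)).2
    rw [← hμ.ex] at e2
    refine le_of_eq_of_le ?_ ((norm_sub_le_of_le (norm_sub_le_of_le e1 (D.R_le' (bu γ) e2))
      (D.L_le (bu γ⁻¹) (hμ1 _ (bu γ)).1)).trans (by linarith))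
    congr 1
    simp only [hκ, Pr.ex_sub, Pr.clm_ex, inv_inv]
    abel
  have z3 : ∀ j ≤ n, ∀ s, ‖(μ.pw j).ex (Z · s) - dg c s‖ ≤ 4 * ω := fun j hj s => by
    have e1 := (μ.pw j).norm_ex' (z1 · s)
    have e2 := (hH j (by omega) _ (bu s⁻¹)).1
    rw [← (hμ.pw j).ex] at e2
    refine le_of_eq_of_le ?_ ((norm_sub_le_of_le (norm_sub_le_of_le e1 (D.L_le (bu s) e2))
      (D.R_le' (bu s⁻¹) (hH j (by omega) _ (bu s)).2)).trans (by linarith))
    congr 1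
    simp only [Pr.ex_sub, Pr.clm_ex, inv_inv, Pr.ex_const, D.LR]
    abel
  obtain ⟨P, hP⟩ : ∃ P : Op K, P = μ.ex fun s => D.L (s⁻¹ : unitary A) * D.R s := ⟨_, rfl⟩
  have P1 : ‖P‖ ≤ 1 := hP ▸ μ.norm_ex' fun s => ContinuousLinearMap.opNorm_le_bound _ zero_le_one
    fun v => by rw [one_mul]; exact D.L_le (bu _) (D.R_le' (bu _) le_rfl)
  have P2 : IsSelfAdjoint P := by
    rw [IsSelfAdjoint, hP, μ.ex_map _ star star_add (fun _ _ => by simp), ← hμ.ex]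
    simp only [star_mul, ← D.R_star, ← map_star, ← D.comm, ← coe_inv, inv_inv]
  have z4 : ‖(μ.ex fun s => D.L (s⁻¹ : unitary A) (D.R s (dg c s))) - κ‖ ≤ 2 * θ := by
    rw [hκ, ← hμ.ex (dg c), ← Pr.ex_sub]
    refine μ.norm_ex' fun s => le_of_eq_of_le ?_ (h.hid s⁻¹ s)
    rw [← norm_neg]
    congr 1
    simp only [dg, inv_inv, inv_mul_cancel, OneMemClass.coe_one, h.one, D.L2, D.R1]
    abel
  have key : ∀ j ≤ n, ‖(μ.pw j).ex H - (∑ i ∈ range j, P ^ i) κ‖ ≤ 6 * ω * j ∧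
      j * μ.ex (fun s => ‖dg c s‖ ^ 2) - β * ω * (6 * j ^ 2 + 16 * j) ≤
        (μ.pw j).ex fun γ => ‖H γ‖ ^ 2 := fun j hj => by
    induction j with
    | zero => simp [Pr.pw, hH', dg, h.one]
    | succ j ih =>
      obtain ⟨i1, i2⟩ := ih (by omega)
      constructor
      · have e1 := μ.norm_ex' fun s => D.L_le (bu s⁻¹) (D.R_le' (bu s) (z3 j (by omega) s))
        have e2 := (app_le P1 _).trans i1
        refine le_of_eq_of_le ?_ ((norm_add_le_of_le (norm_add_le_of_le e1 e2) z4).trans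
          (by push_cast; linarith))
        congr 1
        rw [sum_range_succ', pow_zero, add_apply, one_apply_eq_self]
        simp only [pow_succ', ← mul_sum, mul_apply_eq_comp, map_sub P]
        rw [hP, Pr.ex_app μ _ ((μ.pw j).ex H), Pr.pw, Pr.ex_cv, Pr.ex_comm]
        simp only [HZ, map_add, map_sub, Pr.ex_add, Pr.ex_sub, Pr.clm_ex, mul_apply_eq_comp]
        abel
      · have e1 : (μ.pw (j + 1)).ex (fun γ => ‖H γ‖ ^ 2) = (μ.pw j).ex (fun γ => ‖H γ‖ ^ 2) +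
            2 * (μ.pw j).ex (fun γ => ri (H γ) (μ.ex (Z γ))) +
            μ.ex fun s => (μ.pw j).ex fun γ => ‖Z γ s‖ ^ 2 := by
          simp only [Pr.pw, Pr.ex_cv, HZ, D.L_norm, D.R_norm, nsq_add, Pr.ex_add, Pr.ex_const,
            Pr.ex_mul, ri_ex]
          rw [μ.ex_comm]
        have e2 : ri ((μ.pw j).ex H) κ - β * (4 * ω) ≤
            (μ.pw j).ex (fun γ => ri (H γ) (μ.ex (Z γ))) := by
          rw [ex_ri, ← (μ.pw j).ex_const (β * (4 * ω)), ← Pr.ex_sub]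
          refine Pr.ex_mono (.of _ fun γ => ?_)
          have := (abs_le.1 (ri_le ((Hn γ).trans_le (db γ)) (z2 γ))).1
          rw [ri_sub] at this; linarith
        have e3 := (abs_le.1 (ri_le i1 κb)).1
        rw [sub_ri] at e3
        have e4 := geom_pos P2 P1 j κ
        have e5 : μ.ex (fun s => ‖dg c s‖ ^ 2) - 2 * (β * (4 * ω)) ≤
            μ.ex fun s => (μ.pw j).ex fun γ => ‖Z γ s‖ ^ 2 := by
          rw [← μ.ex_const (2 * (β * (4 * ω))), ← Pr.ex_sub]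
          exact Pr.ex_mono (.of _ fun s =>
            (nsq_ge (z3 j (by omega) s) (db s)).trans (Pr.normsq_ex_le _ _))
        have := mul_nonneg β0 ω0
        push_cast
        nlinarith
  have := (key n le_rfl).2.trans (Pr.ex_le (c := β ^ 2) (.of _ fun γ => by
    rw [Hn]; gcongr; exact db γ))
  linarith

end Vale.Agent.P096
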